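import Crest.Agent.R169.Kos

/-!
# Row 169: a Bogomolov type bound on the projective plane, and level minimisers
-/

set_option autoImplicit false

namespace Crest.Agent.R169

open MvPolynomial

variable {k : Type} [Field k] {lam : kˣ} {w : ℕ}
variable {V : Type} [AddCommGroup V] [Module k V] [Module (A k) V] [IsScalarTower k (A k) V]
variable {θ : V →ₗ[k] V}

/-! ### Subtask Bog-a -/

theorem chi_le_hilbF (hl : InfOrd lam) (hw : 0 < w) {m : ℕ} (d : Fin m → ℤ) (n : ℤ) :
    hilb lam (θF lam w d) (⊤ : Submodule (A k) (Fin m → A k)) n = ∑ i, hA w (n - d i) := by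
  have h := hilb_free (gd_F hl hw d) (Pi.basisFun (A k) (Fin m)) d (fun i => by
    rw [mem_eigF_iff hl]
    intro j μ hμ
    by_cases hij : j = i
    · subst hij
      rw [Pi.basisFun_apply, Pi.single_eq_same, coeff_one] at hμ
      have : 0 = μ := by
        by_contra h0
        exact hμ (if_neg h0)
      subst this
      simp
    · rw [Pi.basisFun_apply, Pi.single_eq_of_ne hij, coeff_zero] at hμ
      exact absurd rfl hμ) (Pi.basisFun (A k) (Fin m)).linearIndependent n
  rwa [Module.Basis.span_eq] at h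

theorem chi_le_finsum (hw : 0 < w) {m m' : ℕ} (d : Fin m → ℤ) (b : Fin m' → ℤ) (h : ℤ → ℚ)
    (hh : ∀ n, h n = ∑ i, hA w (n - d i) - ∑ l, hA w (n - b l)) (q : ℤ → ℚ) :
    ∑ᶠ a : ℤ, dif3 w h a * q a = ∑ i, q (d i) - ∑ l, q (b l) := by
  have h1 : ∀ a, dif3 w h a = ∑ i, dif3 w (hA w) (a - d i) - ∑ l, dif3 w (hA w) (a - b l) := by
    intro a
    have e : ∀ (c : ℤ), dif3 w (hA w) (a - c) = hA w (a - c) - hA w (a - w - c) -
        (hA w (a - w - c) - hA w (a - w - w - c)) - (hA w (a - w - c) - hA w (a - w - w - c) -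
          (hA w (a - w - w - c) - hA w (a - w - w - w - c))) := by
      intro c
      simp only [dif3, dif, sub_right_comm _ c]
    simp only [e, Finset.sum_sub_distrib]
    simp only [dif3, dif, hh]
    ring
  have h2 : ∀ a, dif3 w h a * q a =
      ∑ i, (if a = d i then q a else 0) - ∑ l, (if a = b l then q a else 0) := by
    intro a
    rw [h1, sub_mul, Finset.sum_mul, Finset.sum_mul]
    simp only [dif3_hA hw, sub_eq_zero, ite_mul, one_mul, zero_mul]
  rw [finsum_eq_sum_of_support_subset (s := Finset.univ.image d ∪ Finset.univ.image b)]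
  · simp only [h2, Finset.sum_sub_distrib]
    rw [Finset.sum_comm, Finset.sum_comm (t := (Finset.univ : Finset (Fin m')))]
    congr 1
    · refine Finset.sum_congr rfl fun i _ => ?_
      rw [Finset.sum_ite_eq', if_pos (by simp)]
    · refine Finset.sum_congr rfl fun i _ => ?_
      rw [Finset.sum_ite_eq', if_pos (by simp)]
  · intro a ha
    rw [Function.mem_support, h2] at ha
    by_contra hn
    simp only [Finset.coe_union, Finset.coe_image, Finset.coe_univ, Set.image_univ, Set.mem_union,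
      Set.mem_range, not_or, not_exists] at hn
    apply ha
    rw [Finset.sum_eq_zero fun i _ => if_neg fun e => hn.1 i e.symm,
      Finset.sum_eq_zero fun i _ => if_neg fun e => hn.2 i e.symm, sub_zero]

theorem chi_le_theta {m : ℕ} {d : Fin m → ℤ} {c : Fin m → A k} {j : ℤ}
    (hc : c ∈ eig lam (θF lam w d) j) (i : Fin m) :
    θA lam w (c i) = ((lam ^ (j - d i) : kˣ) : k) • c i := by
  have h1 := congrFun (mem_eig.1 hc) i
  change ((lam ^ d i : kˣ) : k) • θA lam w (c i) = ((lam ^ j : kˣ) : k) • c i at h1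
  have h2 := congrArg (fun z => (((lam ^ d i)⁻¹ : kˣ) : k) • z) h1
  simp only [smul_smul, Units.inv_mul, one_smul] at h2
  rw [h2, ← Units.val_mul, zpow_sub, mul_comm]

/-- `χ ≤ h^0 + h^2` when `h^2 = 0`. -/
theorem chi_le (g : Gd lam w θ) {N : Submodule (A k) V} (hN : GS lam θ N)
    (h2 : KZ2 (fun i : Fin 3 => (X i : A k)) N) (n : ℤ)
    (hd : ∀ φ : N →ₗ[A k] A k,
      HomDeg lam (θS θ N hN.stable) (θA lam w).toLinearMap φ (-(3 * w) - n) → φ = 0) :
    ∑ᶠ a : ℤ, dif3 w (hilb lam θ N) a * qq w (n - a) ≤ hilb lam θ N n := by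
  have hl := g.inf
  have hw := g.pos
  have gS : Gd lam w (θS θ N hN.stable) := g.sub N hN.stable
  have hT : GS lam (θS θ N hN.stable) (⊤ : Submodule (A k) N) := hN.top_sub
  obtain ⟨m, d, φ, hφ, hr⟩ := hT.exists_cover gS
  have hs : Function.Surjective φ := LinearMap.range_eq_top.1 hr
  have gF : Gd lam w (θF lam w d) := gd_F hl hw d
  have hF : GS lam (θF lam w d) (⊤ : Submodule (A k) (Fin m → A k)) := (gs_F hl hw d).1
  have hφ' : ∀ x, θS θ N hN.stable (φ x) = φ (θF lam w d x) := by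
    intro x
    have := hφ x
    rwa [zpow_zero, Units.val_one, one_smul] at this
  have hK : GS lam (θF lam w d) (LinearMap.ker φ) := GS.of_le hl hF le_top fun v hv => by
    rw [LinearMap.mem_ker] at hv ⊢
    rw [← hφ', hv, map_zero]
  have hK1 : KZ1 (fun i : Fin 3 => (X i : A k)) (LinearMap.ker φ) :=
    KZ1.of_exact (LinearMap.ker φ).subtype φ (Submodule.injective_subtype _)
      (LinearMap.exact_subtype_ker_map φ) hs (KZ_free (Fin m)).1 h2
  obtain ⟨m', e, b, he, hli, hsp⟩ := hK.free_of_KZ1 gF hK1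
  have hh : ∀ n, hilb lam θ N n = ∑ i, hA w (n - d i) - ∑ l, hA w (n - b l) := by
    intro n
    have h1 := hilb_map gF hF φ hφ n
    rw [Submodule.map_top, hr, hilb_top_sub, top_inf_eq, sub_zero, chi_le_hilbF hl hw, ← hsp,
      hilb_free gF e b he hli] at h1
    exact h1
  rw [chi_le_finsum hw d b _ hh (fun a => qq w (n - a)), hh]
  simp only [qq_eq hw, Finset.sum_add_distrib]
  set j : ℤ := -(3 * w) - n with hj
  -- the dual map
  let ψ : (Fin m → A k) →ₗ[A k] (Fin m' → A k) := Matrix.mulVecLin (Matrix.of e)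
  have hψa : ∀ c l, ψ c l = ∑ i, e l i * c i := fun c l => rfl
  have hψ : HomDeg lam (θF lam w fun i => -d i) (θF lam w fun l => -b l) ψ 0 := by
    intro c
    rw [zpow_zero, Units.val_one, one_smul]
    funext l
    change ((lam ^ (-b l) : kˣ) : k) • θA lam w (ψ c l) = _
    rw [hψa, hψa, map_sum, Finset.smul_sum]
    refine Finset.sum_congr rfl fun i _ => ?_
    change _ = e l i * (((lam ^ (-d i) : kˣ) : k) • θA lam w (c i))
    rw [map_mul, chi_le_theta (he l) i, smul_mul_assoc, smul_smul, mul_smul_comm, ← Units.val_mul,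
      ← zpow_add]
    congr 3
    ring
  have h3 := hilb_map (gd_F hl hw fun i => -d i) (gs_F hl hw fun i => -d i).1 ψ hψ j
  have h4 := hilb_mono (gd_F hl hw fun l => -b l) (gs_F hl hw fun l => -b l).1
    (le_top : (⊤ : Submodule (A k) (Fin m → A k)).map ψ ≤ ⊤) j
  have h5 : piece lam (θF lam w fun i => -d i)
      ((⊤ : Submodule (A k) (Fin m → A k)) ⊓ LinearMap.ker ψ) j = ⊥ := by
    rw [eq_bot_iff]
    rintro c ⟨⟨-, hc0⟩, hc⟩
    have hc0' : ψ c = 0 := hc0
    have hc' : c ∈ eig lam (θF lam w fun i => -d i) j := hc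
    let f : (Fin m → A k) →ₗ[A k] A k := ∑ i, c i • LinearMap.proj i
    have hf : ∀ x, f x = ∑ i, x i * c i := by
      intro x
      simp only [f, LinearMap.sum_apply, LinearMap.smul_apply, LinearMap.proj_apply, smul_eq_mul,
        mul_comm]
    have hker : LinearMap.ker φ ≤ LinearMap.ker f := by
      rw [← hsp, Submodule.span_le]
      rintro _ ⟨l, rfl⟩
      change f (e l) = 0
      rw [hf, ← hψa, hc0']
      rfl
    let χ : N →ₗ[A k] A k :=
      ((LinearMap.ker φ).liftQ f hker) ∘ₗ (φ.quotKerEquivOfSurjective hs).symm.toLinearMap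
    have hχ : ∀ x, χ (φ x) = f x := by
      intro x
      simp [χ]
    have hz : χ = 0 := hd χ fun v => by
      obtain ⟨x, rfl⟩ := hs v
      rw [hφ', hχ, hχ, hf, hf]
      change θA lam w _ = _
      rw [map_sum, Finset.smul_sum]
      refine Finset.sum_congr rfl fun i _ => ?_
      change _ = _ • ((((lam ^ (d i) : kˣ) : k) • θA lam w (x i)) * c i)
      rw [map_mul, chi_le_theta hc' i, smul_mul_assoc, smul_smul, mul_smul_comm, ← Units.val_mul,
        ← zpow_add, sub_neg_eq_add]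
    rw [Submodule.mem_bot]
    funext i
    have h6 := hχ (Pi.single i 1)
    rw [hz, hf, Finset.sum_eq_single i (fun i' _ hi' => by rw [Pi.single_eq_of_ne hi', zero_mul])
      (by simp), Pi.single_eq_same, one_mul] at h6
    exact h6.symm
  have h6 : hilb lam (θF lam w fun i => -d i)
      ((⊤ : Submodule (A k) (Fin m → A k)) ⊓ LinearMap.ker ψ) j = 0 := by
    unfold hilb
    rw [h5]
    simp
  rw [sub_zero, h6, sub_zero, chi_le_hilbF hl hw] at h3
  rw [h3, chi_le_hilbF hl hw] at h4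
  have e1 : ∀ a : ℤ, -(3 * (w : ℤ)) - (n - a) = j - -a := fun a => by rw [hj]; ring
  simp only [e1]
  linarith

/-- All graded submodules have slope within `W` of the average. -/
def Window (lam : kˣ) (w : ℕ) (θ : V →ₗ[k] V) (N : Submodule (A k) V) (W : ℚ) : Prop :=
  ∀ F : Submodule (A k) V, GS lam θ F → F ≤ N →
    (tauS lam w θ F).c0 * ((tauS lam w θ N).c1 / (tauS lam w θ N).c0 - W) ≤ (tauS lam w θ F).c1

/-- No functionals of very negative degree. -/
theorem dual_vanish (g : Gd lam w θ) {N : Submodule (A k) V} (hN : GS lam θ N) {W : ℚ}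
    (hW : 0 ≤ W) (hwin : Window lam w θ N W) (j : ℤ)
    (hj : (j : ℚ) < -((tauS lam w θ N).c1 / (tauS lam w θ N).c0) - (tauS lam w θ N).c0 * W)
    (φ : N →ₗ[A k] A k) (hφ : HomDeg lam (θS θ N hN.stable) (θA lam w).toLinearMap φ j) :
    φ = 0 := by
  by_contra hne
  have gS : Gd lam w (θS θ N hN.stable) := g.sub N hN.stable
  have gA : Gd lam w (θA lam w).toLinearMap := gd_A g.inf g.pos
  have hT : GS lam (θS θ N hN.stable) (⊤ : Submodule (A k) N) := hN.top_sub
  -- the image ideal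
  have hJ : GS lam (θA lam w).toLinearMap ((⊤ : Submodule (A k) N).map φ) := hT.map φ hφ
  have hker : ∀ v ∈ LinearMap.ker φ, θS θ N hN.stable v ∈ LinearMap.ker φ := by
    intro v hv
    rw [LinearMap.mem_ker] at hv ⊢
    have h1 := hφ v
    rw [hv, map_zero] at h1
    have h2 := congrArg (fun z => (((lam ^ j)⁻¹ : kˣ) : k) • z) h1
    simp only [smul_zero, smul_smul, Units.inv_mul, one_smul] at h2
    exact h2.symm
  have hK : GS lam (θS θ N hN.stable) ((⊤ : Submodule (A k) N) ⊓ LinearMap.ker φ) :=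
    GS.inf g.inf hT hker
  have hsub : HomDeg lam (θS θ N hN.stable) θ N.subtype 0 := by
    intro v
    simp [θS]
  have hF : GS lam θ (((⊤ : Submodule (A k) N) ⊓ LinearMap.ker φ).map N.subtype) :=
    hK.map N.subtype hsub
  have hFle : ((⊤ : Submodule (A k) N) ⊓ LinearMap.ker φ).map N.subtype ≤ N :=
    Submodule.map_subtype_le _ _
  have e1 := tauS_map gS hT φ hφ
  have e2 := tauS_map gS hK N.subtype hsub
  rw [Submodule.ker_subtype, inf_bot_eq, tauS_bot, sub_zero, ex_zero, one_mul] at e2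
  have e3 : tauS lam w (θS θ N hN.stable) (⊤ : Submodule (A k) N) = tauS lam w θ N := by
    unfold tauS
    rw [hilb_top_sub]
  rw [e3, ← e2] at e1
  have e4 : tauS lam w (θA lam w).toLinearMap (⊤ : Submodule (A k) (A k)) = 1 := by
    unfold tauS
    rw [hilb_A g.inf g.pos, tauH_hA g.pos]
  obtain ⟨v0, hv0⟩ : ∃ v0, φ v0 ≠ 0 := by
    by_contra hall
    push Not at hall
    exact hne (LinearMap.ext hall)
  have e5 := tauS_torsion gA (gs_A lam w) hJ le_top (fun v _ => ⟨φ v0, hv0, by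
    rw [smul_eq_mul, mul_comm, ← smul_eq_mul, ← map_smul]
    exact Submodule.mem_map_of_mem Submodule.mem_top⟩)
  rw [e4, e1] at e5
  have e6 := (tauS_pos g hF (GS.bot lam θ) bot_le).1
  rw [tauS_bot, sub_zero] at e6
  have e7 := hwin _ hF hFle
  generalize tauS lam w θ (((⊤ : Submodule (A k) N) ⊓ LinearMap.ker φ).map N.subtype) = b
    at e5 e6 e7
  generalize tauS lam w θ N = a at e5 e7 hj
  simp only [T3.one_c0, T3.one_c1, T3.mul_c0, T3.mul_c1, T3.sub_c0, T3.sub_c1, ex, one_mul] at e5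
  obtain ⟨e5, e8⟩ := e5
  have ha : a.c0 ≠ 0 := by linarith
  have hm : a.c1 = a.c0 * (a.c1 / a.c0) := by field_simp
  generalize a.c1 / a.c0 = m at hm e7 hj
  have hb : b.c0 = a.c0 - 1 := by linarith
  rw [← e5] at e8
  rw [hb] at e7
  nlinarith

/-! ### Subtask Bog-b -/

theorem rank_one_θA (hl : InfOrd lam) {f : A k} {j : ℕ} (hf : f.IsHomogeneous j) :
    θA lam w f = ((lam ^ ((w : ℤ) * j) : kˣ) : k) • f :=
  mem_eig.mp ((mem_eigA_iff hl f _).mpr (homZ_of_isHomogeneous w hf))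

/-- A homogeneous functional with kernel `U'`. -/
theorem rank_one_exists (g : Gd lam w θ) {U U' : Submodule (A k) V} (hU : GS lam θ U)
    (hU' : GS lam θ U') (hle : U' ≤ U) (hsat : ∀ v ∈ U, ∀ f : A k, f ≠ 0 → f • v ∈ U' → v ∈ U')
    (h1 : (tauS lam w θ U).c0 = (tauS lam w θ U').c0 + 1) {y : V} {d : ℤ} (hyU : y ∈ U)
    (hyd : y ∈ eig lam θ d) (hy : y ∉ U') :
    ∃ (e : ℤ) (φ : U →ₗ[A k] A k), HomDeg lam (θS θ U hU.stable) (θA lam w).toLinearMap φ e ∧
      ∀ v, φ v = 0 ↔ (v : V) ∈ U' := by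
  have hinj : ∀ a : A k, a • y ∈ U' → a = 0 := fun a ha => by
    by_contra h0
    exact hy (hsat y hyU a h0 ha)
  have hsp : GS lam θ (Submodule.span (A k) (Set.range fun _ : Unit => y)) :=
    GS.span g _ (fun _ => d) fun _ => hyd
  have htau := tauS_free g (fun _ : Unit => y) (fun _ => d) (fun _ => hyd) (by
    rw [Fintype.linearIndependent_iff]
    intro c hc i
    rw [Finset.univ_unique, Finset.sum_singleton] at hc
    exact hinj _ (hc ▸ U'.zero_mem))
  rw [Set.range_const] at hsp htau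
  have hinf : U' ⊓ Submodule.span (A k) {y} = ⊥ := by
    rw [eq_bot_iff]
    rintro v ⟨hv, hv'⟩
    obtain ⟨a, rfl⟩ := Submodule.mem_span_singleton.mp hv'
    rw [hinj a hv, zero_smul]
    exact Submodule.zero_mem _
  have h2 := tauS_sup_add_inf g hU' hsp
  rw [hinf, tauS_bot, add_zero, htau] at h2
  have hS := hU'.sup hsp
  have hSle : U' ⊔ Submodule.span (A k) {y} ≤ U :=
    sup_le hle ((Submodule.span_singleton_le_iff_mem _ _).mpr hyU)
  have htor := torsion_of_c0_eq g hU hS hSle (by rw [h2, h1]; simp [ex])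
  obtain ⟨m, e, dd, he, hspan⟩ := hU.exists_gens
  have hmem : ∀ i, e i ∈ U := fun i => hspan ▸ Submodule.subset_span ⟨i, rfl⟩
  have hf : ∀ i, ∃ (f' : A k) (j : ℕ), f' ≠ 0 ∧ f'.IsHomogeneous j ∧
      f' • e i ∈ U' ⊔ Submodule.span (A k) {y} := fun i => by
    obtain ⟨f, hf0, hf⟩ := htor _ (hmem i)
    exact exists_hom_ann g _ hS.stable (he i) hf0 hf
  choose f j hf0 hfj hf using hf
  set H : A k := ∏ i, f i with hH
  have hH0 : H ≠ 0 := Finset.prod_ne_zero_iff.mpr fun i _ => hf0 i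
  have hHj : H.IsHomogeneous (∑ i, j i) := IsHomogeneous.prod _ _ _ fun i _ => hfj i
  have hHU : ∀ v ∈ U, H • v ∈ U' ⊔ Submodule.span (A k) {y} := by
    intro v hv
    rw [← hspan] at hv
    induction hv using Submodule.span_induction with
    | mem x hx =>
      obtain ⟨i, rfl⟩ := hx
      rw [hH, ← Finset.prod_erase_mul _ _ (Finset.mem_univ i), mul_smul]
      exact Submodule.smul_mem _ _ (hf i)
    | zero => simp
    | add x x' _ _ hx hx' => rw [smul_add]; exact Submodule.add_mem _ hx hx'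
    | smul a x _ hx => rw [smul_comm]; exact Submodule.smul_mem _ _ hx
  have hex : ∀ v : U, ∃ a : A k, H • (v : V) - a • y ∈ U' := fun v => by
    obtain ⟨u, hu, z, hz, h⟩ := Submodule.mem_sup.mp (hHU v v.2)
    obtain ⟨a, rfl⟩ := Submodule.mem_span_singleton.mp hz
    exact ⟨a, by rw [← h, add_sub_cancel_right]; exact hu⟩
  choose φ hφ using hex
  have huniq : ∀ (v : U) (a : A k), H • (v : V) - a • y ∈ U' → φ v = a := fun v a ha => by
    have := U'.sub_mem ha (hφ v)
    rw [sub_sub_sub_cancel_left, ← sub_smul] at this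
    exact sub_eq_zero.mp (hinj _ this)
  let ψ : U →ₗ[A k] A k :=
    { toFun := φ
      map_add' := fun v v' => huniq _ _ (by
        have := U'.add_mem (hφ v) (hφ v')
        rwa [sub_add_sub_comm, ← smul_add, ← add_smul] at this)
      map_smul' := fun a v => huniq _ _ (by
        have := U'.smul_mem a (hφ v)
        rwa [smul_sub, smul_comm a H, smul_smul a (φ v)] at this) }
  refine ⟨(w : ℤ) * (∑ i, j i : ℕ) - d, ψ, fun v => ?_, fun v => ⟨fun h => ?_, fun h => ?_⟩⟩
  · have h3 := hU'.stable _ (hφ v)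
    rw [map_sub, g.comm.smul, g.comm.smul, rank_one_θA g.inf hHj, mem_eig.mp hyd] at h3
    have h4 := U'.smul_of_tower_mem (((lam ^ ((w : ℤ) * (∑ i, j i : ℕ)))⁻¹ : kˣ) : k) h3
    rw [smul_sub, smul_assoc, smul_smul, Units.inv_mul, one_smul, smul_comm (θA lam w (φ v)),
      smul_smul, ← smul_assoc] at h4
    have h5 := huniq (θS θ U hU.stable v) _ h4
    change θA lam w (φ v) = _ • φ (θS θ U hU.stable v)
    rw [h5, smul_smul, ← Units.val_mul, ← Units.val_mul, zpow_sub]
    rw [show lam ^ ((w : ℤ) * (∑ i, j i : ℕ)) * (lam ^ d)⁻¹ *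
      ((lam ^ ((w : ℤ) * (∑ i, j i : ℕ)))⁻¹ * lam ^ d) = 1 by
        rw [mul_mul_mul_comm, mul_inv_cancel, inv_mul_cancel, one_mul], Units.val_one, one_smul]
  · have h3 := hφ v
    change φ v = 0 at h
    rw [h, zero_smul, sub_zero] at h3
    exact hsat v v.2 H hH0 h3
  · exact huniq v 0 (by rw [zero_smul, sub_zero]; exact U'.smul_mem _ h)

/-- A torsion-free graded quotient of rank one embeds in a shifted copy of `A`. -/
theorem rank_one (g : Gd lam w θ) {U U' : Submodule (A k) V} (hU : GS lam θ U) (hU' : GS lam θ U')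
    (hle : U' ≤ U) (hsat : ∀ v ∈ U, ∀ f : A k, f ≠ 0 → f • v ∈ U' → v ∈ U')
    (h1 : (tauS lam w θ U).c0 = (tauS lam w θ U').c0 + 1) :
    ∃ c : ℤ, (c : ℚ) = (tauS lam w θ U).c1 - (tauS lam w θ U').c1 ∧
      ∀ n, hilb lam θ U n - hilb lam θ U' n ≤ hA w (n - c) := by
  have gS : Gd lam w (θS θ U hU.stable) := g.sub U hU.stable
  have gA : Gd lam w (θA lam w).toLinearMap := gd_A g.inf g.pos
  have hT : GS lam (θS θ U hU.stable) (⊤ : Submodule (A k) U) := hU.top_sub
  obtain ⟨y, d, hyU, hyd, hy⟩ : ∃ (y : V) (d : ℤ), y ∈ U ∧ y ∈ eig lam θ d ∧ y ∉ U' := by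
    by_contra hcon
    push Not at hcon
    obtain ⟨m, e, dd, he, hspan⟩ := hU.exists_gens
    have : U = U' := le_antisymm (by
      rw [← hspan, Submodule.span_le]
      rintro _ ⟨i, rfl⟩
      exact hcon _ _ (hspan ▸ Submodule.subset_span ⟨i, rfl⟩) (he i)) hle
    rw [this] at h1
    linarith
  have hhom : ∀ (e : ℤ) (φ : U →ₗ[A k] A k),
      HomDeg lam (θS θ U hU.stable) (θA lam w).toLinearMap φ e → (∀ v, φ v = 0 ↔ (v : V) ∈ U') →
      φ ⟨y, hyU⟩ ≠ 0 ∧ ∃ j : ℕ, e + d = (w : ℤ) * j ∧ (φ ⟨y, hyU⟩).IsHomogeneous j := by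
    intro e φ hφ hk
    have h0 : φ ⟨y, hyU⟩ ≠ 0 := fun h => hy ((hk _).mp h)
    refine ⟨h0, HomZ.exists_isHomogeneous g.pos ((mem_eigA_iff g.inf _ _).mp ?_) h0⟩
    rw [mem_eig, hφ]
    have : θS θ U hU.stable ⟨y, hyU⟩ = ((lam ^ d : kˣ) : k) • ⟨y, hyU⟩ :=
      Subtype.ext (mem_eig.mp hyd)
    rw [this, LinearMap.map_smul_of_tower, smul_smul, zpow_add, Units.val_mul]
  obtain ⟨e, ⟨φ, hφ, hk⟩, hmin⟩ := Int.exists_least_of_bdd
    (P := fun e => ∃ φ : U →ₗ[A k] A k,
      HomDeg lam (θS θ U hU.stable) (θA lam w).toLinearMap φ e ∧ ∀ v, φ v = 0 ↔ (v : V) ∈ U')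
    ⟨-d, by
      rintro e ⟨φ, hφ, hk⟩
      obtain ⟨-, j, hj, -⟩ := hhom e φ hφ hk
      have : (0 : ℤ) ≤ (w : ℤ) * j := by positivity
      omega⟩
    (rank_one_exists g hU hU' hle hsat h1 hyU hyd hy)
  have hJ : GS lam (θA lam w).toLinearMap ((⊤ : Submodule (A k) U).map φ) := hT.map φ hφ
  have hhull : (⊤ : Submodule (A k) (A k)) ≤ hull ((⊤ : Submodule (A k) U).map φ) := by
    intro a _ f hf
    by_contra hcon
    push Not at hcon
    have hdvd : ∀ v, ∃ b, φ v = f * b := fun v => by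
      by_contra hn
      refine hcon (φ v) hn ?_
      rw [smul_eq_mul, mul_comm, ← smul_eq_mul, ← map_smul]
      exact Submodule.mem_map_of_mem Submodule.mem_top
    obtain ⟨h0, j, -, hj⟩ := hhom e φ hφ hk
    obtain ⟨i, hi⟩ := isHomogeneous_of_dvd hj h0 (hdvd _)
    have hi0 : 0 < i := by
      rcases Nat.eq_zero_or_pos i with rfl | h
      · exfalso
        have h3 : f = C (coeff 0 f) :=
          (totalDegree_eq_zero_iff_eq_C).mp (Nat.le_zero.mp hi.totalDegree_le)
        have h4 : coeff 0 f ≠ 0 := fun h => hf.ne_zero (by rw [h3, h, map_zero])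
        exact hf.not_isUnit (h3 ▸ (IsUnit.mk0 _ h4).map C)
      · exact h
    choose φ' hφ' using hdvd
    let ψ : U →ₗ[A k] A k :=
      { toFun := φ'
        map_add' := fun v v' => mul_left_cancel₀ hf.ne_zero (by
          rw [mul_add, ← hφ', ← hφ', ← hφ', map_add])
        map_smul' := fun b v => mul_left_cancel₀ hf.ne_zero (by
          rw [← hφ', map_smul, RingHom.id_apply, smul_eq_mul, smul_eq_mul, hφ', mul_left_comm]) }
    have h5 := hmin (e - (w : ℤ) * i) ⟨ψ, fun v => ?_, fun v => ?_⟩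
    · have : (0 : ℤ) < (w : ℤ) * i := by have := g.pos; positivity
      omega
    · have h6 := hφ v
      change θA lam w (φ v) = _ • φ (θS θ U hU.stable v) at h6
      change θA lam w (φ' v) = _ • φ' (θS θ U hU.stable v)
      rw [hφ', hφ', map_mul, rank_one_θA g.inf hi] at h6
      apply mul_left_cancel₀ hf.ne_zero
      have h7 := congrArg (fun z => (((lam ^ ((w : ℤ) * i))⁻¹ : kˣ) : k) • z) h6
      simp only [smul_mul_assoc, smul_smul, Units.inv_mul, one_smul] at h7
      rw [h7, mul_smul_comm, zpow_sub, mul_comm (lam ^ e), Units.val_mul]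
    · rw [← hk, hφ', mul_eq_zero, or_iff_right hf.ne_zero]
      rfl
  have hker : ∀ v ∈ LinearMap.ker φ, θS θ U hU.stable v ∈ LinearMap.ker φ := fun v hv =>
    (hk _).mpr (hU'.stable _ ((hk _).mp hv))
  have hK : GS lam (θS θ U hU.stable) ((⊤ : Submodule (A k) U) ⊓ LinearMap.ker φ) :=
    GS.inf g.inf hT hker
  have hsub : HomDeg lam (θS θ U hU.stable) θ U.subtype 0 := fun v => by simp [θS]
  have hmap : ((⊤ : Submodule (A k) U) ⊓ LinearMap.ker φ).map U.subtype = U' := by
    apply le_antisymm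
    · rintro _ ⟨v, hv, rfl⟩
      exact (hk v).mp hv.2
    · intro v hv
      exact ⟨⟨v, hle hv⟩, ⟨trivial, (hk _).mpr hv⟩, rfl⟩
  have e0 : ∀ n, hilb lam (θS θ U hU.stable) ((⊤ : Submodule (A k) U) ⊓ LinearMap.ker φ) n =
      hilb lam θ U' n := fun n => by
    have := hilb_map gS hK U.subtype hsub n
    rw [hmap, Submodule.ker_subtype, inf_bot_eq, sub_zero] at this
    have hb : hilb lam (θS θ U hU.stable) ⊥ n = 0 := by
      have : piece lam (θS θ U hU.stable) ⊥ n = ⊥ := by simp [piece]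
      rw [hilb, this, finrank_bot, Nat.cast_zero]
    rw [this, hb, sub_zero]
  have e1 := tauS_map gS hT φ hφ
  have e2 : tauS lam w (θS θ U hU.stable) ((⊤ : Submodule (A k) U) ⊓ LinearMap.ker φ) =
      tauS lam w θ U' := by
    unfold tauS
    rw [funext e0]
  have e3 : tauS lam w (θS θ U hU.stable) (⊤ : Submodule (A k) U) = tauS lam w θ U := by
    unfold tauS
    rw [hilb_top_sub]
  have e4 : tauS lam w (θA lam w).toLinearMap (⊤ : Submodule (A k) (A k)) = 1 := by
    unfold tauS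
    rw [hilb_A g.inf g.pos, tauH_hA g.pos]
  have e5 := (tauS_big gA (gs_A lam w) hJ le_top hhull).2.1
  rw [e4, e1, e2, e3] at e5
  simp only [T3.one_c1, T3.mul_c1, T3.sub_c0, T3.sub_c1, ex, one_mul, h1] at e5
  refine ⟨-e, by push_cast; linarith, fun n => ?_⟩
  have e6 := hilb_map gS hT φ hφ (n + e)
  rw [add_sub_cancel_right, e0, hilb_top_sub] at e6
  rw [← e6, sub_neg_eq_add, ← hilb_A g.inf g.pos]
  exact hilb_mono gA (gs_A lam w) le_top _

omit [Module k V] [IsScalarTower k (A k) V] in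
theorem exists_level_sat [Module (K k) V] [IsScalarTower (A k) (K k) V] (F : Submodule (K k) V)
    {v : V} {f : A k} (hf : f ≠ 0) (h : f • v ∈ F) : v ∈ F := by
  have h0 : algebraMap (A k) (K k) f ≠ 0 :=
    (map_ne_zero_iff _ (IsFractionRing.injective (A k) (K k))).2 hf
  have h1 := F.smul_mem (algebraMap (A k) (K k) f)⁻¹ h
  rwa [← algebraMap_smul (K k) f v, smul_smul, inv_mul_cancel₀ h0, one_smul] at h1

omit [Module k V] [IsScalarTower k (A k) V] in
theorem exists_level_den [Module (K k) V] [IsScalarTower (A k) (K k) V] (F : Submodule (A k) V)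
    {v : V} (h : v ∈ Submodule.span (K k) (F : Set V)) : ∃ f : A k, f ≠ 0 ∧ f • v ∈ F := by
  induction h using Submodule.span_induction with
  | mem x hx => exact ⟨1, one_ne_zero, by rwa [one_smul]⟩
  | zero => exact ⟨1, one_ne_zero, by simp⟩
  | add x y _ _ hx hy =>
    obtain ⟨f, hf, hx⟩ := hx
    obtain ⟨f', hf', hy⟩ := hy
    refine ⟨f * f', mul_ne_zero hf hf', ?_⟩
    rw [smul_add]
    refine F.add_mem ?_ ?_
    · rw [mul_comm, mul_smul]; exact F.smul_mem _ hx
    · rw [mul_smul]; exact F.smul_mem _ hy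
  | smul c x _ hx =>
    obtain ⟨f, hf, hx⟩ := hx
    obtain ⟨a, b, hb, rfl⟩ := IsFractionRing.div_surjective (A := A k) c
    have hb0 : b ≠ 0 := nonZeroDivisors.ne_zero hb
    have h0 : algebraMap (A k) (K k) b ≠ 0 :=
      (map_ne_zero_iff _ (IsFractionRing.injective (A k) (K k))).2 hb0
    refine ⟨f * b, mul_ne_zero hf hb0, ?_⟩
    rw [mul_smul, ← algebraMap_smul (K k) b, smul_smul (algebraMap (A k) (K k) b),
      mul_div_cancel₀ _ h0, algebraMap_smul, smul_comm]
    exact F.smul_mem _ hx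

theorem cube_le_facts [Module (K k) V] [IsScalarTower (A k) (K k) V] (g : Gd lam w θ)
    {N : Submodule (A k) V} (hN : GS lam θ N) (n : ℤ) (b : Finset V)
    (hb : ∀ v ∈ b, v ∈ N ∧ ∃ d ≤ n, v ∈ eig lam θ d) (hli : LinearIndepOn (K k) id (b : Set V)) :
    GS lam θ (N ⊓ (Submodule.span (K k) (b : Set V)).restrictScalars (A k)) ∧
      (tauS lam w θ (N ⊓ (Submodule.span (K k) (b : Set V)).restrictScalars (A k))).c0 = b.card ∧
      (tauS lam w θ (N ⊓ (Submodule.span (K k) (b : Set V)).restrictScalars (A k))).c1 ≤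
        b.card * n := by
  have hd : ∀ v : (b : Set V), ∃ d ≤ n, (v : V) ∈ eig lam θ d := fun v => (hb v.1 v.2).2
  choose d hdn hd using hd
  have hF1 := GS.span g (fun v : (b : Set V) => (v : V)) d hd
  have hliA : LinearIndependent (A k) (fun v : (b : Set V) => (v : V)) :=
    LinearIndependent.restrict_scalars' (A k) hli
  have htau := tauS_free g (fun v : (b : Set V) => (v : V)) d hd hliA
  rw [Subtype.range_coe] at hF1 htau
  have hsp : Submodule.span (K k) ((Submodule.span (A k) (b : Set V) : Submodule (A k) V) : Set V) =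
      Submodule.span (K k) (b : Set V) := Submodule.span_span_of_tower _ _ _
  have hden : ∀ v ∈ Submodule.span (K k) (b : Set V),
      ∃ f : A k, f ≠ 0 ∧ f • v ∈ Submodule.span (A k) (b : Set V) := fun v hv =>
    exists_level_den _ (by rwa [hsp])
  have hle0 : ∀ v ∈ Submodule.span (A k) (b : Set V), v ∈ Submodule.span (K k) (b : Set V) :=
    fun v hv => by rw [← hsp]; exact Submodule.subset_span hv
  have hU : GS lam θ (N ⊓ (Submodule.span (K k) (b : Set V)).restrictScalars (A k)) := by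
    refine hN.inf g.inf fun v hv => ?_
    obtain ⟨f, hf, hfv⟩ := hden v hv
    have h3 := hF1.stable _ hfv
    rw [g.comm.smul] at h3
    exact exists_level_sat _ ((map_ne_zero_iff _ (θA lam w).injective).2 hf) (hle0 _ h3)
  have hle : Submodule.span (A k) (b : Set V) ≤
      N ⊓ (Submodule.span (K k) (b : Set V)).restrictScalars (A k) :=
    le_inf (Submodule.span_le.2 fun v hv => (hb v hv).1) hle0
  obtain ⟨t0, t1⟩ := tauS_torsion g hU hF1 hle fun v hv => hden v hv.2
  rw [htau, T3.sum_c0] at t0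
  rw [htau, T3.sum_c1] at t1
  refine ⟨hU, ?_, t1.trans ?_⟩
  · rw [t0]; simp [ex]
  · refine (Finset.sum_le_card_nsmul _ _ (n : ℚ) fun v _ => ?_).trans ?_
    · simp only [ex]
      exact_mod_cast hdn v
    · simp

/-- Sections of a module with small window. -/
theorem cube_le [Module (K k) V] [IsScalarTower (A k) (K k) V] (g : Gd lam w θ)
    {N : Submodule (A k) V} (hN : GS lam θ N) {W : ℚ} (hW : 0 ≤ W) (hwin : Window lam w θ N W)
    (n : ℤ) (hn : (tauS lam w θ N).c1 / (tauS lam w θ N).c0 ≤ n) :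
    cube w (hilb lam θ N) n ≤ (tauS lam w θ N).c0 *
      ((tauS lam w θ N).c0 * (n - (tauS lam w θ N).c1 / (tauS lam w θ N).c0 + W) + 2) ^ 2 / 2 := by
  classical
  set ρ : ℚ := (tauS lam w θ N).c0 with hρ
  set m : ℚ := (tauS lam w θ N).c1 / ρ with hm
  have hD : 0 ≤ (n : ℚ) - m + W := by linarith
  have hcard : ∀ b : Finset V, (∀ v ∈ b, v ∈ N ∧ ∃ d ≤ n, v ∈ eig lam θ d) →
      LinearIndepOn (K k) id (b : Set V) → (b.card : ℚ) ≤ ρ := by
    intro b hb hli
    obtain ⟨hU, h0, -⟩ := cube_le_facts g hN n b hb hli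
    have := (tauS_pos g hN hU inf_le_left).1
    rw [T3.sub_c0, h0] at this
    linarith
  have hρ0 : 0 ≤ ρ := by simpa using hcard ∅ (by simp) (by simp)
  have key : ∀ b : Finset V, (∀ v ∈ b, v ∈ N ∧ ∃ d ≤ n, v ∈ eig lam θ d) →
      LinearIndepOn (K k) id (b : Set V) →
      cube w (hilb lam θ (N ⊓ (Submodule.span (K k) (b : Set V)).restrictScalars (A k))) n ≤
        b.card * ((ρ * (n - m + W) + 2) ^ 2 / 2) := by
    intro b
    induction b using Finset.induction_on with
    | empty =>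
      intro _ _
      have : ∀ j, hilb lam θ (N ⊓ (Submodule.span (K k) ((∅ : Finset V) : Set V)).restrictScalars
          (A k)) j = 0 := fun j => by
        rw [Finset.coe_empty, Submodule.span_empty, Submodule.restrictScalars_bot, inf_bot_eq, hilb,
          piece, Submodule.restrictScalars_bot, bot_inf_eq, finrank_bot, Nat.cast_zero]
      simp only [cube, this]
      simp
    | insert y b hy ih =>
      intro hb hli
      have hb' : ∀ v ∈ b, v ∈ N ∧ ∃ d ≤ n, v ∈ eig lam θ d :=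
        fun v hv => hb v (Finset.mem_insert_of_mem hv)
      have hsub : (b : Set V) ⊆ (insert y b : Finset V) := Finset.coe_subset.2 (b.subset_insert y)
      have hli' : LinearIndepOn (K k) id (b : Set V) := hli.mono hsub
      obtain ⟨hU, h0, -⟩ := cube_le_facts g hN n _ hb hli
      obtain ⟨hU', h0', h1'⟩ := cube_le_facts g hN n _ hb' hli'
      have hc := hcard _ hb hli
      rw [Finset.card_insert_of_notMem hy, Nat.cast_succ] at h0 hc ⊢
      obtain ⟨c, hc1, hc2⟩ := rank_one g hU hU'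
        (inf_le_inf_left _ fun v hv => Submodule.span_mono hsub hv)
        (fun v hv f hf hfv => ⟨hv.1, exists_level_sat _ hf hfv.2⟩) (by rw [h0, h0'])
      have hw' := hwin _ hU inf_le_left
      rw [h0, ← hρ, ← hm] at hw'
      have hnc : (n : ℚ) - c ≤ ρ * (n - m + W) := by
        have := mul_le_mul_of_nonneg_right hc hD
        nlinarith
      have h3 : cube w (hilb lam θ (N ⊓ (Submodule.span (K k)
          ((insert y b : Finset V) : Set V)).restrictScalars (A k))) n ≤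
          cube w (hilb lam θ (N ⊓ (Submodule.span (K k) (b : Set V)).restrictScalars (A k))) n +
            cube w (hA w) (n - c) := by
        simp only [cube, ← Finset.sum_add_distrib]
        refine Finset.sum_le_sum fun i _ => Finset.sum_le_sum fun j _ =>
          Finset.sum_le_sum fun l _ => ?_
        have := hc2 (n - i - j - l)
        rw [show n - i - j - l - c = n - c - i - j - l by ring] at this
        linarith
      have h4 : cube w (hA w) (n - c) ≤ (ρ * (n - m + W) + 2) ^ 2 / 2 := by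
        rw [cube_hA g.pos]
        split_ifs with h
        · have h' : (0 : ℚ) ≤ (n : ℚ) - c := by exact_mod_cast h
          push_cast
          nlinarith
        · positivity
      have := ih hb' hli'
      linarith
  obtain ⟨b, hb, hli, hmax⟩ : ∃ b : Finset V, (∀ v ∈ b, v ∈ N ∧ ∃ d ≤ n, v ∈ eig lam θ d) ∧
      LinearIndepOn (K k) id (b : Set V) ∧
      ∀ v ∈ N, ∀ d ≤ n, v ∈ eig lam θ d → v ∈ Submodule.span (K k) (b : Set V) := by
    by_contra hcon
    push Not at hcon
    have : ∀ j : ℕ, ∃ b : Finset V, (∀ v ∈ b, v ∈ N ∧ ∃ d ≤ n, v ∈ eig lam θ d) ∧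
        LinearIndepOn (K k) id (b : Set V) ∧ b.card = j := by
      intro j
      induction j with
      | zero => exact ⟨∅, by simp, by simp, rfl⟩
      | succ j ih =>
        obtain ⟨b, hb, hli, hj⟩ := ih
        obtain ⟨v, hv, d, hd, hvd, hvb⟩ := hcon b hb hli
        have hvb' : v ∉ b := fun h => hvb (Submodule.subset_span h)
        refine ⟨insert v b, fun u hu => ?_, ?_, by rw [Finset.card_insert_of_notMem hvb', hj]⟩
        · rcases Finset.mem_insert.1 hu with rfl | hu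
          · exact ⟨hv, d, hd, hvd⟩
          · exact hb u hu
        · rw [Finset.coe_insert]
          exact hli.id_insert hvb
    obtain ⟨j, hj⟩ := exists_nat_gt ρ
    obtain ⟨b, hb, hli, hbj⟩ := this j
    have := hcard b hb hli
    rw [hbj] at this
    linarith
  have e : cube w (hilb lam θ N) n =
      cube w (hilb lam θ (N ⊓ (Submodule.span (K k) (b : Set V)).restrictScalars (A k))) n := by
    refine Finset.sum_congr rfl fun i _ => Finset.sum_congr rfl fun j _ =>
      Finset.sum_congr rfl fun l _ => ?_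
    have : piece lam θ N (n - i - j - l) = piece lam θ
        (N ⊓ (Submodule.span (K k) (b : Set V)).restrictScalars (A k)) (n - i - j - l) :=
      le_antisymm (fun v hv => ⟨⟨hv.1, hmax v hv.1 _ (by omega) hv.2⟩, hv.2⟩)
        fun v hv => ⟨hv.1.1, hv.2⟩
    rw [hilb, hilb, this]
  rw [e, mul_div_assoc]
  exact (key b hb hli).trans (mul_le_mul_of_nonneg_right (hcard b hb hli) (by positivity))

/-! ### Subtask Bog-c -/

theorem bog [Module (K k) V] [IsScalarTower (A k) (K k) V] (g : Gd lam w θ)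
    {N : Submodule (A k) V} (hN : GS lam θ N) (hrefl : hull N ≤ N) {W : ℚ} (hW : 0 ≤ W)
    (hwin : Window lam w θ N W) {ρ : ℚ} (hρ : (tauS lam w θ N).c0 = ρ) (hρ1 : 1 ≤ ρ) :
    (tauS lam w θ N).sig ≤ ρ ^ 2 * ((ρ * (ρ + 1) * W + 2 * ρ + 2) ^ 2 + 1) := by
  have hw := g.pos
  have hρ0 : ρ ≠ 0 := by linarith
  set m : ℚ := (tauS lam w θ N).c1 / (tauS lam w θ N).c0 with hm
  set n : ℤ := ⌈m + ρ * W⌉ with hn
  have hn1 : m + ρ * W ≤ n := Int.le_ceil _
  have hn2 : (n : ℚ) < m + ρ * W + 1 := Int.ceil_lt_add_one _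
  have hρW : 0 ≤ ρ * W := mul_nonneg (by linarith) hW
  have h2 : KZ2 (fun i : Fin 3 => (X i : A k)) N := KZ2_of_hull hrefl
  have hchi : cube w (fun m => ∑ᶠ a : ℤ, dif3 w (hilb lam θ N) a * qq w (m - a)) n ≤
      cube w (hilb lam θ N) n := by
    unfold cube
    refine Finset.sum_le_sum fun i hi => Finset.sum_le_sum fun j hj =>
      Finset.sum_le_sum fun l hl => ?_
    refine chi_le g hN h2 _ fun φ hφ => dual_vanish g hN hW hwin _ ?_ φ hφ
    rw [Finset.mem_range] at hi hj hl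
    have hi' : (i : ℚ) ≤ w := by exact_mod_cast hi.le
    have hj' : (j : ℚ) ≤ w := by exact_mod_cast hj.le
    have hl' : (l : ℚ) < w := by exact_mod_cast hl
    rw [← hm, hρ]
    push_cast
    linarith
  rw [cube_chi hw (hN.isHF g)] at hchi
  have hcube := cube_le g hN hW hwin n (by rw [← hm]; linarith)
  rw [← hm, hρ] at hcube
  have hle := hchi.trans hcube
  change (tauS lam w θ N).c0 * _ - _ * (tauS lam w θ N).c1 + (tauS lam w θ N).c2 ≤ _ at hle
  have hc1 : (tauS lam w θ N).c1 = ρ * m := by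
    rw [hm, hρ]; field_simp
  unfold T3.sig
  rw [hρ, hc1] at hle
  rw [hρ, hc1]
  generalize (tauS lam w θ N).c2 = c2 at hle
  have hx0 : 0 ≤ ρ * ((n : ℚ) - m + W) + 2 := by
    have : 0 ≤ ρ * ((n : ℚ) - m + W) := mul_nonneg (by linarith) (by linarith)
    linarith
  have hx1 : ρ * ((n : ℚ) - m + W) + 2 ≤ ρ * (ρ + 1) * W + 2 * ρ + 2 := by
    have : ρ * ((n : ℚ) - m + W) ≤ ρ * (ρ * W + 1 + W) :=
      mul_le_mul_of_nonneg_left (by linarith) (by linarith)
    nlinarith
  have hx2 : (ρ * ((n : ℚ) - m + W) + 2) ^ 2 ≤ (ρ * (ρ + 1) * W + 2 * ρ + 2) ^ 2 :=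
    pow_le_pow_left₀ hx0 hx1 2
  generalize (ρ * ((n : ℚ) - m + W) + 2) ^ 2 = x at hle hx2
  generalize (ρ * (ρ + 1) * W + 2 * ρ + 2) ^ 2 = y at hx2
  have h3 : 2 * ρ * (ρ * (((n : ℚ) + 3 / 2) ^ 2 / 2 - 1 / 8) - ((n : ℚ) + 3 / 2) * (ρ * m) + c2) ≤
      2 * ρ * (ρ * x / 2) := mul_le_mul_of_nonneg_left hle (by linarith)
  have h4 : ρ ^ 2 * x ≤ ρ ^ 2 * y := mul_le_mul_of_nonneg_left hx2 (sq_nonneg ρ)
  have h5 : 0 ≤ ρ ^ 2 * ((n : ℚ) + 3 / 2 - m) ^ 2 := by positivity
  have h6 : 0 ≤ ρ ^ 2 := sq_nonneg ρ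
  nlinarith

theorem exists_level_c0 (g : Gd lam w θ) {N F : Submodule (A k) V} (hN : GS lam θ N)
    (hF : GS lam θ F) (hle : F ≤ N) :
    0 ≤ (tauS lam w θ F).c0 ∧ (tauS lam w θ F).c0 ≤ (tauS lam w θ N).c0 := by
  have h1 := (tauS_pos g hF (GS.bot lam θ) bot_le).1
  have h2 := (tauS_pos g hN hF hle).1
  rw [tauS_bot, sub_zero] at h1
  rw [T3.sub_c0] at h2
  exact ⟨h1, by linarith⟩

theorem exists_level_min [Module (K k) V] [IsScalarTower (A k) (K k) V] (g : Gd lam w θ)
    {N : Submodule (A k) V} (hN : GS lam θ N) (μ : ℚ) :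
    ∃ F : Submodule (A k) V, GS lam θ F ∧ F ≤ N ∧ ∀ F' : Submodule (A k) V, GS lam θ F' → F' ≤ N →
      (tauS lam w θ F).c1 - μ * (tauS lam w θ F).c0 ≤
        (tauS lam w θ F').c1 - μ * (tauS lam w θ F').c0 := by
  obtain ⟨b, hb⟩ := exists_c1_lower g hN fun v _ f hf h =>
    (Submodule.mem_bot _).1 (exists_level_sat (⊥ : Submodule (K k) V) hf (by simp [h]))
  have hd : (0 : ℚ) < μ.den := by exact_mod_cast μ.den_pos
  have hint : ∀ F : Submodule (A k) V, GS lam θ F →
      ∃ z : ℤ, (z : ℚ) = μ.den * ((tauS lam w θ F).c1 - μ * (tauS lam w θ F).c0) := by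
    intro F hF
    obtain ⟨⟨m0, h0⟩, ⟨m1, h1⟩, -⟩ := tauS_int g hF
    refine ⟨μ.den * m1 - μ.num * m0, ?_⟩
    rw [h0, h1]
    push_cast
    rw [← Rat.mul_den_eq_num μ]
    ring
  obtain ⟨z, ⟨F, hF, hle, hz⟩, hmin⟩ := Int.exists_least_of_bdd
    (P := fun z => ∃ F : Submodule (A k) V, GS lam θ F ∧ F ≤ N ∧
      (z : ℚ) = μ.den * ((tauS lam w θ F).c1 - μ * (tauS lam w θ F).c0))
    ⟨⌊-(μ.den * ((tauS lam w θ N).c0 * |b - μ|))⌋, by
      rintro z ⟨F, hF, hle, hz⟩
      obtain ⟨h0, h1⟩ := exists_level_c0 g hN hF hle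
      have h2 := hb F hF hle
      have h3 := neg_abs_le ((b : ℚ) - μ)
      have h4 := abs_nonneg ((b : ℚ) - μ)
      have h5 : -((tauS lam w θ N).c0 * |b - μ|) ≤
          (tauS lam w θ F).c1 - μ * (tauS lam w θ F).c0 := by
        nlinarith [mul_le_mul_of_nonneg_left h3 h0, mul_le_mul_of_nonneg_right h1 h4]
      have h6 := mul_le_mul_of_nonneg_left h5 hd.le
      have h7 := Int.floor_le (-(μ.den * ((tauS lam w θ N).c0 * |b - μ|)))
      have h8 : ((⌊-(μ.den * ((tauS lam w θ N).c0 * |b - μ|))⌋ : ℤ) : ℚ) ≤ z := by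
        rw [hz]; linarith
      exact_mod_cast h8⟩
    (by
      obtain ⟨z, hz⟩ := hint N hN
      exact ⟨z, N, hN, le_rfl, hz⟩)
  refine ⟨F, hF, hle, fun F' hF' hle' => ?_⟩
  obtain ⟨z', hz'⟩ := hint F' hF'
  have h1 : (z : ℚ) ≤ z' := by exact_mod_cast hmin z' ⟨F', hF', hle', hz'⟩
  rw [hz, hz'] at h1
  exact le_of_mul_le_mul_left h1 hd

theorem exists_level_two [Module (K k) V] [IsScalarTower (A k) (K k) V] (g : Gd lam w θ)
    {N : Submodule (A k) V} (hN : GS lam θ N) (μ0 : ℚ) (c : ℕ) :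
    ∃ (F : Submodule (A k) V) (μ : ℚ), μ0 - ((tauS lam w θ N).c0 + 1) * (c + 1) ≤ μ ∧ μ ≤ μ0 ∧
      GS lam θ F ∧ F ≤ N ∧ ∀ F' : Submodule (A k) V, GS lam θ F' → F' ≤ N →
      (tauS lam w θ F).c1 - μ * (tauS lam w θ F).c0 ≤
        (tauS lam w θ F').c1 - μ * (tauS lam w θ F').c0 ∧
      (tauS lam w θ F).c1 - (μ - (c + 1)) * (tauS lam w θ F).c0 ≤
        (tauS lam w θ F').c1 - (μ - (c + 1)) * (tauS lam w θ F').c0 := by
  choose Fm hF hle hmin using fun j : ℕ => exists_level_min g hN (μ0 - j * (c + 1))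
  have hc : (0 : ℚ) < c + 1 := by positivity
  have hmono : ∀ j, (tauS lam w θ (Fm (j + 1))).c0 ≤ (tauS lam w θ (Fm j)).c0 := by
    intro j
    have h1 := hmin j _ (hF (j + 1)) (hle (j + 1))
    have h2 := hmin (j + 1) _ (hF j) (hle j)
    push_cast at h2
    refine le_of_mul_le_mul_left ?_ hc
    linarith
  have hex : ∃ j : ℕ, (j : ℚ) ≤ (tauS lam w θ N).c0 ∧
      (tauS lam w θ (Fm (j + 1))).c0 = (tauS lam w θ (Fm j)).c0 := by
    by_contra hne
    push Not at hne
    have key : ∀ j : ℕ, (tauS lam w θ (Fm j)).c0 + j ≤ (tauS lam w θ N).c0 := by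
      intro j
      induction j with
      | zero => simpa using (exists_level_c0 g hN (hF 0) (hle 0)).2
      | succ j ih =>
        have h0 := (exists_level_c0 g hN (hF j) (hle j)).1
        have h1 := lt_of_le_of_ne (hmono j) (hne j (by linarith))
        obtain ⟨⟨m0, e0⟩, -⟩ := tauS_int g (hF j)
        obtain ⟨⟨m1, e1⟩, -⟩ := tauS_int g (hF (j + 1))
        rw [e0, e1] at h1
        have h2 : m1 + 1 ≤ m0 := by exact_mod_cast h1
        have h3 : (m1 : ℚ) + 1 ≤ m0 := by exact_mod_cast h2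
        rw [e0] at ih
        rw [e1]
        push_cast
        linarith
    obtain ⟨j, hj⟩ := exists_nat_gt (tauS lam w θ N).c0
    have h0 := (exists_level_c0 g hN (hF j) (hle j)).1
    have := key j
    linarith
  obtain ⟨j, hj, e⟩ := hex
  have hj0 : (0 : ℚ) ≤ j := by positivity
  refine ⟨Fm j, μ0 - j * (c + 1), by nlinarith, by nlinarith, hF j, hle j,
    fun F' hF' hle' => ⟨hmin j F' hF' hle', ?_⟩⟩
  have h1 := hmin j _ (hF (j + 1)) (hle (j + 1))
  have h2 := hmin (j + 1) _ hF' hle'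
  push_cast at h2
  rw [e] at h1 h2
  linarith

theorem exists_level_sub (g : Gd lam w θ) (N : Submodule (A k) V) (h : ∀ v ∈ N, θ v ∈ N)
    {U : Submodule (A k) N} (hU : GS lam (θS θ N h) U) :
    GS lam θ (U.map N.subtype) ∧ tauS lam w θ (U.map N.subtype) = tauS lam w (θS θ N h) U := by
  have hd : HomDeg lam (θS θ N h) θ N.subtype 0 := fun v => by simp [θS]
  refine ⟨hU.map _ hd, ?_⟩
  rw [tauS_map (g.sub N h) hU _ hd, ex_zero, one_mul, Submodule.ker_subtype, inf_bot_eq, tauS_bot,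
    sub_zero]

/-- Level minimiser: a saturated graded submodule `N ⊓ F` which is destabilising at a level `μ`
and is preserved by every operator of small degree that is linear modulo `F`. -/
theorem exists_level [Module (K k) V] [IsScalarTower (A k) (K k) V] (g : Gd lam w θ)
    {N : Submodule (A k) V} (hN : GS lam θ N) (μ0 : ℚ) (c : ℕ) :
    ∃ (F : Submodule (K k) V) (μ : ℚ), μ0 - ((tauS lam w θ N).c0 + 1) * (c + 1) ≤ μ ∧ μ ≤ μ0 ∧
      F = Submodule.span (K k) ((N ⊓ F.restrictScalars (A k) : Submodule (A k) V) : Set V) ∧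
      GS lam θ (N ⊓ F.restrictScalars (A k)) ∧
      (∀ F' : Submodule (A k) V, GS lam θ F' → F' ≤ N →
        (tauS lam w θ (N ⊓ F.restrictScalars (A k))).c1 -
            μ * (tauS lam w θ (N ⊓ F.restrictScalars (A k))).c0 ≤
          (tauS lam w θ F').c1 - μ * (tauS lam w θ F').c0) ∧
      ∀ (O : V →ₗ[k] V) (e : ℕ), e ≤ c → HomDeg lam θ θ O e → (∀ v ∈ N, O v ∈ N) →
        (∀ (a : A k), ∀ v ∈ N ⊓ F.restrictScalars (A k), O (a • v) - a • O v ∈ F) →
        ∀ v ∈ N ⊓ F.restrictScalars (A k), O v ∈ F := by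
  obtain ⟨F1, μ, h1, h2, hF1, hle, hmin⟩ := exists_level_two g hN μ0 c
  set F : Submodule (K k) V := Submodule.span (K k) (F1 : Set V) with hFdef
  set FA : Submodule (A k) V := F.restrictScalars (A k) with hFA
  have hst : ∀ v ∈ FA, θ v ∈ FA := by
    intro v hv
    obtain ⟨f, hf, hfv⟩ := exists_level_den F1 hv
    have h3 := hF1.stable _ hfv
    rw [g.comm.smul] at h3
    exact exists_level_sat F ((map_ne_zero_iff _ (θA lam w).injective).2 hf)
      (Submodule.subset_span h3)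
  have hN1 : GS lam θ (N ⊓ FA) := hN.inf g.inf hst
  have hle1 : F1 ≤ N ⊓ FA := fun v hv => ⟨hle hv, Submodule.subset_span hv⟩
  obtain ⟨t0, t1⟩ := tauS_torsion g hN1 hF1 hle1 fun v hv => exists_level_den F1 hv.2
  refine ⟨F, μ, h1, h2, le_antisymm (Submodule.span_mono hle1)
    (Submodule.span_le.2 fun v hv => hv.2), hN1, fun F' hF' hle' => ?_, ?_⟩
  · have := (hmin F' hF' hle').1
    rw [t0]
    linarith
  intro O e he hO hON hlin
  let ψ : ↥(N ⊓ FA) →ₗ[A k] (V ⧸ FA) :=
    { toFun := fun v => FA.mkQ (O v)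
      map_add' := fun v v' => by simp
      map_smul' := fun a v => by
        rw [RingHom.id_apply, ← map_smul, Submodule.mkQ_apply, Submodule.mkQ_apply,
          Submodule.Quotient.eq]
        exact hlin a v v.2 }
  have hψ : HomDeg lam (θS θ _ hN1.stable) (θQ θ FA hst) ψ e := fun v => by
    show θQ θ FA hst (FA.mkQ (O v)) = _ • FA.mkQ (O (θ v))
    rw [θQ_mk, hO v, Submodule.mkQ_apply, Submodule.mkQ_apply, Submodule.Quotient.mk_smul]
  have hY := hN1.top_sub.map ψ hψ
  have eY := tauS_map (g.sub _ hN1.stable) hN1.top_sub ψ hψ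
  have hker : GS lam (θS θ _ hN1.stable) (⊤ ⊓ LinearMap.ker ψ) := by
    refine hN1.top_sub.inf g.inf fun v hv => ?_
    have h3 := hψ v
    rw [LinearMap.mem_ker] at hv ⊢
    rw [hv, map_zero, eq_comm, ← Units.smul_def, smul_eq_zero_iff_eq] at h3
    exact h3
  obtain ⟨hK, eK⟩ := exists_level_sub g _ hN1.stable hker
  obtain ⟨-, eT⟩ := exists_level_sub g _ hN1.stable hN1.top_sub
  rw [Submodule.map_subtype_top] at eT
  rw [← eK, ← eT] at eY
  have m1 := (hmin _ hK ((Submodule.map_subtype_le _ _).trans inf_le_left)).2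
  set Y := Submodule.map ψ ⊤ with hYdef
  have hN2 : GS lam θ (N ⊓ Y.comap FA.mkQ) := by
    refine hN.inf g.inf fun v hv => ?_
    rw [Submodule.mem_comap, ← θQ_mk θ FA hst]
    exact hY.stable _ hv
  have hq : HomDeg lam θ (θQ θ FA hst) FA.mkQ 0 := fun v => by rw [θQ_mk]; simp
  have eY2 := tauS_map g hN2 FA.mkQ hq
  have e1 : (N ⊓ Y.comap FA.mkQ).map FA.mkQ = Y := by
    refine le_antisymm (Submodule.map_le_iff_le_comap.2 inf_le_right) ?_
    rintro _ ⟨v, -, rfl⟩
    exact ⟨O v, ⟨hON _ v.2.1, ⟨v, trivial, rfl⟩⟩, rfl⟩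
  have e2 : N ⊓ Y.comap FA.mkQ ⊓ LinearMap.ker FA.mkQ = N ⊓ FA := by
    rw [inf_assoc, inf_eq_right.2 (LinearMap.ker_le_comap _), Submodule.ker_mkQ]
  rw [e1, e2, ex_zero, one_mul] at eY2
  have m2 := (hmin _ hN2 inf_le_left).1
  have hle2 : N ⊓ FA ≤ N ⊓ Y.comap FA.mkQ := e2 ▸ inf_le_left
  have r0 := (exists_level_c0 g hN2 hN1 hle2).2
  have a0 := congrArg T3.c0 (eY.symm.trans eY2)
  have a1 := congrArg T3.c1 (eY.symm.trans eY2)
  simp only [T3.mul_c0, T3.mul_c1, T3.sub_c0, T3.sub_c1, ex, one_mul, Int.cast_natCast] at a0 a1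
  have he' : (e : ℚ) ≤ c := by exact_mod_cast he
  have hr : (tauS lam w θ (N ⊓ Y.comap FA.mkQ)).c0 = (tauS lam w θ (N ⊓ FA)).c0 := by
    refine le_antisymm ?_ r0
    rw [← t0] at m1 m2
    rw [a0] at a1
    have b0 : (tauS lam w θ (Submodule.map (N ⊓ FA).subtype (⊤ ⊓ LinearMap.ker ψ))).c0 =
        2 * (tauS lam w θ (N ⊓ FA)).c0 - (tauS lam w θ (N ⊓ Y.comap FA.mkQ)).c0 := by linarith
    rw [b0] at m1
    nlinarith
  intro v hv
  obtain ⟨f, hf, hfv⟩ := torsion_of_c0_eq g hN2 hN1 hle2 hr (O v)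
    ⟨hON _ hv.1, ⟨⟨v, hv⟩, trivial, rfl⟩⟩
  exact exists_level_sat F hf hfv.2

end Crest.Agent.R169
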