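import Crest.Agent.R169.RR
import Crest.Agent.R169.Bog

/-!
# Row 169: admissible lattices (graded `R`-modules with symmetries, in coordinates)
-/

set_option autoImplicit false

namespace Crest.Agent.R169

open MvPolynomial Matrix

variable {k : Type} [Field k]

/-- A graded torsion-free `R`-module with symmetries, as a lattice in `K^ι`. -/
structure Adm (P : Par k) (lam : kˣ) (q : ℕ) (ι : Type) [Fintype ι] [DecidableEq ι] where
  Y : Gen → Matrix ι ι (K k)
  Γ : Sym → Matrix ι ι (K k)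
  Θ : Matrix ι ι (K k)
  E : Submodule (A k) (ι → K k)
  rel : RelD P 1 Y
  Γunit : ∀ σ, IsUnit (Γ σ)
  ΓY : ∀ σ g, Γ σ * Y g = (C (cf P σ g) : A k) • (Y (pr σ g) * Γ σ)
  θY : ∀ g, HomDeg lam (θW lam (4 * q) Θ) (θW lam (4 * q) Θ) (fun v => Y g *ᵥ v) (q * g.deg : ℕ)
  θΓ : ∀ σ, HomDeg lam (θW lam (4 * q) Θ) (θW lam (4 * q) Θ) (fun v => Γ σ *ᵥ v) 0
  gs : GS lam (θW lam (4 * q) Θ) E
  span : Submodule.span (K k) (E : Set (ι → K k)) = ⊤
  Ystab : ∀ g, ∀ v ∈ E, Y g *ᵥ v ∈ E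
  Γstab : ∀ σ, ∀ v ∈ E, Γ σ *ᵥ v ∈ E

theorem matrix_tf {ι : Type} (f : A k) (hf : f ≠ 0) (b : Matrix ι ι (K k)) (h : f • b = 0) :
    b = 0 := by
  ext i j
  have := congrFun (congrFun h i) j
  simp only [Matrix.smul_apply, Matrix.zero_apply] at this
  rcases smul_eq_zero.mp this with h | h
  · exact absurd h hf
  · exact h

namespace Adm

variable {P : Par k} {lam : kˣ} {q : ℕ} {ι : Type} [Fintype ι] [DecidableEq ι]

/-- The grading of the ambient space. -/
noncomputable abbrev θ (D : Adm P lam q ι) : (ι → K k) →ₗ[k] (ι → K k) := θW lam (4 * q) D.Θ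

/-- The class of a submodule of the ambient space. -/
noncomputable abbrev tau (D : Adm P lam q ι) (N : Submodule (A k) (ι → K k)) : T3 :=
  tauS lam (4 * q) D.θ N

/-- The action of `R`. -/
noncomputable def act (D : Adm P lam q ι) : R P →ₐ[A k] Matrix ι ι (K k) :=
  (exists_lift P matrix_tf D.Y D.rel).choose

theorem act_y (D : Adm P lam q ι) (g : Gen) : D.act (yR P g) = D.Y g :=
  (exists_lift P matrix_tf D.Y D.rel).choose_spec g

/-- A subspace stable under all the structure. -/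
def Stable (D : Adm P lam q ι) (F : Submodule (K k) (ι → K k)) : Prop :=
  (∀ g, ∀ v ∈ F, D.Y g *ᵥ v ∈ F) ∧ (∀ σ, ∀ v ∈ F, D.Γ σ *ᵥ v ∈ F) ∧ ∀ v ∈ F, D.θ v ∈ F

/-- Almost semistable. -/
def SS (D : Adm P lam q ι) : Prop :=
  ∀ F : Submodule (K k) (ι → K k), D.Stable F →
    (D.tau (D.E ⊓ F.restrictScalars (A k))).c0 * ((D.tau D.E).c1 - Fintype.card ι / 2) ≤
      Fintype.card ι * (D.tau (D.E ⊓ F.restrictScalars (A k))).c1

/-! ### Subtask Adm-a -/

theorem act_mem_alg (D : Adm P lam q ι) (a : A k) (v : ι → K k) :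
    D.act (algebraMap _ _ a) *ᵥ v = a • v := by
  rw [AlgHom.commutes, Algebra.algebraMap_eq_smul_one, smul_mulVec, one_mulVec]

theorem act_mem_smul (D : Adm P lam q ι) (c : k) (r : R P) : D.act (c • r) = c • D.act r := by
  rw [← algebraMap_smul (A k) c r, map_smul, algebraMap_smul]

theorem act_mem (D : Adm P lam q ι) (r : R P) {v : ι → K k} (hv : v ∈ D.E) :
    D.act r *ᵥ v ∈ D.E := by
  refine R_induction P (fun r => ∀ v ∈ D.E, D.act r *ᵥ v ∈ D.E) (fun a v hv => ?_)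
    (fun r r' h h' v hv => ?_) (fun g r h v hv => ?_) r v hv
  · rw [act_mem_alg]
    exact D.E.smul_mem a hv
  · rw [map_add, add_mulVec]
    exact D.E.add_mem (h v hv) (h' v hv)
  · rw [map_mul, ← mulVec_mulVec, act_y]
    exact D.Ystab g _ (h v hv)

theorem θ_act (D : Adm P lam q ι) (r : R P) (v : ι → K k) :
    D.θ (D.act r *ᵥ v) = D.act (θR P lam q r) *ᵥ D.θ v := by
  refine R_induction P (fun r => ∀ v, D.θ (D.act r *ᵥ v) = D.act (θR P lam q r) *ᵥ D.θ v)
    (fun a v => ?_) (fun r r' h h' v => ?_) (fun g r h v => ?_) r v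
  · rw [θR_algebraMap, act_mem_alg, act_mem_alg, ← algebraMap_smul (K k) a v, θW_smul,
      θK_algebraMap, algebraMap_smul]
  · rw [map_add, add_mulVec, map_add, map_add, map_add, add_mulVec, h, h']
  · have h1 := D.θY g (D.act r *ᵥ v)
    simp only [zpow_natCast] at h1
    rw [map_mul, ← mulVec_mulVec, act_y, map_mul, map_mul, θR_y, act_mem_smul, act_y,
      ← mulVec_mulVec, smul_mulVec, ← h v]
    exact h1

theorem Γ_act (D : Adm P lam q ι) (σ : Sym) (r : R P) :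
    D.Γ σ * D.act r = D.act (sym P σ r) * D.Γ σ := by
  refine R_induction P (fun r => D.Γ σ * D.act r = D.act (sym P σ r) * D.Γ σ)
    (fun a => ?_) (fun r r' h h' => ?_) (fun g r h => ?_) r
  · rw [AlgEquiv.commutes, AlgHom.commutes, Algebra.commutes]
  · rw [map_add, map_add, map_add, mul_add, add_mul, h, h']
  · rw [map_mul, map_mul, map_mul, sym_y, map_smul, act_y, act_y, ← mul_assoc, D.ΓY,
      smul_mul_assoc, smul_mul_assoc, smul_mul_assoc, mul_assoc, h, mul_assoc]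

theorem Γsurj_inj (D : Adm P lam q ι) (σ : Sym) : Function.Injective fun v => D.Γ σ *ᵥ v :=
  Matrix.mulVec_injective_of_isUnit (D.Γunit σ)

theorem Γsurj (D : Adm P lam q ι) (hl : InfOrd lam) (hq : 0 < q) (σ : Sym) {v : ι → K k}
    (hv : v ∈ D.E) : ∃ v' ∈ D.E, D.Γ σ *ᵥ v' = v := by
  have g : Gd lam (4 * q) D.θ := gd_W hl (by omega) D.Θ
  set φ : (ι → K k) →ₗ[A k] (ι → K k) := (Matrix.toLin' (D.Γ σ)).restrictScalars (A k) with hφ
  have hker : LinearMap.ker φ = ⊥ := LinearMap.ker_eq_bot.2 (D.Γsurj_inj σ)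
  have hle : D.E.map φ ≤ D.E := by
    rintro _ ⟨v, hv, rfl⟩
    exact D.Γstab σ v hv
  have heq : D.E.map φ = D.E := by
    refine GS.eq_of_hilb_eq g D.gs hle fun n => ?_
    rw [hilb_map (θ' := D.θ) g D.gs φ (e := 0) (D.θΓ σ), hker, inf_bot_eq, sub_zero]
    have h0 : piece lam D.θ (⊥ : Submodule (A k) (ι → K k)) n = ⊥ := by simp [piece]
    have h1 : hilb lam D.θ (⊥ : Submodule (A k) (ι → K k)) n = 0 := by
      rw [hilb, h0, finrank_bot, Nat.cast_zero]
    rw [h1, sub_zero]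
  rw [← heq] at hv
  exact hv

theorem c0_eq (D : Adm P lam q ι) (hl : InfOrd lam) (hq : 0 < q) :
    (D.tau D.E).c0 = Fintype.card ι := by
  have g : Gd lam (4 * q) D.θ := gd_W hl (by omega) D.Θ
  rw [Adm.tau, tauS_rank g D.gs, D.span, finrank_top, Module.finrank_fintype_fun_eq_card]

/-- The underlying module. -/
def M (D : Adm P lam q ι) : Type := D.E

noncomputable instance (D : Adm P lam q ι) : AddCommGroup D.M := inferInstanceAs (AddCommGroup D.E)
noncomputable instance (D : Adm P lam q ι) : Module (A k) D.M :=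
  inferInstanceAs (Module (A k) D.E)
noncomputable instance (D : Adm P lam q ι) : Module k D.M := inferInstanceAs (Module k D.E)
instance (D : Adm P lam q ι) : IsScalarTower k (A k) D.M :=
  inferInstanceAs (IsScalarTower k (A k) D.E)

/-- The underlying vector. -/
def M.val {D : Adm P lam q ι} (v : D.M) : ι → K k := Subtype.val v

theorem M.mem {D : Adm P lam q ι} (v : D.M) : v.val ∈ D.E := Subtype.property v

theorem M.ext {D : Adm P lam q ι} {v v' : D.M} (h : v.val = v'.val) : v = v' := Subtype.ext h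

noncomputable instance (D : Adm P lam q ι) : Module (R P) D.M where
  smul r v := ⟨D.act r *ᵥ v.val, D.act_mem r v.mem⟩
  one_smul v := M.ext (by
    change D.act 1 *ᵥ v.val = v.val
    rw [map_one, one_mulVec])
  mul_smul r r' v := M.ext (by
    change D.act (r * r') *ᵥ v.val = D.act r *ᵥ (D.act r' *ᵥ v.val)
    rw [map_mul, mulVec_mulVec])
  smul_zero r := M.ext (by
    change D.act r *ᵥ 0 = 0
    rw [mulVec_zero])
  smul_add r v v' := M.ext (by
    change D.act r *ᵥ (v.val + v'.val) = D.act r *ᵥ v.val + D.act r *ᵥ v'.val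
    rw [mulVec_add])
  add_smul r r' v := M.ext (by
    change D.act (r + r') *ᵥ v.val = D.act r *ᵥ v.val + D.act r' *ᵥ v.val
    rw [map_add, add_mulVec])
  zero_smul v := M.ext (by
    change D.act 0 *ᵥ v.val = 0
    rw [map_zero, zero_mulVec])

theorem M.val_smul {D : Adm P lam q ι} (r : R P) (v : D.M) : (r • v).val = D.act r *ᵥ v.val := rfl

instance towerA (D : Adm P lam q ι) : IsScalarTower (A k) (R P) D.M := by
  refine ⟨fun a r v => M.ext ?_⟩
  change D.act (a • r) *ᵥ v.val = a • (D.act r *ᵥ v.val)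
  rw [map_smul, smul_mulVec]

instance towerk (D : Adm P lam q ι) : IsScalarTower k (R P) D.M := by
  refine ⟨fun a r v => M.ext ?_⟩
  change D.act (a • r) *ᵥ v.val = a • (D.act r *ᵥ v.val)
  rw [act_mem_smul, smul_mulVec]

/-- The grading of the underlying module. -/
noncomputable def θM (D : Adm P lam q ι) : D.M →ₗ[k] D.M := θS D.θ D.E D.gs.stable

theorem gm (D : Adm P lam q ι) : GM lam (θR P lam q) D.θM := by
  exact ⟨fun r v => M.ext (D.θ_act r v.val), D.gs.top_sub⟩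

theorem hilb_M (D : Adm P lam q ι) : hilb lam D.θM ⊤ = hilb lam D.θ D.E := by
  exact hilb_top_sub D.E D.gs.stable

theorem hasSym (D : Adm P lam q ι) (hl : InfOrd lam) (hq : 0 < q) : HasSym P D.θM := by
  intro σ
  let φ : D.M →ₗ[A k] D.M :=
    { toFun := fun v => ⟨D.Γ σ *ᵥ v.val, D.Γstab σ _ v.mem⟩
      map_add' := fun v v' => M.ext (by
        change D.Γ σ *ᵥ (v.val + v'.val) = D.Γ σ *ᵥ v.val + D.Γ σ *ᵥ v'.val
        rw [mulVec_add])
      map_smul' := fun a v => M.ext (by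
        change D.Γ σ *ᵥ (a • v.val) = a • (D.Γ σ *ᵥ v.val)
        rw [mulVec_smul]) }
  have hφ : Function.Bijective φ := by
    refine ⟨fun v v' h => M.ext (D.Γsurj_inj σ (congrArg M.val h)), fun v => ?_⟩
    obtain ⟨v', hv', e⟩ := D.Γsurj hl hq σ v.mem
    exact ⟨⟨v', hv'⟩, M.ext e⟩
  refine ⟨LinearEquiv.ofBijective φ hφ, fun r v => M.ext ?_, fun v => M.ext ?_⟩
  · change D.Γ σ *ᵥ (D.act r *ᵥ v.val) = D.act (sym P σ r) *ᵥ (D.Γ σ *ᵥ v.val)
    rw [mulVec_mulVec, mulVec_mulVec, Γ_act]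
  · change D.θ (D.Γ σ *ᵥ v.val) = D.Γ σ *ᵥ D.θ v.val
    simpa using D.θΓ σ v.val

omit [DecidableEq ι] in
theorem exists_hull_stab (E : Submodule (A k) (ι → K k)) (U : Matrix ι ι (K k))
    (h : ∀ v ∈ E, U *ᵥ v ∈ E) : ∀ v ∈ hull E, U *ᵥ v ∈ hull E := by
  intro v hv f hf
  obtain ⟨a, ha, hm⟩ := hv f hf
  exact ⟨a, ha, by rw [← mulVec_smul]; exact h _ hm⟩

/-- The reflexive hull. -/
theorem exists_hull (D : Adm P lam q ι) (hl : InfOrd lam) (hq : 0 < q) :
    ∃ D' : Adm P lam q ι, D'.Y = D.Y ∧ D'.Γ = D.Γ ∧ D'.Θ = D.Θ ∧ D'.E = hull D.E := by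
  have g : Gd lam (4 * q) D.θ := gd_W hl (by omega) D.Θ
  refine ⟨⟨D.Y, D.Γ, D.Θ, hull D.E, D.rel, D.Γunit, D.ΓY, D.θY, D.θΓ, D.gs.hull g, ?_,
    fun g => exists_hull_stab D.E _ (D.Ystab g), fun σ => exists_hull_stab D.E _ (D.Γstab σ)⟩,
    rfl, rfl, rfl, rfl⟩
  exact top_le_iff.1 (D.span.ge.trans (Submodule.span_mono (le_hull D.E)))

theorem SS_hull (D D' : Adm P lam q ι) (hl : InfOrd lam) (hq : 0 < q) (hY : D'.Y = D.Y)
    (hΓ : D'.Γ = D.Γ) (hΘ : D'.Θ = D.Θ) (hE : D'.E = hull D.E) (h : D.SS) :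
    D'.SS ∧ (D.tau D.E).sig ≤ (D'.tau D'.E).sig := by
  have g : Gd lam (4 * q) D.θ := gd_W hl (by omega) D.Θ
  have hθ : D'.θ = D.θ := by unfold Adm.θ; rw [hΘ]
  have hτ : ∀ N, D'.tau N = D.tau N := fun N => by unfold Adm.tau; rw [hθ]
  obtain ⟨a0, a1, a2⟩ := tauS_big g (D.gs.hull g) D.gs (le_hull D.E) le_rfl
  refine ⟨fun F hF => ?_, ?_⟩
  · have hF' : D.Stable F := by
      obtain ⟨h1, h2, h3⟩ := hF
      rw [hY] at h1
      rw [hΓ] at h2
      rw [hθ] at h3
      exact ⟨h1, h2, h3⟩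
    obtain ⟨b0, b1, -⟩ := tauS_big g
      ((D.gs.hull g).inf hl (N' := F.restrictScalars (A k)) hF'.2.2)
      (D.gs.inf hl (N' := F.restrictScalars (A k)) hF'.2.2) (inf_le_inf_right _ (le_hull D.E))
      (by
        rintro v ⟨hv, hvF⟩ f hf
        obtain ⟨a, ha, hm⟩ := hv f hf
        exact ⟨a, ha, hm, (F.restrictScalars (A k)).smul_mem a hvF⟩)
    have key := h F hF'
    rw [hτ, hτ, hE]
    unfold Adm.tau at key ⊢
    rw [b0, b1, a1]
    exact key
  · have hc := D.c0_eq hl hq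
    rw [hτ, hE]
    unfold Adm.tau at hc ⊢
    unfold T3.sig
    rw [a0, a1, hc]
    have : (0 : ℚ) ≤ Fintype.card ι := Nat.cast_nonneg _
    nlinarith

theorem exists_quot_coord (F : Submodule (K k) (ι → K k)) :
    ∃ (r : ℕ) (π : Matrix (Fin r) ι (K k)) (S : Matrix ι (Fin r) (K k)),
      (∀ v, π *ᵥ v = 0 ↔ v ∈ F) ∧ π * S = 1 := by
  let b := Module.finBasis (K k) ((ι → K k) ⧸ F)
  let p : (ι → K k) →ₗ[K k] (Fin (Module.finrank (K k) ((ι → K k) ⧸ F)) → K k) :=
    b.equivFun.toLinearMap ∘ₗ F.mkQ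
  have hp : LinearMap.range p = ⊤ := by
    rw [LinearMap.range_eq_top]
    exact b.equivFun.surjective.comp F.mkQ_surjective
  obtain ⟨g, hg⟩ := LinearMap.exists_rightInverse_of_surjective p hp
  refine ⟨_, LinearMap.toMatrix' p, LinearMap.toMatrix' g, fun v => ?_, ?_⟩
  · rw [← Matrix.toLin'_apply, Matrix.toLin'_toMatrix']
    change b.equivFun (F.mkQ v) = 0 ↔ _
    rw [LinearEquiv.map_eq_zero_iff, Submodule.mkQ_apply, Submodule.Quotient.mk_eq_zero]
  · rw [← LinearMap.toMatrix'_comp, hg, LinearMap.toMatrix'_id]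

/-- Quotient by a stable subspace, in coordinates. -/
theorem exists_quot (D : Adm P lam q ι) (F : Submodule (K k) (ι → K k)) (hF : D.Stable F) :
    ∃ (r : ℕ) (π : Matrix (Fin r) ι (K k)) (Q : Adm P lam q (Fin r)),
      (∀ v, π *ᵥ v = 0 ↔ v ∈ F) ∧ Function.Surjective (fun v => π *ᵥ v) ∧
      (∀ g, π * D.Y g = Q.Y g * π) ∧ (∀ σ, π * D.Γ σ = Q.Γ σ * π) ∧
      π * D.Θ = Q.Θ * π.map (θK lam (4 * q)) ∧
      Q.E = D.E.map ((Matrix.toLin' π).restrictScalars (A k)) := by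
  obtain ⟨r, π, S, hker, hS⟩ := exists_quot_coord F
  have hsub : ∀ v, v - S *ᵥ π *ᵥ v ∈ F := fun v => by
    rw [← hker, mulVec_sub, mulVec_mulVec, hS, one_mulVec, sub_self]
  have hsurj : Function.Surjective (fun v => π *ᵥ v) := fun u =>
    ⟨S *ᵥ u, by simp only [mulVec_mulVec, hS, one_mulVec]⟩
  have hdesc : ∀ Y : Matrix ι ι (K k), (∀ v ∈ F, Y *ᵥ v ∈ F) → π * Y = π * Y * S * π := by
    intro Y hY
    refine Matrix.toLin'.injective (LinearMap.ext fun v => ?_)
    have := (hker _).mpr (hY _ (hsub v))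
    rw [mulVec_sub, mulVec_sub, sub_eq_zero] at this
    simpa only [Matrix.toLin'_apply, ← mulVec_mulVec] using this
  have hcan : ∀ X X' : Matrix (Fin r) (Fin r) (K k), X * π = X' * π → X = X' := by
    intro X X' h
    have := congrArg (· * S) h
    simpa only [Matrix.mul_assoc, hS, Matrix.mul_one] using this
  have hmap : ∀ {m n : Type} [Fintype n] (X : Matrix m n (K k)) (v : n → K k),
      (fun i => θK lam (4 * q) ((X *ᵥ v) i)) =
        X.map (θK lam (4 * q)) *ᵥ fun i => θK lam (4 * q) (v i) := by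
    intro m n _ X v
    ext i
    simp [mulVec, dotProduct, map_sum, map_mul]
  have hΘ : π * D.Θ = π * D.Θ * S.map (θK lam (4 * q)) * π.map (θK lam (4 * q)) := by
    refine Matrix.toLin'.injective (LinearMap.ext fun u => ?_)
    obtain ⟨v, rfl⟩ : ∃ v : ι → K k, u = fun i => θK lam (4 * q) (v i) :=
      ⟨fun i => (θK lam (4 * q)).symm (u i), by ext i; simp⟩
    have := (hker _).mpr (hF.2.2 _ (hsub v))
    rw [map_sub, mulVec_sub, sub_eq_zero] at this
    change π *ᵥ D.Θ *ᵥ (fun i => θK lam (4 * q) (v i)) =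
      π *ᵥ D.Θ *ᵥ (fun i => θK lam (4 * q) ((S *ᵥ π *ᵥ v) i)) at this
    rw [hmap, hmap] at this
    simpa only [Matrix.toLin'_apply, ← mulVec_mulVec] using this
  set Y' : Gen → Matrix (Fin r) (Fin r) (K k) := fun g => π * D.Y g * S with hY'
  set Γ' : Sym → Matrix (Fin r) (Fin r) (K k) := fun σ => π * D.Γ σ * S with hΓ'
  set Θ' : Matrix (Fin r) (Fin r) (K k) := π * D.Θ * S.map (θK lam (4 * q)) with hΘ'
  have hY : ∀ g, π * D.Y g = Y' g * π := fun g => hdesc _ (hF.1 g)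
  have hΓ : ∀ σ, π * D.Γ σ = Γ' σ * π := fun σ => hdesc _ (hF.2.1 σ)
  have hθ : ∀ v, θW lam (4 * q) Θ' (π *ᵥ v) = π *ᵥ θW lam (4 * q) D.Θ v := by
    intro v
    change Θ' *ᵥ (fun i => θK lam (4 * q) ((π *ᵥ v) i)) =
      π *ᵥ D.Θ *ᵥ (fun i => θK lam (4 * q) (v i))
    rw [hmap, mulVec_mulVec, mulVec_mulVec, ← hΘ]
  have hYY : ∀ g g', Y' g * Y' g' * π = π * (D.Y g * D.Y g') := fun g g' => by
    rw [Matrix.mul_assoc, ← hY, ← Matrix.mul_assoc, ← hY, Matrix.mul_assoc]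
  have hsm : ∀ (a : A k) (g : Gen), (a • Y' g) * π = π * (a • D.Y g) := fun a g => by
    rw [Matrix.smul_mul, Matrix.mul_smul, hY]
  have hhom : ∀ (U : Matrix ι ι (K k)) (U' : Matrix (Fin r) (Fin r) (K k)) (e : ℤ),
      π * U = U' * π →
      HomDeg lam (θW lam (4 * q) D.Θ) (θW lam (4 * q) D.Θ) (fun v => U *ᵥ v) e →
      HomDeg lam (θW lam (4 * q) Θ') (θW lam (4 * q) Θ') (fun v => U' *ᵥ v) e := by
    intro U U' e hU h u
    obtain ⟨v, rfl⟩ := hsurj u
    have h1 := h v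
    simp only at h1 ⊢
    rw [mulVec_mulVec, ← hU, ← mulVec_mulVec, hθ, h1, hθ, mulVec_mulVec, ← hU, ← mulVec_mulVec,
      mulVec_smul]
  have hstab : ∀ (U : Matrix ι ι (K k)) (U' : Matrix (Fin r) (Fin r) (K k)),
      π * U = U' * π → (∀ v ∈ D.E, U *ᵥ v ∈ D.E) →
      ∀ v ∈ D.E.map ((Matrix.toLin' π).restrictScalars (A k)),
        U' *ᵥ v ∈ D.E.map ((Matrix.toLin' π).restrictScalars (A k)) := by
    rintro U U' hU h _ ⟨v, hv, rfl⟩
    refine ⟨U *ᵥ v, h v hv, ?_⟩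
    change π *ᵥ U *ᵥ v = U' *ᵥ π *ᵥ v
    rw [mulVec_mulVec, mulVec_mulVec, hU]
  refine ⟨r, π,
    { Y := Y'
      Γ := Γ'
      Θ := Θ'
      E := D.E.map ((Matrix.toLin' π).restrictScalars (A k))
      rel := ⟨fun g g' => hcan _ _ ?_, fun a => hcan _ _ ?_, fun t => hcan _ _ ?_,
        fun t => hcan _ _ ?_, fun t => hcan _ _ ?_⟩
      Γunit := fun σ => ?_
      ΓY := fun σ g => hcan _ _ ?_
      θY := fun g => hhom _ _ _ (hY g) (D.θY g)
      θΓ := fun σ => hhom _ _ _ (hΓ σ) (D.θΓ σ)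
      gs := D.gs.map _ (e := 0) fun v => ?_
      span := ?_
      Ystab := fun g => hstab _ _ (hY g) (D.Ystab g)
      Γstab := fun σ => hstab _ _ (hΓ σ) (D.Γstab σ) }, hker, hsurj, hY, hΓ, hΘ, rfl⟩
  · rw [hYY, hYY, D.rel.comm]
  · rw [hYY, D.rel.s, Algebra.algebraMap_eq_smul_one, Algebra.algebraMap_eq_smul_one,
      Matrix.smul_mul, Matrix.mul_smul, Matrix.one_mul, Matrix.mul_one]
  · rw [hYY, D.rel.u, Matrix.add_mul, Matrix.mul_add, hsm, hsm]
  · rw [hYY, D.rel.v, Matrix.sub_mul, Matrix.mul_sub, hsm, hsm]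
  · rw [hYY, D.rel.uv, hsm]
  · obtain ⟨G, hG⟩ := (D.Γunit σ).exists_right_inv
    refine IsUnit.of_mul_eq_one (π * G * S) ?_
    rw [← Matrix.mul_assoc, ← Matrix.mul_assoc, ← hΓ, Matrix.mul_assoc π, hG, Matrix.mul_one, hS]
  · rw [Matrix.mul_assoc, ← hY, ← Matrix.mul_assoc, ← hΓ, Matrix.mul_assoc, D.ΓY, Matrix.smul_mul,
      Matrix.mul_smul, Matrix.mul_assoc (Y' _), ← hΓ, ← Matrix.mul_assoc (Y' _), ← hY,
      Matrix.mul_assoc]
  · change θW lam (4 * q) Θ' (π *ᵥ v) = _ • π *ᵥ θW lam (4 * q) D.Θ v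
    rw [hθ, zpow_zero, Units.val_one, one_smul]
  · have : ((D.E.map ((Matrix.toLin' π).restrictScalars (A k)) : Submodule (A k) _) :
        Set (Fin r → K k)) = Matrix.toLin' π '' D.E := rfl
    rw [this, ← Submodule.map_span, D.span, Submodule.map_top, LinearMap.range_eq_top]
    exact hsurj

/-! ### Subtask Adm-b (flatness away from the vertex) -/

/-- Good pairs are Koszul regular on reflexive lattices. -/
theorem kz_pair (D : Adm P lam q ι) (hr : hull D.E ≤ D.E) {a b : R P} (h : GoodPair k a b) :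
    KZ1 ![a, b] D.M := by
  obtain ⟨⟨a', f, hf, haf⟩, f₁, f₂, hrel, h₁, h₂⟩ := h
  rw [KZ1_two_iff]
  intro e₁ e₂ he
  have he' : D.act a *ᵥ e₁.val + D.act b *ᵥ e₂.val = 0 := congrArg M.val he
  have hact : ∀ (g : A k) (v : ι → K k), D.act (algebraMap _ _ g) *ᵥ v = g • v := fun g v => by
    rw [AlgHom.commutes, Algebra.algebraMap_eq_smul_one, smul_mulVec, one_mulVec]
  have hcomm : ∀ (r r' : R P) (v : ι → K k),
      D.act r *ᵥ (D.act r' *ᵥ v) = D.act (r * r') *ᵥ v := fun r r' v => by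
    rw [map_mul, mulVec_mulVec]
  obtain ⟨u, hu⟩ := KZ2_of_hull_div hf (-(D.act a' *ᵥ e₂.val))
  have hlin : ∀ (r : R P) (v : ι → K k), D.act r *ᵥ (f • v) = f • (D.act r *ᵥ v) := fun r v =>
    mulVec_smul _ _ _
  have ha : D.act a *ᵥ u = -e₂.val := by
    refine KZ2_of_hull_tf hf ?_
    rw [← hlin, hu, mulVec_neg, hcomm, haf, hact, smul_neg]
  have hb : D.act b *ᵥ u = e₁.val := by
    refine KZ2_of_hull_tf hf ?_
    have h3 : D.act b *ᵥ e₂.val = -(D.act a *ᵥ e₁.val) := eq_neg_of_add_eq_zero_right he'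
    rw [← hlin, hu, mulVec_neg, hcomm, mul_comm b a', ← hcomm, h3, mulVec_neg, neg_neg, hcomm,
      mul_comm a' a, haf, hact]
  have hmem : ∀ g : A k, algebraMap _ _ g ∈ Ideal.span {a, b} → g • u ∈ D.E := fun g hg => by
    obtain ⟨x, y, hxy⟩ := Ideal.mem_span_pair.1 hg
    rw [← hact, ← hxy, map_add, add_mulVec, ← hcomm, ← hcomm, ha, hb]
    exact add_mem (D.act_mem x (neg_mem e₂.mem)) (D.act_mem y e₁.mem)
  have huE : u ∈ D.E := hr (mem_hull_of_coprime hrel (hmem _ h₁) (hmem _ h₂))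
  refine ⟨⟨u, huE⟩, M.ext hb.symm, M.ext ?_⟩
  change e₂.val = -(D.act a *ᵥ u)
  rw [ha, neg_neg]

theorem free_loc_kz {S M : Type} [CommRing S] [AddCommGroup M] [Module S M] (p : Ideal S)
    [hp : p.IsPrime] (a b : S)
    (H : ∀ e₁ e₂ : M, a • e₁ + b • e₂ = 0 →
      ∃ h ∉ p, ∃ e₃ : M, h • e₁ = b • e₃ ∧ h • e₂ = -(a • e₃)) :
    KZ1 ![algebraMap S (Localization.AtPrime p) a, algebraMap S (Localization.AtPrime p) b]
      (LocalizedModule p.primeCompl M) := by
  rw [KZ1_two_iff]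
  intro e₁ e₂ he
  set g := LocalizedModule.mkLinearMap p.primeCompl M with hg
  obtain ⟨⟨m₁, s₁⟩, h₁⟩ := IsLocalizedModule.surj p.primeCompl g e₁
  obtain ⟨⟨m₂, s₂⟩, h₂⟩ := IsLocalizedModule.surj p.primeCompl g e₂
  simp only [Submonoid.smul_def] at h₁ h₂
  simp only [algebraMap_smul] at he ⊢
  have h0 : g (a • (s₂ : S) • m₁ + b • (s₁ : S) • m₂) = 0 := by
    have : ((s₁ : S) * s₂) • (a • e₁ + b • e₂) = 0 := by rw [he, smul_zero]
    rw [← this]
    simp only [map_add, map_smul, ← h₁, ← h₂, smul_add, smul_smul]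
    congr 2 <;> ring
  obtain ⟨c, hc⟩ := (IsLocalizedModule.eq_zero_iff p.primeCompl g).1 h0
  simp only [Submonoid.smul_def] at hc
  obtain ⟨h, hh, m₃, h3, h4⟩ := H ((c : S) • (s₂ : S) • m₁) ((c : S) • (s₁ : S) • m₂) (by
    rw [← hc, smul_add, smul_comm a (c : S), smul_comm b (c : S)])
  have hu : h * c * s₁ * s₂ ∈ p.primeCompl :=
    mul_mem (mul_mem (mul_mem hh c.2) s₁.2) s₂.2
  obtain ⟨u, hu'⟩ := IsLocalization.map_units (Localization.AtPrime p) ⟨_, hu⟩
  have e1 : (u : Localization.AtPrime p) • e₁ = b • g m₃ := by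
    rw [hu', algebraMap_smul, ← map_smul, ← h3]
    simp only [map_smul, ← h₁, smul_smul]
    congr 1; ring
  have e2 : (u : Localization.AtPrime p) • e₂ = -(a • g m₃) := by
    rw [hu', algebraMap_smul, ← map_smul, ← map_neg, ← h4]
    simp only [map_smul, ← h₂, smul_smul]
    congr 1; ring
  refine ⟨((u⁻¹ : (Localization.AtPrime p)ˣ) : Localization.AtPrime p) • g m₃, ?_, ?_⟩
  · rw [smul_comm, ← e1, smul_smul, Units.inv_mul, one_smul]
  · rw [smul_comm, ← smul_neg, ← e2, smul_smul, Units.inv_mul, one_smul]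

theorem free_loc_gen {S M : Type} [CommRing S] [IsNoetherianRing S] [AddCommGroup M] [Module S M]
    [Module.Finite S M] (p : Ideal S) [hp : p.IsPrime] (a b : S) (ha : a ∈ p) (hb : b ∈ p)
    (hab : ∀ r ∈ p, ∃ h ∉ p, h * r ∈ Ideal.span {a, b})
    (H : ∀ e₁ e₂ : M, a • e₁ + b • e₂ = 0 →
      ∃ h ∉ p, ∃ e₃ : M, h • e₁ = b • e₃ ∧ h • e₂ = -(a • e₃)) :
    Module.Free (Localization.AtPrime p) (LocalizedModule p.primeCompl M) := by
  refine free_of_KZ1 _ ?_ (free_loc_kz p a b H)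
  rw [← Localization.AtPrime.map_eq_maximalIdeal]
  apply le_antisymm
  · rw [Ideal.span_le]
    rintro _ ⟨i, rfl⟩
    fin_cases i
    · exact Ideal.mem_map_of_mem _ ha
    · exact Ideal.mem_map_of_mem _ hb
  · rw [Ideal.map_le_iff_le_comap]
    intro r hr
    obtain ⟨h, hh, hm⟩ := hab r hr
    rw [Ideal.mem_comap]
    have hu : IsUnit (algebraMap S (Localization.AtPrime p) h) :=
      IsLocalization.map_units (Localization.AtPrime p) (⟨h, hh⟩ : p.primeCompl)
    rw [← Ideal.unit_mul_mem_iff_mem _ hu, ← map_mul]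
    obtain ⟨x, y, hxy⟩ := Ideal.mem_span_pair.1 hm
    rw [← hxy, map_add, map_mul, map_mul]
    exact add_mem (Ideal.mul_mem_left _ _ (Ideal.subset_span ⟨0, rfl⟩))
      (Ideal.mul_mem_left _ _ (Ideal.subset_span ⟨1, rfl⟩))

theorem free_loc_finA (D : Adm P lam q ι) : Module.Finite (A k) D.M :=
  (Module.Finite.iff_fg (N := D.E)).2 D.gs.fg

theorem free_loc_finR (D : Adm P lam q ι) : Module.Finite (R P) D.M :=
  haveI := free_loc_finA D
  Module.Finite.of_restrictScalars_finite (A k) (R P) D.M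

theorem free_loc (hk : GoodChar k) (D : Adm P lam q ι) (hr : hull D.E ≤ D.E) (p : Ideal (R P))
    [p.IsPrime] (hp : IsPt k p) :
    Module.Free (Localization.AtPrime p) (LocalizedModule p.primeCompl D.M) := by
  have := free_loc_finR D
  obtain ⟨a, b, ha, hb, hab, hgen⟩ := local_param hk P p hp
  refine free_loc_gen p a b ha hb hgen fun e₁ e₂ he => ?_
  obtain ⟨e₃, h1, h2⟩ := (KZ1_two_iff a b).1 (kz_pair D hr hab) e₁ e₂ he
  exact ⟨1, (Ideal.ne_top_iff_one p).1 hp.1.ne_top, e₃, by rwa [one_smul], by rwa [one_smul]⟩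

theorem flatOff_R_gen {S M : Type} [CommRing S] [AddCommGroup M] [Module S M] (p : Ideal S)
    [hp : p.IsPrime]
    (hF : Module.Free (Localization.AtPrime p) (LocalizedModule p.primeCompl M))
    (N' N : Type) [AddCommGroup N'] [AddCommGroup N] [Module S N'] [Module S N] (f : N' →ₗ[S] N)
    (hf : Function.Injective f) (z : TensorProduct S M N') (hz : LinearMap.lTensor M f z = 0) :
    ∃ h ∉ p, h • z = 0 := by
  have hflat : Module.Flat S (LocalizedModule p.primeCompl M) :=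
    Module.Flat.trans S (Localization.AtPrime p) _
  set g := LocalizedModule.mkLinearMap p.primeCompl M with hg
  have h1 : LinearMap.lTensor (LocalizedModule p.primeCompl M) f (LinearMap.rTensor N' g z) = 0 := by
    rw [← LinearMap.comp_apply, LinearMap.lTensor_comp_rTensor, ← LinearMap.rTensor_comp_lTensor,
      LinearMap.comp_apply, hz, map_zero]
  have h2 : LinearMap.rTensor N' g z = 0 :=
    Module.Flat.lTensor_preserves_injective_linearMap f hf (by rw [h1, map_zero])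
  have h3 : TensorProduct.AlgebraTensorModule.rTensor S N' g z = 0 := h2
  obtain ⟨c, hc⟩ := (IsLocalizedModule.eq_zero_iff p.primeCompl
    (TensorProduct.AlgebraTensorModule.rTensor S N' g)).1 h3
  exact ⟨c, c.2, hc⟩

theorem flatOff_R (hk : GoodChar k) (D : Adm P lam q ι) (hr : hull D.E ≤ D.E) :
    FlatOff k (R P) D.M := by
  intro p hp N' N _ _ _ _ f hf z hz
  have := hp.1
  exact flatOff_R_gen p (free_loc hk D hr p hp) N' N f hf z hz

theorem flatOff_A_good (P : Par k) {f₁ f₂ : A k} (h0 : f₁ ≠ 0) (h : IsRelPrime f₁ f₂) :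
    GoodPair k (algebraMap (A k) (R P) f₁) (algebraMap (A k) (R P) f₂) :=
  ⟨⟨1, f₁, h0, mul_one _⟩, f₁, f₂, h, Ideal.subset_span (by simp), Ideal.subset_span (by simp)⟩

theorem flatOff_A_gen {V : Type} [AddCommGroup V] [Module (A k) V] [Module.Finite (A k) V]
    (H : ∀ (Pt : Fin 3 → k) (f₁ f₂ : A k), Pt ≠ 0 → f₁ ≠ 0 → IsRelPrime f₁ f₂ →
      ∀ e₁ e₂ : V, f₁ • e₁ + f₂ • e₂ = 0 →
        ∃ h ∉ ptIdeal Pt, ∃ e₃ : V, h • e₁ = f₂ • e₃ ∧ h • e₂ = -(f₁ • e₃)) :
    FlatOff k (A k) V := by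
  intro p hp N' N _ _ _ _ f hf z hz
  obtain ⟨hprime, Pt, hPt, hcom⟩ := hp
  have hp' : p = ptIdeal Pt := by
    rw [← hcom]
    ext x
    simp
  subst hp'
  obtain ⟨f₁, f₂, h0, hrel, hspan⟩ := ptIdeal_eq_span Pt hPt
  refine flatOff_R_gen _ (free_loc_gen _ f₁ f₂ ?_ ?_ ?_ (H Pt f₁ f₂ hPt h0 hrel)) N' N f hf z hz
  · rw [hspan]; exact Ideal.subset_span (by simp)
  · rw [hspan]; exact Ideal.subset_span (by simp)
  · intro r hr
    exact ⟨1, (Ideal.ne_top_iff_one _).1 hprime.ne_top, by rwa [one_mul, ← hspan]⟩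

theorem flatOff_A (D : Adm P lam q ι) (hr : hull D.E ≤ D.E) : FlatOff k (A k) D.M := by
  have := free_loc_finA D
  refine flatOff_A_gen fun Pt f₁ f₂ _ h0 hrel e₁ e₂ he => ?_
  obtain ⟨e₃, h1, h2⟩ := (KZ1_two_iff _ _).1 (kz_pair D hr (flatOff_A_good P h0 hrel)) e₁ e₂
    (by rwa [algebraMap_smul, algebraMap_smul])
  rw [algebraMap_smul] at h1 h2
  exact ⟨1, (Ideal.ne_top_iff_one _).1 (ptIdeal_isPrime Pt).ne_top, e₃, by rwa [one_smul],
    by rwa [one_smul]⟩

/-- The support of a nonzero admissible module is everything. -/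
theorem nontrivial_loc [Nonempty ι] (D : Adm P lam q ι) (hl : InfOrd lam) (hq : 0 < q)
    (p : Ideal (R P)) [p.IsPrime] : Nontrivial (LocalizedModule p.primeCompl D.M) := by
  have := free_loc_finR D
  have hsupp : Module.annihilator (R P) D.M ≤ p := by
    have hA : (Module.annihilator (R P) D.M).comap (algebraMap (A k) (R P)) ≤
        p.comap (algebraMap (A k) (R P)) := by
      intro f hf
      by_cases h0 : f = 0
      · rw [h0]; exact zero_mem _
      exfalso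
      rw [Ideal.mem_comap, Module.mem_annihilator] at hf
      have hE : ∀ v ∈ D.E, v = 0 := fun v hv => by
        obtain ⟨m, rfl⟩ : ∃ m : D.M, m.val = v := ⟨(⟨v, hv⟩ : D.E), rfl⟩
        have h1 := hf m
        rw [algebraMap_smul] at h1
        have h2 : f • m.val = f • (0 : ι → K k) := by
          rw [smul_zero]
          exact congrArg M.val h1
        exact KZ2_of_hull_tf h0 h2
      have hb : Submodule.span (K k) (D.E : Set (ι → K k)) = ⊥ :=
        Submodule.span_eq_bot.2 hE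
      rw [D.span] at hb
      exact top_ne_bot hb
    obtain ⟨Q, hQ, hQp, hQc⟩ := Ideal.exists_ideal_over_prime_of_isIntegral
      (p.comap (algebraMap (A k) (R P))) _ hA
    refine sym_trans P (fun p' => Module.annihilator (R P) D.M ≤ p') ?_ Q p hQc hQ
    intro σ p' hp' r hr
    rw [Ideal.mem_comap]
    apply hp'
    obtain ⟨γ, hγ, -⟩ := D.hasSym hl hq σ
    rw [Module.mem_annihilator] at hr ⊢
    intro m
    obtain ⟨m, rfl⟩ := γ.surjective m
    have := hγ r m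
    rw [hr, map_zero] at this
    exact this.symm
  exact (Module.mem_support_iff (p := ⟨p, ‹_›⟩)).1 (Module.mem_support_iff_of_finite.2 hsupp)

theorem kosOff_gen {S M : Type} [CommRing S] [AddCommGroup M] [Module S M] (p : Ideal S)
    [hp : p.IsPrime]
    (hF : Module.Free (Localization.AtPrime p) (LocalizedModule p.primeCompl M))
    (hN : Nontrivial (LocalizedModule p.primeCompl M)) {a b : S} (H : KZ1 ![a, b] M)
    (r₁ r₂ : S) (hr : a * r₁ + b * r₂ = 0) :
    ∃ h ∉ p, ∃ r₃ : S, h * r₁ = b * r₃ ∧ h * r₂ = -(a * r₃) := by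
  have K := free_loc_kz (M := M) p a b fun e₁ e₂ he => by
    obtain ⟨e₃, h1, h2⟩ := (KZ1_two_iff a b).1 H e₁ e₂ he
    exact ⟨1, (Ideal.ne_top_iff_one p).1 hp.ne_top, e₃, by rwa [one_smul], by rwa [one_smul]⟩
  rw [KZ1_two_iff] at K
  let B := Module.Free.chooseBasis (Localization.AtPrime p) (LocalizedModule p.primeCompl M)
  obtain ⟨i⟩ := B.index_nonempty
  obtain ⟨e₃, h1, h2⟩ := K (algebraMap S (Localization.AtPrime p) r₁ • B i)
    (algebraMap S (Localization.AtPrime p) r₂ • B i) (by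
      rw [smul_smul, smul_smul, ← add_smul, ← map_mul, ← map_mul, ← map_add, hr, map_zero,
        zero_smul])
  have h1' := congrArg (fun v => B.repr v i) h1
  have h2' := congrArg (fun v => B.repr v i) h2
  simp only [map_smul, map_neg, Finsupp.smul_apply, Finsupp.neg_apply, Module.Basis.repr_self,
    Finsupp.single_eq_same, smul_eq_mul, mul_one] at h1' h2'
  obtain ⟨⟨r₃, s⟩, hs⟩ := IsLocalization.surj p.primeCompl (B.repr e₃ i)
  simp only at hs
  have e1 : algebraMap S (Localization.AtPrime p) (s * r₁) =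
      algebraMap S (Localization.AtPrime p) (b * r₃) := by
    rw [map_mul, map_mul, h1', ← hs]; ring
  have e2 : algebraMap S (Localization.AtPrime p) (s * r₂) =
      algebraMap S (Localization.AtPrime p) (-(a * r₃)) := by
    rw [map_mul, map_neg, map_mul, h2', ← hs]; ring
  obtain ⟨t₁, ht₁⟩ := (IsLocalization.eq_iff_exists p.primeCompl _).1 e1
  obtain ⟨t₂, ht₂⟩ := (IsLocalization.eq_iff_exists p.primeCompl _).1 e2
  refine ⟨t₁ * t₂ * s, mul_mem (mul_mem t₁.2 t₂.2) s.2, t₁ * t₂ * r₃, ?_, ?_⟩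
  · linear_combination (t₂ : S) * ht₁
  · linear_combination (t₁ : S) * ht₂

theorem kosOff [Nonempty ι] (hk : GoodChar k) (D : Adm P lam q ι) (hl : InfOrd lam) (hq : 0 < q)
    (hr : hull D.E ≤ D.E) {a b : R P} (h : GoodPair k a b) : KosOff P a b := by
  intro p hp r₁ r₂ hr'
  have := hp.1
  exact kosOff_gen p (free_loc hk D hr p hp) (nontrivial_loc D hl hq p) (kz_pair D hr h) r₁ r₂ hr'

end Adm

/-- `R` is flat over `A` away from the vertex. -/
theorem flatOff_A_R {P : Par k} (h : ∀ a b : R P, GoodPair k a b → KosOff P a b) :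
    FlatOff k (A k) (R P) := by
  refine Adm.flatOff_A_gen fun Pt f₁ f₂ hPt h0 hrel e₁ e₂ he => ?_
  have hK := h _ _ (Adm.flatOff_A_good P h0 hrel)
  have hp := ptIdeal_isPrime Pt
  obtain ⟨J, hJ⟩ : ∃ J : Ideal (R P), ∀ x, x ∈ J ↔ ∃ r₃ : R P,
      x * e₁ = algebraMap (A k) (R P) f₂ * r₃ ∧ x * e₂ = -(algebraMap (A k) (R P) f₁ * r₃) :=
    ⟨{ carrier := {x | ∃ r₃ : R P,
          x * e₁ = algebraMap (A k) (R P) f₂ * r₃ ∧ x * e₂ = -(algebraMap (A k) (R P) f₁ * r₃)}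
       add_mem' := by
        rintro x y ⟨r, h1, h2⟩ ⟨r', h1', h2'⟩
        exact ⟨r + r', by linear_combination h1 + h1', by linear_combination h2 + h2'⟩
       zero_mem' := ⟨0, by simp, by simp⟩
       smul_mem' := by
        rintro c x ⟨r, h1, h2⟩
        exact ⟨c * r, by rw [smul_eq_mul]; linear_combination c * h1,
          by rw [smul_eq_mul]; linear_combination c * h2⟩ }, fun _ => Iff.rfl⟩
  by_contra hcon
  have hle : J.comap (algebraMap (A k) (R P)) ≤ ptIdeal Pt := by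
    intro g hg
    by_contra hg'
    obtain ⟨r₃, h1, h2⟩ := (hJ _).1 hg
    exact hcon ⟨g, hg', r₃, by rwa [Algebra.smul_def, Algebra.smul_def],
      by rwa [Algebra.smul_def, Algebra.smul_def]⟩
  obtain ⟨Q, hQ, hQp, hQc⟩ := Ideal.exists_ideal_over_prime_of_isIntegral (ptIdeal Pt) J hle
  obtain ⟨x, hx, hx'⟩ := hK Q ⟨hQp, Pt, hPt, hQc⟩ e₁ e₂
    (by rwa [Algebra.smul_def, Algebra.smul_def] at he)
  exact hx (hQ ((hJ x).2 hx'))

end Crest.Agent.R169
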