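import Crest.Agent.R169.Frob

/-!
# Row 169: derivations, Cartier descent, the window of a Frobenius pull-back, and the
contradiction in large characteristic
-/

set_option autoImplicit false

namespace Crest.Agent.R169

open MvPolynomial Matrix

variable {k : Type} [Field k]

/-! ### Subtask Win-a -/

theorem exists_der (k : Type) [Field k] (i : Fin 3) :
    ∃ d : Derivation k (K k) (K k),
      ∀ f : A k, d (algebraMap (A k) (K k) f) = algebraMap (A k) (K k) (pderiv i f) := by
  let φ : A k →+* TrivSqZeroExt (K k) (K k) :=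
    { toFun := fun f => (algebraMap (A k) (K k) f, algebraMap (A k) (K k) (pderiv i f))
      map_one' := by ext <;> simp
      map_mul' := fun f g => by ext <;> simp [mul_comm]
      map_zero' := by ext <;> simp
      map_add' := fun f g => by ext <;> simp }
  have φ1 : ∀ f, (φ f).fst = algebraMap (A k) (K k) f := fun f => rfl
  have φ2 : ∀ f, (φ f).snd = algebraMap (A k) (K k) (pderiv i f) := fun f => rfl
  have hu : ∀ y : nonZeroDivisors (A k), IsUnit (φ y) := fun y => by
    rw [TrivSqZeroExt.isUnit_iff_isUnit_fst, φ1]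
    exact IsLocalization.map_units (K k) y
  let ψ : K k →+* TrivSqZeroExt (K k) (K k) := IsLocalization.lift hu
  have hψ : ∀ f, ψ (algebraMap (A k) (K k) f) = φ f := IsLocalization.lift_eq hu
  have h1 : ∀ c, (ψ c).fst = c := by
    have : (TrivSqZeroExt.fstHom (K k) (K k) (K k)).toRingHom.comp ψ = RingHom.id _ :=
      IsLocalization.ringHom_ext (nonZeroDivisors (A k)) (RingHom.ext fun f => by
        show (ψ (algebraMap (A k) (K k) f)).fst = algebraMap (A k) (K k) f
        rw [hψ, φ1])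
    exact fun c => RingHom.congr_fun this c
  have h2 : ∀ a b, (ψ (a * b)).snd = a * (ψ b).snd + b * (ψ a).snd := fun a b => by
    rw [map_mul, TrivSqZeroExt.snd_mul, h1, h1, smul_eq_mul, op_smul_eq_mul, mul_comm (ψ a).snd]
  let L : K k →ₗ[k] K k :=
    { toFun := fun c => (ψ c).snd
      map_add' := fun a b => by simp
      map_smul' := fun c a => by
        rw [RingHom.id_apply, Algebra.smul_def, Algebra.smul_def, h2,
          IsScalarTower.algebraMap_apply k (A k) (K k), hψ, φ2]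
        simp }
  refine ⟨Derivation.mk' L fun a b => h2 a b, fun f => ?_⟩
  show (ψ (algebraMap (A k) (K k) f)).snd = _
  rw [hψ, φ2]

/-- The partial derivatives on the fraction field. -/
noncomputable def dK (k : Type) [Field k] (i : Fin 3) : Derivation k (K k) (K k) :=
  (exists_der k i).choose

theorem dK_algebraMap (i : Fin 3) (f : A k) :
    dK k i (algebraMap (A k) (K k) f) = algebraMap (A k) (K k) (pderiv i f) :=
  (exists_der k i).choose_spec f

/-- The operator `(∏ l a) ∂_i` on `K^ι`. -/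
noncomputable def dV {ι : Type} (i : Fin 3) : (ι → K k) →ₗ[k] (ι → K k) where
  toFun v j := algebraMap (A k) (K k) (linProd k) * dK k i (v j)
  map_add' v v' := by ext j; simp [mul_add]
  map_smul' c v := by ext j; simp

theorem θK_dK_X (lam : kˣ) (w : ℕ) (i : Fin 3) :
    θA lam w (X i) = C ((lam ^ w : kˣ) : k) * X i := by
  simp [θA]

theorem θK_dK_aux (lam : kˣ) (w : ℕ) (i : Fin 3) (f : A k) :
    pderiv i (θA lam w f) = C ((lam ^ w : kˣ) : k) * θA lam w (pderiv i f) := by
  induction f using MvPolynomial.induction_on with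
  | C a =>
    have : θA lam w (C a) = C a := (θA lam w).commutes a
    simp [this]
  | add f g hf hg => simp only [map_add, hf, hg, mul_add]
  | mul_X f j hf =>
    simp only [map_mul, Derivation.leibniz, θK_dK_X, smul_eq_mul, map_add, hf, pderiv_C, pderiv_X]
    by_cases h : i = j
    · subst h
      simp only [Pi.single_eq_same, map_one]
      ring
    · simp only [Pi.single_eq_of_ne' h, map_zero]
      ring

theorem θK_dK (lam : kˣ) (w : ℕ) (i : Fin 3) (c : K k) :
    dK k i (θK lam w c) = ((lam ^ w : kˣ) : k) • θK lam w (dK k i c) := by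
  have h : ∀ f : A k, dK k i (θK lam w (algebraMap (A k) (K k) f)) =
      algebraMap k (K k) ((lam ^ w : kˣ) : k) * θK lam w (dK k i (algebraMap (A k) (K k) f)) := by
    intro f
    rw [θK_algebraMap, dK_algebraMap, dK_algebraMap, θK_algebraMap, θK_dK_aux, map_mul,
      IsScalarTower.algebraMap_apply k (A k) (K k), algebraMap_eq]
  obtain ⟨a, b, -, rfl⟩ := IsFractionRing.div_surjective (A := A k) c
  rw [map_div₀, Derivation.leibniz_div, Derivation.leibniz_div, h, h,
    Algebra.smul_def ((lam ^ w : kˣ) : k)]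
  simp only [smul_eq_mul, map_mul, map_sub, map_pow, map_inv₀]
  ring

theorem dV_smul {ι : Type} (i : Fin 3) (a : A k) (v : ι → K k) :
    dV i (a • v) = a • dV i v + (linProd k * pderiv i a) • v := by
  ext j
  show algebraMap (A k) (K k) (linProd k) * dK k i (a • v j) =
    a • (algebraMap (A k) (K k) (linProd k) * dK k i (v j)) + (linProd k * pderiv i a) • v j
  simp only [Algebra.smul_def, Derivation.leibniz, dK_algebraMap, map_mul, Algebra.algebraMap_self,
    RingHom.id_apply]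
  ring

theorem dV_hull {ι : Type} (i : Fin 3) {N : Submodule (A k) (ι → K k)} (h : ∀ v ∈ N, dV i v ∈ N) :
    ∀ v ∈ hull N, dV i v ∈ hull N := by
  intro v hv f hf
  obtain ⟨g, hg, hgv⟩ := hv f hf
  refine ⟨g * g, fun hd => (hf.dvd_or_dvd hd).elim hg hg, ?_⟩
  have h1 := N.sub_mem (N.smul_mem g (h _ hgv)) (N.smul_mem (linProd k * pderiv i g) hgv)
  rwa [dV_smul, smul_add, smul_comm g _ v, add_sub_cancel_right, smul_smul] at h1

variable (p : ℕ) [Fact p.Prime] [CharP k p]

theorem dK_pow (i : Fin 3) (c : K k) : dK k i (c ^ p) = 0 := by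
  rw [Derivation.leibniz_pow, nsmul_eq_mul, CharP.cast_eq_zero, zero_mul]

theorem exists_pow_of_dK_poly [IsAlgClosed k] (f : A k) (h : ∀ i, pderiv i f = 0) :
    ∃ g : A k, f = g ^ p := by
  classical
  have hp : 0 < p := (Fact.out : p.Prime).pos
  have h1 : ∀ μ ∈ f.support, ∃ g : A k, monomial μ (coeff μ f) = g ^ p := by
    intro μ hμ
    have hd : ∀ i, p ∣ μ i := by
      intro i
      rcases Nat.eq_zero_or_pos (μ i) with h0 | h0
      · rw [h0]; exact dvd_zero _
      · have h2 := coeff_pderiv (i := i) f (μ - Finsupp.single i 1)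
        have h3 : μ - Finsupp.single i 1 + Finsupp.single i 1 = μ :=
          tsub_add_cancel_of_le (Finsupp.single_le_iff.2 h0)
        rw [h i, coeff_zero, h3] at h2
        have h4 := (mul_eq_zero.1 h2.symm).resolve_left (mem_support_iff.1 hμ)
        have h5 : μ i = (μ - Finsupp.single i 1 : Fin 3 →₀ ℕ) i + 1 := by
          rw [Finsupp.tsub_apply, Finsupp.single_eq_same]; omega
        rw [← Nat.cast_succ, Nat.succ_eq_add_one, ← h5] at h4
        exact (CharP.cast_eq_zero_iff k p _).1 h4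
    choose ν hν using hd
    obtain ⟨r, hr⟩ := IsAlgClosed.exists_pow_nat_eq (coeff μ f) hp
    refine ⟨monomial (Finsupp.equivFunOnFinite.symm ν) r, ?_⟩
    rw [monomial_pow, hr]
    congr 2
    ext i
    simp [hν i]
  choose! g hg using h1
  refine ⟨∑ μ ∈ f.support, g μ, ?_⟩
  rw [sum_pow_char]
  conv_lhs => rw [f.as_sum]
  exact Finset.sum_congr rfl hg

theorem exists_pow_of_dK [IsAlgClosed k] (c : K k) (h : ∀ i, dK k i c = 0) :
    ∃ b : K k, c = b ^ p := by
  have hp : 0 < p := (Fact.out : p.Prime).pos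
  obtain ⟨a, b, hb, rfl⟩ := IsFractionRing.div_surjective (A := A k) c
  have hb' : algebraMap (A k) (K k) b ≠ 0 := by
    simpa using nonZeroDivisors.ne_zero hb
  have h1 : algebraMap (A k) (K k) (a * b ^ (p - 1)) =
      algebraMap (A k) (K k) a / algebraMap (A k) (K k) b * algebraMap (A k) (K k) b ^ p := by
    obtain ⟨n, rfl⟩ : ∃ n, p = n + 1 := ⟨p - 1, by omega⟩
    rw [map_mul, map_pow, Nat.add_sub_cancel, pow_succ]
    field_simp
  obtain ⟨g, hg⟩ := exists_pow_of_dK_poly p (a * b ^ (p - 1)) fun i => by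
    apply IsFractionRing.injective (A k) (K k)
    rw [← dK_algebraMap, h1, Derivation.leibniz, dK_pow, h, smul_zero, smul_zero, add_zero,
      map_zero]
  refine ⟨algebraMap (A k) (K k) g / algebraMap (A k) (K k) b, ?_⟩
  rw [div_pow, ← map_pow, ← hg, h1, mul_div_assoc, div_self (pow_ne_zero _ hb'), mul_one]

omit [Fact p.Prime] [CharP k p] in
open Classical in
theorem cartier_circuit {ι : Type} [Fintype ι] (F : Submodule (K k) (ι → K k))
    (h : ∀ i, ∀ v ∈ F, dV i v ∈ F) (n : ℕ) : ∀ v ∈ F, v ≠ 0 →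
      (Finset.univ.filter fun l => v l ≠ 0).card ≤ n →
      ∃ u ∈ F, ∃ j, u j = 1 ∧ (∀ l, v l = 0 → u l = 0) ∧ ∀ i l, dK k i (u l) = 0 := by
  have hL : algebraMap (A k) (K k) (linProd k) ≠ 0 := by
    have : linProd k ≠ 0 := Finset.prod_ne_zero_iff.2 fun a _ => lin_ne_zero a
    simpa using this
  induction n with
  | zero =>
    intro v _ hv hc
    obtain ⟨j, hj⟩ := Function.ne_iff.1 hv
    have : 0 < (Finset.univ.filter fun l => v l ≠ 0).card :=
      Finset.card_pos.2 ⟨j, by simpa using hj⟩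
    omega
  | succ n ih =>
    intro v hvF hv hc
    obtain ⟨j, hj⟩ := Function.ne_iff.1 hv
    have hj' : v j ≠ 0 := hj
    set u : ι → K k := (v j)⁻¹ • v with hu
    have huF : u ∈ F := F.smul_mem _ hvF
    have huj : u j = 1 := by simp [hu, hj']
    have hul : ∀ l, v l = 0 → u l = 0 := fun l hl => by simp [hu, hl]
    by_cases hd : ∀ i, dV i u = 0
    · refine ⟨u, huF, j, huj, hul, fun i l => ?_⟩
      exact (mul_eq_zero.1 (congrFun (hd i) l)).resolve_left hL
    · push Not at hd
      obtain ⟨i, hi⟩ := hd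
      have hz : ∀ l, v l = 0 → dV i u l = 0 := fun l hl => by
        change _ * dK k i (u l) = 0
        rw [hul l hl, map_zero, mul_zero]
      have hzj : dV i u j = 0 := by
        change _ * dK k i (u j) = 0
        rw [huj, Derivation.map_one_eq_zero, mul_zero]
      obtain ⟨u', hu'F, j', h1, h2, h3⟩ := ih (dV i u) (h i u huF) hi (by
        have : (Finset.univ.filter fun l => dV i u l ≠ 0) ⊂ Finset.univ.filter fun l => v l ≠ 0 := by
          refine ⟨fun l hl => ?_, fun hs => ?_⟩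
          · simp only [Finset.mem_filter, Finset.mem_univ, true_and] at hl ⊢
            exact fun h0 => hl (hz l h0)
          · have := hs (show j ∈ Finset.univ.filter fun l => v l ≠ 0 by simpa using hj')
            simp [hzj] at this
        have := Finset.card_lt_card this
        omega)
      exact ⟨u', hu'F, j', h1, fun l hl => h2 l (hz l hl), h3⟩

/-- Cartier descent. -/
theorem cartier [IsAlgClosed k] {ι : Type} [Fintype ι] [DecidableEq ι]
    (F : Submodule (K k) (ι → K k)) (h : ∀ i, ∀ v ∈ F, dV i v ∈ F) :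
    ∃ F0 : Submodule (K k) (ι → K k), (∀ v, v ∈ F0 ↔ frV p v ∈ F) ∧
      F = Submodule.span (K k) (frV p '' (F0 : Set (ι → K k))) := by
  classical
  have hp : 0 < p := (Fact.out : p.Prime).pos
  let F0 : Submodule (K k) (ι → K k) :=
    { carrier := {v | frV p v ∈ F}
      add_mem' := fun {a b} ha hb => by
        have : frV p (a + b) = frV p a + frV p b := funext fun i => add_pow_char _ _ _
        change frV p (a + b) ∈ F
        rw [this]
        exact F.add_mem ha hb
      zero_mem' := by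
        have : frV p (0 : ι → K k) = 0 := funext fun i => zero_pow hp.ne'
        change frV p 0 ∈ F
        rw [this]
        exact F.zero_mem
      smul_mem' := fun c a ha => by
        have : frV p (c • a) = c ^ p • frV p a := funext fun i => mul_pow _ _ _
        change frV p (c • a) ∈ F
        rw [this]
        exact F.smul_mem _ ha }
  refine ⟨F0, fun v => Iff.rfl, le_antisymm ?_ (Submodule.span_le.2 ?_)⟩
  · have key : ∀ n : ℕ, ∀ v ∈ F, (Finset.univ.filter fun l => v l ≠ 0).card ≤ n →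
        v ∈ Submodule.span (K k) (frV p '' (F0 : Set (ι → K k))) := by
      intro n
      induction n with
      | zero =>
        intro v _ hc
        have : v = 0 := by
          funext l
          by_contra hl
          have : 0 < (Finset.univ.filter fun l => v l ≠ 0).card :=
            Finset.card_pos.2 ⟨l, by simpa using hl⟩
          omega
        rw [this]
        exact Submodule.zero_mem _
      | succ n ih =>
        intro v hvF hc
        by_cases hv : v = 0
        · rw [hv]; exact Submodule.zero_mem _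
        obtain ⟨u, huF, j, h1, h2, h3⟩ := cartier_circuit F h _ v hvF hv le_rfl
        choose b hb using fun l => exists_pow_of_dK p (u l) fun i => h3 i l
        have hub : frV p b = u := funext fun l => (hb l).symm
        have hu : u ∈ Submodule.span (K k) (frV p '' (F0 : Set (ι → K k))) :=
          Submodule.subset_span ⟨b, by change frV p b ∈ F; rwa [hub], hub⟩
        have hj : v j ≠ 0 := fun h0 => by simpa [h1] using h2 j h0
        have hw := ih (v - v j • u) (F.sub_mem hvF (F.smul_mem _ huF)) (by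
          have : (Finset.univ.filter fun l => (v - v j • u) l ≠ 0) ⊂
              Finset.univ.filter fun l => v l ≠ 0 := by
            refine ⟨fun l hl => ?_, fun hs => ?_⟩
            · simp only [Finset.mem_filter, Finset.mem_univ, true_and] at hl ⊢
              exact fun h0 => hl (by simp [h0, h2 l h0])
            · have := hs (show j ∈ Finset.univ.filter fun l => v l ≠ 0 by simpa using hj)
              simp [h1] at this
          have := Finset.card_lt_card this
          omega)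
        have := Submodule.add_mem _ hw (Submodule.smul_mem _ (v j) hu)
        rwa [sub_add_cancel] at this
    exact fun v hv => key _ v hv le_rfl
  · rintro _ ⟨v, hv, rfl⟩
    exact hv

theorem ker_frM {ι κ : Type} [Fintype ι] [DecidableEq ι] [Fintype κ] [DecidableEq κ]
    (π : Matrix κ ι (K k)) (F0 : Submodule (K k) (ι → K k)) (h : ∀ v, π *ᵥ v = 0 ↔ v ∈ F0)
    (v : ι → K k) :
    frM p π *ᵥ v = 0 ↔ v ∈ Submodule.span (K k) (frV p '' (F0 : Set (ι → K k))) := by
  classical
  have hp : 0 < p := (Fact.out : p.Prime).pos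
  constructor
  · intro hv
    let b := Module.Basis.ofVectorSpace (K k) (Tw p (K k))
    let o : Tw p (K k) →+ K k := ⟨⟨ofTw p, rfl⟩, fun _ _ => rfl⟩
    have ho : Function.Injective o := fun _ _ h => h
    have hos : ∀ (c : K k) (x : Tw p (K k)), o (c • x) = c ^ p * o x := fun _ _ => rfl
    have hot : ∀ x : K k, o (toTw p x) = x := fun _ => rfl
    have hc : ∀ s, (fun j => b.repr (toTw p (v j)) s) ∈ F0 := fun s => by
      rw [← h]
      funext i
      have h1 : ∑ j, π i j • toTw p (v j) = 0 := by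
        apply ho
        rw [map_sum, map_zero]
        simp only [hos, hot]
        exact congrFun hv i
      have h2 := congrArg (fun x => b.repr x s) h1
      simp only [map_sum, map_smul, map_zero, Finsupp.coe_finsetSum, Finset.sum_apply,
        Finsupp.smul_apply, smul_eq_mul, Finsupp.coe_zero, Pi.zero_apply] at h2
      exact h2
    have hsum : v = ∑ s ∈ Finset.univ.biUnion fun j => (b.repr (toTw p (v j))).support,
        o (b s) • frV p fun j => b.repr (toTw p (v j)) s := by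
      funext j
      have h1 := b.linearCombination_repr (toTw p (v j))
      rw [Finsupp.linearCombination_apply, Finsupp.sum_of_support_subset _
        (Finset.subset_biUnion_of_mem (fun j => (b.repr (toTw p (v j))).support)
          (Finset.mem_univ j)) (fun i a => a • b i) (fun i _ => zero_smul _ _)] at h1
      have h2 := congrArg o h1
      rw [map_sum, hot] at h2
      rw [Finset.sum_apply, ← h2]
      refine Finset.sum_congr rfl fun s _ => ?_
      rw [hos, mul_comm]
      rfl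
    rw [hsum]
    exact Submodule.sum_mem _ fun s _ =>
      Submodule.smul_mem _ _ (Submodule.subset_span ⟨_, hc s, rfl⟩)
  · intro hv
    have : Submodule.span (K k) (frV p '' (F0 : Set (ι → K k))) ≤
        LinearMap.ker (frM p π).mulVecLin := by
      rw [Submodule.span_le]
      rintro _ ⟨u, hu, rfl⟩
      change frM p π *ᵥ frV p u = 0
      rw [← frV_mulVec, (h u).2 hu]
      exact funext fun i => zero_pow hp.ne'
    exact this hv

variable {P : Par k} {lam : kˣ} {q : ℕ} {ι : Type} [Fintype ι] [DecidableEq ι]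

theorem dV_hom_linProd (lam : kˣ) (w : ℕ) :
    θA lam w (linProd k) = C ((lam ^ w : kˣ) : k) ^ 19 * linProd k := by
  have h : ∀ a, θA lam w (lin k a) = C ((lam ^ w : kˣ) : k) * lin k a := fun a => by
    have hC : ∀ x : k, θA lam w (C x) = C x := (θA lam w).commutes
    simp only [lin, map_add, map_mul, θK_dK_X, hC]
    ring
  simp only [linProd, map_prod, h, Finset.prod_mul_distrib, Finset.prod_const, Finset.card_univ,
    Fintype.card_fin]

theorem dV_hom (lam : kˣ) (w : ℕ) (Θ : Matrix ι ι (K k)) (i : Fin 3) :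
    HomDeg lam (θW lam w (frM p Θ)) (θW lam w (frM p Θ)) (dV i) (18 * w : ℕ) := by
  intro v
  ext j
  show ∑ l, Θ j l ^ p * θK lam w (algebraMap (A k) (K k) (linProd k) * dK k i (v l)) =
    ((lam ^ ((18 * w : ℕ) : ℤ) : kˣ) : k) •
      (algebraMap (A k) (K k) (linProd k) * dK k i (∑ l, Θ j l ^ p * θK lam w (v l)))
  rw [map_sum, Finset.mul_sum, Finset.smul_sum]
  refine Finset.sum_congr rfl fun l _ => ?_
  rw [Derivation.leibniz, dK_pow, smul_zero, add_zero, θK_dK, map_mul, θK_algebraMap,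
    dV_hom_linProd, zpow_natCast, mul_comm 18 w, pow_mul, Units.val_pow_eq_pow_val (lam ^ w),
    map_mul, map_pow, ← algebraMap_eq, ← IsScalarTower.algebraMap_apply]
  simp only [Algebra.smul_def, map_pow, Algebra.algebraMap_self, RingHom.id_apply]
  ring

/-! ### Subtask Win-b -/

/-- The entrywise operator `(∏ l a) ∂_i` on matrices. -/
noncomputable def dV_frobY_δ {ι : Type} (i : Fin 3) (U : Matrix ι ι (K k)) : Matrix ι ι (K k) :=
  U.map fun c => algebraMap (A k) (K k) (linProd k) * dK k i c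

omit [DecidableEq ι] in
theorem dV_frobY_mulVec (i : Fin 3) (U : Matrix ι ι (K k)) (v : ι → K k) :
    dV i (U *ᵥ v) = U *ᵥ dV i v + dV_frobY_δ i U *ᵥ v := by
  funext j
  change algebraMap (A k) (K k) (linProd k) * dK k i (∑ l, U j l * v l) =
    ∑ l, U j l * (algebraMap (A k) (K k) (linProd k) * dK k i (v l)) +
      ∑ l, algebraMap (A k) (K k) (linProd k) * dK k i (U j l) * v l
  rw [map_sum, Finset.mul_sum, ← Finset.sum_add_distrib]
  refine Finset.sum_congr rfl fun l _ => ?_
  rw [Derivation.leibniz, smul_eq_mul, smul_eq_mul]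
  ring

omit [DecidableEq ι] in
theorem dV_frobY_mul (i : Fin 3) (U V : Matrix ι ι (K k)) :
    dV_frobY_δ i (U * V) = dV_frobY_δ i U * V + U * dV_frobY_δ i V := by
  ext j l
  simp only [dV_frobY_δ, Matrix.map_apply, Matrix.mul_apply, Matrix.add_apply]
  rw [map_sum, Finset.mul_sum, ← Finset.sum_add_distrib]
  refine Finset.sum_congr rfl fun m _ => ?_
  rw [Derivation.leibniz, smul_eq_mul, smul_eq_mul]
  ring

omit [Fintype ι] [DecidableEq ι] in
theorem dV_frobY_smul (i : Fin 3) (c : K k) (U : Matrix ι ι (K k)) :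
    dV_frobY_δ i (c • U) =
      (algebraMap (A k) (K k) (linProd k) * dK k i c) • U + c • dV_frobY_δ i U := by
  ext j l
  simp only [dV_frobY_δ, Matrix.map_apply, Matrix.smul_apply, Matrix.add_apply, smul_eq_mul,
    Derivation.leibniz]
  ring

omit [Fintype ι] [DecidableEq ι] in
theorem dV_frobY_lin (i : Fin 3) (a b : k) (U V : Matrix ι ι (K k)) :
    dV_frobY_δ i (a • U + b • V) = a • dV_frobY_δ i U + b • dV_frobY_δ i V := by
  ext j l
  simp only [dV_frobY_δ, Matrix.map_apply, Matrix.smul_apply, Matrix.add_apply, map_add,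
    Derivation.map_smul, mul_add, mul_smul_comm]

omit [Fintype ι] [DecidableEq ι] in
theorem dV_frobY_frM (i : Fin 3) (U : Matrix ι ι (K k)) : dV_frobY_δ i (frM p U) = 0 := by
  ext j l
  simp only [dV_frobY_δ, frM, Matrix.map_apply, frobenius_def, dK_pow, mul_zero, Matrix.zero_apply]

theorem dV_frobY_pow (i : Fin 3) {W W' Z : Matrix ι ι (K k)} {c : K k} (h1 : W * W' = c • 1)
    (h2 : W' * W = c • 1) (h3 : dV_frobY_δ i W = c • Z) (h4 : Z * W = W * Z) (n : ℕ) :
    dV_frobY_δ i (W ^ n) = n • (W ^ n * W' * Z) := by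
  induction n with
  | zero =>
    ext j l
    by_cases h : j = l
    · subst h
      simp [dV_frobY_δ]
    · simp [dV_frobY_δ, Matrix.one_apply_ne h]
  | succ n ih =>
    have e1 : W ^ n * W' * Z * W = c • (W ^ n * Z) := by
      rw [mul_assoc, h4, ← mul_assoc, mul_assoc _ W', h2, mul_smul_comm, mul_one, smul_mul_assoc]
    have e2 : W ^ (n + 1) * W' * Z = c • (W ^ n * Z) := by
      rw [pow_succ, mul_assoc _ W, h1, mul_smul_comm, mul_one, smul_mul_assoc]
    rw [e2, pow_succ, dV_frobY_mul, ih, h3, smul_mul_assoc, e1, mul_smul_comm, add_smul, one_smul]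

theorem dV_frobY_inv (i : Fin 3) (a : Li) (γ : k) (hγ : γ ≠ 0) (n : ℕ) :
    algebraMap (A k) (K k) (linProd k) *
        dK k i ((algebraMap (A k) (K k) (C γ * lin k a))⁻¹ ^ n) =
      algebraMap (A k) (K k) (-(n : A k) * (∏ b ∈ Finset.univ.erase a, lin k b) *
        pderiv i (lin k a)) * (algebraMap (A k) (K k) (C γ * lin k a))⁻¹ ^ n := by
  have hinj : Function.Injective (algebraMap (A k) (K k)) := IsFractionRing.injective _ _
  have h1 : algebraMap (A k) (K k) (lin k a) ≠ 0 := (map_ne_zero_iff _ hinj).2 (lin_ne_zero a)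
  have h2 : algebraMap (A k) (K k) (C γ) ≠ 0 :=
    (map_ne_zero_iff _ hinj).2 fun h => hγ (C_eq_zero.1 h)
  rcases n with _ | n
  · simp
  rw [Derivation.leibniz_pow, Derivation.leibniz_inv, dK_algebraMap, pderiv_C_mul, linProd,
    ← Finset.mul_prod_erase _ _ (Finset.mem_univ a)]
  simp only [map_mul, map_neg, map_natCast, nsmul_eq_mul, smul_eq_mul, Nat.add_sub_cancel, pow_succ]
  field_simp

omit [Fintype ι] [DecidableEq ι] in
theorem dV_frobY_s (i : Fin 3) (Y : Gen → Matrix ι ι (K k)) (a : Li) :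
    dV_frobY_δ i (frobS p Y a) = (-((p / 2 : ℕ) : A k) * (∏ b ∈ Finset.univ.erase a, lin k b) *
      pderiv i (lin k a)) • frobS p Y a := by
  have h := dV_frobY_inv i a (1 : k) one_ne_zero (p / 2)
  rw [C_1, one_mul] at h
  rw [frobS, dV_frobY_smul, dV_frobY_frM, smul_zero, add_zero, h, mul_smul, algebraMap_smul]

set_option maxHeartbeats 800000 in
theorem dV_frobY_uv (hk : GoodChar k) {D D' : Adm P lam q ι} (h : IsFrob p D D') (i : Fin 3)
    (t : Tr) (e : k) (he : e ^ 2 = P.be t ^ 2) (U : Matrix ι ι (K k))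
    (hy : ((algebraMap (A k) (K k) (C (P.ga t ^ 2) * lin k t.c))⁻¹ ^ (p / 2)) •
      (frM p U * (P.al t • frobS p D.Y t.a + e • frobS p D.Y t.b) ^ (p / 2)) ∈ D'.act.range) :
    dV_frobY_δ i (((algebraMap (A k) (K k) (C (P.ga t ^ 2) * lin k t.c))⁻¹ ^ (p / 2)) •
      (frM p U * (P.al t • frobS p D.Y t.a + e • frobS p D.Y t.b) ^ (p / 2))) ∈ D'.act.range := by
  have hγ : P.ga t ^ 2 ≠ 0 := pow_ne_zero _ (par_ne_zero hk P t).2.2
  have hY : ∀ a, frobS p D.Y a = D'.Y (.s a) := fun a => by rw [h.Y]; rfl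
  have hs : ∀ a, frobS p D.Y a ∈ D'.act.range := fun a => ⟨_, (D'.act_y _).trans (hY a).symm⟩
  have hsm : ∀ (c : k) {M : Matrix ι ι (K k)}, M ∈ D'.act.range → c • M ∈ D'.act.range :=
    fun c M hM => by
      rw [← algebraMap_smul (A k) c M]
      exact Subalgebra.smul_mem _ hM _
  have hcomm : ∀ {M N : Matrix ι ι (K k)}, M ∈ D'.act.range → N ∈ D'.act.range →
      M * N = N * M := by
    rintro _ _ ⟨r, rfl⟩ ⟨r', rfl⟩
    change D'.act r * D'.act r' = D'.act r' * D'.act r
    rw [← map_mul, ← map_mul, mul_comm]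
  have hac : t.a ≠ t.c := (t.2.1.trans t.2.2.1).ne
  have hbc : t.b ≠ t.c := t.2.2.1.ne
  set c := algebraMap (A k) (K k) (C (P.ga t ^ 2) * lin k t.c) with hc
  set sa := frobS p D.Y t.a with hsa
  set sb := frobS p D.Y t.b with hsb
  let x : Li → A k := fun a => -((p / 2 : ℕ) : A k) *
    (∏ b ∈ (Finset.univ.erase a).erase t.c, lin k b) * pderiv i (lin k a)
  have hx : ∀ a, a ≠ t.c → dV_frobY_δ i (frobS p D.Y a) = lin k t.c • x a • frobS p D.Y a :=
    fun a ha => by
      rw [dV_frobY_s, smul_smul, ← Finset.mul_prod_erase _ _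
        (Finset.mem_erase.2 ⟨ha.symm, Finset.mem_univ _⟩)]
      congr 1
      simp only [x]
      ring
  have hW : P.al t • sa + e • sb ∈ D'.act.range := add_mem (hsm _ (hs _)) (hsm _ (hs _))
  have hW' : P.al t • sa - e • sb ∈ D'.act.range := sub_mem (hsm _ (hs _)) (hsm _ (hs _))
  have hZ : (P.ga t ^ 2)⁻¹ • (P.al t • x t.a • sa + e • x t.b • sb) ∈ D'.act.range :=
    hsm _ (add_mem (hsm _ (Subalgebra.smul_mem _ (hs _) _))
      (hsm _ (Subalgebra.smul_mem _ (hs _) _)))
  have hsq : ∀ a, frobS p D.Y a * frobS p D.Y a = lin k a • (1 : Matrix ι ι (K k)) := fun a => by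
    rw [hY, D'.rel.s, one_pow, one_mul, Algebra.algebraMap_eq_smul_one]
  have h1 : (P.al t • sa + e • sb) * (P.al t • sa - e • sb) = c • 1 := by
    have e1 : sb * sa = sa * sb := hcomm (hs _) (hs _)
    rw [hc, algebraMap_smul, ← lin_rel, ← he, sub_smul, mul_smul, mul_smul, ← hsq, ← hsq,
      ← algebraMap_eq, algebraMap_smul, algebraMap_smul, add_mul, mul_sub, mul_sub]
    simp only [smul_mul_assoc, mul_smul_comm, smul_smul, e1]
    module
  have h3 : dV_frobY_δ i (P.al t • sa + e • sb) =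
      c • (P.ga t ^ 2)⁻¹ • (P.al t • x t.a • sa + e • x t.b • sb) := by
    rw [dV_frobY_lin, hx _ hac, hx _ hbc, hc, algebraMap_smul, mul_smul (C (P.ga t ^ 2) : A k),
      ← algebraMap_eq, algebraMap_smul, smul_comm (lin k t.c) (P.ga t ^ 2)⁻¹,
      smul_inv_smul₀ hγ, smul_add, smul_comm (lin k t.c) (P.al t), smul_comm (lin k t.c) e]
  have h4 := dV_frobY_pow i h1 ((hcomm hW' hW).trans h1) h3 (hcomm hZ hW) (p / 2)
  rw [dV_frobY_smul, dV_frobY_mul, dV_frobY_frM, zero_mul, zero_add, h4, hc,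
    dV_frobY_inv i t.c _ hγ, mul_smul, algebraMap_smul, ← hc, mul_smul_comm,
    smul_comm (c⁻¹ ^ (p / 2)) (p / 2), ← mul_assoc, ← mul_assoc]
  have h5 := mul_mem (mul_mem hy hW') hZ
  rw [smul_mul_assoc (c⁻¹ ^ (p / 2)), smul_mul_assoc (c⁻¹ ^ (p / 2))] at h5
  exact add_mem (Subalgebra.smul_mem _ hy _) (nsmul_mem h5 _)

/-- The commutator of `dV i` with a generator lies in `R`. -/
theorem dV_frobY (hk : GoodChar k) {D D' : Adm P lam q ι} (h : IsFrob p D D') (i : Fin 3)
    (g : Gen) : ∃ r : R P, ∀ v, dV i (D'.Y g *ᵥ v) = D'.Y g *ᵥ dV i v + D'.act r *ᵥ v := by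
  suffices H : dV_frobY_δ i (D'.Y g) ∈ D'.act.range by
    obtain ⟨r, hr⟩ := H
    refine ⟨r, fun v => ?_⟩
    rw [dV_frobY_mulVec, ← hr]
    rfl
  have hy : D'.Y g ∈ D'.act.range := ⟨_, D'.act_y g⟩
  rw [h.Y] at hy ⊢
  cases g with
  | s a =>
    change dV_frobY_δ i (frobS p D.Y a) ∈ _
    rw [dV_frobY_s]
    exact Subalgebra.smul_mem _ hy _
  | u t =>
    simp only [frobY, sub_eq_add_neg, ← neg_smul] at hy ⊢
    exact dV_frobY_uv p hk h i t _ (neg_sq _) _ hy
  | v t => exact dV_frobY_uv p hk h i t _ rfl _ hy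

theorem dV_stab (hk : GoodChar k) {D D' : Adm P lam q ι} (h : IsFrob p D D') (i : Fin 3) :
    ∀ v ∈ D'.E, dV i v ∈ D'.E := by
  have hgen : ∀ (r : R P) (e : ι → K k), e ∈ D.E → D'.act r *ᵥ frV p e ∈ D'.E := fun r e he => by
    rw [h.E]
    exact Submodule.subset_span ⟨r, e, he, rfl⟩
  have key : ∀ (e : ι → K k), e ∈ D.E → ∀ r : R P, dV i (D'.act r *ᵥ frV p e) ∈ D'.E := by
    intro e he r
    induction r using R_induction P with
    | h0 a =>
      have h0 : dV i (frV p e) = 0 := by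
        funext j
        change algebraMap (A k) (K k) (linProd k) * dK k i (e j ^ p) = 0
        rw [dK_pow, mul_zero]
      have h1 := hgen 1 e he
      rw [map_one, one_mulVec] at h1
      rw [AlgHom.commutes, Algebra.algebraMap_eq_smul_one, smul_mulVec, one_mulVec, dV_smul, h0,
        smul_zero, zero_add]
      exact D'.E.smul_mem _ h1
    | hadd r r' hr hr' =>
      rw [map_add, add_mulVec, map_add]
      exact add_mem hr hr'
    | hmul g r hr =>
      obtain ⟨r', hr'⟩ := dV_frobY p hk h i g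
      rw [map_mul, D'.act_y, ← mulVec_mulVec, hr']
      exact add_mem (D'.Ystab g _ hr) (D'.act_mem r' (hgen r e he))
  intro v hv
  have hv' := hv
  rw [h.E] at hv'
  clear hv
  induction hv' using Submodule.span_induction with
  | mem x hx =>
    obtain ⟨r, e, he, rfl⟩ := hx
    exact key e he r
  | zero => rw [map_zero]; exact zero_mem _
  | add x y _ _ hx hy => rw [map_add]; exact add_mem hx hy
  | smul a x hx' hx =>
    rw [← h.E] at hx'
    rw [dV_smul]
    exact add_mem (D'.E.smul_mem _ hx) (D'.E.smul_mem _ hx')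

omit [Fact p.Prime] [CharP k p] in
theorem descent_ineq_hom {κ : Type} [Fintype κ] [DecidableEq κ] (w : ℕ) {Θ : Matrix ι ι (K k)}
    {Θ' : Matrix κ κ (K k)} {π : Matrix κ ι (K k)} (h : π * Θ = Θ' * π.map (θK lam w)) :
    HomDeg lam (θW lam w Θ) (θW lam w Θ') ((Matrix.toLin' π).restrictScalars (A k)) 0 := by
  intro v
  rw [zpow_zero, Units.val_one, one_smul]
  change Θ' *ᵥ (fun i => θK lam w ((π *ᵥ v) i)) = π *ᵥ (Θ *ᵥ fun i => θK lam w (v i))
  rw [mulVec_mulVec, h, ← mulVec_mulVec]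
  congr 1
  funext i
  exact RingHom.map_mulVec (θK lam w : K k →+* K k) π v i

omit [Fact p.Prime] [CharP k p] in
theorem descent_ineq_act {κ : Type} [Fintype κ] [DecidableEq κ] (D₁ : Adm P lam q ι)
    (D₂ : Adm P lam q κ) {π : Matrix κ ι (K k)} (h : ∀ g, π * D₁.Y g = D₂.Y g * π) (r : R P) :
    π * D₁.act r = D₂.act r * π := by
  induction r using R_induction P with
  | h0 a =>
    rw [AlgHom.commutes, AlgHom.commutes, Algebra.algebraMap_eq_smul_one,
      Algebra.algebraMap_eq_smul_one, Matrix.mul_smul, Matrix.smul_mul, Matrix.mul_one,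
      Matrix.one_mul]
  | hadd r r' h1 h2 => rw [map_add, map_add, Matrix.mul_add, Matrix.add_mul, h1, h2]
  | hmul g r h1 =>
    rw [map_mul, map_mul, Adm.act_y, Adm.act_y, ← Matrix.mul_assoc, h, Matrix.mul_assoc, h1,
      Matrix.mul_assoc]

omit [Fintype ι] [DecidableEq ι] in
theorem descent_ineq_frV_smul (a : A k) (v : ι → K k) : frV p (a • v) = a ^ p • frV p v := by
  funext i
  simp only [frV, Pi.smul_apply, Algebra.smul_def, mul_pow, map_pow]

theorem descent_ineq_stable (hk : GoodChar k) {D D' : Adm P lam q ι} (h : IsFrob p D D')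
    {F F0 : Submodule (K k) (ι → K k)} (hF : D'.Stable F) (h0 : ∀ v, v ∈ F0 ↔ frV p v ∈ F) :
    D.Stable F0 := by
  refine ⟨fun g v hv => ?_, fun σ v hv => ?_, fun v hv => ?_⟩
  · rw [h0] at hv ⊢
    rw [frV_mulVec, ← (frobY_rel p hk D.rel).2 g, ← h.Y]
    generalize frV p v = u at hv
    have : ∀ n : ℕ, D'.Y g ^ n *ᵥ u ∈ F := by
      intro n
      induction n with
      | zero => rwa [pow_zero, one_mulVec]
      | succ n ih => rw [pow_succ', ← mulVec_mulVec]; exact hF.1 g _ ih
    exact this p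
  · rw [h0] at hv ⊢
    rw [frV_mulVec, ← h.Γ]
    exact hF.2.1 σ _ hv
  · rw [h0] at hv ⊢
    have := hF.2.2 _ hv
    unfold Adm.θ at this ⊢
    rwa [h.Θ, θW_frV] at this

theorem descent_ineq_c1 [IsAlgClosed k] (hk : GoodChar k) (hl : InfOrd lam) (hq : 0 < q)
    {D D' : Adm P lam q ι} (h : IsFrob p D D') (hr : hull D.E ≤ D.E)
    (flR : FlatOff k (A k) (R P))
    (ha : 0 < (tauS lam (4 * q) (θR P lam q).toLinearMap ⊤).c0) :
    (D'.tau D'.E).c1 = p * (D.tau D.E).c1 + Fintype.card ι * ((1 - p) *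
      ((tauS lam (4 * q) (θR P lam q).toLinearMap ⊤).c1 /
        (tauS lam (4 * q) (θR P lam q).toLinearMap ⊤).c0)) := by
  have e := congrArg T3.c1 (rr_frob p hk hl hq h hr flR)
  simp only [T3.mul_c1, T3.sc, D.c0_eq hl hq, D'.c0_eq hl hq] at e
  field_simp
  linear_combination e

/-- Slopes of descending subspaces are multiplied by `p`. -/
theorem descent_ineq [IsAlgClosed k] [Nonempty ι] (hk : GoodChar k) (hl : InfOrd lam) (hq : 0 < q)
    {D D' : Adm P lam q ι} (h : IsFrob p D D') (hr : hull D.E ≤ D.E) (hss : D.SS)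
    (F : Submodule (K k) (ι → K k)) (hF : D'.Stable F) (hd : ∀ i, ∀ v ∈ F, dV i v ∈ F) :
    (D'.tau (hull D'.E ⊓ F.restrictScalars (A k))).c0 *
        ((D'.tau (hull D'.E)).c1 / Fintype.card ι - p / 2) ≤
      (D'.tau (hull D'.E ⊓ F.restrictScalars (A k))).c1 := by
  obtain ⟨F0, h0, hFs⟩ := cartier p F hd
  have hF0 := descent_ineq_stable p hk h hF h0
  obtain ⟨r, π, Q, hker, -, hY, -, hΘ, hE⟩ := D.exists_quot F0 hF0
  obtain ⟨Qh, qY, -, qΘ, qE⟩ := Q.exists_hull hl hq
  obtain ⟨Q', hQ'⟩ := exists_frob p hk hl hq Qh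
  have hw : 0 < 4 * q := by omega
  have hK : ∀ a b : R P, GoodPair k a b → KosOff P a b := fun a b hab =>
    D.kosOff hk hl hq hr hab
  have flR := flatOff_A_R hK
  have ha := (tau_R hk P hl hq fun t => hK _ _ (goodPair_uv hk P t)).1
  have e1 := descent_ineq_c1 p hk hl hq h hr flR ha
  have e2 := descent_ineq_c1 p hk hl hq hQ' (by rw [qE]; exact hull_hull _) flR ha
  generalize (1 - (p : ℚ)) * ((tauS lam (4 * q) (θR P lam q).toLinearMap ⊤).c1 /
        (tauS lam (4 * q) (θR P lam q).toLinearMap ⊤).c0) = c at e1 e2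
  -- the quotient map downstairs
  have hom : HomDeg lam D.θ Q.θ ((Matrix.toLin' π).restrictScalars (A k)) 0 :=
    descent_ineq_hom (4 * q) hΘ
  have kerπ : LinearMap.ker ((Matrix.toLin' π).restrictScalars (A k)) =
      F0.restrictScalars (A k) := by
    ext v
    exact hker v
  have t1 := tauS_map (gd_W hl hw D.Θ) D.gs _ hom
  rw [← hE, kerπ, ex_zero, one_mul] at t1
  have t2 := tauS_big (gd_W hl hw Q.Θ) (Q.gs.hull (gd_W hl hw Q.Θ)) Q.gs (le_hull _) le_rfl
  have t2' : (Qh.tau Qh.E).c1 = (Q.tau Q.E).c1 := by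
    unfold Adm.tau Adm.θ
    rw [qE, qΘ]
    exact t2.2.1
  -- the quotient map upstairs
  set L := (Matrix.toLin' (frM p π)).restrictScalars (A k) with hL
  have hLv : ∀ v, L v = frM p π *ᵥ v := fun v => rfl
  have hom' : HomDeg lam D'.θ Q'.θ L 0 := by
    apply descent_ineq_hom
    rw [h.Θ, hQ'.Θ, qΘ]
    unfold frM
    rw [← Matrix.map_mul, hΘ, Matrix.map_mul]
    congr 1
    ext i j
    simp only [Matrix.map_apply, frobenius_def, map_pow]
  have kerL : LinearMap.ker L = F.restrictScalars (A k) := by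
    ext v
    rw [LinearMap.mem_ker, hLv, ker_frM p π F0 hker, ← hFs]
    rfl
  have hact : ∀ s : R P, frM p π * D'.act s = Q'.act s * frM p π := by
    apply descent_ineq_act
    intro g
    rw [h.Y, hQ'.Y, qY]
    exact frobY_intertwine p hY g
  have hgen : ∀ (s : R P) (e : ι → K k),
      L (D'.act s *ᵥ frV p e) = Q'.act s *ᵥ frV p (π *ᵥ e) := by
    intro s e
    rw [hLv, mulVec_mulVec, hact, ← mulVec_mulVec, frV_mulVec]
  have gD' := gd_W hl hw D'.Θ
  have gQ' := gd_W hl hw Q'.Θ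
  have gsZ : GS lam Q'.θ (D'.E.map L) := D'.gs.map L hom'
  have gsH : GS lam D'.θ (hull D'.E) := D'.gs.hull gD'
  have gsW : GS lam Q'.θ ((hull D'.E).map L) := gsH.map L hom'
  have hZ1 : D'.E.map L ≤ Q'.E := by
    rw [h.E, Submodule.map_span_le]
    rintro _ ⟨s, e, he, rfl⟩
    rw [hgen, hQ'.E]
    apply Submodule.subset_span
    refine ⟨s, π *ᵥ e, ?_, rfl⟩
    rw [qE]
    apply le_hull
    rw [hE]
    exact ⟨e, he, rfl⟩
  have hZ2 : Q'.E ≤ hull (D'.E.map L) := by
    rw [hQ'.E, Submodule.span_le]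
    rintro _ ⟨s, e', he', rfl⟩ f hf
    rw [qE] at he'
    obtain ⟨a, ha1, ha2⟩ := he' f hf
    rw [hE] at ha2
    obtain ⟨e, he, hee⟩ := ha2
    have hee' : π *ᵥ e = a • e' := hee
    refine ⟨a ^ p, fun hd' => ha1 (hf.dvd_of_dvd_pow hd'), D'.act s *ᵥ frV p e, ?_, ?_⟩
    · rw [h.E]
      exact Submodule.subset_span ⟨s, e, he, rfl⟩
    · rw [hgen, hee', descent_ineq_frV_smul, mulVec_smul]
  have t3 := tauS_big gQ' Q'.gs gsZ hZ1 hZ2
  have t4 := tauS_big gD' gsH D'.gs (le_hull _) le_rfl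
  have t5 := tauS_torsion gQ' gsW gsZ (Submodule.map_mono (le_hull _)) (by
    rintro _ ⟨u, hu, rfl⟩
    obtain ⟨a, ha1, ha2⟩ := hu (X 0) MvPolynomial.X_prime
    refine ⟨a, fun h0 => ha1 (h0 ▸ dvd_zero _), a • u, ha2, map_smul _ _ _⟩)
  have t6 := tauS_map gD' gsH L hom'
  rw [kerL, ex_zero, one_mul] at t6
  have s1 := hss F0 hF0
  have c1 := D.c0_eq hl hq
  have c2 := D'.c0_eq hl hq
  have c3 := Q.c0_eq hl hq
  have c4 := Q'.c0_eq hl hq
  have t10 := congrArg T3.c0 t1
  have t11 := congrArg T3.c1 t1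
  have t60 := congrArg T3.c0 t6
  have t61 := congrArg T3.c1 t6
  simp only [T3.sub_c0, T3.sub_c1] at t10 t11 t60 t61
  rw [t2'] at e2
  unfold Adm.tau Adm.θ at *
  have hn : (0 : ℚ) < Fintype.card ι := by exact_mod_cast Fintype.card_pos
  have hp0 : (0 : ℚ) ≤ p := Nat.cast_nonneg _
  set n : ℚ := (Fintype.card ι : ℚ)
  set ρ : ℚ := (Fintype.card (Fin r) : ℚ)
  set m := (tauS lam (4 * q) (θW lam (4 * q) D'.Θ) (hull D'.E ⊓ F.restrictScalars (A k))).c0
  set x := (tauS lam (4 * q) (θW lam (4 * q) D'.Θ) (hull D'.E ⊓ F.restrictScalars (A k))).c1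
  set m0 := (tauS lam (4 * q) (θW lam (4 * q) D.Θ) (D.E ⊓ F0.restrictScalars (A k))).c0
  set x0 := (tauS lam (4 * q) (θW lam (4 * q) D.Θ) (D.E ⊓ F0.restrictScalars (A k))).c1
  set y := (tauS lam (4 * q) (θW lam (4 * q) D.Θ) D.E).c1
  have hm0 : m0 = n - ρ := by linarith
  have hm : m = n - ρ := by linarith [t3.1, t4.1, t5.1]
  have hx : p * x0 + (n - ρ) * c ≤ x := by
    have : (tauS lam (4 * q) (θW lam (4 * q) Q.Θ) Q.E).c1 = y - x0 := t11
    rw [this] at e2
    linarith [t3.2.1, t4.2.1, t5.2]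
  rw [t4.2.1, e1, hm]
  rw [hm0] at s1
  have s2 : (n - ρ) * (y / n - 1 / 2) ≤ x0 := by
    have : (n - ρ) * (y / n - 1 / 2) = (n - ρ) * (y - n / 2) / n := by
      field_simp
    rw [this, div_le_iff₀ hn]
    linarith
  have s3 := mul_le_mul_of_nonneg_left s2 hp0
  have s4 : (n - ρ) * ((p * y + n * c) / n - p / 2) =
      p * ((n - ρ) * (y / n - 1 / 2)) + (n - ρ) * c := by
    field_simp
    ring
  rw [s4]
  linarith

/-! ### Subtask Win-c -/

omit [Fact p.Prime] [CharP k p] [Fintype ι] [DecidableEq ι] in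
theorem window_frob_dV_smul (i : Fin 3) (c : K k) (v : ι → K k) :
    dV i (c • v) = c • dV i v + (algebraMap (A k) (K k) (linProd k) * dK k i c) • v := by
  funext j
  change algebraMap (A k) (K k) (linProd k) * dK k i (c * v j) =
    c * (algebraMap (A k) (K k) (linProd k) * dK k i (v j)) +
      algebraMap (A k) (K k) (linProd k) * dK k i c * v j
  rw [Derivation.leibniz, smul_eq_mul, smul_eq_mul]
  ring

omit [Fact p.Prime] [CharP k p] [Fintype ι] [DecidableEq ι] in
theorem window_frob_span {F : Submodule (K k) (ι → K k)} {S : Set (ι → K k)}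
    (hF : F = Submodule.span (K k) S) (O : (ι → K k) →ₗ[k] (ι → K k))
    (hO : ∀ (c : K k), ∀ v ∈ F, O v ∈ F → O (c • v) ∈ F) (h : ∀ v ∈ S, O v ∈ F) :
    ∀ v ∈ F, O v ∈ F := by
  intro v hv
  rw [hF] at hv
  induction hv using Submodule.span_induction with
  | mem x hx => exact h x hx
  | zero => rw [map_zero]; exact F.zero_mem
  | add x y _ _ hx hy => rw [map_add]; exact F.add_mem hx hy
  | smul c x hx ih => exact hO c x (by rw [hF]; exact hx) ih

theorem window_frob [IsAlgClosed k] [Nonempty ι] (hk : GoodChar k) (hl : InfOrd lam) (hq : 0 < q)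
    {D D' : Adm P lam q ι} (h : IsFrob p D D') (hr : hull D.E ≤ D.E) (hss : D.SS) :
    Window lam (4 * q) D'.θ (hull D'.E) (p / 2 + (Fintype.card ι + 1) * (72 * q + 1)) := by
  have hw : 0 < 4 * q := by omega
  have g : Gd lam (4 * q) D'.θ := gd_W hl hw _
  have hN : GS lam D'.θ (hull D'.E) := D'.gs.hull g
  obtain ⟨Dh, hY, hΓ, hΘ, hE⟩ := D'.exists_hull hl hq
  have hc0 : (D'.tau (hull D'.E)).c0 = Fintype.card ι := by
    have := Dh.c0_eq hl hq
    unfold Adm.tau Adm.θ at this ⊢
    rwa [hΘ, hE] at this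
  obtain ⟨F, μ, h1, h2, hspan, hgs, hmin, hop⟩ :=
    exists_level g hN ((D'.tau (hull D'.E)).c1 / Fintype.card ι - p / 2) (72 * q)
  have hmat : ∀ (U : Matrix ι ι (K k)) (e : ℕ), e ≤ 72 * q →
      HomDeg lam D'.θ D'.θ (fun v => U *ᵥ v) e → (∀ v ∈ hull D'.E, U *ᵥ v ∈ hull D'.E) →
      ∀ v ∈ F, U *ᵥ v ∈ F := by
    intro U e he hd hs
    refine window_frob_span hspan ((Matrix.mulVecLin U).restrictScalars k) (fun c v _ hv => ?_)
      (hop ((Matrix.mulVecLin U).restrictScalars k) e he hd hs fun a v _ => ?_)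
    · change U *ᵥ (c • v) ∈ F
      rw [Matrix.mulVec_smul]
      exact F.smul_mem c hv
    · change U *ᵥ (a • v) - a • (U *ᵥ v) ∈ F
      rw [Matrix.mulVec_smul, sub_self]
      exact F.zero_mem
  have hst : D'.Stable F := by
    refine ⟨fun g' => hmat _ (q * g'.deg) ?_ (D'.θY g') ?_, fun σ => hmat _ 0 (Nat.zero_le _)
      (D'.θΓ σ) ?_, ?_⟩
    · cases g' <;> simp only [Gen.deg] <;> omega
    · have := Dh.Ystab g'
      rwa [hY, hE] at this
    · have := Dh.Γstab σ
      rwa [hΓ, hE] at this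
    · refine window_frob_span hspan D'.θ (fun c v _ hv => ?_) fun v hv => (hgs.stable v hv).2
      rw [θW_smul]
      exact F.smul_mem _ hv
  have hd : ∀ i, ∀ v ∈ F, dV i v ∈ F := by
    intro i
    refine window_frob_span hspan (dV i) (fun c v hv hv' => ?_)
      (hop (dV i) (18 * (4 * q)) (by omega) ?_ (dV_hull i (dV_stab p hk h i)) fun a v hv => ?_)
    · rw [window_frob_dV_smul]
      exact F.add_mem (F.smul_mem _ hv') (F.smul_mem _ hv)
    · have := dV_hom p lam (4 * q) D.Θ i
      rwa [← h.Θ] at this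
    · rw [dV_smul, add_sub_cancel_left]
      exact Submodule.smul_of_tower_mem F _ hv.2
  have hdesc := descent_ineq p hk hl hq h hr hss F hst hd
  have hpos : 0 ≤ (D'.tau (hull D'.E ⊓ F.restrictScalars (A k))).c0 := by
    rw [tauS_rank g hgs]
    exact Nat.cast_nonneg _
  intro F' hF' hle
  have hpos' : 0 ≤ (D'.tau F').c0 := by
    rw [tauS_rank g hF']
    exact Nat.cast_nonneg _
  have h3 := hmin F' hF' hle
  change (D'.tau F').c0 * ((D'.tau (hull D'.E)).c1 / (D'.tau (hull D'.E)).c0 - _) ≤ (D'.tau F').c1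
  change _ - ((D'.tau (hull D'.E)).c0 + 1) * _ ≤ μ at h1
  rw [hc0] at h1 ⊢
  push_cast at h1
  have h4 := mul_le_mul_of_nonneg_left h2 hpos
  have h5 := mul_le_mul_of_nonneg_left h1 hpos'
  change (D'.tau (hull D'.E ⊓ F.restrictScalars (A k))).c1 -
    μ * (D'.tau (hull D'.E ⊓ F.restrictScalars (A k))).c0 ≤
      (D'.tau F').c1 - μ * (D'.tau F').c0 at h3
  nlinarith

/-- The scale used for rank `ρ`. -/
def qOf (ρ : ℕ) : ℕ := ρ * (ρ + 1)

/-- The characteristic must exceed this bound. -/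
def pOf (ρ : ℕ) : ℕ := 2 * (qOf ρ * (ρ + 1) * (72 * qOf ρ + 1) + 2 * ρ + 2) + 61

/-- The contradiction in large characteristic. -/
theorem charp_false [IsAlgClosed k] [Nonempty ι] (hl : InfOrd lam) (hp : pOf (Fintype.card ι) ≤ p)
    (D : Adm P lam (qOf (Fintype.card ι)) ι) (hss : D.SS) (hsig : 0 ≤ (D.tau D.E).sig) : False := by
  have hρ : 1 ≤ Fintype.card ι := Fintype.card_pos
  have hq : 0 < qOf (Fintype.card ι) := Nat.mul_pos hρ (Nat.succ_pos _)
  have hp61 : 61 ≤ p := le_trans (Nat.le_add_left _ _) hp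
  have hk : GoodChar k := fun n hn hn' h0 => by
    have := Nat.le_of_dvd hn ((CharP.cast_eq_zero_iff k p n).1 h0)
    omega
  obtain ⟨Dh, hY, hΓ, hΘ, hE⟩ := D.exists_hull hl hq
  obtain ⟨hss', hsig'⟩ := D.SS_hull Dh hl hq hY hΓ hΘ hE hss
  have hr : hull Dh.E ≤ Dh.E := by
    rw [hE]
    exact hull_hull _
  obtain ⟨D', hD'⟩ := exists_frob p hk hl hq Dh
  have hK : ∀ a b : R P, GoodPair k a b → KosOff P a b := fun a b hab =>
    Dh.kosOff hk hl hq hr hab
  obtain ⟨hr0, hrs⟩ := tau_R hk P hl hq fun t => hK _ _ (goodPair_uv hk P t)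
  have hrr := congrArg T3.sig (rr_frob p hk hl hq hD' hr (flatOff_A_R hK))
  rw [T3.sig_mul, T3.sig_mul, T3.sig_sc, T3.sig_sc, hrs, D'.c0_eq hl hq] at hrr
  change _ + (tauS lam _ _ ⊤).c0 ^ 2 * _ = _ + (Dh.tau Dh.E).c0 ^ 2 * _ at hrr
  rw [Dh.c0_eq hl hq] at hrr
  have hw : 0 < 4 * qOf (Fintype.card ι) := by omega
  have g : Gd lam (4 * qOf (Fintype.card ι)) D'.θ := gd_W hl hw _
  have hN : GS lam D'.θ (hull D'.E) := D'.gs.hull g
  obtain ⟨b0, b1, b2⟩ := tauS_big g hN D'.gs (le_hull _) le_rfl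
  have hc0 := D'.c0_eq hl hq
  have hbog := bog g hN (hull_hull _) (by positivity) (window_frob p hk hl hq hD' hr hss')
    (b0.trans hc0) (by exact_mod_cast hρ)
  have hsle : (D'.tau D'.E).sig ≤ (D'.tau (hull D'.E)).sig := by
    unfold T3.sig
    change _ ≤ 2 * (tauS lam _ D'.θ (hull D'.E)).c0 * (tauS lam _ D'.θ (hull D'.E)).c2 -
      (tauS lam _ D'.θ (hull D'.E)).c1 ^ 2
    rw [b0, b1, hc0]
    have : (0 : ℚ) ≤ 2 * Fintype.card ι := by positivity
    have := mul_le_mul_of_nonneg_left b2 this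
    linarith
  have hp' : (2 * (qOf (Fintype.card ι) * (Fintype.card ι + 1) * (72 * qOf (Fintype.card ι) + 1) +
      2 * Fintype.card ι + 2) + 61 : ℚ) ≤ p := by exact_mod_cast hp
  have hqq : (Fintype.card ι : ℚ) * (Fintype.card ι + 1) = qOf (Fintype.card ι) := by
    unfold qOf
    push_cast
    ring
  rw [hqq] at hbog
  have hq1 : (1 : ℚ) ≤ qOf (Fintype.card ι) := by exact_mod_cast hq
  have hρ1 : (1 : ℚ) ≤ Fintype.card ι := by exact_mod_cast hρ
  have hp1 : (61 : ℚ) ≤ p := by exact_mod_cast hp61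
  generalize (tauS lam (4 * qOf (Fintype.card ι)) (θR P lam (qOf (Fintype.card ι))).toLinearMap
    ⊤).c0 = r at hr0 hrr
  change (D'.tau (hull D'.E)).sig ≤ _ at hbog
  generalize (D'.tau (hull D'.E)).sig = s2 at hbog hsle
  generalize (D'.tau D'.E).sig = s1 at hsle hrr
  have hs0 : 0 ≤ (Dh.tau Dh.E).sig := hsig.trans hsig'
  generalize (Dh.tau Dh.E).sig = s0 at hs0 hrr
  generalize (qOf (Fintype.card ι) : ℚ) = Q at hrr hbog hp' hq1
  generalize (Fintype.card ι : ℚ) = ρ at hrr hbog hp' hρ1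
  generalize (p : ℚ) = x at hrr hbog hp' hp1
  have e1 : s1 = x ^ 2 * s0 + ρ ^ 2 * (x ^ 2 - 1) * (3 / 2) * Q ^ 2 := by
    have hr2 : r ^ 2 ≠ 0 := pow_ne_zero _ hr0.ne'
    apply mul_left_cancel₀ hr2
    linear_combination hrr
  have e2 : Q * (x / 2 + (ρ + 1) * (72 * Q + 1)) + 2 * ρ + 2 ≤ Q * x := by nlinarith
  have e3 : 0 ≤ Q * (x / 2 + (ρ + 1) * (72 * Q + 1)) + 2 * ρ + 2 := by positivity
  have e4 := pow_le_pow_left₀ e3 e2 2
  have e5 : s2 ≤ ρ ^ 2 * ((Q * x) ^ 2 + 1) :=
    hbog.trans (mul_le_mul_of_nonneg_left (by linarith) (sq_nonneg ρ))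
  have e6 : ρ ^ 2 * ((x ^ 2 - 1) * (3 / 2) * Q ^ 2) ≤ ρ ^ 2 * ((Q * x) ^ 2 + 1) := by
    have := mul_nonneg (sq_nonneg x) hs0
    nlinarith
  have e7 := le_of_mul_le_mul_left e6 (by positivity)
  have e8 : (1 : ℚ) ≤ Q ^ 2 := one_le_pow₀ hq1
  have e9 : (3721 : ℚ) ≤ x ^ 2 := by nlinarith
  nlinarith

end Crest.Agent.R169
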