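import Crest.Agent.R169.PD
import Crest.Agent.R169.Win

/-!
# Row 169: `R` has no representation on a nonzero free module over power series
-/

set_option autoImplicit false

namespace Crest.Agent.R169

theorem infOrd_two : InfOrd (Units.mk0 (2 : ℂ) two_ne_zero) := by
  intro n hn
  have h : ((2 : ℂ)) ^ n = 1 := by simpa using congrArg (fun u : ℂˣ => (u : ℂ)) hn
  have h2 : ((2 : ℝ)) ^ n = 1 := by simpa [norm_zpow] using congrArg norm h
  exact (zpow_eq_one_iff_right₀ (by norm_num) (by norm_num)).mp h2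

theorem core (P : Par ℂ) {ι : Type} [Fintype ι] [DecidableEq ι] [Nonempty ι]
    (ψ : R P →ₐ[A ℂ] Matrix ι ι (PS ℂ)) : False := by
  obtain ⟨n, hn, ⟨D⟩⟩ := exists_pdata ψ
  have : Nonempty (Fin n) := ⟨⟨0, hn⟩⟩
  have hq : 0 < qOf (Fintype.card (Fin n)) := by
    simp only [qOf, Fintype.card_fin]; positivity
  obtain ⟨E, b, H, dH, hNF, hss, hsig⟩ := exists_adm D infOrd_two hq
  obtain ⟨m, dg, X, E', hH, hE', hss', htau⟩ := exists_pd infOrd_two hq E hNF
  obtain ⟨Λ, _, _, φ, X0, hφ, hfg, rfl⟩ := X.exists_descent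
  have : CharZero Λ := (RingHom.charZero_iff hφ).mpr inferInstance
  have : IsNoetherianRing Λ := Algebra.FiniteType.isNoetherianRing ℤ Λ
  have hH0 : X0.H ≠ 0 := fun h => hH (by simp [PD.map, h])
  obtain ⟨a, ha, hall⟩ := spread hq X0 φ hφ hH0 infOrd_two E' hE' (hss' hss)
  obtain ⟨k, _, _, p, _, _, lam, φ', hp, hl, hφ'⟩ :=
    exists_charp_point a ha (pOf (Fintype.card (Fin n)))
  obtain ⟨hH', hall'⟩ := hall k φ' hφ'
  obtain ⟨D', hD'⟩ := (X0.map φ').exists_adm hH' hl hq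
  obtain ⟨hs, ht⟩ := hall' lam D' hl hD'
  exact charp_false p hl hp D' hs (by rw [ht, htau]; exact hsig)

end Crest.Agent.R169
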