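import Mathlib

/-!
# Row 169 (no small maximal Cohen-Macaulay module): basic definitions

Gradings are encoded by a `k`-linear map `θ` and a unit `lam` of infinite order: the degree `n`
part is the eigenspace of `θ` for `lam ^ n`.  `A k = k[x,y,z]`, each variable has weight `w`.
`tauS lam w θ N ∈ ℚ[s]/(s^3)` is `P(e^s)` where `P(t) = (1 - t^w)^3 * (Hilbert series of N)`.
-/

set_option autoImplicit false

namespace Crest.Agent.R169

open MvPolynomial

/-- `ℚ[s]/(s^3)`: the element `c0 + c1 s + c2 s^2`. -/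
@[ext] structure T3 where
  c0 : ℚ
  c1 : ℚ
  c2 : ℚ

namespace T3

instance : Zero T3 := ⟨⟨0, 0, 0⟩⟩
instance : One T3 := ⟨⟨1, 0, 0⟩⟩
instance : Add T3 := ⟨fun a b => ⟨a.c0 + b.c0, a.c1 + b.c1, a.c2 + b.c2⟩⟩
instance : Neg T3 := ⟨fun a => ⟨-a.c0, -a.c1, -a.c2⟩⟩
instance : Mul T3 :=
  ⟨fun a b => ⟨a.c0 * b.c0, a.c0 * b.c1 + a.c1 * b.c0, a.c0 * b.c2 + a.c1 * b.c1 + a.c2 * b.c0⟩⟩

@[simp] theorem zero_c0 : (0 : T3).c0 = 0 := rfl
@[simp] theorem zero_c1 : (0 : T3).c1 = 0 := rfl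
@[simp] theorem zero_c2 : (0 : T3).c2 = 0 := rfl
@[simp] theorem one_c0 : (1 : T3).c0 = 1 := rfl
@[simp] theorem one_c1 : (1 : T3).c1 = 0 := rfl
@[simp] theorem one_c2 : (1 : T3).c2 = 0 := rfl
@[simp] theorem add_c0 (a b : T3) : (a + b).c0 = a.c0 + b.c0 := rfl
@[simp] theorem add_c1 (a b : T3) : (a + b).c1 = a.c1 + b.c1 := rfl
@[simp] theorem add_c2 (a b : T3) : (a + b).c2 = a.c2 + b.c2 := rfl
@[simp] theorem neg_c0 (a : T3) : (-a).c0 = -a.c0 := rfl
@[simp] theorem neg_c1 (a : T3) : (-a).c1 = -a.c1 := rfl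
@[simp] theorem neg_c2 (a : T3) : (-a).c2 = -a.c2 := rfl
@[simp] theorem mul_c0 (a b : T3) : (a * b).c0 = a.c0 * b.c0 := rfl
@[simp] theorem mul_c1 (a b : T3) : (a * b).c1 = a.c0 * b.c1 + a.c1 * b.c0 := rfl
@[simp] theorem mul_c2 (a b : T3) :
    (a * b).c2 = a.c0 * b.c2 + a.c1 * b.c1 + a.c2 * b.c0 := rfl

instance : AddCommGroup T3 where
  add_assoc a b c := by ext <;> simp <;> ring
  zero_add a := by ext <;> simp
  add_zero a := by ext <;> simp
  add_comm a b := by ext <;> simp <;> ring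
  neg_add_cancel a := by ext <;> simp
  nsmul := nsmulRec
  zsmul := zsmulRec

instance : CommRing T3 where
  left_distrib a b c := by ext <;> simp <;> ring
  right_distrib a b c := by ext <;> simp <;> ring
  zero_mul a := by ext <;> simp
  mul_zero a := by ext <;> simp
  mul_assoc a b c := by ext <;> simp <;> ring
  one_mul a := by ext <;> simp
  mul_one a := by ext <;> simp
  mul_comm a b := by ext <;> simp <;> ring

@[simp] theorem sub_c0 (a b : T3) : (a - b).c0 = a.c0 - b.c0 := by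
  rw [sub_eq_add_neg, add_c0, neg_c0, sub_eq_add_neg]
@[simp] theorem sub_c1 (a b : T3) : (a - b).c1 = a.c1 - b.c1 := by
  rw [sub_eq_add_neg, add_c1, neg_c1, sub_eq_add_neg]
@[simp] theorem sub_c2 (a b : T3) : (a - b).c2 = a.c2 - b.c2 := by
  rw [sub_eq_add_neg, add_c2, neg_c2, sub_eq_add_neg]

/-- `s ↦ p s`. -/
def sc (p : ℚ) (a : T3) : T3 := ⟨a.c0, p * a.c1, p ^ 2 * a.c2⟩

/-- `c0^2` times the variance. -/
def sig (a : T3) : ℚ := 2 * a.c0 * a.c2 - a.c1 ^ 2

/-- Lexicographic positivity of the asymptotic Hilbert polynomial. -/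
def Pos (a : T3) : Prop := 0 ≤ a.c0 ∧ (a.c0 = 0 → a.c1 ≤ 0 ∧ (a.c1 = 0 → 0 ≤ a.c2))

end T3

/-- `e^(n s)`. -/
def ex (n : ℤ) : T3 := ⟨1, n, (n : ℚ) ^ 2 / 2⟩

/-- `h ↦ (1 - t^w) h`. -/
def dif (w : ℕ) (h : ℤ → ℚ) : ℤ → ℚ := fun n => h n - h (n - w)

/-- `(1 - t^w)^3 h`. -/
def dif3 (w : ℕ) (h : ℤ → ℚ) : ℤ → ℚ := dif w (dif w (dif w h))

/-- `P(e^s)` for `P = (1 - t^w)^3 h`. -/
noncomputable def tauH (w : ℕ) (h : ℤ → ℚ) : T3 :=
  ⟨∑ᶠ a : ℤ, dif3 w h a, ∑ᶠ a : ℤ, dif3 w h a * a, ∑ᶠ a : ℤ, dif3 w h a * ((a : ℚ) ^ 2 / 2)⟩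

/-- A Hilbert function: vanishes far to the left and `(1 - t^w)^3 h` is a Laurent polynomial. -/
def IsHF (w : ℕ) (h : ℤ → ℚ) : Prop :=
  (∃ b : ℤ, ∀ n < b, h n = 0) ∧ (Function.support (dif3 w h)).Finite

/-- Hilbert function of `k[x,y,z]` with all weights `w`. -/
def hA (w : ℕ) (i : ℤ) : ℚ :=
  if (w : ℤ) ∣ i ∧ 0 ≤ i then ((i / w + 2) * (i / w + 1) : ℤ) / (2 : ℚ) else 0

/-- The quasi-polynomial `hA w i + hA w (-3w - i)`. -/
def qq (w : ℕ) (i : ℤ) : ℚ :=
  if (w : ℤ) ∣ i then ((i / w + 2) * (i / w + 1) : ℤ) / (2 : ℚ) else 0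

/-- Triple sliding sum `((1 - t^w)/(1 - t))^3 h`. -/
def cube (w : ℕ) (h : ℤ → ℚ) (n : ℤ) : ℚ :=
  ∑ i ∈ Finset.range w, ∑ j ∈ Finset.range w, ∑ l ∈ Finset.range w, h (n - i - j - l)

/-- The polynomial ring in three variables. -/
abbrev A (k : Type) [CommRing k] : Type := MvPolynomial (Fin 3) k

/-- Its fraction field. -/
abbrev K (k : Type) [Field k] : Type := FractionRing (A k)

/-- Power series in three variables. -/
abbrev PS (k : Type) [CommRing k] : Type := MvPowerSeries (Fin 3) k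

variable {k : Type} [Field k]

/-- `lam` has infinite multiplicative order. -/
def InfOrd (lam : kˣ) : Prop := ∀ n : ℤ, lam ^ n = 1 → n = 0

section Graded

variable {V : Type} [AddCommGroup V] [Module k V]

/-- The degree `n` part. -/
def eig (lam : kˣ) (θ : V →ₗ[k] V) (n : ℤ) : Submodule k V :=
  Module.End.eigenspace θ ((lam ^ n : kˣ) : k)

theorem mem_eig {lam : kˣ} {θ : V →ₗ[k] V} {n : ℤ} {v : V} :
    v ∈ eig lam θ n ↔ θ v = ((lam ^ n : kˣ) : k) • v := Module.End.mem_eigenspace_iff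

variable [Module (A k) V] [IsScalarTower k (A k) V]

/-- The degree `n` part of an `A`-submodule. -/
noncomputable def piece (lam : kˣ) (θ : V →ₗ[k] V) (N : Submodule (A k) V) (n : ℤ) : Submodule k V :=
  N.restrictScalars k ⊓ eig lam θ n

/-- Hilbert function of an `A`-submodule. -/
noncomputable def hilb (lam : kˣ) (θ : V →ₗ[k] V) (N : Submodule (A k) V) (n : ℤ) : ℚ :=
  (Module.finrank k (piece lam θ N n) : ℚ)

/-- The class of an `A`-submodule in `ℚ[s]/(s^3)`. -/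
noncomputable def tauS (lam : kˣ) (w : ℕ) (θ : V →ₗ[k] V) (N : Submodule (A k) V) : T3 :=
  tauH w (hilb lam θ N)

/-- The variables raise the degree by `w`. -/
def Comm (lam : kˣ) (w : ℕ) (θ : V →ₗ[k] V) : Prop :=
  ∀ (i : Fin 3) (v : V), θ ((X i : A k) • v) = ((lam ^ w : kˣ) : k) • (X i : A k) • θ v

/-- A finitely generated graded submodule. -/
structure GS (lam : kˣ) (θ : V →ₗ[k] V) (N : Submodule (A k) V) : Prop where
  fg : N.FG
  diag : ∀ v ∈ N, v ∈ ⨆ n : ℤ, piece lam θ N n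

/-- Standing assumptions on a grading. -/
structure Gd (lam : kˣ) (w : ℕ) (θ : V →ₗ[k] V) : Prop where
  inf : InfOrd lam
  pos : 0 < w
  comm : Comm lam w θ

end Graded

/-- The grading automorphism of `A`. -/
noncomputable def θA (lam : kˣ) (w : ℕ) : A k ≃ₐ[k] A k :=
  AlgEquiv.ofAlgHom (aeval fun i => C ((lam ^ w : kˣ) : k) * X i)
    (aeval fun i => C (((lam ^ w)⁻¹ : kˣ) : k) * X i)
    (by
      ext i : 1
      simp only [AlgHom.comp_apply, aeval_X, map_mul, aeval_C, algebraMap_eq, AlgHom.id_apply]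
      rw [← mul_assoc, ← C_mul, Units.inv_mul, C_1, one_mul])
    (by
      ext i : 1
      simp only [AlgHom.comp_apply, aeval_X, map_mul, aeval_C, algebraMap_eq, AlgHom.id_apply]
      rw [← mul_assoc, ← C_mul, Units.mul_inv, C_1, one_mul])

/-- The grading automorphism of `K`. -/
noncomputable def θK (lam : kˣ) (w : ℕ) : K k ≃ₐ[k] K k :=
  IsFractionRing.algEquivOfAlgEquiv (θA lam w)

/-- Grading of the free module with generators in degrees `b i`. -/
noncomputable def θF {ι : Type} (lam : kˣ) (w : ℕ) (b : ι → ℤ) : (ι → A k) →ₗ[k] (ι → A k) where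
  toFun v i := ((lam ^ b i : kˣ) : k) • θA lam w (v i)
  map_add' v v' := by ext1 i; simp [smul_add]
  map_smul' c v := by ext1 i; simp [smul_comm c]

/-- Grading of `K^ι` given by a matrix. -/
noncomputable def θW {ι : Type} [Fintype ι] (lam : kˣ) (w : ℕ) (Θ : Matrix ι ι (K k)) :
    (ι → K k) →ₗ[k] (ι → K k) where
  toFun v := Θ.mulVec fun i => θK lam w (v i)
  map_add' v v' := by
    rw [← Matrix.mulVec_add]; congr 1; ext1 i; simp
  map_smul' c v := by
    rw [RingHom.id_apply, ← Matrix.mulVec_smul]; congr 1; ext1 i; simp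

/-- `f` is homogeneous of weighted degree `d` (all weights `w`); zero if that is impossible. -/
def HomZ {Λ : Type} [CommRing Λ] (w : ℕ) (f : A Λ) (d : ℤ) : Prop :=
  ∀ μ : Fin 3 →₀ ℕ, coeff μ f ≠ 0 → (w : ℤ) * (μ.degree : ℤ) = d

/-- Reflexive hull (intersection of the localisations at height one primes). -/
def hull {V : Type} [AddCommGroup V] [Module (A k) V] (N : Submodule (A k) V) :
    Submodule (A k) V where
  carrier := {v | ∀ f : A k, Prime f → ∃ h : A k, ¬ f ∣ h ∧ h • v ∈ N}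
  add_mem' := by
    intro a b ha hb f hf
    obtain ⟨h1, h1f, h1m⟩ := ha f hf
    obtain ⟨h2, h2f, h2m⟩ := hb f hf
    refine ⟨h1 * h2, fun hd => (hf.dvd_or_dvd hd).elim h1f h2f, ?_⟩
    rw [smul_add]
    refine N.add_mem ?_ ?_
    · rw [mul_comm, mul_smul]; exact N.smul_mem _ h1m
    · rw [mul_smul]; exact N.smul_mem _ h2m
  zero_mem' := fun f hf => ⟨1, fun hd => hf.not_isUnit (isUnit_of_dvd_one hd), by simp⟩
  smul_mem' := by
    intro c a ha f hf
    obtain ⟨h, hf', hm⟩ := ha f hf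
    exact ⟨h, hf', by rw [smul_comm]; exact N.smul_mem _ hm⟩

/-- First Koszul homology vanishes. -/
def KZ1 {S : Type} [CommRing S] {n : ℕ} (x : Fin n → S) (M : Type) [AddCommGroup M]
    [Module S M] : Prop :=
  ∀ e : Fin n → M, ∑ i, x i • e i = 0 →
    ∃ c : Fin n → Fin n → M, (∀ i j, c i j = -c j i) ∧ (∀ i, c i i = 0) ∧
      ∀ i, e i = ∑ j, x j • c i j

/-- Second Koszul homology (three elements) vanishes. -/
def KZ2 {S : Type} [CommRing S] (x : Fin 3 → S) (M : Type) [AddCommGroup M] [Module S M] : Prop :=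
  ∀ e : Fin 3 → M, (∀ i j, x i • e j = x j • e i) → ∃ m : M, ∀ i, e i = x i • m

/-- Third Koszul homology (three elements) vanishes. -/
def KZ3 {S : Type} [CommRing S] (x : Fin 3 → S) (M : Type) [AddCommGroup M] [Module S M] : Prop :=
  ∀ m : M, (∀ i, x i • m = 0) → m = 0

/-- The ideal of the line through the point `P`. -/
noncomputable def ptIdeal (P : Fin 3 → k) : Ideal (A k) :=
  RingHom.ker (aeval (fun i => Polynomial.C (P i) * Polynomial.X) : A k →ₐ[k] Polynomial k)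

/-- A prime lying over the ideal of a point of the projective plane. -/
def IsPt (k : Type) [Field k] {S : Type} [CommRing S] [Algebra (A k) S] (p : Ideal S) : Prop :=
  p.IsPrime ∧ ∃ P : Fin 3 → k, P ≠ 0 ∧ p.comap (algebraMap (A k) S) = ptIdeal P

/-- Flat away from the vertex, in the elementwise form in which it is used. -/
def FlatOff (k : Type) [Field k] (S : Type) [CommRing S] [Algebra (A k) S] (V : Type)
    [AddCommGroup V] [Module S V] : Prop :=
  ∀ p : Ideal S, IsPt k p → ∀ (N' N : Type) [AddCommGroup N'] [AddCommGroup N] [Module S N']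
    [Module S N] (f : N' →ₗ[S] N), Function.Injective f →
    ∀ z : TensorProduct S V N', LinearMap.lTensor V f z = 0 → ∃ h ∉ p, h • z = 0

end Crest.Agent.R169
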