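import Crest.Agent.R169.Adm

/-!
# Row 169: coordinates on a graded torsion-free module
-/

set_option autoImplicit false

namespace Crest.Agent.R169

open MvPolynomial Matrix

variable {k : Type} [Field k] {ι : Type} [Fintype ι] [DecidableEq ι]

section Basis

variable {lam : kˣ} {w : ℕ} {N : Type} [AddCommGroup N] [Module k N] [Module (A k) N]
  [IsScalarTower k (A k) N] {θ : N →ₗ[k] N}

omit [DecidableEq ι] in
/-- A homogeneous basis up to a homogeneous denominator. -/
theorem exists_adm_basis (g : Gd lam w θ) (hN : GS lam θ (⊤ : Submodule (A k) N))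
    (hρ : (tauS lam w θ (⊤ : Submodule (A k) N)).c0 = Fintype.card ι) :
    ∃ (e : ι → N) (d : ι → ℤ) (H : A k) (dH : ℕ), (∀ i, e i ∈ eig lam θ (d i)) ∧
      LinearIndependent (A k) e ∧ H ≠ 0 ∧ H.IsHomogeneous dH ∧
      ∀ v, H • v ∈ Submodule.span (A k) (Set.range e) := by
  classical
  obtain ⟨m, s, d, hs, hsp⟩ := hN.exists_gens
  obtain ⟨I, hI, hmax⟩ := exists_maximal_linearIndepOn (A k) s
  have hI' : LinearIndependent (A k) (fun i : I => s i) := hI
  have hr : Set.range (fun i : I => s i) = s '' I := by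
    ext x; simp
  have hgs : GS lam θ (Submodule.span (A k) (Set.range fun i : I => s i)) :=
    GS.span g _ (fun i : I => d i) fun i => hs i
  have hann : ∀ i, ∃ (f : A k) (j : ℕ), f ≠ 0 ∧ f.IsHomogeneous j ∧
      f • s i ∈ Submodule.span (A k) (Set.range fun i : I => s i) := by
    intro i
    by_cases hi : i ∈ I
    · exact ⟨1, 0, one_ne_zero, isHomogeneous_one _ _, by
        rw [one_smul]; exact Submodule.subset_span ⟨⟨i, hi⟩, rfl⟩⟩
    · obtain ⟨a, ha, ha'⟩ := hmax i hi
      rw [← hr] at ha'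
      exact exists_hom_ann g _ hgs.stable (hs i) ha ha'
  choose f j hf0 hfj hfs using hann
  have hH : ∀ v, (∏ i, f i) • v ∈ Submodule.span (A k) (Set.range fun i : I => s i) := by
    intro v
    have hv : v ∈ Submodule.span (A k) (Set.range s) := by rw [hsp]; trivial
    induction hv using Submodule.span_induction with
    | mem x hx =>
      obtain ⟨i, rfl⟩ := hx
      rw [← Finset.prod_erase_mul _ _ (Finset.mem_univ i), mul_smul]
      exact Submodule.smul_mem _ _ (hfs i)
    | zero => simp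
    | add x y _ _ hx hy => rw [smul_add]; exact Submodule.add_mem _ hx hy
    | smul a x _ hx => rw [smul_comm]; exact Submodule.smul_mem _ _ hx
  have hH0 : (∏ i, f i) ≠ 0 := Finset.prod_ne_zero_iff.2 fun i _ => hf0 i
  have h1 := (tauS_torsion g hN hgs le_top fun v _ => ⟨_, hH0, hH v⟩).1
  rw [hρ, tauS_free g _ (fun i : I => d i) (fun i => hs i) hI'] at h1
  have h2 : ∀ t : Finset I, (∑ i ∈ t, ex (d i)).c0 = t.card := by
    intro t
    induction t using Finset.induction_on with
    | empty => simp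
    | insert a t ha ih =>
      rw [Finset.sum_insert ha, T3.add_c0, ih, Finset.card_insert_of_notMem ha]
      simp [ex, add_comm]
  rw [h2, Finset.card_univ] at h1
  obtain ⟨σ⟩ : Nonempty (ι ≃ I) := Fintype.card_eq.1 (by exact_mod_cast h1)
  refine ⟨fun i => s (σ i), fun i => d (σ i), ∏ i, f i, ∑ i, j i, fun i => hs _,
    hI'.comp σ σ.injective, hH0, IsHomogeneous.prod _ _ _ fun i _ => hfj i, fun v => ?_⟩
  have : (Set.range fun i => s (σ i)) = Set.range fun i : I => s i :=
    σ.surjective.range_comp fun i : I => s i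
  rw [this]
  exact hH v

omit [Module k N] [IsScalarTower k (A k) N] [DecidableEq ι] in
theorem exists_adm_coord {e : ι → N} (hli : LinearIndependent (A k) e) {H : A k}
    (hH : ∀ v, H • v ∈ Submodule.span (A k) (Set.range e)) :
    ∃ c : N →ₗ[A k] (ι → A k), ∀ v a, c v = a ↔ H • v = ∑ i, a i • e i := by
  have hu : ∀ a a' : ι → A k, ∑ i, a i • e i = ∑ i, a' i • e i → a = a' := fun a a' h =>
    funext (Fintype.linearIndependent_iffₛ.1 hli a a' h)
  have hex : ∀ v, ∃ a : ι → A k, H • v = ∑ i, a i • e i := fun v => by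
    obtain ⟨a, ha⟩ := (Submodule.mem_span_range_iff_exists_fun _).1 (hH v)
    exact ⟨a, ha.symm⟩
  choose c hc using hex
  refine ⟨{ toFun := c, map_add' := fun v v' => hu _ _ ?_, map_smul' := fun a v => hu _ _ ?_ },
    fun v a => ⟨fun h => ?_, fun h => hu _ _ ((hc v).symm.trans h)⟩⟩
  · rw [← hc, smul_add, hc, hc, ← Finset.sum_add_distrib]
    simp [add_smul]
  · rw [← hc, smul_comm, hc, Finset.smul_sum]
    simp [mul_smul]
  · rw [← h]; exact hc v

end Basis

section Mat

variable {N : Type} [AddCommGroup N] [Module (A k) N]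

/-- Matrices of the endomorphisms of a lattice. -/
theorem exists_adm_mat (e : N →ₗ[A k] (ι → K k)) (e0 : ι → N) {H : A k} (hH : H ≠ 0)
    (h0 : ∀ j, e (e0 j) = Pi.single j (algebraMap (A k) (K k) H))
    (hc : ∀ v, ∃ a : ι → A k, H • v = ∑ i, a i • e0 i ∧
      ∀ i, e v i = algebraMap (A k) (K k) (a i)) :
    ∃ Ψ : Module.End (A k) N →ₐ[A k] Matrix ι ι (K k), ∀ φ v, e (φ v) = Ψ φ *ᵥ e v := by
  have hh : algebraMap (A k) (K k) H ≠ 0 :=
    fun h => hH (IsFractionRing.injective (A k) (K k) (h.trans (map_zero _).symm))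
  have hext : ∀ M M' : Matrix ι ι (K k), (∀ v, M *ᵥ e v = M' *ᵥ e v) → M = M' := by
    intro M M' h
    ext i j
    have := congrFun (h (e0 j)) i
    rw [h0] at this
    simp only [mulVec, dotProduct_single] at this
    exact mul_right_cancel₀ hh this
  have hex : ∀ φ : Module.End (A k) N, ∃ M : Matrix ι ι (K k), ∀ v, e (φ v) = M *ᵥ e v := by
    intro φ
    refine ⟨Matrix.of fun i j => (algebraMap (A k) (K k) H)⁻¹ * e (φ (e0 j)) i, fun v => ?_⟩
    obtain ⟨a, ha, ha'⟩ := hc v
    funext i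
    have h1 := congrFun (congrArg (fun z => e (φ z)) ha) i
    simp only [map_smul, map_sum, Pi.smul_apply, Finset.sum_apply] at h1
    simp only [Algebra.smul_def] at h1
    refine mul_left_cancel₀ hh ?_
    rw [h1]
    simp only [mulVec, dotProduct, Matrix.of_apply, ha', Finset.mul_sum]
    refine Finset.sum_congr rfl fun j _ => ?_
    field_simp
  choose M hM using hex
  refine ⟨{ toFun := M
            map_one' := hext _ _ fun v => ?_
            map_mul' := fun φ ψ => hext _ _ fun v => ?_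
            map_zero' := hext _ _ fun v => ?_
            map_add' := fun φ ψ => hext _ _ fun v => ?_
            commutes' := fun a => hext _ _ fun v => ?_ }, hM⟩
  · rw [← hM]; simp
  · rw [← hM, ← mulVec_mulVec, ← hM, ← hM]; rfl
  · rw [← hM]; simp
  · rw [← hM, add_mulVec, ← hM, ← hM]; simp
  · rw [← hM, Algebra.algebraMap_eq_smul_one, Algebra.algebraMap_eq_smul_one, smul_mulVec,
      one_mulVec]
    simp

omit [Fintype ι] in
theorem exists_adm_den [Finite ι] (e : N →ₗ[A k] (ι → K k)) (e0 : ι → N) {H : A k} (hH : H ≠ 0)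
    (h0 : ∀ j, e (e0 j) = Pi.single j (algebraMap (A k) (K k) H)) (x : ι → K k) :
    ∃ a : A k, a ≠ 0 ∧ ∃ v, a • x = e v := by
  cases nonempty_fintype ι
  obtain ⟨b, hb⟩ := IsLocalization.exist_integer_multiples_of_finite (nonZeroDivisors (A k)) x
  choose c hc using hb
  refine ⟨H * b, mul_ne_zero hH (nonZeroDivisors.ne_zero b.2), ∑ j, c j • e0 j, ?_⟩
  funext i
  simp only [map_sum, map_smul, h0, Finset.sum_apply, Pi.smul_apply]
  rw [Finset.sum_eq_single i (fun j _ hj => by simp [Pi.single_eq_of_ne hj.symm]) (by simp),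
    Pi.single_eq_same, mul_smul, ← hc i, Algebra.smul_def, Algebra.smul_def, mul_comm]

end Mat

theorem RelD.map_algHom {P : Par k} {B B' : Type} [Ring B] [Ring B'] [Algebra (A k) B]
    [Algebra (A k) B'] {δ : A k} {Y : Gen → B} (h : RelD P δ Y) (Ψ : B →ₐ[A k] B') :
    RelD P δ fun g => Ψ (Y g) where
  comm g g' := by rw [← map_mul, h.comm, map_mul]
  s a := by rw [← map_mul, h.s, AlgHom.commutes]
  u t := by rw [← map_mul, h.u, map_add, map_smul, map_smul]
  v t := by rw [← map_mul, h.v, map_sub, map_smul, map_smul]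
  uv t := by rw [← map_mul, h.uv, map_smul]

theorem exists_adm_of_module' {P : Par k} {q : ℕ} {lam : kˣ} {N : Type} [AddCommGroup N]
    [Module k N] [Module (A k) N]
    [IsScalarTower k (A k) N] {θ : N →ₗ[k] N} (g : Gd lam (4 * q) θ) (hN : GS lam θ ⊤)
    (htf : ∀ f : A k, f ≠ 0 → ∀ v : N, f • v = 0 → v = 0) (y : Gen → Module.End (A k) N)
    (γ : Sym → Module.End (A k) N) (rel : RelD P 1 y) (hγ : ∀ σ, Function.Injective (γ σ))
    (γy : ∀ σ g, γ σ * y g = (C (cf P σ g) : A k) • (y (pr σ g) * γ σ))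
    (θy : ∀ g, HomDeg lam θ θ (y g) (q * g.deg : ℕ)) (θγ : ∀ σ, HomDeg lam θ θ (γ σ) 0)
    (hρ : (tauS lam (4 * q) θ ⊤).c0 = Fintype.card ι) :
    ∃ (E : Adm P lam q ι) (e : N →ₗ[A k] (ι → K k)) (b : ι → ℤ) (H : A k) (dH : ℕ),
      (E.Θ = Matrix.diagonal (fun i => algebraMap k (K k) ((lam ^ b i : kˣ) : k)) ∧
        (∀ v ∈ E.E, ∀ i, ∃ f : A k, v i = algebraMap (A k) (K k) f) ∧ H ≠ 0 ∧
        H.IsHomogeneous dH ∧ ∀ j, Pi.single j (algebraMap (A k) (K k) H) ∈ E.E) ∧
      Function.Injective e ∧ LinearMap.range e = E.E ∧ HomDeg lam θ E.θ e 0 ∧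
      (∀ g v, e (y g v) = E.Y g *ᵥ e v) ∧ ∀ σ v, e (γ σ v) = E.Γ σ *ᵥ e v := by
  obtain ⟨e0, d, H, dH, he0, hli, hH0, hHd, hH⟩ := exists_adm_basis (ι := ι) g hN hρ
  obtain ⟨c, hc⟩ := exists_adm_coord hli hH
  have hc' : ∀ v, H • v = ∑ i, c v i • e0 i := fun v => (hc v _).1 rfl
  let e : N →ₗ[A k] (ι → K k) := (Algebra.linearMap (A k) (K k)).compLeft ι ∘ₗ c
  have he : ∀ v i, e v i = algebraMap (A k) (K k) (c v i) := fun _ _ => rfl
  have h0 : ∀ j, e (e0 j) = Pi.single j (algebraMap (A k) (K k) H) := by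
    intro j
    have : c (e0 j) = Pi.single j H := by
      rw [hc, Finset.sum_eq_single j (fun i _ hi => by simp [Pi.single_eq_of_ne hi]) (by simp),
        Pi.single_eq_same]
    funext i
    rw [he, this]
    by_cases hi : i = j
    · subst hi; simp
    · simp [Pi.single_eq_of_ne hi]
  have hinj : Function.Injective e := by
    rw [injective_iff_map_eq_zero]
    intro v hv
    refine htf H hH0 v ?_
    rw [hc']
    refine Finset.sum_eq_zero fun i _ => ?_
    have : c v i = 0 := IsFractionRing.injective (A k) (K k) (by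
      rw [← he, hv, map_zero]; rfl)
    rw [this, zero_smul]
  obtain ⟨Ψ, hΨ⟩ := exists_adm_mat e e0 hH0 h0 fun v => ⟨c v, hc' v, he v⟩
  have hden := exists_adm_den e e0 hH0 h0
  let b : ι → ℤ := fun i => d i - ((4 * q : ℕ) : ℤ) * dH
  let Θ : Matrix ι ι (K k) := Matrix.diagonal fun i => algebraMap k (K k) ((lam ^ b i : kˣ) : k)
  have hθH : θA lam (4 * q) H = ((lam ^ (((4 * q : ℕ) : ℤ) * dH) : kˣ) : k) • H :=
    mem_eig.1 ((mem_eigA_iff g.inf H _).2 (homZ_of_isHomogeneous (4 * q) hHd))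
  have hcθ : ∀ v, c (θ v) = fun i => ((lam ^ b i : kˣ) : k) • θA lam (4 * q) (c v i) := by
    intro v
    rw [hc]
    have h1 := congrArg θ (hc' v)
    rw [g.comm.smul, hθH, map_sum, smul_assoc] at h1
    have h2 := congrArg (fun z => (((lam ^ (((4 * q : ℕ) : ℤ) * dH))⁻¹ : kˣ) : k) • z) h1
    simp only [smul_smul, Units.inv_mul, one_smul] at h2
    rw [h2, Finset.smul_sum]
    refine Finset.sum_congr rfl fun i _ => ?_
    rw [g.comm.smul, mem_eig.1 (he0 i), smul_comm (θA lam (4 * q) (c v i)), smul_smul,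
      smul_assoc, ← Units.val_mul]
    congr 2
    simp only [b]
    rw [_root_.zpow_sub, mul_comm]
  have heθ : ∀ v, θW lam (4 * q) Θ (e v) = e (θ v) := by
    intro v
    funext i
    show (Θ *ᵥ fun i => θK lam (4 * q) (e v i)) i = _
    rw [mulVec_diagonal, he, he, hcθ, θK_algebraMap]
    simp only []
    rw [Algebra.smul_def, map_mul, ← IsScalarTower.algebraMap_apply]
  have gW := gd_W (ι := ι) g.inf g.pos Θ
  have hdeg : ∀ (φ : Module.End (A k) N) (n : ℤ), HomDeg lam θ θ φ n →
      HomDeg lam (θW lam (4 * q) Θ) (θW lam (4 * q) Θ) (fun v => Ψ φ *ᵥ v) n := by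
    intro φ n hφ x
    obtain ⟨a, ha, v, hv⟩ := hden x
    have ha' : θA lam (4 * q) a ≠ 0 := fun h => ha ((θA lam (4 * q)).injective
      (h.trans (map_zero _).symm))
    refine smul_right_injective _ ha' ?_
    show θA lam (4 * q) a • θW lam (4 * q) Θ (Ψ φ *ᵥ x) =
      θA lam (4 * q) a • (((lam ^ n : kˣ) : k) • Ψ φ *ᵥ θW lam (4 * q) Θ x)
    rw [← gW.comm.smul, ← mulVec_smul, hv, ← hΨ, heθ, hφ v, smul_comm, ← mulVec_smul,
      ← gW.comm.smul, hv, heθ, ← hΨ, LinearMap.map_smul_of_tower]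
  have he0' : HomDeg lam θ (θW lam (4 * q) Θ) e 0 := fun v => by
    rw [heθ]; simp
  refine ⟨{ Y := fun g => Ψ (y g)
            Γ := fun σ => Ψ (γ σ)
            Θ := Θ
            E := LinearMap.range e
            rel := rel.map_algHom Ψ
            Γunit := fun σ => ?_
            ΓY := fun σ g => by rw [← map_mul, γy, map_smul, map_mul]
            θY := fun g => hdeg _ _ (θy g)
            θΓ := fun σ => hdeg _ _ (θγ σ)
            gs := by rw [← Submodule.map_top]; exact hN.map e he0'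
            span := ?_
            Ystab := ?_
            Γstab := ?_ }, e, b, H, dH, ⟨rfl, ?_, hH0, hHd, fun j => ⟨e0 j, h0 j⟩⟩, hinj, rfl, he0',
    fun g v => hΨ _ v, fun σ v => hΨ _ v⟩
  · rw [← Matrix.mulVec_injective_iff_isUnit]
    have : Function.Injective (Matrix.mulVecLin (Ψ (γ σ))) := by
      rw [injective_iff_map_eq_zero]
      intro x hx
      obtain ⟨a, ha, v, hv⟩ := hden x
      have h1 : e (γ σ v) = 0 := by
        rw [hΨ, ← hv, mulVec_smul]
        rw [Matrix.mulVecLin_apply] at hx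
        rw [hx, smul_zero]
      have h2 : v = 0 := hγ σ (hinj (by rw [h1, map_zero, map_zero]))
      rw [h2, map_zero] at hv
      exact (smul_eq_zero.1 hv).resolve_left ha
    exact this
  · rw [eq_top_iff]
    intro x _
    obtain ⟨a, ha, v, hv⟩ := hden x
    have hh : algebraMap (A k) (K k) a ≠ 0 :=
      fun h => ha (IsFractionRing.injective (A k) (K k) (h.trans (map_zero _).symm))
    have : x = (algebraMap (A k) (K k) a)⁻¹ • e v := by
      rw [← hv, ← algebraMap_smul (K k) a x, smul_smul, inv_mul_cancel₀ hh, one_smul]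
    rw [this]
    exact Submodule.smul_mem _ _ (Submodule.subset_span ⟨v, rfl⟩)
  · rintro g _ ⟨v, rfl⟩
    exact ⟨_, hΨ _ v⟩
  · rintro σ _ ⟨v, rfl⟩
    exact ⟨_, hΨ _ v⟩
  · rintro _ ⟨v, rfl⟩ i
    exact ⟨_, he v i⟩

end Crest.Agent.R169
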