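import Crest.Agent.R169.Adm
import Crest.Agent.R169.FiltD

/-!
# Row 169: filtrations of a free module over power series, Hecke modifications
-/

set_option autoImplicit false

namespace Crest.Agent.R169

open MvPolynomial Matrix

variable {k : Type} [Field k] {ι : Type} [Fintype ι] [DecidableEq ι]

/-- All coefficients of weighted degree `< t` vanish. -/
def OrdGe (w : ℕ) (t : ℤ) (v : ι → PS k) : Prop :=
  ∀ (i : ι) (μ : Fin 3 →₀ ℕ), (w : ℤ) * (μ.degree : ℤ) < t → MvPowerSeries.coeff μ (v i) = 0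

/-- A representation of `R` with symmetries on a free module over power series. -/
structure PData (P : Par k) (ι : Type) [Fintype ι] [DecidableEq ι] where
  Y : Gen → Matrix ι ι (PS k)
  Γ : Sym → Matrix ι ι (PS k)
  Γ' : Sym → Matrix ι ι (PS k)
  rel : RelD P 1 Y
  inv : ∀ σ, Γ' σ * Γ σ = 1
  ΓY : ∀ σ g, Γ σ * Y g = (C (cf P σ g) : A k) • (Y (pr σ g) * Γ σ)

variable {P : Par k}

/-- Admissible (compatible, bounded, saturated) filtrations. -/
structure Filt (D : PData P ι) (q : ℕ) (F : ℤ → Submodule k (ι → PS k)) : Prop where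
  anti : Antitone F
  X : ∀ (i : Fin 3) (n : ℤ), ∀ v ∈ F n, (X i : A k) • v ∈ F (n + (4 * q : ℕ))
  Y : ∀ (g : Gen) (n : ℤ), ∀ v ∈ F n, D.Y g *ᵥ v ∈ F (n + (q * g.deg : ℕ))
  Γ : ∀ (σ : Sym) (n : ℤ), ∀ v ∈ F n, D.Γ σ *ᵥ v ∈ F n
  Γ' : ∀ (σ : Sym) (n : ℤ), ∀ v ∈ F n, D.Γ' σ *ᵥ v ∈ F n
  bdd : ∃ c : ℕ, ∀ (n : ℤ) (v : ι → PS k),
    (OrdGe (4 * q) (n + c) v → v ∈ F n) ∧ (v ∈ F n → OrdGe (4 * q) (n - c) v)
  sat : ∀ (f : A k) (j : ℕ), f ≠ 0 → f.IsHomogeneous j → ∀ (n : ℤ) (v : ι → PS k),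
    f • v ∈ F (n + (4 * q * j : ℕ)) → v ∈ F n

/-- Laurent polynomials in `T` with coefficients in `PS^ι`; the variable `x_i` of `A` acts as
`x_i T^w`. -/
def Re (k : Type) [Field k] (_w : ℕ) (ι : Type) : Type := ℤ →₀ (ι → PS k)

noncomputable instance (w : ℕ) : AddCommGroup (Re k w ι) :=
  inferInstanceAs (AddCommGroup (ℤ →₀ (ι → PS k)))
noncomputable instance (w : ℕ) : Module k (Re k w ι) :=
  inferInstanceAs (Module k (ℤ →₀ (ι → PS k)))

/-- The coefficient of `T^n`. -/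
def Re.co {w : ℕ} (f : Re k w ι) (n : ℤ) : ι → PS k := (show ℤ →₀ (ι → PS k) from f) n

/-- `v T^n`. -/
noncomputable def Re.sg (w : ℕ) (n : ℤ) : (ι → PS k) →ₗ[k] Re k w ι := Finsupp.lsingle n

/-- `φ T^e`. -/
noncomputable def Re.op (w : ℕ) (e : ℤ) (φ : (ι → PS k) →ₗ[k] (ι → PS k)) :
    Re k w ι →ₗ[k] Re k w ι :=
  (Finsupp.domLCongr (Equiv.addRight e) :
      (ℤ →₀ (ι → PS k)) ≃ₗ[k] (ℤ →₀ (ι → PS k))).toLinearMap ∘ₗ Finsupp.mapRange.linearMap φ

omit [Fintype ι] [DecidableEq ι] in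
theorem Re.ext {w : ℕ} {f g : Re k w ι} (h : ∀ n, f.co n = g.co n) : f = g := Finsupp.ext h

omit [Fintype ι] [DecidableEq ι] in
theorem Re.co_op (w : ℕ) (e : ℤ) (φ : (ι → PS k) →ₗ[k] (ι → PS k)) (f : Re k w ι) (n : ℤ) :
    (Re.op w e φ f).co n = φ (f.co (n - e)) := by
  simp [Re.op, Re.co, Finsupp.domLCongr, Finsupp.domCongr, sub_eq_add_neg]
  rfl

/-- The action of monomials. -/
noncomputable def Re.mon (k : Type) [Field k] (w : ℕ) (ι : Type) :
    Multiplicative (Fin 3 →₀ ℕ) →* Module.End k (Re k w ι) where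
  toFun μ := Re.op w ((w : ℤ) * ((Multiplicative.toAdd μ).degree : ℤ))
    ((LinearMap.lsmul (PS k) (ι → PS k)
      (MvPowerSeries.monomial (Multiplicative.toAdd μ) (1 : k))).restrictScalars k)
  map_one' := by
    refine LinearMap.ext fun f => Re.ext fun n => ?_
    rw [Re.co_op]
    simp
  map_mul' μ ν := by
    refine LinearMap.ext fun f => Re.ext fun n => ?_
    rw [Module.End.mul_apply, Re.co_op, Re.co_op, Re.co_op]
    simp only [toAdd_mul, map_add, Nat.cast_add, LinearMap.coe_restrictScalars,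
      LinearMap.lsmul_apply, smul_smul, MvPowerSeries.monomial_mul_monomial, mul_one]
    congr 2
    ring

/-- The action of `A`. -/
noncomputable def Re.act (k : Type) [Field k] (w : ℕ) (ι : Type) :
    A k →ₐ[k] Module.End k (Re k w ι) :=
  AddMonoidAlgebra.lift k (Module.End k (Re k w ι)) (Fin 3 →₀ ℕ) (Re.mon k w ι)

noncomputable instance (w : ℕ) : Module (A k) (Re k w ι) :=
  Module.compHom (Re k w ι) (Re.act k w ι).toRingHom

omit [Fintype ι] [DecidableEq ι] in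
theorem Re.smul_def {w : ℕ} (a : A k) (f : Re k w ι) : a • f = Re.act k w ι a f := rfl

instance (w : ℕ) : IsScalarTower k (A k) (Re k w ι) :=
  ⟨fun c a f => by rw [Re.smul_def, Re.smul_def, map_smul]; rfl⟩

/-- The grading by the exponent of `T`. -/
noncomputable def Re.θ (lam : kˣ) (w : ℕ) : Re k w ι →ₗ[k] Re k w ι :=
  Finsupp.lsum k fun n : ℤ => ((lam ^ n : kˣ) : k) • Re.sg w n

/-! ### Subtask Filt-a (the Rees module and the associated graded module) -/

omit [Fintype ι] [DecidableEq ι] in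
theorem Re.fa_co_add {w : ℕ} (f g : Re k w ι) (n : ℤ) : (f + g).co n = f.co n + g.co n := rfl

omit [Fintype ι] [DecidableEq ι] in
theorem Re.fa_co_sub {w : ℕ} (f g : Re k w ι) (n : ℤ) : (f - g).co n = f.co n - g.co n := rfl

omit [Fintype ι] [DecidableEq ι] in
theorem Re.fa_co_ksmul {w : ℕ} (c : k) (f : Re k w ι) (n : ℤ) : (c • f).co n = c • f.co n := rfl

omit [Fintype ι] [DecidableEq ι] in
theorem Re.fa_co_zero {w : ℕ} (n : ℤ) : (0 : Re k w ι).co n = 0 := rfl

omit [Fintype ι] [DecidableEq ι] in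
theorem Re.fa_co_sg (w : ℕ) (n m : ℤ) (v : ι → PS k) :
    (Re.sg w n v).co m = if n = m then v else 0 := Finsupp.single_apply

omit [Fintype ι] [DecidableEq ι] in
theorem Re.fa_ind {w : ℕ} {p : Re k w ι → Prop} (f : Re k w ι) (h0 : p 0)
    (hadd : ∀ f g, p f → p g → p (f + g)) (hs : ∀ n v, p (Re.sg w n v)) : p f :=
  Finsupp.induction_linear (motive := p) f h0 hadd hs

omit [Fintype ι] [DecidableEq ι] in
theorem Re.fa_co_monomial {w : ℕ} (μ : Fin 3 →₀ ℕ) (c : k) (f : Re k w ι) (n : ℤ) :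
    ((monomial μ c : A k) • f).co n = (monomial μ c : A k) • f.co (n - (w * μ.degree : ℕ)) := by
  have h : Re.act k w ι (monomial μ c) = c • Re.mon k w ι (Multiplicative.ofAdd μ) :=
    AddMonoidAlgebra.lift_single _ _ _
  rw [Re.smul_def, h, LinearMap.smul_apply, Re.fa_co_ksmul]
  change c • (Re.op w _ _ f).co n = _
  rw [Re.co_op]
  funext i
  change c • (MvPowerSeries.monomial μ (1 : k) * f.co (n - (w : ℤ) * (μ.degree : ℤ)) i) =
    ((monomial μ c : A k) : PS k) * f.co (n - (w * μ.degree : ℕ)) i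
  rw [coe_monomial, ← smul_mul_assoc, ← map_smul, smul_eq_mul, mul_one, Nat.cast_mul]

omit [Fintype ι] [DecidableEq ι] in
theorem Re.co_θ (lam : kˣ) (w : ℕ) (f : Re k w ι) (n : ℤ) :
    (Re.θ lam w f).co n = ((lam ^ n : kˣ) : k) • f.co n := by
  induction f using Re.fa_ind with
  | h0 => rw [map_zero, Re.fa_co_zero, smul_zero]
  | hadd f g hf hg => rw [map_add, Re.fa_co_add, Re.fa_co_add, hf, hg, smul_add]
  | hs m v =>
    have : Re.θ lam w (Re.sg w m v) = ((lam ^ m : kˣ) : k) • Re.sg w m v :=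
      Finsupp.lsum_single _ _ _ _
    rw [this, Re.fa_co_ksmul, Re.fa_co_sg]
    split_ifs with h
    · rw [h]
    · simp

omit [Fintype ι] [DecidableEq ι] in
theorem Re.co_smul {w : ℕ} {a : A k} {j : ℕ} (ha : a.IsHomogeneous j) (f : Re k w ι) (n : ℤ) :
    (a • f).co n = a • f.co (n - (w * j : ℕ)) := by
  induction ha using IsWeightedHomogeneous.induction_on with
  | zero => rw [zero_smul, zero_smul, Re.fa_co_zero]
  | add p q _ _ hp hq => rw [add_smul, add_smul, Re.fa_co_add, hp, hq]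
  | monomial d r hr =>
    have : d.degree = j := by rw [Finsupp.degree_eq_weight_one, ← hr]; rfl
    rw [Re.fa_co_monomial, this]

omit [Fintype ι] [DecidableEq ι] in
theorem Re.gd {lam : kˣ} (hl : InfOrd lam) {w : ℕ} (hw : 0 < w) :
    Gd lam w (Re.θ lam w : Re k w ι →ₗ[k] Re k w ι) := by
  refine ⟨hl, hw, fun i v => Re.ext fun n => ?_⟩
  rw [Re.co_θ, Re.fa_co_ksmul, Re.co_smul (isHomogeneous_X k i), Re.co_smul (isHomogeneous_X k i),
    Re.co_θ, smul_comm (X i : A k), smul_smul, ← Units.val_mul, ← zpow_natCast, ← _root_.zpow_add]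
  congr 3
  push_cast
  ring

omit [DecidableEq ι] in
theorem Re.op_smul (w : ℕ) (e : ℤ) (U : Matrix ι ι (PS k)) (a : A k) (f : Re k w ι) :
    Re.op w e (U.mulVecLin.restrictScalars k) (a • f) =
      a • Re.op w e (U.mulVecLin.restrictScalars k) f := by
  induction a using MvPolynomial.induction_on' with
  | monomial μ c =>
    refine Re.ext fun n => ?_
    rw [Re.co_op, Re.fa_co_monomial, Re.fa_co_monomial, Re.co_op, sub_right_comm]
    exact mulVec_smul _ _ _
  | add p q hp hq => rw [add_smul, add_smul, map_add, hp, hq]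

/-- `U T^e` as an `A`-linear map. -/
noncomputable def Re.opA (w : ℕ) (e : ℤ) (U : Matrix ι ι (PS k)) : Re k w ι →ₗ[A k] Re k w ι where
  toFun := Re.op w e (U.mulVecLin.restrictScalars k)
  map_add' := map_add _
  map_smul' := Re.op_smul w e U

variable {D : PData P ι} {q : ℕ} {F : ℤ → Submodule k (ι → PS k)}

theorem Filt.fa_monomial (h : Filt D q F) (μ : Fin 3 →₀ ℕ) :
    ∀ (n : ℤ) (v : ι → PS k), v ∈ F n → (monomial μ 1 : A k) • v ∈ F (n + (4 * q * μ.degree : ℕ)) := by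
  induction μ using Finsupp.induction_linear with
  | zero => intro n v hv; simpa using hv
  | add μ ν hμ hν =>
    intro n v hv
    have := hμ _ _ (hν n v hv)
    rw [smul_smul, monomial_mul, mul_one] at this
    convert this using 2
    rw [map_add]
    push_cast
    ring
  | single i m =>
    rw [Finsupp.degree_single, ← X_pow_eq_monomial]
    induction m with
    | zero => intro n v hv; simpa using hv
    | succ m ih =>
      intro n v hv
      have := h.X i _ _ (ih n v hv)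
      rw [smul_smul, ← pow_succ'] at this
      convert this using 2
      push_cast
      ring

theorem Filt.smul_mem (h : Filt D q F) {a : A k} {j : ℕ} (ha : a.IsHomogeneous j) {n : ℤ}
    {v : ι → PS k} (hv : v ∈ F n) : a • v ∈ F (n + (4 * q * j : ℕ)) := by
  induction ha using IsWeightedHomogeneous.induction_on with
  | zero => rw [zero_smul]; exact (F _).zero_mem
  | add p q _ _ hp hq => rw [add_smul]; exact (F _).add_mem hp hq
  | monomial d r hr =>
    have : d.degree = j := by rw [Finsupp.degree_eq_weight_one, ← hr]; rfl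
    have h1 := (F _).smul_mem r (h.fa_monomial d n v hv)
    rwa [← smul_assoc, smul_monomial, smul_eq_mul, mul_one, this] at h1

theorem Filt.rees_smul (h : Filt D q F) (s : ℤ) (a : A k) (f : Re k (4 * q) ι)
    (hf : ∀ n, f.co n ∈ F (n + s)) : ∀ n, (a • f).co n ∈ F (n + s) := by
  intro n
  induction a using MvPolynomial.induction_on' with
  | monomial μ c =>
    rw [Re.fa_co_monomial]
    have := h.smul_mem (isHomogeneous_monomial c (rfl : μ.degree = _))
      (hf (n - (4 * q * μ.degree : ℕ)))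
    convert this using 2
    ring
  | add p q hp hq => rw [add_smul, Re.fa_co_add]; exact (F _).add_mem hp hq

/-- The (shifted) Rees module. -/
def Filt.rees (h : Filt D q F) (s : ℤ) : Submodule (A k) (Re k (4 * q) ι) where
  carrier := {f | ∀ n, f.co n ∈ F (n + s)}
  add_mem' ha hb n := (F _).add_mem (ha n) (hb n)
  zero_mem' _ := (F _).zero_mem
  smul_mem' a f hf := h.rees_smul s a f hf

/-- The associated graded module. -/
abbrev Filt.Gr (h : Filt D q F) : Type := h.rees 0 ⧸ (h.rees 1).comap (h.rees 0).subtype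

theorem Filt.θ_rees (h : Filt D q F) (lam : kˣ) (s : ℤ) :
    ∀ f ∈ h.rees s, Re.θ lam (4 * q) f ∈ h.rees s := fun f hf n => by
  rw [Re.co_θ]; exact (F _).smul_mem _ (hf n)

/-- Its grading. -/
noncomputable def Filt.θ (h : Filt D q F) (lam : kˣ) : h.Gr →ₗ[k] h.Gr :=
  θQ (θS (Re.θ lam (4 * q)) (h.rees 0) (h.θ_rees lam 0)) _ fun v hv => h.θ_rees lam 1 v hv

theorem Filt.op_rees (h : Filt D q F) {e : ℤ} {U : Matrix ι ι (PS k)}
    (hU : ∀ n, ∀ v ∈ F n, U *ᵥ v ∈ F (n + e)) (s : ℤ) :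
    ∀ f ∈ h.rees s, Re.opA (4 * q) e U f ∈ h.rees s := fun f hf n => by
  have := hU _ _ (hf (n - e))
  change (Re.op (4 * q) e _ f).co n ∈ _
  rw [Re.co_op, show n + s = n - e + s + e by ring]
  exact this

/-- The operator induced on the associated graded module. -/
noncomputable def Filt.grOp (h : Filt D q F) (e : ℤ) (U : Matrix ι ι (PS k))
    (hU : ∀ n, ∀ v ∈ F n, U *ᵥ v ∈ F (n + e)) : Module.End (A k) h.Gr :=
  Submodule.mapQ _ _ ((Re.opA (4 * q) e U).restrict (h.op_rees hU 0))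
    fun v hv => h.op_rees hU 1 v hv

/-- The generators of `R` acting on the associated graded module. -/
noncomputable def Filt.y (h : Filt D q F) (g : Gen) : Module.End (A k) h.Gr :=
  h.grOp (q * g.deg : ℕ) (D.Y g) (h.Y g)

/-- The symmetries acting on the associated graded module. -/
noncomputable def Filt.γ (h : Filt D q F) (σ : Sym) : Module.End (A k) h.Gr :=
  h.grOp 0 (D.Γ σ) fun n v hv => by simpa using h.Γ σ n v hv

omit [Fintype ι] [DecidableEq ι] in
theorem Re.co_sg (w : ℕ) (n m : ℤ) (v : ι → PS k) :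
    (Re.sg w n v).co m = if n = m then v else 0 := Finsupp.single_apply

/-- The class of `v ∈ F n` in degree `n`. -/
noncomputable def Filt.cls (h : Filt D q F) (n : ℤ) : F n →ₗ[k] h.Gr where
  toFun v := Submodule.Quotient.mk ⟨Re.sg (4 * q) n v, fun m => by
    rw [Re.co_sg]
    split_ifs with hm
    · subst hm; simp
    · exact (F _).zero_mem⟩
  map_add' v v' := by
    rw [← Submodule.Quotient.mk_add]; congr 1; ext1; simp
  map_smul' c v := by
    rw [RingHom.id_apply, ← Submodule.Quotient.mk_smul]; congr 1; ext1; simp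

theorem Filt.gd (h : Filt D q F) {lam : kˣ} (hl : InfOrd lam) (hq : 0 < q) :
    Gd lam (4 * q) (h.θ lam) := by
  exact ((Re.gd hl (by omega)).sub _ _).quot _ _

theorem Filt.cls_eq_zero (h : Filt D q F) (n : ℤ) (v : F n) :
    h.cls n v = 0 ↔ (v : ι → PS k) ∈ F (n + 1) := by
  refine (Submodule.Quotient.mk_eq_zero _).trans ⟨fun hv => ?_, fun hv m => ?_⟩
  · have := hv n
    change (Re.sg (4 * q) n (v : ι → PS k)).co n ∈ _ at this
    rwa [Re.co_sg, if_pos rfl] at this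
  · change (Re.sg (4 * q) n (v : ι → PS k)).co m ∈ _
    rw [Re.co_sg]
    split_ifs with hm
    · subst hm; exact hv
    · exact (F _).zero_mem

theorem Filt.range_cls (h : Filt D q F) {lam : kˣ} (hl : InfOrd lam) (n : ℤ) :
    LinearMap.range (h.cls n) = eig lam (h.θ lam) n := by
  ext x
  rw [mem_eig]
  constructor
  · rintro ⟨v, rfl⟩
    rw [← map_smul]
    refine congrArg Submodule.Quotient.mk (Subtype.ext (Re.ext fun m => ?_))
    change (Re.θ lam (4 * q) (Re.sg (4 * q) n (v : ι → PS k))).co m =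
      (Re.sg (4 * q) n (((lam ^ n : kˣ) : k) • (v : ι → PS k))).co m
    rw [Re.co_θ, Re.co_sg, Re.co_sg]
    split_ifs with hm
    · subst hm; rfl
    · simp
  · intro hx
    obtain ⟨f, rfl⟩ := Submodule.Quotient.mk_surjective _ x
    have h1 : ∀ m, (Re.θ lam (4 * q) f.1 - ((lam ^ n : kˣ) : k) • f.1).co m ∈ F (m + 1) := by
      rw [← Submodule.Quotient.mk_smul] at hx
      exact (Submodule.Quotient.eq _).1 hx
    refine ⟨⟨f.1.co n, by simpa using f.2 n⟩, (Submodule.Quotient.eq _).2 fun m => ?_⟩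
    change (Re.sg (4 * q) n (f.1.co n) - f.1).co m ∈ _
    rw [Re.fa_co_sub, Re.co_sg]
    split_ifs with hm
    · subst hm; simp
    · have h2 := h1 m
      rw [Re.fa_co_sub, Re.co_θ, Re.fa_co_ksmul, ← sub_smul] at h2
      have h3 : ((lam ^ m : kˣ) : k) - ((lam ^ n : kˣ) : k) ≠ 0 := by
        intro h0
        have h4 : lam ^ m = lam ^ n := Units.ext (sub_eq_zero.1 h0)
        have h5 := hl (m - n) (by rw [_root_.zpow_sub, h4, mul_inv_cancel])
        exact hm (by omega)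
      rw [zero_sub]
      exact (F _).neg_mem (((F _).smul_mem_iff h3).1 h2)

theorem Filt.smul_cls (h : Filt D q F) {a : A k} {j : ℕ} (ha : a.IsHomogeneous j) (n : ℤ)
    (v : F n) : a • h.cls n v = h.cls (n + (4 * q * j : ℕ)) ⟨a • (v : ι → PS k), h.smul_mem ha v.2⟩ := by
  refine (Submodule.Quotient.mk_smul _ a _).symm.trans
    (congrArg Submodule.Quotient.mk (Subtype.ext (Re.ext fun m => ?_)))
  change (a • Re.sg (4 * q) n (v : ι → PS k)).co m =
    (Re.sg (4 * q) (n + (4 * q * j : ℕ)) (a • (v : ι → PS k))).co m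
  rw [Re.co_smul ha, Re.co_sg, Re.co_sg]
  by_cases hm : n + (4 * q * j : ℕ) = m
  · rw [if_pos hm, if_pos (by omega)]
  · rw [if_neg hm, if_neg (by omega), smul_zero]

theorem Filt.grOp_cls (h : Filt D q F) (e : ℤ) (U : Matrix ι ι (PS k))
    (hU : ∀ n, ∀ v ∈ F n, U *ᵥ v ∈ F (n + e)) (n : ℤ) (v : F n) :
    h.grOp e U hU (h.cls n v) = h.cls (n + e) ⟨U *ᵥ (v : ι → PS k), hU n v v.2⟩ := by
  refine congrArg Submodule.Quotient.mk (Subtype.ext (Re.ext fun m => ?_))
  change (Re.op (4 * q) e (U.mulVecLin.restrictScalars k) (Re.sg (4 * q) n (v : ι → PS k))).co m =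
    (Re.sg (4 * q) (n + e) (U *ᵥ (v : ι → PS k))).co m
  rw [Re.co_op, Re.co_sg, Re.co_sg]
  by_cases hm : n + e = m
  · rw [if_pos hm, if_pos (by omega)]; rfl
  · rw [if_neg hm, if_neg (by omega), map_zero]

theorem Filt.diag (h : Filt D q F) (v : h.Gr) : v ∈ ⨆ n : ℤ, LinearMap.range (h.cls n) := by
  obtain ⟨f, rfl⟩ := Submodule.Quotient.mk_surjective _ v
  have hs : ∀ n, Re.sg (4 * q) n (f.1.co n) ∈ h.rees 0 := fun n m => by
    rw [Re.co_sg]
    split_ifs with hm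
    · subst hm; exact f.2 n
    · exact (F _).zero_mem
  have hf : f = ∑ n ∈ (show ℤ →₀ (ι → PS k) from f.1).support, ⟨_, hs n⟩ := by
    apply Subtype.ext
    rw [AddSubmonoidClass.coe_finsetSum]
    exact (Finsupp.sum_single (show ℤ →₀ (ι → PS k) from f.1)).symm
  rw [hf, ← Submodule.mkQ_apply, map_sum]
  exact Submodule.sum_mem _ fun n _ =>
    Submodule.mem_iSup_of_mem n ⟨⟨f.1.co n, by simpa using f.2 n⟩, rfl⟩

theorem Filt.y_rel_extk (h : Filt D q F) {T T' : h.Gr →ₗ[k] h.Gr}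
    (H : ∀ (n : ℤ) (v : F n), T (h.cls n v) = T' (h.cls n v)) (x : h.Gr) : T x = T' x := by
  refine Submodule.iSup_induction _ (motive := fun x => T x = T' x) (h.diag x) ?_ ?_ ?_
  · rintro n _ ⟨v, rfl⟩
    exact H n v
  · rw [map_zero, map_zero]
  · intro a b ha hb
    rw [map_add, map_add, ha, hb]

theorem Filt.y_rel_ext (h : Filt D q F) {T T' : Module.End (A k) h.Gr}
    (H : ∀ (n : ℤ) (v : F n), T (h.cls n v) = T' (h.cls n v)) : T = T' :=
  LinearMap.ext fun x =>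
    h.y_rel_extk (T := T.restrictScalars k) (T' := T'.restrictScalars k) H x

theorem Filt.y_rel_congr (h : Filt D q F) {n m : ℤ} (hn : n = m) {v : F n} {u : F m}
    (hv : (v : ι → PS k) = u) : h.cls n v = h.cls m u := by
  subst hn
  rw [Subtype.ext hv]

theorem Filt.y_rel_C {M : Type} [AddCommGroup M] [Module k M] [Module (A k) M]
    [IsScalarTower k (A k) M] (c : k) (x : M) : (C c : A k) • x = c • x :=
  algebraMap_smul (A k) c x

theorem Filt.y_rel_cls (h : Filt D q F) (g : Gen) (n : ℤ) (v : F n) :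
    h.y g (h.cls n v) = h.cls (n + (q * g.deg : ℕ)) ⟨D.Y g *ᵥ (v : ι → PS k), h.Y g n v v.2⟩ :=
  h.grOp_cls _ _ _ n v

theorem Filt.y_rel_γ (h : Filt D q F) (σ : Sym) (n : ℤ) (v : F n) :
    h.γ σ (h.cls n v) = h.cls n ⟨D.Γ σ *ᵥ (v : ι → PS k), h.Γ σ n v v.2⟩ :=
  (h.grOp_cls _ _ _ n v).trans (h.y_rel_congr (add_zero n) rfl)

theorem Filt.y_rel (h : Filt D q F) : RelD P 1 h.y := by
  refine ⟨fun g g' => ?_, fun a => ?_, fun t => ?_, fun t => ?_, fun t => ?_⟩
  · refine h.y_rel_ext fun n v => ?_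
    simp only [Module.End.mul_apply, h.y_rel_cls]
    refine h.y_rel_congr (by ring) ?_
    simp only [mulVec_mulVec, D.rel.comm g g']
  · refine h.y_rel_ext fun n v => ?_
    have hh : ((1 : A k) ^ 2 * lin k a).IsHomogeneous 1 := by
      rw [one_pow, one_mul]; exact lin_isHomogeneous a
    simp only [Module.End.mul_apply, h.y_rel_cls, Module.algebraMap_end_apply]
    rw [h.smul_cls hh]
    refine h.y_rel_congr (by simp only [Gen.deg]; push_cast; ring) ?_
    simp only [mulVec_mulVec, D.rel.s a]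
    rw [Algebra.algebraMap_eq_smul_one, smul_mulVec, one_mulVec]
  · refine h.y_rel_ext fun n v => ?_
    simp only [Module.End.mul_apply, h.y_rel_cls, LinearMap.add_apply, LinearMap.smul_apply,
      one_mul, Filt.y_rel_C]
    rw [← map_smul, ← map_smul]
    refine Eq.trans ?_ (map_add (h.cls _) _ _)
    refine h.y_rel_congr (by simp only [Gen.deg]; push_cast; ring) ?_
    simp only [mulVec_mulVec, D.rel.u t, one_mul, Filt.y_rel_C, add_mulVec, smul_mulVec,
      Submodule.coe_add, Submodule.coe_smul]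
  · refine h.y_rel_ext fun n v => ?_
    simp only [Module.End.mul_apply, h.y_rel_cls, LinearMap.sub_apply, LinearMap.smul_apply,
      one_mul, Filt.y_rel_C]
    rw [← map_smul, ← map_smul]
    refine Eq.trans ?_ (map_sub (h.cls _) _ _)
    refine h.y_rel_congr (by simp only [Gen.deg]; push_cast; ring) ?_
    simp only [mulVec_mulVec, D.rel.v t, one_mul, Filt.y_rel_C, sub_mulVec, smul_mulVec,
      Submodule.coe_sub, Submodule.coe_smul]
  · refine h.y_rel_ext fun n v => ?_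
    simp only [Module.End.mul_apply, h.y_rel_cls, LinearMap.smul_apply, one_mul, Filt.y_rel_C]
    rw [← map_smul]
    refine h.y_rel_congr (by simp only [Gen.deg]; push_cast; ring) ?_
    simp only [mulVec_mulVec, D.rel.uv t, one_mul, Filt.y_rel_C, smul_mulVec, Submodule.coe_smul]

theorem Filt.γ_y (h : Filt D q F) (σ : Sym) (g : Gen) :
    h.γ σ * h.y g = (C (cf P σ g) : A k) • (h.y (pr σ g) * h.γ σ) := by
  refine h.y_rel_ext fun n v => ?_
  simp only [Module.End.mul_apply, h.y_rel_cls, h.y_rel_γ, LinearMap.smul_apply, Filt.y_rel_C]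
  rw [← map_smul]
  refine h.y_rel_congr (by rw [pr_deg]) ?_
  simp only [mulVec_mulVec, D.ΓY σ g, Filt.y_rel_C, smul_mulVec, Submodule.coe_smul]

theorem Filt.γ_injective (h : Filt D q F) (σ : Sym) : Function.Injective (h.γ σ) := by
  have h1 : h.grOp 0 (D.Γ' σ) (fun n v hv => by simpa using h.Γ' σ n v hv) * h.γ σ = 1 := by
    refine h.y_rel_ext fun n v => ?_
    simp only [Module.End.mul_apply, h.y_rel_γ, h.grOp_cls, Module.End.one_apply]
    refine h.y_rel_congr (add_zero n) ?_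
    simp only [mulVec_mulVec, D.inv σ, one_mulVec]
  exact Function.LeftInverse.injective fun x => LinearMap.congr_fun h1 x

theorem Filt.grOp_hom_θ (h : Filt D q F) (lam : kˣ) (n : ℤ) (v : F n) :
    h.θ lam (h.cls n v) = ((lam ^ n : kˣ) : k) • h.cls n v := by
  rw [← map_smul]
  change Submodule.Quotient.mk _ = Submodule.Quotient.mk _
  congr 1
  refine Subtype.ext (Re.ext fun m => ?_)
  change (Re.θ lam (4 * q) (Re.sg (4 * q) n (v : ι → PS k))).co m =
    (Re.sg (4 * q) n (((lam ^ n : kˣ) : k) • (v : ι → PS k))).co m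
  rw [Re.co_θ, Re.co_sg, Re.co_sg]
  split_ifs with hm
  · subst hm; rfl
  · rw [smul_zero]

theorem Filt.grOp_hom (h : Filt D q F) (lam : kˣ) (e : ℤ) (U : Matrix ι ι (PS k))
    (hU : ∀ n, ∀ v ∈ F n, U *ᵥ v ∈ F (n + e)) :
    HomDeg lam (h.θ lam) (h.θ lam) (h.grOp e U hU) e := by
  intro x
  refine h.y_rel_extk (T := h.θ lam ∘ₗ (h.grOp e U hU).restrictScalars k)
    (T' := ((lam ^ e : kˣ) : k) • ((h.grOp e U hU).restrictScalars k ∘ₗ h.θ lam)) (fun n v => ?_) x
  simp only [LinearMap.comp_apply, LinearMap.smul_apply, h.grOp_hom_θ, map_smul,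
    LinearMap.coe_restrictScalars, h.grOp_cls]
  rw [smul_comm, smul_smul, _root_.zpow_add, Units.val_mul]

theorem Filt.tf (h : Filt D q F) {lam : kˣ} (hl : InfOrd lam) (hq : 0 < q) (f : A k) (hf : f ≠ 0)
    (v : h.Gr) (hv : f • v = 0) : v = 0 := by
  have g := h.gd hl hq
  let T : Submodule k h.Gr := (Submodule.torsion (A k) h.Gr).restrictScalars k
  have hT : ∀ x, x ∈ T ↔ ∃ a : A k, a ≠ 0 ∧ a • x = 0 := fun x => by
    constructor
    · rintro ⟨⟨a, ha⟩, ha'⟩
      exact ⟨a, nonZeroDivisors.ne_zero ha, ha'⟩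
    · rintro ⟨a, ha, ha'⟩
      exact ⟨⟨a, mem_nonZeroDivisors_of_ne_zero ha⟩, ha'⟩
  have hTθ : ∀ x ∈ T, h.θ lam x ∈ T := fun x hx => by
    obtain ⟨a, ha, ha'⟩ := (hT x).1 hx
    refine (hT _).2 ⟨θA lam (4 * q) a, by simpa using ha, ?_⟩
    rw [← g.comm.smul, ha', map_zero]
  obtain ⟨c, hc, hcv⟩ := (Submodule.mem_iSup_iff_exists_finsupp _ _).1 (h.diag v)
  have hce : ∀ n, c n ∈ eig lam (h.θ lam) n := fun n => h.range_cls hl n ▸ hc n
  have hcT := component_mem hl T hTθ c.support c (fun n _ => hce n)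
    (by change c.sum (fun _ x => x) ∈ T; rw [hcv]; exact (hT v).2 ⟨f, hf, hv⟩)
  rw [← hcv]
  refine Finset.sum_eq_zero fun n hn => ?_
  obtain ⟨a, ha, ha'⟩ := (hT _).1 (hcT n hn)
  obtain ⟨a', j, h0, hj, ha''⟩ := exists_hom_ann g ⊥ (fun x hx => by
    rw [(Submodule.mem_bot _).1 hx, map_zero]; exact Submodule.zero_mem _) (hce n) ha
    ((Submodule.mem_bot _).2 ha')
  obtain ⟨u, hu⟩ := hc n
  rw [Submodule.mem_bot, ← hu, h.smul_cls hj, h.cls_eq_zero] at ha''
  change c n = 0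
  rw [← hu, h.cls_eq_zero]
  refine h.sat a' j h0 hj _ _ ?_
  rwa [add_right_comm]

/-! ### Subtask Filt-b (comparison with the adic filtration) -/

/-- Leading forms of degree `j` of the elements of `F (w j + μ)` of order `≥ j`. -/
noncomputable def lead (w : ℕ) (F : ℤ → Submodule k (ι → PS k)) (μ : ℤ) :
    Submodule (A k) (ι → A k) :=
  Submodule.span (A k) {u | ∃ (j : ℕ) (v : ι → PS k), v ∈ F ((w * j : ℕ) + μ) ∧
    OrdGe w (w * j : ℕ) v ∧ (∀ i, (u i).IsHomogeneous j) ∧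
    ∀ (i : ι) (ν : Fin 3 →₀ ℕ), ν.degree = j → coeff ν (u i) = MvPowerSeries.coeff ν (v i)}

omit [Fintype ι] [DecidableEq ι] in
theorem gs_eig {lam : kˣ} (hl : InfOrd lam) (w : ℕ) {u : ι → A k} {j : ℕ}
    (hu : ∀ i, (u i).IsHomogeneous j) :
    u ∈ eig lam (θF lam w fun _ : ι => 0) ((w * j : ℕ) : ℤ) :=
  (mem_eigF_iff hl _ _ _).2 fun i => by
    rw [sub_zero, Nat.cast_mul]
    exact homZ_of_isHomogeneous _ (hu i)

omit [DecidableEq ι] in
theorem gs_lead {lam : kˣ} (hl : InfOrd lam) {w : ℕ} (hw : 0 < w)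
    (F : ℤ → Submodule k (ι → PS k)) (μ : ℤ) :
    GS lam (θF lam w fun _ : ι => 0) (lead w F μ) := by
  refine GS.of_le hl (gs_F hl hw _).1 le_top fun u hu => ?_
  induction hu using Submodule.span_induction with
  | mem u hu =>
    have hu' : u ∈ lead w F μ := Submodule.subset_span hu
    obtain ⟨j, v, -, -, h3, -⟩ := hu
    rw [mem_eig.1 (gs_eig hl w h3)]
    exact (lead w F μ).smul_of_tower_mem _ hu'
  | zero => rw [map_zero]; exact zero_mem _
  | add u u' _ _ hu hu' => rw [map_add]; exact add_mem hu hu'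
  | smul a u _ hu =>
    rw [(gd_F hl hw _).comm.smul]
    exact Submodule.smul_mem _ _ hu

theorem gs_smul_eq (f : A k) (x : PS k) : f • x = (f : PS k) * x := by
  rw [Algebra.smul_def, MvPowerSeries.algebraMap_apply', Algebra.algebraMap_self,
    MvPowerSeries.map_id]
  rfl

omit [Fintype ι] [DecidableEq ι] in
theorem gs_ord_smul {w : ℕ} {d t : ℤ} {f : A k} (hf : HomZ w f d) {v : ι → PS k}
    (hv : OrdGe w t v) : OrdGe w (d + t) (f • v) := by
  classical
  intro i μ hμ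
  rw [Pi.smul_apply, gs_smul_eq, MvPowerSeries.coeff_mul]
  refine Finset.sum_eq_zero fun p hp => ?_
  have h : p.1 + p.2 = μ := Finset.HasAntidiagonal.mem_antidiagonal.mp hp
  rw [← h, map_add, Nat.cast_add, mul_add] at hμ
  by_cases h1 : coeff p.1 f = 0
  · rw [MvPolynomial.coeff_coe, h1, zero_mul]
  · rw [hv i p.2 (by have := hf _ h1; omega), mul_zero]

omit [Fintype ι] [DecidableEq ι] in
theorem gs_ord_sub {w j : ℕ} (hw : 0 < w) {u : ι → A k} {v : ι → PS k}
    (h2 : OrdGe w (w * j : ℕ) v) (h3 : ∀ i, (u i).IsHomogeneous j)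
    (h4 : ∀ (i : ι) (ν : Fin 3 →₀ ℕ), ν.degree = j →
      coeff ν (u i) = MvPowerSeries.coeff ν (v i)) :
    OrdGe w ((w * j : ℕ) + 1) (v - fun i => (u i : PS k)) := by
  intro i ν hν
  rw [Pi.sub_apply, map_sub, MvPolynomial.coeff_coe]
  by_cases h : ν.degree = j
  · rw [h4 i ν h, sub_self]
  · have h5 : w * ν.degree ≤ w * j := by
      rw [← Nat.cast_mul] at hν
      omega
    have h6 : ν.degree < j := lt_of_le_of_ne (Nat.le_of_mul_le_mul_left h5 hw) h
    rw [(h3 i).coeff_eq_zero h, h2 i ν (by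
      rw [← Nat.cast_mul, Nat.cast_lt]
      exact (Nat.mul_lt_mul_left hw).2 h6), sub_zero]

omit [Fintype ι] [DecidableEq ι] in
theorem gs_ord_succ {w j : ℕ} (hw : 0 < w) {v : ι → PS k} (h : OrdGe w ((w * j : ℕ) + 1) v) :
    OrdGe w (w * (j + 1) : ℕ) v := by
  intro i ν hν
  refine h i ν ?_
  rw [← Nat.cast_mul, Nat.cast_lt, Nat.mul_lt_mul_left hw] at hν
  have : w * ν.degree ≤ w * j := Nat.mul_le_mul_left _ (by omega)
  rw [← Nat.cast_mul]
  omega

omit [Fintype ι] [DecidableEq ι] in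
theorem gs_exists_lead (j : ℕ) (v : ι → PS k) :
    ∃ u : ι → A k, (∀ i, (u i).IsHomogeneous j) ∧
      ∀ (i : ι) (ν : Fin 3 →₀ ℕ), ν.degree = j → coeff ν (u i) = MvPowerSeries.coeff ν (v i) := by
  refine ⟨fun i => homogeneousComponent j (MvPowerSeries.truncTotal (j + 1) (v i)),
    fun i => homogeneousComponent_isHomogeneous _ _, fun i ν hν => ?_⟩
  rw [coeff_homogeneousComponent, if_pos hν, MvPowerSeries.coeff_truncTotal_eq_ite,
    if_pos (by omega)]

/-- The elements of `F n` whose class lies in `N`. -/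
noncomputable def Filt.gs_G (h : Filt D q F) (N : Submodule (A k) h.Gr) (n : ℤ) :
    Submodule k (ι → PS k) :=
  ((N.restrictScalars k).comap (h.cls n)).map (F n).subtype

theorem Filt.gs_G_iff (h : Filt D q F) (N : Submodule (A k) h.Gr) (n : ℤ) (v : F n) :
    (v : ι → PS k) ∈ h.gs_G N n ↔ h.cls n v ∈ N := by
  constructor
  · rintro ⟨v', hv', h'⟩
    have : v' = v := Subtype.ext h'
    subst this
    exact hv'
  · intro hv
    exact ⟨v, hv, rfl⟩

theorem Filt.gs_G_smul (h : Filt D q F) (N : Submodule (A k) h.Gr) (hq : 0 < q) {n d : ℤ}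
    {a : A k} (ha : HomZ (4 * q) a d) {v : ι → PS k} (hv : v ∈ h.gs_G N n) :
    a • v ∈ h.gs_G N (n + d) := by
  by_cases h0 : a = 0
  · rw [h0, zero_smul]; exact zero_mem _
  obtain ⟨j, rfl, hj⟩ := ha.exists_isHomogeneous (by omega) h0
  obtain ⟨v, hv, rfl⟩ := hv
  rw [← Nat.cast_mul]
  refine (h.gs_G_iff N _ ⟨a • (v : ι → PS k), h.smul_mem hj v.2⟩).2 ?_
  rw [← h.smul_cls hj]
  exact N.smul_mem _ hv

theorem Filt.gs_fg (h : Filt D q F) {lam : kˣ} (hl : InfOrd lam) (hq : 0 < q) :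
    (⊤ : Submodule (A k) h.Gr).FG := by
  classical
  obtain ⟨c, hc⟩ := h.bdd
  have hw : 0 < 4 * q := by omega
  have h1 : ∀ μ : ℤ, ∃ s : Finset (ι → A k), lead (4 * q) F μ = Submodule.span (A k) s ∧
      ∀ u ∈ s, ∃ (j : ℕ) (v : ι → PS k), v ∈ F ((4 * q * j : ℕ) + μ) ∧
        OrdGe (4 * q) (4 * q * j : ℕ) v ∧ (∀ i, (u i).IsHomogeneous j) ∧
        ∀ (i : ι) (ν : Fin 3 →₀ ℕ), ν.degree = j →
          coeff ν (u i) = MvPowerSeries.coeff ν (v i) := fun μ => by
    obtain ⟨s, hs, hs'⟩ := (Submodule.fg_span_iff_fg_span_finset_subset _).1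
      (gs_lead hl hw F μ).fg
    exact ⟨s, hs', fun u hu => hs hu⟩
  choose s hs hs' using h1
  choose! j v hv1 hv2 hv3 hv4 using hs'
  let g : (Σ μ : Finset.Icc (-c : ℤ) c, s μ) → h.Gr := fun x =>
    h.cls ((4 * q * j x.1 x.2 : ℕ) + x.1) ⟨v x.1 x.2, hv1 _ _ x.2.2⟩
  let N : Submodule (A k) h.Gr := Submodule.span (A k) (Set.range g)
  have hN : N.FG := Submodule.fg_span (Set.finite_range g)
  have hg : ∀ μ ∈ Finset.Icc (-c : ℤ) c, ∀ u ∈ s μ,
      v μ u ∈ h.gs_G N ((4 * q * j μ u : ℕ) + μ) := fun μ hμ u hu =>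
    (h.gs_G_iff N _ ⟨v μ u, hv1 _ _ hu⟩).2 (Submodule.subset_span ⟨⟨⟨μ, hμ⟩, ⟨u, hu⟩⟩, rfl⟩)
  have hle : ∀ n, h.gs_G N n ≤ F n := fun n => Submodule.map_subtype_le _ _
  have key : ∀ (n : ℤ) (m i : ℕ), n + c + 1 ≤ i + m → ∀ x ∈ F n,
      OrdGe (4 * q) (4 * q * i : ℕ) x → x ∈ h.gs_G N n := by
    intro n m
    have base : ∀ i : ℕ, n + c + 1 ≤ (4 * q * i : ℕ) → ∀ x ∈ F n,
        OrdGe (4 * q) (4 * q * i : ℕ) x → x ∈ h.gs_G N n := by
      intro i hi x hx hx'
      refine (h.gs_G_iff N n ⟨x, hx⟩).2 ?_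
      rw [(h.cls_eq_zero n ⟨x, hx⟩).2 ((hc _ _).1 fun l ν hν => hx' l ν (by omega))]
      exact zero_mem _
    induction m with
    | zero =>
      intro i hi
      have : i ≤ 4 * q * i := Nat.le_mul_of_pos_left i hw
      exact base i (by omega)
    | succ m ih =>
      intro i hi x hx hx'
      by_cases hb : n + c + 1 ≤ (4 * q * i : ℕ)
      · exact base i hb x hx hx'
      have ih' := ih (i + 1) (by push_cast at hi ⊢; omega)
      by_cases hb' : (c : ℤ) < n - (4 * q * i : ℕ)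
      · exact ih' x hx (gs_ord_succ hw fun l ν hν => (hc _ _).2 hx l ν (by omega))
      set μ : ℤ := n - (4 * q * i : ℕ) with hμ
      have hμ' : μ ∈ Finset.Icc (-c : ℤ) c := Finset.mem_Icc.2 ⟨by omega, by omega⟩
      obtain ⟨u, hu1, hu2⟩ := gs_exists_lead i x
      have hu : u ∈ Submodule.span (A k) (Set.range fun y : s μ => (y : ι → A k)) := by
        rw [Subtype.range_coe_subtype, Finset.setOfPred_mem, ← hs]
        exact Submodule.subset_span ⟨i, x, by rw [hμ]; simpa using hx, hx', hu1, hu2⟩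
      obtain ⟨a, ha, hua⟩ := exists_hom_coeff (gd_F hl hw fun _ : ι => 0)
        (fun y : s μ => (y : ι → A k)) (fun y => ((4 * q * j μ y : ℕ) : ℤ))
        (fun y => gs_eig hl _ (hv3 _ _ y.2)) hu (gs_eig hl _ hu1)
      have h2 : ∑ y : s μ, a y • v μ y ∈ h.gs_G N n := by
        refine Submodule.sum_mem _ fun y _ => ?_
        have := h.gs_G_smul N hq (ha y) (hg μ hμ' y y.2)
        rwa [show ((4 * q * j μ y : ℕ) : ℤ) + μ + ((4 * q * i : ℕ) - (4 * q * j μ y : ℕ)) = n by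
          omega] at this
      have h3 : x - ∑ y : s μ, a y • v μ y = (x - fun l => (u l : PS k)) -
          ∑ y : s μ, a y • (v μ y - fun l => ((y : ι → A k) l : PS k)) := by
        have : (fun l => (u l : PS k)) = ∑ y : s μ, a y • fun l => ((y : ι → A k) l : PS k) := by
          funext l
          rw [hua, Finset.sum_apply, Finset.sum_apply]
          simp only [Pi.smul_apply, gs_smul_eq, smul_eq_mul]
          rw [← MvPolynomial.coeToMvPowerSeries.ringHom_apply, map_sum]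
          simp
        rw [this]
        simp only [smul_sub, Finset.sum_sub_distrib]
        abel
      have h4 : OrdGe (4 * q) ((4 * q * i : ℕ) + 1) (x - ∑ y : s μ, a y • v μ y) := by
        rw [h3]
        intro l ν hν
        rw [Pi.sub_apply, map_sub, gs_ord_sub hw hx' hu1 hu2 l ν hν, Finset.sum_apply, map_sum,
          Finset.sum_eq_zero, sub_zero]
        intro y _
        refine gs_ord_smul (ha y) (gs_ord_sub hw (hv2 _ _ y.2) (hv3 _ _ y.2) (hv4 _ _ y.2)) l ν ?_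
        omega
      have h5 := ih' _ (sub_mem hx (hle n h2)) (gs_ord_succ hw h4)
      have h6 := add_mem h5 h2
      rwa [sub_add_cancel] at h6
  have htop : N = ⊤ := by
    rw [eq_top_iff]
    intro x _
    have hx := h.diag x
    have : (⨆ n : ℤ, LinearMap.range (h.cls n)) ≤ N.restrictScalars k := by
      refine iSup_le fun n => ?_
      rintro _ ⟨y, rfl⟩
      refine (h.gs_G_iff N n y).1 (key n (n + c + 1).toNat 0 ?_ y y.2 fun l ν hν => ?_)
      · simp
      · exfalso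
        have : (0 : ℤ) ≤ ((4 * q : ℕ) : ℤ) * (ν.degree : ℤ) := by positivity
        simp only [mul_zero, Nat.cast_zero] at hν
        omega
    exact this hx
  exact htop ▸ hN

theorem Filt.gs (h : Filt D q F) {lam : kˣ} (hl : InfOrd lam) (hq : 0 < q) :
    GS lam (h.θ lam) ⊤ := by
  refine ⟨h.gs_fg hl hq, fun v _ => ?_⟩
  have hv := h.diag v
  simp only [h.range_cls hl] at hv
  simpa only [piece, Submodule.restrictScalars_top, top_inf_eq] using hv

theorem Filt.lead_gs (h : Filt D q F) {lam : kˣ} (hl : InfOrd lam) (hq : 0 < q) (μ : ℤ) :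
    GS lam (θF lam (4 * q) fun _ : ι => 0) (lead (4 * q) F μ) :=
  gs_lead hl (by omega) F μ

theorem hilb_eq_triple {U W₁ W₂ : Type} [AddCommGroup U] [Module k U] [AddCommGroup W₁]
    [Module k W₁] [AddCommGroup W₂] [Module k W₂] (f : U →ₗ[k] W₁) (g : U →ₗ[k] W₂)
    (hk : LinearMap.ker f ≤ LinearMap.ker g) [FiniteDimensional k (LinearMap.range f)] :
    Module.finrank k (LinearMap.range f) =
      Module.finrank k (LinearMap.range g) + Module.finrank k ((LinearMap.ker g).map f) := by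
  let g' : LinearMap.range f →ₗ[k] W₂ :=
    ((LinearMap.ker f).liftQ g hk) ∘ₗ f.quotKerEquivRange.symm.toLinearMap
  have hg' : ∀ u, g' ⟨f u, LinearMap.mem_range_self f u⟩ = g u := fun u => by
    simp only [g', LinearMap.comp_apply, LinearEquiv.coe_coe]
    rw [LinearMap.quotKerEquivRange_symm_apply_image, Submodule.mkQ_apply, Submodule.liftQ_apply]
  have h1 : LinearMap.range g' = LinearMap.range g := by
    ext w
    constructor
    · rintro ⟨⟨_, u, rfl⟩, rfl⟩
      exact ⟨u, (hg' u).symm⟩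
    · rintro ⟨u, rfl⟩
      exact ⟨_, hg' u⟩
  have h2 : (LinearMap.ker g').map (LinearMap.range f).subtype = (LinearMap.ker g).map f := by
    ext w
    constructor
    · rintro ⟨⟨_, u, rfl⟩, hu, rfl⟩
      exact ⟨u, (hg' u).symm.trans hu, rfl⟩
    · rintro ⟨u, hu, rfl⟩
      exact ⟨⟨f u, LinearMap.mem_range_self f u⟩, (hg' u).trans hu, rfl⟩
  rw [← LinearMap.finrank_range_add_finrank_ker g', h1, ← h2, Submodule.finrank_map_subtype_eq]

/-- Truncation at total degree `< J`. -/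
noncomputable def hilb_eq_T (k : Type) [Field k] (ι : Type) (J : ℕ) :
    (ι → PS k) →ₗ[k] (ι → A k) :=
  (MvPowerSeries.truncTotal J : PS k →ₗ[k] A k).compLeft ι

omit [Fintype ι] [DecidableEq ι] in
theorem hilb_eq_T_coeff (J : ℕ) (v : ι → PS k) (i : ι) (ν : Fin 3 →₀ ℕ) :
    coeff ν (hilb_eq_T k ι J v i) = if ν.degree < J then MvPowerSeries.coeff ν (v i) else 0 :=
  MvPowerSeries.coeff_truncTotal_eq_ite (v i)

omit [Fintype ι] [DecidableEq ι] in
theorem hilb_eq_T_ker (J : ℕ) (v : ι → PS k) :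
    v ∈ LinearMap.ker (hilb_eq_T k ι J) ↔
      ∀ (i : ι) (ν : Fin 3 →₀ ℕ), ν.degree < J → MvPowerSeries.coeff ν (v i) = 0 := by
  rw [LinearMap.mem_ker]
  constructor
  · intro h i ν hν
    have := hilb_eq_T_coeff J v i ν
    rw [h, if_pos hν] at this
    exact this.symm
  · intro h
    funext i
    ext ν
    rw [hilb_eq_T_coeff]
    split_ifs with hν
    · exact h i ν hν
    · rfl

omit [Fintype ι] [DecidableEq ι] in
theorem hilb_eq_ord {w : ℕ} (hw : 0 < w) (j : ℕ) (v : ι → PS k) :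
    OrdGe w (w * j : ℕ) v ↔ v ∈ LinearMap.ker (hilb_eq_T k ι j) := by
  rw [hilb_eq_T_ker]
  refine forall_congr' fun i => forall_congr' fun ν => imp_congr_left ?_
  rw [← Nat.cast_mul, Nat.cast_lt]
  exact Nat.mul_lt_mul_left hw

omit [DecidableEq ι] in
theorem hilb_eq_fin (J : ℕ) (U : Submodule k (ι → PS k)) :
    FiniteDimensional k (U.map (hilb_eq_T k ι J)) := by
  have h1 : (Submodule.pi Set.univ fun _ : ι => restrictTotalDegree (Fin 3) k J).FG :=
    Submodule.fg_pi fun _ => Module.Finite.iff_fg.1 inferInstance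
  have := Module.Finite.iff_fg.2 h1
  refine Submodule.finiteDimensional_of_le
    (S₂ := Submodule.pi Set.univ fun _ : ι => restrictTotalDegree (Fin 3) k J) ?_
  rintro _ ⟨v, -, rfl⟩ i -
  refine (mem_restrictTotalDegree _ _ _).2 ?_
  refine Finset.sup_le fun ν hν => ?_
  rw [mem_support_iff, hilb_eq_T_coeff] at hν
  by_contra hlt
  refine hν (if_neg fun h => hlt ?_)
  exact h.le

/-- Leading forms of degree `j` of a subspace. -/
noncomputable def hilb_eq_G (U : Submodule k (ι → PS k)) (j : ℕ) : Submodule k (ι → A k) :=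
  (U ⊓ LinearMap.ker (hilb_eq_T k ι j)).map (hilb_eq_T k ι (j + 1))

omit [DecidableEq ι] in
theorem hilb_eq_tel (U : Submodule k (ι → PS k)) (J : ℕ) :
    Module.finrank k (U.map (hilb_eq_T k ι J)) =
      ∑ j ∈ Finset.range J, Module.finrank k (hilb_eq_G U j) := by
  induction J with
  | zero =>
    have : U.map (hilb_eq_T k ι 0) = ⊥ := by
      rw [eq_bot_iff, Submodule.map_le_iff_le_comap, Submodule.comap_bot]
      intro v _
      rw [hilb_eq_T_ker]
      intro i ν h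
      omega
    rw [this]
    simp
  | succ J ih =>
    rw [Finset.sum_range_succ, ← ih]
    have hr : ∀ J, LinearMap.range ((hilb_eq_T k ι J).domRestrict U) = U.map (hilb_eq_T k ι J) :=
      fun J => LinearMap.range_domRestrict _ _
    have := hilb_eq_fin (J + 1) U
    have : FiniteDimensional k (LinearMap.range ((hilb_eq_T k ι (J + 1)).domRestrict U)) := by
      rw [hr]; infer_instance
    have h := hilb_eq_triple ((hilb_eq_T k ι (J + 1)).domRestrict U)
      ((hilb_eq_T k ι J).domRestrict U) fun v hv => by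
        have hv' : (v : ι → PS k) ∈ LinearMap.ker (hilb_eq_T k ι (J + 1)) := hv
        change (v : ι → PS k) ∈ LinearMap.ker (hilb_eq_T k ι J)
        rw [hilb_eq_T_ker] at hv' ⊢
        exact fun i ν hν => hv' i ν (by omega)
    have h2 : (LinearMap.ker ((hilb_eq_T k ι J).domRestrict U)).map
        ((hilb_eq_T k ι (J + 1)).domRestrict U) = hilb_eq_G U J := by
      ext u
      constructor
      · rintro ⟨v, hv, rfl⟩
        exact ⟨v, ⟨v.2, hv⟩, rfl⟩
      · rintro ⟨v, ⟨hv, hv'⟩, rfl⟩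
        exact ⟨⟨v, hv⟩, hv', rfl⟩
    rw [hr, hr, h2] at h
    exact h

theorem hilb_eq_gr (h : Filt D q F) {lam : kˣ} (hl : InfOrd lam) (n : ℤ) (J : ℕ)
    (hJ : ∀ v ∈ LinearMap.ker (hilb_eq_T k ι J), v ∈ F (n + 1)) :
    hilb lam (h.θ lam) ⊤ n = (Module.finrank k ((F n).map (hilb_eq_T k ι J)) : ℚ) -
      Module.finrank k ((F (n + 1)).map (hilb_eq_T k ι J)) := by
  have hp : piece lam (h.θ lam) ⊤ n = LinearMap.range (h.cls n) := by
    rw [h.range_cls hl, piece, Submodule.restrictScalars_top, top_inf_eq]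
  have hr : LinearMap.range ((hilb_eq_T k ι J).domRestrict (F n)) = (F n).map (hilb_eq_T k ι J) :=
    LinearMap.range_domRestrict _ _
  have := hilb_eq_fin J (F n)
  have : FiniteDimensional k (LinearMap.range ((hilb_eq_T k ι J).domRestrict (F n))) := by
    rw [hr]; infer_instance
  have h1 := hilb_eq_triple ((hilb_eq_T k ι J).domRestrict (F n)) (h.cls n) fun v hv =>
    (h.cls_eq_zero n v).2 (hJ v hv)
  have h2 : (LinearMap.ker (h.cls n)).map ((hilb_eq_T k ι J).domRestrict (F n)) =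
      (F (n + 1)).map (hilb_eq_T k ι J) := by
    ext u
    constructor
    · rintro ⟨v, hv, rfl⟩
      exact ⟨v, (h.cls_eq_zero n v).1 hv, rfl⟩
    · rintro ⟨v, hv, rfl⟩
      exact ⟨⟨v, h.anti (by omega) hv⟩, (h.cls_eq_zero n _).2 hv, rfl⟩
  rw [hr, h2] at h1
  rw [hilb, hp, h1]
  push_cast
  ring

theorem hilb_eq_coeff_X (i : Fin 3) (φ : PS k) (ν : Fin 3 →₀ ℕ) :
    MvPowerSeries.coeff ν ((X i : A k) • φ) =
      if i ∈ ν.support then MvPowerSeries.coeff (ν - Finsupp.single i 1) φ else 0 := by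
  have : (X i : A k) • φ = MvPowerSeries.monomial (Finsupp.single i 1) (1 : k) * φ := by
    rw [Algebra.smul_def, MvPowerSeries.algebraMap_apply', ← MvPowerSeries.X_def]
    simp
  rw [this, MvPowerSeries.coeff_monomial_mul]
  simp_rw [Finsupp.single_le_iff, Finsupp.mem_support_iff, Nat.succ_le_iff, pos_iff_ne_zero,
    one_mul]

theorem hilb_eq_deg {i : Fin 3} {ν : Fin 3 →₀ ℕ} (hi : i ∈ ν.support) :
    (ν - Finsupp.single i 1).degree + 1 = ν.degree := by
  have h1 : Finsupp.single i 1 ≤ ν := by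
    rw [Finsupp.single_le_iff]
    exact Nat.pos_of_ne_zero (Finsupp.mem_support_iff.1 hi)
  conv_rhs => rw [← tsub_add_cancel_of_le h1]
  rw [map_add, Finsupp.degree_single]

theorem hilb_eq_lead (h : Filt D q F) (hq : 0 < q) (μ : ℤ) {u : ι → A k}
    (hu : u ∈ lead (4 * q) F μ) (j : ℕ) :
    ∃ v ∈ F ((4 * q * j : ℕ) + μ), v ∈ LinearMap.ker (hilb_eq_T k ι j) ∧
      ∀ (i : ι) (ν : Fin 3 →₀ ℕ), ν.degree = j → coeff ν (u i) = MvPowerSeries.coeff ν (v i) := by
  have hw : 0 < 4 * q := by omega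
  let Q : (ι → A k) → Prop := fun u => ∀ j : ℕ,
    ∃ v ∈ F ((4 * q * j : ℕ) + μ), v ∈ LinearMap.ker (hilb_eq_T k ι j) ∧
      ∀ (i : ι) (ν : Fin 3 →₀ ℕ), ν.degree = j → coeff ν (u i) = MvPowerSeries.coeff ν (v i)
  have hadd : ∀ u u', Q u → Q u' → Q (u + u') := fun u u' hu hu' j => by
    obtain ⟨v, h1, h2, h3⟩ := hu j
    obtain ⟨v', h1', h2', h3'⟩ := hu' j
    refine ⟨v + v', add_mem h1 h1', add_mem h2 h2', fun i ν hν => ?_⟩
    simp [h3 i ν hν, h3' i ν hν]
  have hC : ∀ (c : k) u, Q u → Q ((C c : A k) • u) := fun c u hu j => by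
    obtain ⟨v, h1, h2, h3⟩ := hu j
    refine ⟨c • v, Submodule.smul_mem _ _ h1, Submodule.smul_mem _ _ h2, fun i ν hν => ?_⟩
    simp [h3 i ν hν]
  have hX : ∀ (l : Fin 3) u, Q u → Q ((X l : A k) • u) := fun l u hu j => by
    rcases j with _ | j
    · refine ⟨0, zero_mem _, zero_mem _, fun i ν hν => ?_⟩
      rw [Pi.smul_apply, smul_eq_mul, coeff_X_mul', if_neg]
      · simp
      · intro hl
        have := hilb_eq_deg hl
        omega
    · obtain ⟨v, h1, h2, h3⟩ := hu j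
      refine ⟨(X l : A k) • v, ?_, ?_, fun i ν hν => ?_⟩
      · have := h.X l _ v h1
        convert this using 2
        push_cast
        ring
      · rw [hilb_eq_T_ker] at h2 ⊢
        intro i ν hν
        rw [Pi.smul_apply, hilb_eq_coeff_X]
        split_ifs with hl
        · have := hilb_eq_deg hl
          exact h2 i _ (by omega)
        · rfl
      · rw [Pi.smul_apply, Pi.smul_apply, hilb_eq_coeff_X, smul_eq_mul, coeff_X_mul']
        split_ifs with hl
        · have := hilb_eq_deg hl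
          exact h3 i _ (by omega)
        · rfl
  have hsm : ∀ (a : A k) u, Q u → Q (a • u) := fun a => by
    induction a using MvPolynomial.induction_on with
    | C c => exact hC c
    | add a b ha hb => exact fun u hu => by rw [add_smul]; exact hadd _ _ (ha u hu) (hb u hu)
    | mul_X a l ha => exact fun u hu => by rw [mul_smul]; exact ha _ (hX l u hu)
  revert j
  change Q u
  induction hu using Submodule.span_induction with
  | mem u hu =>
    obtain ⟨j₀, v, h1, h2, h3, h4⟩ := hu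
    intro j
    by_cases hj : j = j₀
    · subst hj
      exact ⟨v, h1, (hilb_eq_ord hw j v).1 h2, h4⟩
    · refine ⟨0, zero_mem _, zero_mem _, fun i ν hν => ?_⟩
      rw [(h3 i).coeff_eq_zero (by omega)]
      simp
  | zero => exact fun j => ⟨0, zero_mem _, zero_mem _, fun i ν _ => by simp⟩
  | add u u' _ _ hu hu' => exact hadd _ _ hu hu'
  | smul a u _ hu => exact hsm a u hu

theorem hilb_eq_piece (h : Filt D q F) {lam : kˣ} (hl : InfOrd lam) (hq : 0 < q) (μ : ℤ) (j : ℕ) :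
    piece lam (θF lam (4 * q) fun _ : ι => 0) (lead (4 * q) F μ) (4 * q * j : ℕ) =
      hilb_eq_G (F ((4 * q * j : ℕ) + μ)) j := by
  have hw : 0 < 4 * q := by omega
  ext u
  constructor
  · rintro ⟨h1, h2⟩
    obtain ⟨v, hv, hv', h3⟩ := hilb_eq_lead h hq μ h1 j
    refine ⟨v, ⟨hv, hv'⟩, ?_⟩
    funext i
    ext ν
    rw [hilb_eq_T_coeff]
    by_cases hν : ν.degree = j
    · rw [if_pos (by omega), h3 i ν hν]
    · have h4 : coeff ν (u i) = 0 := by
        by_contra h0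
        have h5 := (mem_eigF_iff hl _ u _).1 h2 i ν h0
        rw [sub_zero, ← Nat.cast_mul, Nat.cast_inj] at h5
        exact hν (Nat.eq_of_mul_eq_mul_left hw h5)
      rw [h4]
      split_ifs with h5
      · exact (hilb_eq_T_ker j v).1 hv' i ν (by omega)
      · rfl
  · rintro ⟨v, ⟨hv, hv'⟩, rfl⟩
    have hh : ∀ i, (hilb_eq_T k ι (j + 1) v i).IsHomogeneous j := fun i ν hν => by
      rw [hilb_eq_T_coeff] at hν
      by_contra hne'
      have hne : ν.degree ≠ j := fun h0 => hne' (by rw [← h0, Finsupp.degree_eq_weight_one]; rfl)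
      split_ifs at hν with h5
      · exact hν ((hilb_eq_T_ker j v).1 hv' i ν (by omega))
      · exact hν rfl
    refine ⟨Submodule.subset_span ⟨j, v, hv, (hilb_eq_ord hw j v).2 hv', hh, fun i ν hν => ?_⟩,
      (mem_eigF_iff hl _ _ _).2 fun i => ?_⟩
    · rw [hilb_eq_T_coeff, if_pos (by omega)]
    · rw [sub_zero, Nat.cast_mul]
      exact homZ_of_isHomogeneous _ (hh i)

omit [Fintype ι] [DecidableEq ι] in
theorem hilb_eq_zero {lam : kˣ} (hl : InfOrd lam) (w : ℕ) (N : Submodule (A k) (ι → A k)) (m : ℤ)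
    (hm : ∀ j : ℕ, m ≠ (w * j : ℕ)) : hilb lam (θF lam w fun _ : ι => 0) N m = 0 := by
  have : piece lam (θF lam w fun _ : ι => 0) N m = ⊥ := by
    rw [eq_bot_iff]
    rintro u ⟨-, h2⟩
    rw [Submodule.mem_bot]
    funext i
    ext ν
    by_contra h0
    have h5 := (mem_eigF_iff hl _ u _).1 h2 i ν h0
    rw [sub_zero, ← Nat.cast_mul] at h5
    exact hm _ h5.symm
  rw [hilb, this]
  simp

/-- The double filtration count. -/
theorem Filt.hilb_eq (h : Filt D q F) {lam : kˣ} (hl : InfOrd lam) (hq : 0 < q) :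
    ∃ c : ℕ, lead (4 * q) F (-c) = ⊤ ∧ lead (4 * q) F c = ⊥ ∧ ∀ n : ℤ,
      hilb lam (h.θ lam) ⊤ n = ∑ μ ∈ Finset.Ico (-c : ℤ) c,
        (hilb lam (θF lam (4 * q) fun _ : ι => 0) (lead (4 * q) F μ) (n - μ) -
          hilb lam (θF lam (4 * q) fun _ : ι => 0) (lead (4 * q) F (μ + 1)) (n - μ)) := by
  obtain ⟨c, hc⟩ := h.bdd
  have hw : 0 < 4 * q := by omega
  have htop : ∀ μ : ℤ, μ ≤ -c → lead (4 * q) F μ = ⊤ := fun μ hμ => by
    rw [eq_top_iff]
    intro u _
    rw [pi_eq_sum_univ' u]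
    refine Submodule.sum_mem _ fun i _ => Submodule.smul_mem _ _ (Submodule.subset_span
      ⟨0, Pi.single i 1, (hc _ _).1 fun l ν hν => ?_, fun l ν hν => ?_, fun l => ?_,
        fun l ν hν => ?_⟩)
    · exfalso
      have : (0 : ℤ) ≤ ((4 * q : ℕ) : ℤ) * (ν.degree : ℤ) := by positivity
      simp only [mul_zero, Nat.cast_zero, zero_add] at hν
      omega
    · exfalso
      have : (0 : ℤ) ≤ ((4 * q : ℕ) : ℤ) * (ν.degree : ℤ) := by positivity
      simp only [mul_zero, Nat.cast_zero] at hν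
      omega
    · by_cases hli : l = i
      · subst hli
        simpa using isHomogeneous_one (Fin 3) k
      · simpa [Pi.single_eq_of_ne hli] using isHomogeneous_zero (Fin 3) k 0
    · rw [Finsupp.degree_eq_zero_iff] at hν
      subst hν
      by_cases hli : l = i
      · subst hli
        simp
      · simp [Pi.single_eq_of_ne hli]
  have hbot : ∀ μ : ℤ, (c : ℤ) < μ → lead (4 * q) F μ = ⊥ := fun μ hμ => by
    rw [lead, Submodule.span_eq_bot]
    rintro u ⟨j, v, h1, -, h3, h4⟩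
    funext i
    ext ν
    by_cases hν : ν.degree = j
    · rw [h4 i ν hν]
      refine (hc _ _).2 h1 i ν ?_
      rw [hν]
      push_cast
      omega
    · exact (h3 i).coeff_eq_zero hν
  refine ⟨c + 1, htop _ (by push_cast; omega), hbot _ (by push_cast; omega), fun n => ?_⟩
  obtain ⟨J, hJ⟩ : ∃ J : ℕ, n + c + 2 ≤ J := ⟨(n + c + 2).toNat, Int.self_le_toNat _⟩
  have hwJ : ∀ j : ℕ, J ≤ j → n + c + 2 ≤ ((4 * q * j : ℕ) : ℤ) := fun j hj => by
    have h1 : j ≤ 4 * q * j := Nat.le_mul_of_pos_left j hw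
    omega
  rw [hilb_eq_gr h hl n J fun v hv => (hc _ _).1 fun i ν hν =>
    (hilb_eq_ord hw J v).2 hv i ν (by have := hwJ J le_rfl; omega), hilb_eq_tel, hilb_eq_tel]
  set Δ : ℤ → ℚ := fun μ =>
    hilb lam (θF lam (4 * q) fun _ : ι => 0) (lead (4 * q) F μ) (n - μ) -
      hilb lam (θF lam (4 * q) fun _ : ι => 0) (lead (4 * q) F (μ + 1)) (n - μ) with hΔ
  have h1 : ∀ j : ℕ, Δ (n - (4 * q * j : ℕ)) = (Module.finrank k (hilb_eq_G (F n) j) : ℚ) -
      Module.finrank k (hilb_eq_G (F (n + 1)) j) := fun j => by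
    simp only [hΔ, sub_sub_cancel]
    rw [hilb, hilb, hilb_eq_piece h hl hq, hilb_eq_piece h hl hq,
      show ((4 * q * j : ℕ) : ℤ) + (n - (4 * q * j : ℕ)) = n by ring,
      show ((4 * q * j : ℕ) : ℤ) + (n - (4 * q * j : ℕ) + 1) = n + 1 by ring]
  rw [Nat.cast_sum, Nat.cast_sum, ← Finset.sum_sub_distrib]
  simp only [← h1]
  rw [← Finset.sum_image (s := Finset.range J) (g := fun j : ℕ => n - ((4 * q * j : ℕ) : ℤ))
    (f := Δ) fun j _ j' _ hj => by
      have h2 : 4 * q * j = 4 * q * j' := by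
        have : n - ((4 * q * j : ℕ) : ℤ) = n - ((4 * q * j' : ℕ) : ℤ) := hj
        omega
      exact Nat.eq_of_mul_eq_mul_left hw h2]
  refine Finset.sum_congr_of_eq_on_inter (fun μ _ hμ => ?_) (fun μ hμ hμ' => ?_) fun _ _ _ => rfl
  · rw [Finset.mem_Ico, not_and_or] at hμ
    simp only [hΔ]
    push_cast at hμ
    rcases hμ with hμ | hμ
    · rw [htop μ (by omega), htop (μ + 1) (by omega), sub_self]
    · rw [hbot μ (by omega), hbot (μ + 1) (by omega), sub_self]
  · have h2 : ∀ j : ℕ, n - μ ≠ (4 * q * j : ℕ) := fun j hj => by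
      refine hμ' (Finset.mem_image.2 ⟨j, Finset.mem_range.2 ?_, by omega⟩)
      by_contra hlt
      have := hwJ j (not_lt.1 hlt)
      rw [Finset.mem_Ico] at hμ
      push_cast at hμ
      omega
    change hilb _ _ _ _ - hilb _ _ _ _ = _
    rw [hilb_eq_zero hl _ _ _ h2, hilb_eq_zero hl _ _ _ h2, sub_self]

theorem sig_nonneg_tel (f : ℤ → ℚ) {a b : ℤ} (hab : a ≤ b) :
    ∑ μ ∈ Finset.Ico a b, (f μ - f (μ + 1)) = f a - f b := by
  induction b, hab using Int.leInduction with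
  | base => simp
  | succ b hb ih =>
    have : Finset.Ico a (b + 1) = insert b (Finset.Ico a b) := by
      ext x
      simp only [Finset.mem_Ico, Finset.mem_insert]
      omega
    rw [this, Finset.sum_insert (by simp), ih]
    ring

omit [Fintype ι] [DecidableEq ι] in
theorem sig_nonneg_anti (h : Antitone F) (w : ℕ) (μ : ℤ) : lead w F (μ + 1) ≤ lead w F μ := by
  refine Submodule.span_mono ?_
  rintro u ⟨j, v, h1, h2⟩
  exact ⟨j, v, h (by omega) h1, h2⟩

theorem Filt.sig_nonneg (h : Filt D q F) {lam : kˣ} (hl : InfOrd lam) (hq : 0 < q) :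
    (tauS lam (4 * q) (h.θ lam) ⊤).c0 = Fintype.card ι ∧
      0 ≤ (tauS lam (4 * q) (h.θ lam) ⊤).sig := by
  obtain ⟨c, h1, h2, h3⟩ := h.hilb_eq hl hq
  have hw : 0 < 4 * q := by omega
  have g := gd_F hl hw fun _ : ι => (0 : ℤ)
  set t : ℤ → T3 := fun μ => tauS lam (4 * q) (θF lam (4 * q) fun _ : ι => 0) (lead (4 * q) F μ)
    with ht
  have hf : ∀ μ, IsHF (4 * q) (hilb lam (θF lam (4 * q) fun _ : ι => 0) (lead (4 * q) F μ)) :=
    fun μ => (h.lead_gs hl hq μ).isHF g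
  have hτ : tauS lam (4 * q) (h.θ lam) ⊤ =
      ∑ μ ∈ Finset.Ico (-c : ℤ) c, ex μ * (t μ - t (μ + 1)) := by
    rw [tauS, funext h3, tauH_sum _ fun μ _ => ((hf μ).shift μ).sub ((hf (μ + 1)).shift μ)]
    refine Finset.sum_congr rfl fun μ _ => ?_
    rw [tauH_sub ((hf μ).shift μ) ((hf (μ + 1)).shift μ), tauH_shift (hf μ),
      tauH_shift (hf (μ + 1)), mul_sub]
    rfl
  have ha : t (-c) = ∑ _i : ι, ex 0 := by
    simp only [ht]
    rw [h1, (gs_F hl hw _).2]
  have ha0 : (t (-c)).c0 = Fintype.card ι := by rw [ha, T3.sum_c0]; simp [ex]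
  have ha1 : (t (-c)).c1 = 0 := by rw [ha, T3.sum_c1]; simp [ex]
  have ha2 : (t (-c)).c2 = 0 := by rw [ha, T3.sum_c2]; simp [ex]
  have hb : t c = 0 := by
    simp only [ht]
    rw [h2, tauS_bot]
  have hr : ∀ μ, 0 ≤ (t μ).c0 - (t (μ + 1)).c0 := fun μ => by
    have := (tauS_pos g (h.lead_gs hl hq μ) (h.lead_gs hl hq (μ + 1))
      (sig_nonneg_anti h.anti _ μ)).1
    rwa [T3.sub_c0] at this
  have hx : ∀ μ, 0 ≤ (t μ).c1 := fun μ => by
    have := c1_ge_of_le_free hl hw (fun _ : ι => (0 : ℤ)) 0 (fun _ => le_rfl) (h.lead_gs hl hq μ)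
    simpa using this
  have hc : (-c : ℤ) ≤ c := by omega
  have e0 := sig_nonneg_tel (fun μ => (t μ).c0) hc
  have e1 := sig_nonneg_tel (fun μ => (t μ).c1) hc
  have e2 := sig_nonneg_tel (fun μ => (t μ).c2) hc
  have e3 := sig_nonneg_tel (fun μ => (μ : ℚ) * (t μ).c1) hc
  simp only [ha0, ha1, ha2, hb, T3.zero_c0, T3.zero_c1, T3.zero_c2, sub_zero, mul_zero] at e0 e1 e2 e3
  have c0 : (tauS lam (4 * q) (h.θ lam) ⊤).c0 =
      ∑ μ ∈ Finset.Ico (-c : ℤ) c, ((t μ).c0 - (t (μ + 1)).c0) := by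
    rw [hτ, T3.sum_c0]
    refine Finset.sum_congr rfl fun μ _ => ?_
    simp [ex]
  have c1 : (tauS lam (4 * q) (h.θ lam) ⊤).c1 =
      ∑ μ ∈ Finset.Ico (-c : ℤ) c, (μ : ℚ) * ((t μ).c0 - (t (μ + 1)).c0) := by
    rw [hτ, T3.sum_c1, ← zero_add (∑ μ ∈ Finset.Ico (-c : ℤ) c, (μ : ℚ) * _), ← e1,
      ← Finset.sum_add_distrib]
    refine Finset.sum_congr rfl fun μ _ => ?_
    simp [ex]
  have c2 : 2 * (tauS lam (4 * q) (h.θ lam) ⊤).c2 =
      2 * ∑ μ ∈ Finset.Ico (-c : ℤ) c, (t (μ + 1)).c1 +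
        ∑ μ ∈ Finset.Ico (-c : ℤ) c, (μ : ℚ) ^ 2 * ((t μ).c0 - (t (μ + 1)).c0) := by
    have e4 : 2 * ∑ μ ∈ Finset.Ico (-c : ℤ) c, (t (μ + 1)).c1 +
        ∑ μ ∈ Finset.Ico (-c : ℤ) c, (μ : ℚ) ^ 2 * ((t μ).c0 - (t (μ + 1)).c0) =
        2 * ∑ μ ∈ Finset.Ico (-c : ℤ) c, (t (μ + 1)).c1 +
        ∑ μ ∈ Finset.Ico (-c : ℤ) c, (μ : ℚ) ^ 2 * ((t μ).c0 - (t (μ + 1)).c0) +
        2 * ∑ μ ∈ Finset.Ico (-c : ℤ) c, ((t μ).c2 - (t (μ + 1)).c2) +
        2 * ∑ μ ∈ Finset.Ico (-c : ℤ) c,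
          ((μ : ℚ) * (t μ).c1 - ((μ + 1 : ℤ) : ℚ) * (t (μ + 1)).c1) := by
      rw [e2, e3]; ring
    rw [e4, hτ, T3.sum_c2]
    simp only [Finset.mul_sum, ← Finset.sum_add_distrib]
    refine Finset.sum_congr rfl fun μ _ => ?_
    simp only [ex, T3.mul_c2, T3.sub_c0, T3.sub_c1, T3.sub_c2]
    push_cast
    ring
  refine ⟨by rw [c0, e0], ?_⟩
  have cs := Finset.sum_sq_le_sum_mul_sum_of_sq_le_mul (Finset.Ico (-c : ℤ) c)
    (r := fun μ => (μ : ℚ) * ((t μ).c0 - (t (μ + 1)).c0))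
    (f := fun μ => (t μ).c0 - (t (μ + 1)).c0)
    (g := fun μ => (μ : ℚ) ^ 2 * ((t μ).c0 - (t (μ + 1)).c0)) (fun μ _ => hr μ)
    (fun μ _ => mul_nonneg (sq_nonneg _) (hr μ)) (fun μ _ => le_of_eq (by ring))
  have p0 : 0 ≤ ∑ μ ∈ Finset.Ico (-c : ℤ) c, ((t μ).c0 - (t (μ + 1)).c0) :=
    Finset.sum_nonneg fun μ _ => hr μ
  have p1 : 0 ≤ ∑ μ ∈ Finset.Ico (-c : ℤ) c, (t (μ + 1)).c1 :=
    Finset.sum_nonneg fun μ _ => hx _
  rw [T3.sig, mul_right_comm, c2, c0, c1]
  nlinarith [mul_nonneg p0 p1]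

/-! ### Subtask Filt-c (existence, Hecke modifications, the minimiser) -/

theorem exists_filt_smul_eq (f : A k) (x : PS k) : f • x = (f : PS k) * x := by
  rw [Algebra.smul_def, MvPowerSeries.algebraMap_apply', Algebra.algebraMap_self,
    MvPowerSeries.map_id]
  rfl

theorem exists_filt_mul {w : ℕ} {s t : ℤ} {x y : PS k}
    (hx : ∀ μ : Fin 3 →₀ ℕ, (w : ℤ) * (μ.degree : ℤ) < s → MvPowerSeries.coeff μ x = 0)
    (hy : ∀ μ : Fin 3 →₀ ℕ, (w : ℤ) * (μ.degree : ℤ) < t → MvPowerSeries.coeff μ y = 0)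
    (μ : Fin 3 →₀ ℕ) (h : (w : ℤ) * (μ.degree : ℤ) < s + t) :
    MvPowerSeries.coeff μ (x * y) = 0 := by
  classical
  rw [MvPowerSeries.coeff_mul]
  refine Finset.sum_eq_zero fun p hp => ?_
  have hμ : p.1 + p.2 = μ := Finset.HasAntidiagonal.mem_antidiagonal.mp hp
  rw [← hμ, map_add, Nat.cast_add, mul_add] at h
  by_cases h1 : (w : ℤ) * (p.1.degree : ℤ) < s
  · rw [hx _ h1, zero_mul]
  · rw [hy _ (by omega), mul_zero]

omit [Fintype ι] [DecidableEq ι] in
theorem exists_filt_mono {w : ℕ} {s t : ℤ} (h : s ≤ t) {v : ι → PS k} (hv : OrdGe w t v) :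
    OrdGe w s v := fun i μ hμ => hv i μ (lt_of_lt_of_le hμ h)

omit [Fintype ι] [DecidableEq ι] in
theorem exists_filt_smul {w : ℕ} {d t : ℤ} {f : A k} (hf : HomZ w f d) {v : ι → PS k}
    (hv : OrdGe w t v) : OrdGe w (d + t) (f • v) := by
  intro i μ hμ
  rw [Pi.smul_apply, exists_filt_smul_eq]
  refine exists_filt_mul (fun ν hν => ?_) (hv i) μ hμ
  rw [MvPolynomial.coeff_coe]
  by_contra h
  exact hν.ne (hf ν h)

omit [DecidableEq ι] in
theorem exists_filt_mulVec {w : ℕ} {t : ℤ} (U : Matrix ι ι (PS k)) {v : ι → PS k}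
    (hv : OrdGe w t v) : OrdGe w t (U *ᵥ v) := by
  intro i μ hμ
  simp only [mulVec, dotProduct, map_sum]
  refine Finset.sum_eq_zero fun j _ => ?_
  refine exists_filt_mul (s := 0) (fun ν hν => ?_) (hv j) μ (by simpa using hμ)
  exact absurd hν (not_lt.mpr (by positivity))

omit [Fintype ι] [DecidableEq ι] in
theorem exists_filt_sum {w : ℕ} {t : ℤ} {κ : Type} (s : Finset κ) {v : κ → ι → PS k}
    (hv : ∀ j ∈ s, OrdGe w t (v j)) : OrdGe w t (∑ j ∈ s, v j) := by
  intro i μ hμ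
  rw [Finset.sum_apply, map_sum]
  exact Finset.sum_eq_zero fun j hj => hv j hj i μ hμ

omit [Fintype ι] [DecidableEq ι] in
theorem exists_filt_sat {w j : ℕ} {t : ℤ} {f : A k} (h0 : f ≠ 0) (hf : f.IsHomogeneous j)
    {v : ι → PS k} (hv : OrdGe w (t + (w * j : ℕ)) (f • v)) : OrdGe w t v := by
  intro i μ hμ
  by_contra hne
  have hx0 : v i ≠ 0 := fun h => hne (by rw [h, map_zero])
  have hf0 : (f : PS k) ≠ 0 := fun h => h0 (MvPolynomial.coe_eq_zero_iff.mp h)
  have h1 : (v i).order ≤ μ.degree := MvPowerSeries.order_le hne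
  obtain ⟨ν, hν⟩ := MvPolynomial.ne_zero_iff.mp h0
  have h2 : (f : PS k).order ≤ j := by
    have := MvPowerSeries.order_le (f := (f : PS k)) (d := ν) (by rwa [MvPolynomial.coeff_coe])
    have h3 : ν.degree = j := by
      rw [Finsupp.degree_eq_weight_one]
      exact hf hν
    rwa [h3] at this
  have h3 : ((f : PS k) * v i).order ≤ (j + μ.degree : ℕ) := by
    rw [MvPowerSeries.order_mul, Nat.cast_add]
    exact add_le_add h2 h1
  obtain ⟨ξ, hξ, hξ'⟩ := MvPowerSeries.exists_coeff_ne_zero_and_order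
    (MvPowerSeries.ne_zero_iff_order_finite.mp (mul_ne_zero hf0 hx0))
  rw [← hξ', Nat.cast_le] at h3
  refine hξ ?_
  have := hv i ξ (by
    have h4 : (ξ.degree : ℤ) ≤ j + μ.degree := by exact_mod_cast h3
    have h5 : (w : ℤ) * ξ.degree ≤ w * (j + μ.degree) :=
      mul_le_mul_of_nonneg_left h4 (by positivity)
    push_cast
    linarith)
  rwa [Pi.smul_apply, exists_filt_smul_eq] at this

omit [Fintype ι] [DecidableEq ι] in
theorem exists_filt_tf (f : A k) (hf : f ≠ 0) (b : Matrix ι ι (PS k)) (h : f • b = 0) : b = 0 := by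
  ext1 i j
  have := congrFun (congrFun h i) j
  rw [Matrix.smul_apply, Matrix.zero_apply, exists_filt_smul_eq, mul_eq_zero] at this
  exact this.resolve_left fun h => hf (MvPolynomial.coe_eq_zero_iff.mp h)

theorem exists_filt (D : PData P ι) {lam : kˣ} (hl : InfOrd lam) {q : ℕ} (hq : 0 < q) :
    ∃ F, Filt D q F := by
  obtain ⟨ψ, hψ⟩ := exists_lift P exists_filt_tf D.Y D.rel
  let θ := (θR P lam q).toLinearMap
  have gd : Gd lam (4 * q) θ := R_gd P hl hq
  let Good : Matrix ι ι (PS k) → Prop := fun W => ∃ g : R P ≃ₐ[A k] R P,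
    (∀ r, θR P lam q (g r) = g (θR P lam q r)) ∧ ∀ r, W * ψ r = ψ (g r) * W
  have good1 : Good 1 := ⟨AlgEquiv.refl, fun _ => rfl, fun r => by simp⟩
  have goodm : ∀ W W', Good W → Good W' → Good (W * W') := by
    rintro W W' ⟨g, hg, hW⟩ ⟨g', hg', hW'⟩
    refine ⟨g'.trans g, fun r => ?_, fun r => ?_⟩
    · simp only [AlgEquiv.trans_apply, hg, hg']
    · rw [Matrix.mul_assoc, hW', ← Matrix.mul_assoc, hW, Matrix.mul_assoc, AlgEquiv.trans_apply]
  have hΓ : ∀ σ r, D.Γ σ * ψ r = ψ (sym P σ r) * D.Γ σ := by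
    intro σ r
    induction r using R_induction P with
    | h0 a =>
      rw [AlgEquiv.commutes, AlgHom.commutes]
      exact (Algebra.commutes a _).symm
    | hadd r r' h h' => rw [map_add, map_add, map_add, Matrix.mul_add, Matrix.add_mul, h, h']
    | hmul g r h =>
      rw [map_mul, map_mul, map_mul, hψ, ← Matrix.mul_assoc, D.ΓY, sym_y, map_smul, hψ,
        Matrix.smul_mul, Matrix.mul_assoc, h, Matrix.smul_mul, Matrix.smul_mul, Matrix.mul_assoc]
  have goodΓ : ∀ σ, Good (D.Γ σ) := fun σ => ⟨sym P σ, θR_sym P lam q σ, hΓ σ⟩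
  have goodΓ' : ∀ σ, Good (D.Γ' σ) := by
    intro σ
    refine ⟨(sym P σ).symm, fun r => ?_, fun r => ?_⟩
    · apply (sym P σ).injective
      rw [← θR_sym, AlgEquiv.apply_symm_apply, AlgEquiv.apply_symm_apply]
    · have h1 := hΓ σ ((sym P σ).symm r)
      rw [AlgEquiv.apply_symm_apply] at h1
      have h2 : D.Γ σ * D.Γ' σ = 1 := mul_eq_one_comm.mp (D.inv σ)
      calc D.Γ' σ * ψ r = D.Γ' σ * (ψ r * D.Γ σ) * D.Γ' σ := by
            rw [Matrix.mul_assoc, Matrix.mul_assoc, h2, Matrix.mul_one]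
        _ = _ := by rw [← h1, ← Matrix.mul_assoc, D.inv, Matrix.one_mul]
  let F : ℤ → Submodule k (ι → PS k) := fun n =>
    { carrier := {v | ∀ W, Good W → ∀ (e : ℤ) (r : R P), r ∈ eig lam θ e →
        OrdGe (4 * q) (n + e) (ψ r *ᵥ W *ᵥ v)}
      add_mem' := fun {a b} ha hb W hW e r hr i μ hμ => by
        rw [mulVec_add, mulVec_add, Pi.add_apply, map_add, ha W hW e r hr i μ hμ,
          hb W hW e r hr i μ hμ, add_zero]
      zero_mem' := fun W hW e r hr i μ hμ => by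
        rw [mulVec_zero, mulVec_zero, Pi.zero_apply, map_zero]
      smul_mem' := fun c a ha W hW e r hr i μ hμ => by
        rw [mulVec_smul, mulVec_smul, Pi.smul_apply, map_smul, ha W hW e r hr i μ hμ, smul_zero] }
  have hF : ∀ n v, v ∈ F n ↔ ∀ W, Good W → ∀ (e : ℤ) (r : R P), r ∈ eig lam θ e →
        OrdGe (4 * q) (n + e) (ψ r *ᵥ W *ᵥ v) := fun _ _ => Iff.rfl
  have hW : ∀ U, Good U → ∀ n, ∀ v ∈ F n, U *ᵥ v ∈ F n := by
    intro U hU n v hv W hW e r hr
    rw [mulVec_mulVec v W U]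
    exact hv _ (goodm _ _ hW hU) e r hr
  refine ⟨F, fun m n hmn v hv W hW e r hr => exists_filt_mono (by omega) (hv W hW e r hr),
    fun i n v hv W hW e r hr => ?_, fun g n v hv W hW e r hr => ?_, fun σ => hW _ (goodΓ σ),
    fun σ => hW _ (goodΓ' σ), ?_, fun f j h0 hf n v hv W hW e r hr => ?_⟩
  · rw [mulVec_smul, mulVec_smul]
    have := exists_filt_smul (homZ_of_isHomogeneous (4 * q) (isHomogeneous_X k i))
      (hv W hW e r hr)
    refine exists_filt_mono (le_of_eq ?_) this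
    push_cast
    ring
  · obtain ⟨g0, hg0, hW0⟩ := id hW
    have h1 : ψ r *ᵥ W *ᵥ D.Y g *ᵥ v = ψ (r * g0 (yR P g)) *ᵥ W *ᵥ v := by
      rw [mulVec_mulVec v W, ← hψ, hW0, map_mul, ← mulVec_mulVec, ← mulVec_mulVec]
    have h2 : r * g0 (yR P g) ∈ eig lam θ (e + (q * g.deg : ℕ)) := by
      rw [mem_eig] at hr ⊢
      change θR P lam q _ = _ at hr ⊢
      rw [map_mul, hr, hg0, θR_y, ← algebraMap_smul (A k), ← algebraMap_smul (A k) _ (yR P g),
        map_smul, algebraMap_smul, algebraMap_smul, smul_mul_smul_comm, _root_.zpow_add, _root_.zpow_natCast,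
        Units.val_mul]
    rw [h1]
    exact exists_filt_mono (le_of_eq (by ring)) (hv W hW _ _ h2)
  · obtain ⟨m, e0, d, he0, hspan⟩ := (R_gs P lam q).exists_gens
    refine ⟨∑ i, (d i).natAbs, fun n v => ⟨fun hv W hW e r hr => ?_, fun hv => ?_⟩⟩
    · obtain ⟨c, hc, rfl⟩ := exists_hom_coeff gd e0 d he0 (by rw [hspan]; trivial) hr
      rw [map_sum, sum_mulVec]
      refine exists_filt_sum _ fun i _ => ?_
      rw [map_smul, smul_mulVec]
      refine exists_filt_mono ?_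
        (exists_filt_smul (hc i) (exists_filt_mulVec _ (exists_filt_mulVec _ hv)))
      have h1 : (d i).natAbs ≤ ∑ i, (d i).natAbs :=
        Finset.single_le_sum (f := fun i => (d i).natAbs) (fun _ _ => Nat.zero_le _)
          (Finset.mem_univ i)
      omega
    · have := hv 1 good1 0 1 (by
        rw [mem_eig]
        change θR P lam q 1 = _
        rw [map_one, zpow_zero, Units.val_one, one_smul])
      rw [map_one, one_mulVec, one_mulVec] at this
      exact exists_filt_mono (by omega) this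
  · have := hv W hW e r hr
    rw [mulVec_smul, mulVec_smul] at this
    exact exists_filt_sat h0 hf (exists_filt_mono (le_of_eq (by push_cast; ring)) this)

/-- Hecke modification along a graded submodule of the associated graded module. -/
noncomputable def Filt.hecke (h : Filt D q F) (N : Submodule (A k) h.Gr) (n : ℤ) :
    Submodule k (ι → PS k) :=
  ((N.restrictScalars k).comap (h.cls n)).map (F n).subtype

theorem Filt.hecke_mem (h : Filt D q F) (N : Submodule (A k) h.Gr) (n : ℤ) (v : ι → PS k) :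
    v ∈ h.hecke N n ↔ ∃ hv : v ∈ F n, h.cls n ⟨v, hv⟩ ∈ N := by
  constructor
  · rintro ⟨w, hw, rfl⟩
    exact ⟨w.2, hw⟩
  · rintro ⟨hv, hv'⟩
    exact ⟨⟨v, hv⟩, hv', rfl⟩

theorem Filt.hecke_of_eq (h : Filt D q F) (N : Submodule (A k) h.Gr) {n m : ℤ} (e : n = m)
    {v : F n} (hv : h.cls n v ∈ N) : (v : ι → PS k) ∈ h.hecke N m := by
  subst e
  exact (h.hecke_mem N n v).2 ⟨v.2, hv⟩

theorem Filt.hecke_le (h : Filt D q F) (N : Submodule (A k) h.Gr) (n : ℤ) : h.hecke N n ≤ F n :=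
  fun v hv => ((h.hecke_mem N n v).1 hv).1

theorem Filt.hecke_ge (h : Filt D q F) (N : Submodule (A k) h.Gr) (n : ℤ) :
    F (n + 1) ≤ h.hecke N n := fun v hv => by
  refine (h.hecke_mem N n v).2 ⟨h.anti (by omega) hv, ?_⟩
  rw [(h.cls_eq_zero n _).2 hv]
  exact N.zero_mem

theorem Filt.hecke_γ (h : Filt D q F) (σ : Sym) (n : ℤ) (w : F n) :
    h.γ σ (h.cls n w) = h.cls n ⟨D.Γ σ *ᵥ (w : ι → PS k), h.Γ σ n w w.2⟩ := by
  have key : ∀ (m : ℤ) (e : m = n) (v : ι → PS k) (hv : v ∈ F m),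
      h.cls m ⟨v, hv⟩ = h.cls n ⟨v, e ▸ hv⟩ := by
    rintro m rfl v hv
    rfl
  rw [Filt.γ, h.grOp_cls, key _ (add_zero n)]

theorem Filt.hecke_filt (h : Filt D q F) {lam : kˣ} (hl : InfOrd lam) (hq : 0 < q)
    (N : Submodule (A k) h.Gr) (hN : GS lam (h.θ lam) N)
    (hsat : ∀ (f : A k) (v : h.Gr), f ≠ 0 → f • v ∈ N → v ∈ N)
    (hy : ∀ g, ∀ v ∈ N, h.y g v ∈ N) (hγ : ∀ σ, ∀ v ∈ N, h.γ σ v ∈ N) :
    Filt D q (h.hecke N) := by
  refine ⟨fun n m hnm => ?_, fun i n v hv => ?_, fun g n v hv => ?_, fun σ n v hv => ?_,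
    fun σ n v hv => ?_, ?_, fun f j hf hj n v hv => ?_⟩
  · rcases hnm.eq_or_lt with rfl | hlt
    · exact le_rfl
    · exact (h.hecke_le N m).trans ((h.anti (by omega)).trans (h.hecke_ge N n))
  · obtain ⟨hv, hv'⟩ := (h.hecke_mem N n v).1 hv
    have h1 := N.smul_mem (MvPolynomial.X i : A k) hv'
    rw [h.smul_cls (isHomogeneous_X k i)] at h1
    exact h.hecke_of_eq N (by push_cast; ring) h1
  · obtain ⟨hv, hv'⟩ := (h.hecke_mem N n v).1 hv
    have h1 := hy g _ hv'
    rw [Filt.y, h.grOp_cls] at h1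
    exact h.hecke_of_eq N rfl h1
  · obtain ⟨hv, hv'⟩ := (h.hecke_mem N n v).1 hv
    have h1 := hγ σ _ hv'
    rw [Filt.γ, h.grOp_cls] at h1
    exact h.hecke_of_eq N (add_zero n) h1
  · obtain ⟨hv, hv'⟩ := (h.hecke_mem N n v).1 hv
    have hfin := hN.finite_piece (h.gd hl hq) n
    have hst : ∀ u ∈ piece lam (h.θ lam) N n,
        (h.γ σ).restrictScalars k u ∈ piece lam (h.θ lam) N n := by
      rintro u ⟨hu, hu'⟩
      refine ⟨hγ σ u hu, ?_⟩
      rw [← h.range_cls hl] at hu' ⊢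
      obtain ⟨w, rfl⟩ := hu'
      exact ⟨_, (h.hecke_γ σ n w).symm⟩
    have hinj : Function.Injective (((h.γ σ).restrictScalars k).restrict hst) := fun a b hab =>
      Subtype.ext (h.γ_injective σ (congrArg Subtype.val hab))
    obtain ⟨⟨u, hu, hu'⟩, e⟩ := LinearMap.surjective_of_injective hinj
      ⟨h.cls n ⟨v, hv⟩, hv', by rw [← h.range_cls hl]; exact ⟨_, rfl⟩⟩
    rw [← h.range_cls hl] at hu'
    obtain ⟨w, rfl⟩ := hu'
    have e' : h.γ σ (h.cls n w) = h.cls n ⟨v, hv⟩ := congrArg Subtype.val e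
    rw [h.hecke_γ, ← sub_eq_zero, ← map_sub, h.cls_eq_zero] at e'
    have e2 := h.Γ' σ _ _ e'
    rw [Submodule.coe_sub, mulVec_sub, mulVec_mulVec, D.inv, one_mulVec] at e2
    refine (h.hecke_mem N n _).2 ⟨h.Γ' σ n v hv, ?_⟩
    have e3 : h.cls n w = h.cls n ⟨_, h.Γ' σ n v hv⟩ := by
      rw [← sub_eq_zero, ← map_sub, h.cls_eq_zero]
      exact e2
    rw [← e3]
    exact hu
  · obtain ⟨c, hc⟩ := h.bdd
    refine ⟨c + 1, fun n v => ⟨fun hv => h.hecke_ge N n ((hc _ _).1 fun i μ hμ => hv i μ ?_),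
      fun hv i μ hμ => (hc _ _).2 (h.hecke_le N n hv) i μ ?_⟩⟩
    · push_cast at hμ ⊢
      omega
    · push_cast at hμ ⊢
      omega
  · obtain ⟨hv, hv'⟩ := (h.hecke_mem N _ _).1 hv
    have hv0 := h.sat f j hf hj n v hv
    refine (h.hecke_mem N n v).2 ⟨hv0, hsat f _ hf ?_⟩
    rw [h.smul_cls hj]
    exact hv'

theorem Filt.hecke_tau_aux (h : Filt D q F) {lam : kˣ} (hl : InfOrd lam)
    (N : Submodule (A k) h.Gr) (n : ℤ) (J : ℕ)
    (hJ : ∀ v ∈ LinearMap.ker (hilb_eq_T k ι J), v ∈ F (n + 1)) :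
    hilb lam (h.θ lam) N n = (Module.finrank k ((h.hecke N n).map (hilb_eq_T k ι J)) : ℚ) -
      Module.finrank k ((F (n + 1)).map (hilb_eq_T k ι J)) := by
  let g : h.hecke N n →ₗ[k] h.Gr := h.cls n ∘ₗ Submodule.inclusion (h.hecke_le N n)
  have hp : piece lam (h.θ lam) N n = LinearMap.range g := by
    rw [piece, ← h.range_cls hl]
    ext u
    constructor
    · rintro ⟨hu, w, rfl⟩
      exact ⟨⟨w, (h.hecke_mem N n w).2 ⟨w.2, hu⟩⟩, rfl⟩
    · rintro ⟨w, rfl⟩
      exact ⟨((h.hecke_mem N n w).1 w.2).2, _, rfl⟩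
  have hr : LinearMap.range ((hilb_eq_T k ι J).domRestrict (h.hecke N n)) =
      (h.hecke N n).map (hilb_eq_T k ι J) := LinearMap.range_domRestrict _ _
  have := hilb_eq_fin J (h.hecke N n)
  have : FiniteDimensional k
      (LinearMap.range ((hilb_eq_T k ι J).domRestrict (h.hecke N n))) := by
    rw [hr]; infer_instance
  have h1 := hilb_eq_triple ((hilb_eq_T k ι J).domRestrict (h.hecke N n)) g fun v hv =>
    (h.cls_eq_zero n _).2 (hJ v hv)
  have h2 : (LinearMap.ker g).map ((hilb_eq_T k ι J).domRestrict (h.hecke N n)) =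
      (F (n + 1)).map (hilb_eq_T k ι J) := by
    ext u
    constructor
    · rintro ⟨v, hv, rfl⟩
      exact ⟨v, (h.cls_eq_zero n _).1 hv, rfl⟩
    · rintro ⟨v, hv, rfl⟩
      exact ⟨⟨v, h.hecke_ge N n hv⟩, (h.cls_eq_zero n _).2 hv, rfl⟩
  rw [hr, h2] at h1
  rw [hilb, hp, h1]
  push_cast
  ring

theorem Filt.hecke_tau (h : Filt D q F) {lam : kˣ} (hl : InfOrd lam) (hq : 0 < q)
    (N : Submodule (A k) h.Gr) (hN : GS lam (h.θ lam) N) (h' : Filt D q (h.hecke N)) :
    tauS lam (4 * q) (h'.θ lam) ⊤ = tauS lam (4 * q) (h.θ lam) N +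
      ex (-1) * (tauS lam (4 * q) (h.θ lam) ⊤ - tauS lam (4 * q) (h.θ lam) N) := by
  have g := h.gd hl hq
  have H1 := (h.gs hl hq).isHF g
  have H2 := hN.isHF g
  have hw : 0 < 4 * q := by omega
  have e : hilb lam (h'.θ lam) ⊤ = fun n => hilb lam (h.θ lam) N n +
      (fun m => hilb lam (h.θ lam) ⊤ m - hilb lam (h.θ lam) N m) (n - -1) := by
    funext n
    obtain ⟨c, hc⟩ := h.bdd
    obtain ⟨J, hJ⟩ : ∃ J : ℕ, n + c + 2 ≤ J := ⟨(n + c + 2).toNat, Int.self_le_toNat _⟩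
    have hJ2 : ∀ v ∈ LinearMap.ker (hilb_eq_T k ι J), v ∈ F (n + 1 + 1) := fun v hv =>
      (hc _ _).1 fun i ν hν => (hilb_eq_ord hw J v).2 hv i ν (by
        have h1 : J ≤ 4 * q * J := Nat.le_mul_of_pos_left J hw
        omega)
    have hJ1 : ∀ v ∈ LinearMap.ker (hilb_eq_T k ι J), v ∈ F (n + 1) := fun v hv =>
      h.anti (by omega) (hJ2 v hv)
    simp only [sub_neg_eq_add]
    rw [hilb_eq_gr h' hl n J fun v hv => h.hecke_ge N _ (hJ2 v hv), hilb_eq_gr h hl (n + 1) J hJ2,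
      h.hecke_tau_aux hl N n J hJ1, h.hecke_tau_aux hl N (n + 1) J hJ2]
    ring
  rw [tauS, e, tauH_add H2 ((H1.sub H2).shift _), tauH_shift (H1.sub H2), tauH_sub H1 H2]
  rfl

theorem exists_min_filt (D : PData P ι) {lam : kˣ} (hl : InfOrd lam) {q : ℕ} (hq : 0 < q) :
    ∃ (F : ℤ → Submodule k (ι → PS k)) (h : Filt D q F),
      ∀ N : Submodule (A k) h.Gr, GS lam (h.θ lam) N →
        (∀ (f : A k) (v : h.Gr), f ≠ 0 → f • v ∈ N → v ∈ N) →
        (∀ g, ∀ v ∈ N, h.y g v ∈ N) → (∀ σ, ∀ v ∈ N, h.γ σ v ∈ N) →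
        (tauS lam (4 * q) (h.θ lam) N).c0 *
            ((tauS lam (4 * q) (h.θ lam) ⊤).c1 - Fintype.card ι / 2) ≤
          Fintype.card ι * (tauS lam (4 * q) (h.θ lam) N).c1 := by
  classical
  have hnat : ∀ (F : ℤ → Submodule k (ι → PS k)) (h : Filt D q F),
      ∃ m : ℕ, (tauS lam (4 * q) (h.θ lam) ⊤).sig = m := fun F h => by
    obtain ⟨⟨a, ha⟩, ⟨b, hb⟩, c, hc⟩ := tauS_int (h.gd hl hq) (h.gs hl hq)
    have h0 := (h.sig_nonneg hl hq).2
    have h1 : (tauS lam (4 * q) (h.θ lam) ⊤).sig = ((a * c - b ^ 2 : ℤ) : ℚ) := by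
      rw [T3.sig]
      push_cast
      rw [← ha, ← hb, ← hc]
      ring
    rw [h1] at h0 ⊢
    obtain ⟨m, hm⟩ := Int.eq_ofNat_of_zero_le (by exact_mod_cast h0 : 0 ≤ a * c - b ^ 2)
    exact ⟨m, by rw [hm]; simp⟩
  have hex : ∃ m : ℕ, ∃ (F : ℤ → Submodule k (ι → PS k)) (h : Filt D q F),
      (tauS lam (4 * q) (h.θ lam) ⊤).sig = m := by
    obtain ⟨F, h⟩ := exists_filt D hl hq
    obtain ⟨m, hm⟩ := hnat F h
    exact ⟨m, F, h, hm⟩
  obtain ⟨F, h, hm⟩ := Nat.find_spec hex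
  refine ⟨F, h, fun N hN hsat hy hγ => ?_⟩
  have h' := h.hecke_filt hl hq N hN hsat hy hγ
  obtain ⟨m', hm'⟩ := hnat _ h'
  have hle : ((Nat.find hex : ℕ) : ℚ) ≤ m' := by exact_mod_cast Nat.find_min' hex ⟨_, h', hm'⟩
  rw [← hm, ← hm', h.hecke_tau hl hq N hN h'] at hle
  rw [← (h.sig_nonneg hl hq).1]
  simp only [T3.sig, T3.add_c0, T3.add_c1, T3.add_c2, T3.mul_c0, T3.mul_c1, T3.mul_c2, T3.sub_c0,
    T3.sub_c1, T3.sub_c2, ex] at hle
  push_cast at hle
  nlinarith [sq_nonneg (tauS lam (4 * q) (h.θ lam) N).c0]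

/-! ### Subtask Filt-d (coordinates) -/

/-- Normal form: diagonal grading, polynomial entries, common denominator `H`. -/
def Adm.NF {lam : kˣ} (E : Adm P lam q ι) (b : ι → ℤ) (H : A k) (dH : ℕ) : Prop :=
  E.Θ = Matrix.diagonal (fun i => algebraMap k (K k) ((lam ^ b i : kˣ) : k)) ∧
    (∀ v ∈ E.E, ∀ i, ∃ f : A k, v i = algebraMap (A k) (K k) f) ∧ H ≠ 0 ∧ H.IsHomogeneous dH ∧
    ∀ j, Pi.single j (algebraMap (A k) (K k) H) ∈ E.E

theorem exists_adm_of_module {lam : kˣ} {N : Type} [AddCommGroup N] [Module k N] [Module (A k) N]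
    [IsScalarTower k (A k) N] {θ : N →ₗ[k] N} (g : Gd lam (4 * q) θ) (hN : GS lam θ ⊤)
    (htf : ∀ f : A k, f ≠ 0 → ∀ v : N, f • v = 0 → v = 0) (y : Gen → Module.End (A k) N)
    (γ : Sym → Module.End (A k) N) (rel : RelD P 1 y) (hγ : ∀ σ, Function.Injective (γ σ))
    (γy : ∀ σ g, γ σ * y g = (C (cf P σ g) : A k) • (y (pr σ g) * γ σ))
    (θy : ∀ g, HomDeg lam θ θ (y g) (q * g.deg : ℕ)) (θγ : ∀ σ, HomDeg lam θ θ (γ σ) 0)
    (hρ : (tauS lam (4 * q) θ ⊤).c0 = Fintype.card ι) :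
    ∃ (E : Adm P lam q ι) (e : N →ₗ[A k] (ι → K k)) (b : ι → ℤ) (H : A k) (dH : ℕ),
      E.NF b H dH ∧ Function.Injective e ∧ LinearMap.range e = E.E ∧ HomDeg lam θ E.θ e 0 ∧
      (∀ g v, e (y g v) = E.Y g *ᵥ e v) ∧ ∀ σ v, e (γ σ v) = E.Γ σ *ᵥ e v :=
  exists_adm_of_module' g hN htf y γ rel hγ γy θy θγ hρ

/-- From a free module over power series to an almost semistable graded module. -/
theorem exists_adm (D : PData P ι) {lam : kˣ} (hl : InfOrd lam) {q : ℕ} (hq : 0 < q) :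
    ∃ (E : Adm P lam q ι) (b : ι → ℤ) (H : A k) (dH : ℕ),
      E.NF b H dH ∧ E.SS ∧ 0 ≤ (E.tau E.E).sig := by
  obtain ⟨F, h, hmin⟩ := exists_min_filt D hl hq
  have g := h.gd hl hq
  have gs := h.gs hl hq
  obtain ⟨E, e, b, H, dH, hNF, he, hr, hθ, hy, hγ⟩ := exists_adm_of_module (ι := ι) g gs
    (h.tf hl hq) h.y h.γ h.y_rel h.γ_injective h.γ_y (fun _ => h.grOp_hom lam _ _ _)
    (fun _ => h.grOp_hom lam _ _ _) (h.sig_nonneg hl hq).1
  have htau : ∀ N : Submodule (A k) h.Gr, GS lam (h.θ lam) N →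
      E.tau (N.map e) = tauS lam (4 * q) (h.θ lam) N := fun N hN => by
    change tauS _ _ _ _ = _
    rw [tauS_map g hN e hθ, LinearMap.ker_eq_bot.2 he, inf_bot_eq, tauS_bot, sub_zero, ex_zero,
      one_mul]
  have hE : E.tau E.E = tauS lam (4 * q) (h.θ lam) ⊤ := by
    rw [← hr, LinearMap.range_eq_map, htau ⊤ gs]
  refine ⟨E, b, H, dH, hNF, fun F' hF' => ?_, hE ▸ (h.sig_nonneg hl hq).2⟩
  have hN : GS lam (h.θ lam) ((F'.restrictScalars (A k)).comap e) := by
    refine GS.of_le hl gs le_top fun v hv => ?_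
    have h1 := hθ v
    rw [zpow_zero, Units.val_one, one_smul] at h1
    change e _ ∈ F'
    rw [← h1]
    exact hF'.2.2 _ hv
  rw [hE, ← hr, ← Submodule.map_comap_eq, htau _ hN]
  refine hmin _ hN (fun f v hf hv => ?_) (fun g v hv => ?_) (fun σ v hv => ?_)
  · have hf' : algebraMap (A k) (K k) f ≠ 0 := by simpa using hf
    have hv' : e (f • v) ∈ F' := hv
    rw [map_smul, ← algebraMap_smul (K k) f] at hv'
    exact (F'.smul_mem_iff hf').1 hv'
  · change e _ ∈ F'
    rw [hy]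
    exact hF'.1 g _ hv
  · change e _ ∈ F'
    rw [hγ]
    exact hF'.2.1 σ _ hv

theorem exists_pdata_map {B B' : Type} [Ring B] [Algebra (A k) B] [Ring B'] [Algebra (A k) B']
    {Y : Gen → B} (h : RelD P 1 Y) (φ : B →+* B') (hφ : ∀ (a : A k) (b : B), φ (a • b) = a • φ b) :
    RelD P 1 fun g => φ (Y g) := by
  refine ⟨fun g g' => ?_, fun a => ?_, fun t => ?_, fun t => ?_, fun t => ?_⟩
  · rw [← map_mul, ← map_mul, h.comm]
  · rw [← map_mul, h.s, Algebra.algebraMap_eq_smul_one, Algebra.algebraMap_eq_smul_one, hφ,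
      map_one]
  · rw [← map_mul, h.u, map_add, hφ, hφ]
  · rw [← map_mul, h.v, map_sub, hφ, hφ]
  · rw [← map_mul, h.uv, hφ]

theorem exists_pdata_reindex {κ : Type} [Fintype κ] [DecidableEq κ] (D : PData P ι) (e : ι ≃ κ) :
    Nonempty (PData P κ) := by
  let φ := Matrix.reindexAlgEquiv (A k) (PS k) e
  refine ⟨⟨fun g => φ (D.Y g), fun σ => φ (D.Γ σ), fun σ => φ (D.Γ' σ),
    exists_pdata_map D.rel (φ : Matrix ι ι (PS k) →+* Matrix κ κ (PS k)) fun a b => map_smul φ a b,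
    fun σ => ?_, fun σ g => ?_⟩⟩
  · rw [← map_mul, D.inv, map_one]
  · rw [← map_mul, D.ΓY, map_smul, map_mul]

/-- Induction to a module with symmetries. -/
theorem exists_pdata [Nonempty ι] (ψ : R P →ₐ[A k] Matrix ι ι (PS k)) :
    ∃ (n : ℕ), 0 < n ∧ Nonempty (PData P (Fin n)) := by
  classical
  set G := Subgroup.closure (Set.range (sym P)) with hG
  have : Finite G := finite_symGroup P
  let _ : Fintype G := Fintype.ofFinite G
  let s : Sym → G := fun σ => ⟨sym P σ, Subgroup.subset_closure ⟨σ, rfl⟩⟩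
  let ψ' : R P →+* (G → Matrix ι ι (PS k)) :=
    RingHom.pi fun h => (ψ : R P →+* Matrix ι ι (PS k)).comp ((h : R P ≃ₐ[A k] R P) : R P →+* R P)
  have hψ' : ∀ (r : R P) (h : G), ψ' r h = ψ ((h : R P ≃ₐ[A k] R P) r) := fun _ _ => rfl
  let Φ : R P →+* Matrix (ι × G) (ι × G) (PS k) := (blockDiagonalRingHom ι G (PS k)).comp ψ'
  have hΦ : ∀ r, Φ r = blockDiagonal (ψ' r) := fun _ => rfl
  let f : Sym → (ι × G ≃ ι × G) := fun σ => (Equiv.refl ι).prodCongr (Equiv.mulRight (s σ))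
  let D : PData P (ι × G) :=
    { Y := fun g => Φ (yR P g)
      Γ := fun σ => (f σ).toPEquiv.toMatrix
      Γ' := fun σ => (f σ).symm.toPEquiv.toMatrix
      rel := exists_pdata_map (R_rel P) Φ fun a b => by
        rw [hΦ, hΦ, ← blockDiagonal_smul]
        congr 1
        funext h
        rw [Pi.smul_apply, hψ', hψ', map_smul, map_smul]
      inv := fun σ => by
        rw [← PEquiv.toMatrix_trans, ← Equiv.toPEquiv_trans, Equiv.symm_trans_self,
          Equiv.toPEquiv_refl, PEquiv.toMatrix_refl]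
      ΓY := fun σ g => by
        rw [PEquiv.toMatrix_toPEquiv_mul, PEquiv.mul_toMatrix_toPEquiv]
        refine Matrix.ext fun x y => ?_
        obtain ⟨i, h⟩ := x
        obtain ⟨j, h'⟩ := y
        rw [Matrix.smul_apply, submatrix_apply, submatrix_apply, hΦ, hΦ]
        change blockDiagonal (ψ' (yR P g)) (i, h * s σ) (j, h') =
          (C (cf P σ g) : A k) • blockDiagonal (ψ' (yR P (pr σ g))) (i, h) (j, h' * (s σ)⁻¹)
        rw [blockDiagonal_apply', blockDiagonal_apply', hψ', hψ']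
        by_cases hh : h * s σ = h'
        · rw [if_pos hh, if_pos (by rw [← hh, mul_inv_cancel_right])]
          change ψ ((h : R P ≃ₐ[A k] R P) (sym P σ (yR P g))) i j = _
          rw [sym_y, map_smul, map_smul, Matrix.smul_apply]
        · rw [if_neg hh, if_neg (fun h1 => hh (by rw [h1, inv_mul_cancel_right])), smul_zero] }
  exact ⟨Fintype.card (ι × G), Fintype.card_pos, exists_pdata_reindex D (Fintype.equivFin _)⟩

end Crest.Agent.R169
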