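import Crest.Agent.R169.Core

/-!
# Row 169: commutative algebra for the final assembly
-/

set_option autoImplicit false

namespace Crest.Agent.R169

open IsLocalRing

/-! ### Subtask Fin-a -/

/-- A maximal Cohen-Macaulay module is free over a regular subring. -/
theorem exists_matrix_rep {B S : Type} [CommRing B] [IsLocalRing B] [IsNoetherianRing B]
    [CommRing S] [Algebra B S] [Module.Finite B S] (x : Fin 3 → B)
    (hx : Ideal.span (Set.range x) = maximalIdeal B) (M : Type) [AddCommGroup M] [Module S M]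
    [Module.Finite S M] [Nontrivial M] (rs : List S) (hl : rs.length = 3)
    (hr : ∀ r ∈ rs, ∃ n : ℕ, r ^ n ∈ Ideal.span (Set.range fun i => algebraMap B S (x i)))
    (h : RingTheory.Sequence.IsRegular M rs) :
    ∃ n : ℕ, 0 < n ∧ Nonempty (S →ₐ[B] Matrix (Fin n) (Fin n) B) := by
  have h1 : KZ1 (fun i => algebraMap B S (x i)) M :=
    KZ1_of_isWeaklyRegular _ rs hl hr h.toIsWeaklyRegular
  let _ : Module B M := Module.compHom M (algebraMap B S)
  have : IsScalarTower B S M := IsScalarTower.of_algebraMap_smul fun _ _ => rfl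
  have : Module.Finite B M := Module.Finite.trans S M
  have h2 : KZ1 x M := h1
  have : Module.Free B M := free_of_KZ1 x hx h2
  refine ⟨Module.finrank B M, (Module.finrank_pos_iff_of_free B M).2 inferInstance, ⟨?_⟩⟩
  exact (LinearMap.toMatrixAlgEquiv (Module.finBasis B M)).toAlgHom.comp (Algebra.lsmul B B M)

theorem ringKrullDim_eq_of_integral {B S : Type} [CommRing B] [CommRing S] [Algebra B S]
    [Algebra.IsIntegral B S] (h : Function.Injective (algebraMap B S)) :
    ringKrullDim S = ringKrullDim B := by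
  apply le_antisymm
  · refine Order.krullDim_le_of_strictMono (PrimeSpectrum.comap (algebraMap B S)) ?_
    intro p q hpq
    have hlt : p.asIdeal < q.asIdeal := hpq
    obtain ⟨hle, y, hyq, hyp⟩ := SetLike.lt_iff_le_and_exists.1 hlt
    exact Ideal.comap_lt_comap_of_integral_mem_sdiff hle ⟨hyq, hyp⟩
      (Algebra.IsIntegral.isIntegral y)
  · refine iSup_le fun l => ?_
    obtain ⟨P, -, hP, hPo⟩ := Ideal.exists_ideal_over_prime_of_isIntegral (S := S)
      l.head.asIdeal ⊥ (by
        rw [← RingHom.ker_eq_comap_bot, (RingHom.injective_iff_ker_eq_bot _).1 h]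
        exact bot_le)
    have : P.LiesOver l.head.asIdeal := ⟨hPo.symm⟩
    obtain ⟨L, hL, -, -⟩ := Ideal.exists_ltSeries_of_hasGoingUp l P
    rw [← hL]
    exact Order.LTSeries.length_le_krullDim L

/-- In a finite local extension the maximal ideal is the radical of the extended ideal. -/
theorem pow_mem_map_maximalIdeal {B S : Type} [CommRing B] [IsLocalRing B] [CommRing S]
    [IsLocalRing S] [Algebra B S] [Algebra.IsIntegral B S] {r : S} (hr : r ∈ maximalIdeal S) :
    ∃ n : ℕ, r ^ n ∈ (maximalIdeal B).map (algebraMap B S) := by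
  have : r ∈ ((maximalIdeal B).map (algebraMap B S)).radical := by
    rw [Ideal.radical_eq_sInf, Ideal.mem_sInf]
    rintro J ⟨hJ, hJp⟩
    have h1 : maximalIdeal B ≤ J.comap (algebraMap B S) := Ideal.map_le_iff_le_comap.1 hJ
    have h2 : maximalIdeal B = J.comap (algebraMap B S) :=
      (maximalIdeal.isMaximal B).eq_of_le (Ideal.IsPrime.comap _).ne_top h1
    have h3 : J.IsMaximal :=
      Ideal.isMaximal_of_isIntegral_of_isMaximal_comap (R := B) J (h2 ▸ maximalIdeal.isMaximal B)
    rw [eq_maximalIdeal h3]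
    exact hr
  exact this

theorem PS_maximalIdeal (k : Type) [Field k] :
    Ideal.span (Set.range fun i : Fin 3 => (MvPowerSeries.X i : PS k)) = maximalIdeal (PS k) := by
  classical
  apply le_antisymm
  · rw [Ideal.span_le]
    rintro _ ⟨i, rfl⟩
    simp [mem_maximalIdeal, MvPowerSeries.isUnit_iff_constantCoeff]
  · intro f hf
    have h0 : MvPowerSeries.constantCoeff f = 0 := by
      rw [mem_maximalIdeal, mem_nonunits_iff, MvPowerSeries.isUnit_iff_constantCoeff,
        isUnit_iff_ne_zero, not_not] at hf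
      exact hf
    let g0 : PS k := fun m => if m 0 = 0 then 0 else MvPowerSeries.coeff m f
    let g1 : PS k := fun m => if m 0 = 0 ∧ m 1 ≠ 0 then MvPowerSeries.coeff m f else 0
    let g2 : PS k := fun m => if m 0 = 0 ∧ m 1 = 0 then MvPowerSeries.coeff m f else 0
    have e0 : ∀ m, MvPowerSeries.coeff m g0 = if m 0 = 0 then 0 else MvPowerSeries.coeff m f :=
      fun _ => rfl
    have e1 : ∀ m, MvPowerSeries.coeff m g1 =
        if m 0 = 0 ∧ m 1 ≠ 0 then MvPowerSeries.coeff m f else 0 := fun _ => rfl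
    have e2 : ∀ m, MvPowerSeries.coeff m g2 =
        if m 0 = 0 ∧ m 1 = 0 then MvPowerSeries.coeff m f else 0 := fun _ => rfl
    have hf' : f = g0 + g1 + g2 := by
      ext m
      rw [map_add, map_add, e0, e1, e2]
      by_cases a : m 0 = 0 <;> by_cases b : m 1 = 0 <;> simp [a, b]
    have key : ∀ (i : Fin 3) (g : PS k), MvPowerSeries.X i ∣ g →
        g ∈ Ideal.span (Set.range fun i : Fin 3 => (MvPowerSeries.X i : PS k)) := by
      rintro i g ⟨c, rfl⟩
      exact Ideal.mul_mem_right _ _ (Ideal.subset_span ⟨i, rfl⟩)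
    rw [hf']
    refine add_mem (add_mem (key 0 _ ?_) (key 1 _ ?_)) (key 2 _ ?_)
    · rw [MvPowerSeries.X_dvd_iff]
      intro m hm
      rw [e0, if_pos hm]
    · rw [MvPowerSeries.X_dvd_iff]
      intro m hm
      rw [e1, if_neg (fun h => h.2 hm)]
    · rw [MvPowerSeries.X_dvd_iff]
      intro m hm
      rw [e2]
      split_ifs with h
      · have : m = 0 := by
          ext i
          fin_cases i
          · exact h.1
          · exact h.2
          · exact hm
        rw [this]
        simpa using h0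
      · rfl

theorem PS_dim_ge (k : Type) [Field k] (n : ℕ) :
    (n : WithBot ℕ∞) ≤ ringKrullDim (MvPowerSeries (Fin n) k) := by
  induction n with
  | zero => exact ringKrullDim_nonneg_of_nontrivial
  | succ n ih =>
    rw [ringKrullDim_eq_of_ringEquiv (MvPowerSeries.finSuccEquiv k n).toRingEquiv]
    refine le_trans ?_ ringKrullDim_succ_le_ringKrullDim_powerseries
    push_cast
    gcongr

theorem PS_dim (k : Type) [Field k] : ringKrullDim (PS k) = 3 := by
  apply le_antisymm
  · refine le_trans (ringKrullDim_le_spanFinrank_maximalIdeal _) ?_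
    rw [← PS_maximalIdeal]
    have h1 : (Ideal.span (Set.range fun i : Fin 3 => (MvPowerSeries.X i : PS k))).spanFinrank
        ≤ 3 := by
      refine le_trans (Submodule.spanFinrank_span_le_ncard_of_finite (Set.finite_range _)) ?_
      rw [← Set.image_univ]
      refine le_trans (Set.ncard_image_le Set.finite_univ) ?_
      simp [Set.ncard_univ]
    exact_mod_cast h1
  · exact_mod_cast PS_dim_ge k 3

theorem PS_residue (k : Type) [Field k] :
    Function.Bijective (algebraMap k (ResidueField (PS k))) := by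
  refine ⟨RingHom.injective _, fun y => ?_⟩
  obtain ⟨f, rfl⟩ := residue_surjective y
  refine ⟨MvPowerSeries.constantCoeff f, ?_⟩
  rw [IsScalarTower.algebraMap_apply k (PS k) (ResidueField (PS k)), ResidueField.algebraMap_eq]
  refine Ideal.Quotient.eq.2 ?_
  rw [mem_maximalIdeal, mem_nonunits_iff, MvPowerSeries.isUnit_iff_constantCoeff]
  simp [MvPowerSeries.algebraMap_apply]

/-! ### Subtask Fin-b -/

/-- Completely integrally closed, elementwise. -/
def PS_isIntegrallyClosed_CIC (D : Type) [CommRing D] : Prop :=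
  ∀ a b d : D, d ≠ 0 → b ≠ 0 → (∀ n : ℕ, b ^ n ∣ d * a ^ n) → b ∣ a

theorem PS_isIntegrallyClosed_sub {D : Type} [CommRing D] {a b d : D}
    (h : ∀ n : ℕ, b ^ n ∣ d * a ^ n) (c : D) (n : ℕ) : b ^ n ∣ d * (a - c * b) ^ n := by
  have key : ∀ n m : ℕ, b ^ (n + m) ∣ d * a ^ m * (a - c * b) ^ n := by
    intro n
    induction n with
    | zero => intro m; simpa using h m
    | succ n ih =>
      intro m
      have e : d * a ^ m * (a - c * b) ^ (n + 1) =
          d * a ^ (m + 1) * (a - c * b) ^ n - c * (d * a ^ m * (a - c * b) ^ n * b) := by ring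
      rw [e]
      refine dvd_sub ?_ (Dvd.dvd.mul_left ?_ c)
      · rw [show n + 1 + m = n + (m + 1) by ring]
        exact ih (m + 1)
      · rw [show n + 1 + m = n + m + 1 by ring, pow_succ]
        exact mul_dvd_mul_right (ih m) b
  simpa using key n 0

theorem PS_isIntegrallyClosed_cancel {D : Type} [CommRing D] [IsDomain D] {x b y : D}
    (hx : Prime x) (hb : ¬ x ∣ b) {n : ℕ} (h : b ∣ x ^ n * y) : b ∣ y := by
  obtain ⟨z, hz⟩ := h
  obtain ⟨w, rfl⟩ : x ^ n ∣ z := hx.pow_dvd_of_dvd_mul_left n hb ⟨y, hz.symm⟩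
  refine ⟨w, mul_left_cancel₀ (pow_ne_zero n hx.ne_zero) ?_⟩
  rw [hz]
  ring

open PowerSeries in
theorem PS_isIntegrallyClosed_zero {D : Type} [CommRing D] {f : D⟦X⟧}
    (h : ∀ n : ℕ, (X : D⟦X⟧) ^ n ∣ f) : f = 0 := by
  ext m
  exact X_pow_dvd_iff.1 (h (m + 1)) m (Nat.lt_succ_self m)

open PowerSeries in
theorem PS_isIntegrallyClosed_unit {D : Type} [CommRing D] [IsDomain D]
    (hD : PS_isIntegrallyClosed_CIC D) (a b d : D⟦X⟧) (hd : ¬ X ∣ d) (hb : ¬ X ∣ b)
    (h : ∀ n : ℕ, b ^ n ∣ d * a ^ n) : b ∣ a := by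
  have hX : Prime (X : D⟦X⟧) := X_prime
  have step : ∀ s : {a : D⟦X⟧ // ∀ n : ℕ, b ^ n ∣ d * a ^ n},
      ∃ t : D × {a : D⟦X⟧ // ∀ n : ℕ, b ^ n ∣ d * a ^ n}, s.1 = C t.1 * b + X * t.2.1 := by
    rintro ⟨a, h⟩
    obtain ⟨c, hc⟩ := hD (constantCoeff a) (constantCoeff b) (constantCoeff d)
      (fun h0 => hd (X_dvd_iff.2 h0)) (fun h0 => hb (X_dvd_iff.2 h0)) fun n => by
        have := map_dvd (constantCoeff (R := D)) (h n)
        rwa [map_mul, map_pow, map_pow] at this
    obtain ⟨a', ha'⟩ : X ∣ a - C c * b := X_dvd_iff.2 (by simp [hc, mul_comm])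
    refine ⟨⟨c, a', fun n => ?_⟩, ?_⟩
    · have h1 := PS_isIntegrallyClosed_sub h (C c) n
      rw [ha', mul_pow, mul_left_comm] at h1
      exact PS_isIntegrallyClosed_cancel hX (fun h2 => hb (hX.dvd_of_dvd_pow h2)) h1
    · change a = C c * b + X * a'
      rw [← ha']
      ring
  choose f hf using step
  let s : ℕ → {a : D⟦X⟧ // ∀ n : ℕ, b ^ n ∣ d * a ^ n} := fun n => (fun t => (f t).2)^[n] ⟨a, h⟩
  let c : ℕ → D := fun n => (f (s n)).1
  have hs : ∀ n, a = (∑ i ∈ Finset.range n, C (c i) * X ^ i) * b + X ^ n * (s n).1 := by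
    intro n
    induction n with
    | zero => simp [s]
    | succ n ih =>
      have e : s (n + 1) = (f (s n)).2 := Function.iterate_succ_apply' _ _ _
      rw [Finset.sum_range_succ, e]
      conv_lhs => rw [ih, hf (s n)]
      ring
  refine ⟨mk c, sub_eq_zero.1 (PS_isIntegrallyClosed_zero fun n => ?_)⟩
  have h1 : (X : D⟦X⟧) ^ n ∣ (∑ i ∈ Finset.range n, C (c i) * X ^ i) - mk c := by
    rw [X_pow_dvd_iff]
    intro m hm
    simp [coeff_X_pow, hm]
  have e : a - b * mk c = ((∑ i ∈ Finset.range n, C (c i) * X ^ i) - mk c) * b +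
      X ^ n * (s n).1 := by
    conv_lhs => rw [hs n]
    ring
  rw [e]
  exact dvd_add (h1.mul_right b) (dvd_mul_right _ _)

open PowerSeries in
theorem PS_isIntegrallyClosed_step {D : Type} [CommRing D] [IsDomain D]
    (hD : PS_isIntegrallyClosed_CIC D) : PS_isIntegrallyClosed_CIC D⟦X⟧ := by
  have hX : Prime (X : D⟦X⟧) := X_prime
  have split : ∀ f : D⟦X⟧, f ≠ 0 → ∃ (r : ℕ) (g : D⟦X⟧), f = X ^ r * g ∧ ¬ X ∣ g := fun f hf =>
    ⟨_, divXPowOrder f, X_pow_order_mul_divXPowOrder.symm, fun h =>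
      hf (constantCoeff_divXPowOrder_eq_zero_iff.1 (X_dvd_iff.1 h))⟩
  intro a b d hd hb h
  obtain ⟨r, b', rfl, hb'⟩ := split b hb
  obtain ⟨u, d', hdd, hd'⟩ := split d hd
  clear hb
  induction r generalizing a with
  | zero =>
    rw [pow_zero, one_mul] at h ⊢
    refine PS_isIntegrallyClosed_unit hD a b' d' hd' hb' fun n => ?_
    have h1 := h n
    rw [hdd, mul_assoc] at h1
    exact PS_isIntegrallyClosed_cancel hX (fun h2 => hb' (hX.dvd_of_dvd_pow h2)) h1
  | succ r ih =>
    obtain ⟨a', rfl⟩ : X ∣ a := by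
      by_contra ha
      refine hd (PS_isIntegrallyClosed_zero fun n => ?_)
      refine hX.pow_dvd_of_dvd_mul_right n (fun h2 => ha (hX.dvd_of_dvd_pow h2))
        (Dvd.dvd.trans ?_ (h n))
      exact pow_dvd_pow_of_dvd (Dvd.dvd.mul_right (dvd_pow_self _ (Nat.succ_ne_zero r)) _) n
    rw [pow_succ', mul_assoc]
    refine mul_dvd_mul_left _ (ih a' fun n => ?_)
    have h1 := h n
    rw [pow_succ', mul_assoc, mul_pow X (X ^ r * b'), mul_pow X a', mul_left_comm d] at h1
    exact (mul_dvd_mul_iff_left (pow_ne_zero n hX.ne_zero)).1 h1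

theorem PS_isIntegrallyClosed_equiv {D D' : Type} [CommRing D] [CommRing D'] (e : D ≃+* D')
    (hD : PS_isIntegrallyClosed_CIC D') : PS_isIntegrallyClosed_CIC D := by
  intro a b d hd hb h
  refine (map_dvd_iff e).1 (hD (e a) (e b) (e d) (by simpa using hd) (by simpa using hb)
    fun n => ?_)
  have := map_dvd e (h n)
  rwa [map_mul, map_pow, map_pow] at this

theorem PS_isIntegrallyClosed_fin (k : Type) [Field k] (n : ℕ) :
    PS_isIntegrallyClosed_CIC (MvPowerSeries (Fin n) k) := by
  induction n with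
  | zero =>
    exact PS_isIntegrallyClosed_equiv (MvPowerSeries.isEmptyEquiv (Fin 0) k).toRingEquiv
      fun a b d _ hb _ => (IsUnit.mk0 b hb).dvd
  | succ n ih =>
    have : IsDomain (MvPowerSeries (Fin n) k) := NoZeroDivisors.to_isDomain _
    exact PS_isIntegrallyClosed_equiv (MvPowerSeries.finSuccEquiv k n).toRingEquiv
      (PS_isIntegrallyClosed_step ih)

theorem PS_isIntegrallyClosed (k : Type) [Field k] : IsIntegrallyClosed (PS k) := by
  rw [isIntegrallyClosed_iff (FractionRing (PS k))]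
  intro x hx
  obtain ⟨d, hd, h⟩ := hx.isAlmostIntegral
  obtain ⟨a, b, hb, rfl⟩ := IsFractionRing.div_surjective (A := PS k) x
  have hb0 : b ≠ 0 := nonZeroDivisors.ne_zero hb
  have hb1 : algebraMap (PS k) (FractionRing (PS k)) b ≠ 0 :=
    fun h0 => hb0 (IsFractionRing.injective (PS k) (FractionRing (PS k)) (by rw [h0, map_zero]))
  obtain ⟨c, rfl⟩ := PS_isIntegrallyClosed_fin k 3 a b d (nonZeroDivisors.ne_zero hd) hb0
    fun n => by
      obtain ⟨y, hy⟩ := h n
      refine ⟨y, IsFractionRing.injective (PS k) (FractionRing (PS k)) ?_⟩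
      rw [map_mul, map_mul, map_pow, map_pow, hy, Algebra.smul_def, div_pow]
      field_simp
  exact ⟨c, by rw [map_mul, mul_div_cancel_left₀ _ hb1]⟩

theorem isLocalRing_of_finite_prec {B M : Type} [CommRing B] (I : Ideal B) [IsPrecomplete I B]
    [AddCommGroup M] [Module B M] [Module.Finite B M] : IsPrecomplete I M := by
  rw [← AdicCompletion.of_surjective_iff]
  intro y
  obtain ⟨t, rfl⟩ := AdicCompletion.ofTensorProduct_surjective_of_finite I M y
  induction t using TensorProduct.induction_on with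
  | zero => exact ⟨0, by simp⟩
  | tmul r x =>
    obtain ⟨r0, rfl⟩ := AdicCompletion.of_surjective I B r
    refine ⟨r0 • x, ?_⟩
    rw [AdicCompletion.ofTensorProduct_tmul, map_smul]
    exact (algebraMap_smul (AdicCompletion I B) r0 _).symm
  | add a b ha hb =>
    obtain ⟨a', ha'⟩ := ha
    obtain ⟨b', hb'⟩ := hb
    exact ⟨a' + b', by rw [map_add, map_add, ha', hb']⟩

theorem isLocalRing_of_finite_compl {B S : Type} [CommRing B] [IsLocalRing B] [IsNoetherianRing B]
    [IsAdicComplete (maximalIdeal B) B] [CommRing S] [Algebra B S] [Module.Finite B S] :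
    IsAdicComplete ((maximalIdeal B).map (algebraMap B S)) S := by
  have h1 : IsPrecomplete ((maximalIdeal B).map (algebraMap B S)) S :=
    IsPrecomplete.map_algebraMap_iff.2 (isLocalRing_of_finite_prec _)
  have h2 : IsHausdorff ((maximalIdeal B).map (algebraMap B S)) S :=
    IsHausdorff.map_algebraMap_iff.2 inferInstance
  exact {}

theorem isLocalRing_of_finite_art {B S : Type} [CommRing B] [IsLocalRing B] [CommRing S]
    [Algebra B S] [Module.Finite B S] :
    IsArtinianRing (S ⧸ (maximalIdeal B).map (algebraMap B S)) := by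
  let _ := Ideal.Quotient.field (maximalIdeal B)
  have : Module.Finite (B ⧸ maximalIdeal B) (S ⧸ (maximalIdeal B).map (algebraMap B S)) :=
    Module.Finite.of_restrictScalars_finite B _ _
  exact IsArtinianRing.of_finite (B ⧸ maximalIdeal B) _

theorem isLocalRing_of_finite {B S : Type} [CommRing B] [IsLocalRing B] [IsNoetherianRing B]
    [IsAdicComplete (maximalIdeal B) B] [CommRing S] [IsDomain S] [Algebra B S]
    [Module.Finite B S] : IsLocalRing S := by
  have hc := isLocalRing_of_finite_compl (B := B) (S := S)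
  have ha := isLocalRing_of_finite_art (B := B) (S := S)
  set J := (maximalIdeal B).map (algebraMap B S) with hJ
  have hh : HenselianRing S J := inferInstance
  have hu : ∀ z ∈ J, IsUnit (1 - z) := fun z hz => by
    have := Ideal.mem_jacobson_bot.1 (hh.jac hz) (-1)
    rwa [show z * -1 + 1 = 1 - z by ring] at this
  refine IsLocalRing.of_isUnit_or_isUnit_one_sub_self fun x => ?_
  obtain ⟨n, y, hy⟩ := IsArtinian.exists_pow_succ_smul_dvd (Ideal.Quotient.mk J x) (1 : S ⧸ J)
  obtain ⟨y, rfl⟩ := Ideal.Quotient.mk_surjective y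
  simp only [smul_eq_mul, mul_one] at hy
  set x' := Ideal.Quotient.mk J x with hx'
  set y' := Ideal.Quotient.mk J y with hy'
  have h1 : ∀ j : ℕ, x' ^ (n + 1) * (x' * y') ^ j = x' ^ (n + 1) := by
    intro j
    induction j with
    | zero => simp
    | succ j ih =>
      calc x' ^ (n + 1) * (x' * y') ^ (j + 1) = x' ^ (n + 1) * (x' * y') ^ j * (x' * y') := by ring
        _ = x' * (x' ^ n.succ * y') := by rw [ih, Nat.succ_eq_add_one]; ring
        _ = x' ^ (n + 1) := by rw [hy]; ring
  set e : S := (x * y) ^ (n + 1) with he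
  have he' : Ideal.Quotient.mk J e = (x' * y') ^ (n + 1) := by simp [he, hx', hy']
  have h2 : Ideal.Quotient.mk J e * Ideal.Quotient.mk J e = Ideal.Quotient.mk J e := by
    rw [he']
    calc (x' * y') ^ (n + 1) * (x' * y') ^ (n + 1)
        = x' ^ (n + 1) * (x' * y') ^ (n + 1) * y' ^ (n + 1) := by ring
      _ = (x' * y') ^ (n + 1) := by rw [h1]; ring
  obtain ⟨a, ha0, ha1⟩ := hh.is_henselian (Polynomial.X ^ 2 - Polynomial.X)
    (Polynomial.Monic.sub_of_left (Polynomial.monic_X_pow 2) (by
      rw [Polynomial.degree_X_pow, Polynomial.degree_X]; norm_num)) e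
    (by
      rw [← Ideal.Quotient.eq_zero_iff_mem]
      simp [sq, h2])
    (by
      have hd : (Polynomial.derivative (Polynomial.X ^ 2 - Polynomial.X : Polynomial S)).eval e =
          e + e - 1 := by
        simp; ring
      rw [hd]
      refine IsUnit.of_mul_eq_one (Ideal.Quotient.mk J (e + e - 1)) ?_
      simp only [map_sub, map_add, map_one]
      linear_combination 4 * h2)
  have ha2 : a * (a - 1) = 0 := by
    have := ha0.eq_zero
    simp only [Polynomial.eval_sub, Polynomial.eval_pow, Polynomial.eval_X] at this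
    linear_combination this
  rcases mul_eq_zero.1 ha2 with h | h
  · right
    rw [h, zero_sub, neg_mem_iff, ← Ideal.Quotient.eq_zero_iff_mem, he'] at ha1
    have h3 : x ^ (n + 1) ∈ J := by
      rw [← Ideal.Quotient.eq_zero_iff_mem, map_pow, ← hx', ← h1 (n + 1), ha1, mul_zero]
    exact isUnit_of_dvd_unit (one_sub_dvd_one_sub_pow x (n + 1)) (hu _ h3)
  · left
    rw [sub_eq_zero] at h
    have := hu _ (h ▸ ha1)
    rw [sub_sub_cancel, he] at this
    exact isUnit_of_dvd_unit ((dvd_mul_right x y).trans (dvd_pow_self _ n.succ_ne_zero)) this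

theorem isAdicComplete_of_finite_local {B S : Type} [CommRing B] [IsLocalRing B] [CommRing S]
    [IsLocalRing S] [Algebra B S] [Module.Finite B S] : IsLocalHom (algebraMap B S) := by
  have h : ((maximalIdeal S).comap (algebraMap B S)).IsMaximal :=
    Ideal.isMaximal_comap_of_isIntegral_of_isMaximal _
  have h2 := IsLocalRing.eq_maximalIdeal h
  refine ⟨fun a ha => ?_⟩
  by_contra hn
  have : a ∈ (maximalIdeal S).comap (algebraMap B S) := h2 ▸ hn
  exact this ha

theorem isAdicComplete_of_finite {B S : Type} [CommRing B] [IsLocalRing B] [IsNoetherianRing B]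
    [IsAdicComplete (maximalIdeal B) B] [CommRing S] [IsLocalRing S] [Algebra B S]
    [Module.Finite B S] : IsAdicComplete (maximalIdeal S) S := by
  have hc := isLocalRing_of_finite_compl (B := B) (S := S)
  have ha := isLocalRing_of_finite_art (B := B) (S := S)
  have hl := isAdicComplete_of_finite_local (B := B) (S := S)
  have hN : IsNoetherianRing S := IsNoetherianRing.of_finite B S
  have hJm : (maximalIdeal B).map (algebraMap B S) ≤ maximalIdeal S :=
    Ideal.map_le_iff_le_comap.2 fun a ha => map_nonunit (algebraMap B S) a ha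
  set J := (maximalIdeal B).map (algebraMap B S) with hJ
  obtain ⟨N, hN⟩ := exists_maximalIdeal_pow_le_of_isArtinianRing_quotient J
  have h1 : IsPrecomplete (maximalIdeal S) S := by
    refine ⟨fun f hf => ?_⟩
    have hle : ∀ m : ℕ, (maximalIdeal S ^ ((N + 1) * m) • ⊤ : Submodule S S) ≤ J ^ m • ⊤ := by
      intro m
      refine Submodule.smul_mono_left ?_
      rw [pow_mul]
      exact Ideal.pow_right_mono ((Ideal.pow_le_pow_right (Nat.le_succ N)).trans hN) m
    obtain ⟨L, hL⟩ := IsPrecomplete.prec hc.toIsPrecomplete (f := fun n => f ((N + 1) * n))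
      fun {m n} hmn => (hf (Nat.mul_le_mul_left _ hmn)).mono (hle m)
    refine ⟨L, fun n => (hf (show n ≤ (N + 1) * n by nlinarith)).trans ((hL n).mono ?_)⟩
    exact Submodule.smul_mono_left (Ideal.pow_right_mono hJm n)
  exact {}

theorem residue_bijective {k B S : Type} [Field k] [IsAlgClosed k] [CommRing B] [IsLocalRing B]
    [CommRing S] [IsLocalRing S] [Algebra k B] [Algebra B S] [Algebra k S] [IsScalarTower k B S]
    [Module.Finite B S] (h : Function.Bijective (algebraMap k (ResidueField B))) :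
    Function.Bijective (algebraMap k (ResidueField S)) := by
  have hl := isAdicComplete_of_finite_local (B := B) (S := S)
  have h1 : Module.Finite k (ResidueField B) :=
    Module.Finite.of_surjective (Algebra.linearMap k (ResidueField B)) h.2
  have h2 : IsScalarTower k (ResidueField B) (ResidueField S) :=
    IsScalarTower.of_algebraMap_eq fun a => by
      change residue S (algebraMap k S a) = algebraMap _ _ (residue B (algebraMap k B a))
      rw [ResidueField.algebraMap_residue, IsScalarTower.algebraMap_apply k B S]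
  have h3 : Module.Finite k (ResidueField S) := Module.Finite.trans (ResidueField B) _
  exact IsAlgClosed.algebraMap_bijective_of_isIntegral

/-! ### Subtask Fin-c (the complete normal domain) -/

theorem exists_normal_coe_injective (k : Type) [Field k] :
    Function.Injective (algebraMap (A k) (PS k)) := by
  intro a b h
  rw [MvPowerSeries.algebraMap_apply', MvPowerSeries.algebraMap_apply', Algebra.algebraMap_self,
    MvPowerSeries.map_id] at h
  exact MvPolynomial.coe_injective _ _ h

/-- A normal domain, finite over power series, receiving `R`. -/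
theorem exists_normal (P : Par ℂ) :
    ∃ (S : Type) (_ : CommRing S) (_ : IsDomain S) (_ : Algebra (PS ℂ) S) (φ : R P →+* S),
      Module.Finite (PS ℂ) S ∧ IsIntegrallyClosed S ∧ Function.Injective (algebraMap (PS ℂ) S) ∧
      ∀ a : A ℂ, φ (algebraMap (A ℂ) (R P) a) = algebraMap (PS ℂ) S (algebraMap (A ℂ) (PS ℂ) a) := by
  let K0 := FractionRing (PS ℂ)
  let Ω := AlgebraicClosure K0
  have hic := PS_isIntegrallyClosed ℂ
  have : IsDomain (PS ℂ) := NoZeroDivisors.to_isDomain _
  have hPΩ : Function.Injective (algebraMap (PS ℂ) Ω) := by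
    rw [IsScalarTower.algebraMap_eq (PS ℂ) K0 Ω, RingHom.coe_comp]
    exact (algebraMap K0 Ω).injective.comp (IsFractionRing.injective (PS ℂ) K0)
  have hAΩ : Function.Injective (algebraMap (A ℂ) Ω) := by
    rw [IsScalarTower.algebraMap_eq (A ℂ) (PS ℂ) Ω, RingHom.coe_comp]
    exact hPΩ.comp (exists_normal_coe_injective ℂ)
  obtain ⟨Y, hY⟩ := exists_sol P Ω
  obtain ⟨φ0, hφ0⟩ := exists_lift P (B := Ω) (fun f hf b hb => by
    rw [Algebra.smul_def, mul_eq_zero] at hb
    exact hb.resolve_left fun h => hf (hAΩ (by rw [h, map_zero]))) Y hY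
  let L := IntermediateField.adjoin K0 (Set.range Y)
  have : FiniteDimensional K0 L :=
    IntermediateField.finiteDimensional_adjoin fun x _ => Algebra.IsIntegral.isIntegral x
  have hmem : ∀ r, φ0 r ∈ L := by
    intro r
    induction r using R_induction P with
    | h0 a =>
      rw [AlgHom.commutes, IsScalarTower.algebraMap_apply (A ℂ) (PS ℂ) Ω,
        IsScalarTower.algebraMap_apply (PS ℂ) K0 Ω]
      exact L.algebraMap_mem _
    | hadd r r' h h' => rw [map_add]; exact L.add_mem h h'
    | hmul g r h =>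
      rw [map_mul, hφ0]
      exact L.mul_mem (IntermediateField.subset_adjoin _ _ ⟨g, rfl⟩) h
  let φ1 : R P →+* L := (φ0 : R P →+* Ω).codRestrict L hmem
  have : IsScalarTower (PS ℂ) L Ω := IsScalarTower.of_algebraMap_eq fun _ => rfl
  have hint : ∀ r, φ1 r ∈ integralClosure (PS ℂ) L := by
    intro r
    have h1 : IsIntegral (A ℂ) (φ0 r) := (Algebra.IsIntegral.isIntegral r).map φ0
    have h2 : IsIntegral (PS ℂ) (algebraMap L Ω (φ1 r)) := h1.tower_top
    exact (isIntegral_algebraMap_iff (algebraMap L Ω).injective).mp h2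
  have : CharZero K0 := algebraRat.charZero K0
  refine ⟨integralClosure (PS ℂ) L, inferInstance, inferInstance, inferInstance,
    φ1.codRestrict (integralClosure (PS ℂ) L) hint,
    IsIntegralClosure.finite (PS ℂ) K0 L _,
    integralClosure.isIntegrallyClosedOfFiniteExtension K0, ?_, fun a => ?_⟩
  · intro a b h
    apply hPΩ
    have := congrArg (fun x : integralClosure (PS ℂ) L => ((x : L) : Ω)) h
    exact this
  · apply Subtype.ext
    apply Subtype.ext
    exact φ0.commutes a

theorem complete_result :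
    ∃ (R : Type) (_ : CommRing R) (_ : IsLocalRing R) (_ : Algebra ℂ R),
      IsDomain R ∧ IsNoetherianRing R ∧ IsIntegrallyClosed R ∧
      IsAdicComplete (IsLocalRing.maximalIdeal R) R ∧ ringKrullDim R = 3 ∧
      Function.Bijective (algebraMap ℂ (IsLocalRing.ResidueField R)) ∧
      ∀ (M : Type) [AddCommGroup M] [Module R M], Module.Finite R M → Nontrivial M →
        ∀ rs : List R, rs.length = 3 → (∀ r ∈ rs, r ∈ IsLocalRing.maximalIdeal R) →
          ¬ RingTheory.Sequence.IsRegular M rs := by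
  obtain ⟨P⟩ := (exists_par : Nonempty (Par ℂ))
  obtain ⟨S, _, _, _, φ, hfin, hic, hinj, hφ⟩ := exists_normal P
  have : IsAdicComplete (maximalIdeal (PS ℂ)) (PS ℂ) := by
    rw [← PS_maximalIdeal]
    exact inferInstanceAs
      (IsAdicComplete (.span (.range MvPowerSeries.X) : Ideal (MvPowerSeries (Fin 3) ℂ)) _)
  have : IsLocalRing S := isLocalRing_of_finite (B := PS ℂ)
  let : Algebra ℂ S := ((algebraMap (PS ℂ) S).comp (algebraMap ℂ (PS ℂ))).toAlgebra
  have : IsScalarTower ℂ (PS ℂ) S := IsScalarTower.of_algebraMap_eq fun _ => rfl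
  refine ⟨S, inferInstance, inferInstance, inferInstance, inferInstance,
    IsNoetherianRing.of_finite (PS ℂ) S, hic, isAdicComplete_of_finite (B := PS ℂ), ?_,
    residue_bijective (B := PS ℂ) (PS_residue ℂ), fun M _ _ hM hM' rs hl hr h => ?_⟩
  · rw [ringKrullDim_eq_of_integral hinj, PS_dim]
  · obtain ⟨n, hn, ⟨ρ⟩⟩ := exists_matrix_rep (B := PS ℂ) (S := S) _ (PS_maximalIdeal ℂ) M rs hl
      (fun r hr' => by
        obtain ⟨j, hj⟩ := pow_mem_map_maximalIdeal (B := PS ℂ) (hr r hr')
        rw [← PS_maximalIdeal, Ideal.map_span, ← Set.range_comp] at hj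
        exact ⟨j, hj⟩) h
    have : Nonempty (Fin n) := ⟨⟨0, hn⟩⟩
    refine core P (ι := Fin n) { (ρ : S →+* _).comp φ with commutes' := fun a => ?_ }
    change ρ (φ _) = _
    rw [hφ, AlgHom.commutes, ← IsScalarTower.algebraMap_apply]

/-! ### Subtask Fin-d (the graded domain) -/

/-- A graded domain, quotient of `R`, finite over `A`. -/
theorem exists_graded (P : Par ℂ) :
    ∃ (T : Type) (_ : CommRing T) (_ : IsDomain T) (_ : Algebra ℂ T) (_ : Algebra (A ℂ) T)
      (_ : IsScalarTower ℂ (A ℂ) T) (𝒜 : ℕ → Submodule ℂ T) (_ : GradedAlgebra 𝒜),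
      Nonempty (R P →ₐ[A ℂ] T) ∧ Module.Finite (A ℂ) T ∧
      Function.Injective (algebraMap (A ℂ) T) ∧ (∀ t ∈ 𝒜 0, ∃ c : ℂ, t = algebraMap ℂ T c) ∧
      ∀ i : Fin 3, algebraMap (A ℂ) T (MvPolynomial.X i) ∈ 𝒜 4 := by
  classical
  set lam : ℂˣ := Units.mk0 (2 : ℂ) two_ne_zero with hlam
  have hl : InfOrd lam := infOrd_two
  obtain ⟨p0, -, hp0, hp0c⟩ := Ideal.exists_ideal_over_prime_of_isIntegral (R := A ℂ) (S := R P)
    ⊥ ⊥ (by
      rw [← RingHom.ker_eq_comap_bot, (RingHom.injective_iff_ker_eq_bot _).1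
        (algebraMap_R_injective P)])
  let θ := θR P lam 1
  let p : Ideal (R P) := Ideal.span {x | x ∈ p0 ∧ ∃ n : ℤ, x ∈ eig lam θ.toLinearMap n}
  have hle : p ≤ p0 := Ideal.span_le.2 fun x hx => hx.1
  have hs : p ≤ p.comap (θ : R P →ₐ[ℂ] R P) := Ideal.span_le.2 fun x hx => by
    obtain ⟨hx0, n, hn⟩ := hx
    have h1 : θ x = ((lam ^ n : ℂˣ) : ℂ) • x := mem_eig.1 hn
    show θ x ∈ p
    rw [h1, Algebra.smul_def]
    exact p.mul_mem_left _ (Ideal.subset_span ⟨hx0, n, hn⟩)
  have hprime : p.IsPrime := isPrime_of_hom (gr_R P hl one_pos) p (fun r hr => hs hr)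
    (fun h => hp0.ne_top (top_le_iff.1 (h ▸ hle))) fun a b m n ha hb hab =>
      (hp0.mem_or_mem (hle hab)).imp (fun h => Ideal.subset_span ⟨h, m, ha⟩)
        fun h => Ideal.subset_span ⟨h, n, hb⟩
  let θT : (R P ⧸ p) →ₐ[ℂ] (R P ⧸ p) := Ideal.quotientMapₐ p (θ : R P →ₐ[ℂ] R P) hs
  have hθT : ∀ r, θT (Ideal.Quotient.mk p r) = Ideal.Quotient.mk p (θ r) := fun r => rfl
  let 𝒜 : ℕ → Submodule ℂ (R P ⧸ p) := fun n => eig lam θT.toLinearMap (n : ℤ)
  have hmem : ∀ (n : ℕ) (t : R P ⧸ p), t ∈ 𝒜 n ↔ θT t = ((lam ^ (n : ℤ) : ℂˣ) : ℂ) • t :=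
    fun n t => mem_eig
  have hmk : ∀ (n : ℕ) (r : R P), r ∈ eig lam θ.toLinearMap (n : ℤ) →
      Ideal.Quotient.mk p r ∈ 𝒜 n := fun n r hr => by
    have h1 : θ r = ((lam ^ (n : ℤ) : ℂˣ) : ℂ) • r := mem_eig.1 hr
    rw [hmem, hθT, h1]
    rfl
  have hind : iSupIndep 𝒜 := (eig_independent hl θT.toLinearMap).comp Nat.cast_injective
  have hc : ∀ c : ℂ, algebraMap ℂ (R P ⧸ p) c ∈ 𝒜 0 := fun c => by
    rw [hmem, θT.commutes]
    simp
  have hdiag : ∀ t : R P ⧸ p, ∃ c : ℂ, t - algebraMap ℂ (R P ⧸ p) c ∈ ⨆ j ≠ 0, 𝒜 j := fun t => by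
    obtain ⟨r, rfl⟩ := Ideal.Quotient.mk_surjective t
    obtain ⟨c, hc⟩ := R_diag P lam 1 r
    refine ⟨c, ?_⟩
    have h1 : (⨆ n : ℕ, eig lam θ.toLinearMap ((1 * (n + 1) : ℕ) : ℤ)) ≤
        (⨆ j ≠ 0, 𝒜 j).comap (Ideal.Quotient.mkₐ ℂ p).toLinearMap := iSup_le fun n r hr =>
      Submodule.mem_iSup_of_mem (1 * (n + 1)) (Submodule.mem_iSup_of_mem (by omega) (hmk _ r hr))
    have h2 := h1 hc
    rw [Submodule.mem_comap, AlgHom.toLinearMap_apply, map_sub, AlgHom.commutes] at h2
    exact h2
  have htop : iSup 𝒜 = ⊤ := eq_top_iff.2 fun t _ => by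
    obtain ⟨c, h⟩ := hdiag t
    rw [← sub_add_cancel t (algebraMap ℂ (R P ⧸ p) c)]
    exact add_mem ((iSup₂_le fun j _ => le_iSup 𝒜 j : (⨆ j ≠ 0, 𝒜 j) ≤ iSup 𝒜) h)
      (Submodule.mem_iSup_of_mem 0 (hc c))
  let G : GradedAlgebra 𝒜 :=
    { (DirectSum.isInternal_submodule_of_iSupIndep_of_iSup_eq_top hind htop).chooseDecomposition with
      one_mem := by simpa using hc 1
      mul_mem := fun i j a b ha hb => by
        rw [hmem] at ha hb ⊢
        rw [map_mul, ha, hb, Nat.cast_add, zpow_add, Units.val_mul, smul_mul_smul_comm] }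
  refine ⟨R P ⧸ p, inferInstance, inferInstance, inferInstance, inferInstance, inferInstance, 𝒜, G,
    ⟨Ideal.Quotient.mkₐ (A ℂ) p⟩, inferInstance, ?_, fun t ht => ?_, fun i => ?_⟩
  · rw [injective_iff_map_eq_zero]
    intro a ha
    have h1 : algebraMap (A ℂ) (R P) a ∈ p := Ideal.Quotient.eq_zero_iff_mem.1 ha
    have h2 : a ∈ p0.comap (algebraMap (A ℂ) (R P)) := hle h1
    rwa [hp0c] at h2
  · obtain ⟨c, h⟩ := hdiag t
    exact ⟨c, sub_eq_zero.1 ((Submodule.disjoint_def.1 (hind 0)) _ (sub_mem ht (hc c)) h)⟩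
  · refine hmk 4 (algebraMap (A ℂ) (R P) (MvPolynomial.X i)) (mem_eig.2 ?_)
    have h1 : θA lam (4 * 1) (MvPolynomial.X i) =
        ((lam ^ ((4 : ℕ) : ℤ) : ℂˣ) : ℂ) • (MvPolynomial.X i : A ℂ) := by
      have := (mem_eigA_iff (w := 4 * 1) hl (MvPolynomial.X i) _).2
        (homZ_of_isHomogeneous (4 * 1) (MvPolynomial.isHomogeneous_X ℂ i))
      exact mem_eig.1 this
    show θR P lam 1 _ = _
    rw [θR_algebraMap, h1, Algebra.smul_def, Algebra.smul_def, map_mul,
      ← IsScalarTower.algebraMap_apply]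

/-- The irrelevant ideal is maximal, with quotient `ℂ`, and it is the only prime over the origin. -/
theorem irrelevant_facts {T : Type} [CommRing T] [IsDomain T] [Algebra ℂ T] [Algebra (A ℂ) T]
    [IsScalarTower ℂ (A ℂ) T] (𝒜 : ℕ → Submodule ℂ T) [GradedAlgebra 𝒜] [Module.Finite (A ℂ) T]
    (h0 : ∀ t ∈ 𝒜 0, ∃ c : ℂ, t = algebraMap ℂ T c)
    (hX : ∀ i : Fin 3, algebraMap (A ℂ) T (MvPolynomial.X i) ∈ 𝒜 4) :
    (HomogeneousIdeal.irrelevant 𝒜).toIdeal.IsMaximal ∧
      Function.Bijective (algebraMap ℂ (T ⧸ (HomogeneousIdeal.irrelevant 𝒜).toIdeal)) ∧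
      (HomogeneousIdeal.irrelevant 𝒜).toIdeal =
        (Ideal.span (Set.range fun i : Fin 3 => algebraMap (A ℂ) T (MvPolynomial.X i))).radical := by
  classical
  have hc : ∀ c : ℂ, algebraMap ℂ T c ∈ 𝒜 0 := fun c => by
    rw [Algebra.algebraMap_eq_smul_one]
    exact Submodule.smul_mem _ _ (SetLike.one_mem_graded 𝒜)
  have hne : (HomogeneousIdeal.irrelevant 𝒜).toIdeal ≠ ⊤ := by
    rw [HomogeneousIdeal.toIdeal_irrelevant]
    exact RingHom.ker_ne_top _
  have : Nontrivial (T ⧸ (HomogeneousIdeal.irrelevant 𝒜).toIdeal) :=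
    Ideal.Quotient.nontrivial_iff.2 hne
  have hbij : Function.Bijective (algebraMap ℂ (T ⧸ (HomogeneousIdeal.irrelevant 𝒜).toIdeal)) := by
    refine ⟨(algebraMap ℂ _).injective, fun t => ?_⟩
    obtain ⟨t, rfl⟩ := Ideal.Quotient.mk_surjective t
    obtain ⟨c, hc'⟩ := h0 _ (DirectSum.decompose 𝒜 t 0).2
    refine ⟨c, Ideal.Quotient.eq.2 ?_⟩
    show GradedRing.proj 𝒜 0 (algebraMap ℂ T c - t) = 0
    rw [map_sub, GradedRing.proj_apply, GradedRing.proj_apply, hc',
      DirectSum.decompose_of_mem_same 𝒜 (hc c), sub_self]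
  have hmax : (HomogeneousIdeal.irrelevant 𝒜).toIdeal.IsMaximal :=
    Ideal.Quotient.maximal_of_isField _
      ((RingEquiv.ofBijective _ hbij).symm.toMulEquiv.isField (Field.toIsField ℂ))
  refine ⟨hmax, hbij, le_antisymm ?_ ?_⟩
  · set J := Ideal.span (Set.range fun i : Fin 3 => algebraMap (A ℂ) T (MvPolynomial.X i)) with hJ
    have hJh : J.IsHomogeneous 𝒜 := Ideal.homogeneous_span 𝒜 _ (by
      rintro _ ⟨i, rfl⟩
      exact ⟨4, hX i⟩)
    have hred : ∀ a : A ℂ, algebraMap (A ℂ) T a -
        algebraMap ℂ T (MvPolynomial.constantCoeff a) ∈ J := fun a => by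
      induction a using MvPolynomial.induction_on with
      | C c =>
        rw [MvPolynomial.constantCoeff_C, ← MvPolynomial.algebraMap_eq,
          ← IsScalarTower.algebraMap_apply, sub_self]
        exact J.zero_mem
      | add a b ha hb =>
        rw [map_add, map_add, map_add, add_sub_add_comm]
        exact J.add_mem ha hb
      | mul_X a i _ =>
        rw [map_mul, map_mul, MvPolynomial.constantCoeff_X, mul_zero, map_zero, sub_zero]
        exact J.mul_mem_left _ (Ideal.subset_span ⟨i, rfl⟩)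
    rw [HomogeneousIdeal.irrelevant_eq_span, Ideal.span_le]
    intro t ht
    simp only [Set.mem_iUnion] at ht
    obtain ⟨n, hn, ht⟩ := ht
    have ht' : t ∈ 𝒜 n := ht
    obtain ⟨f, hf, hft⟩ := Algebra.IsIntegral.isIntegral (R := A ℂ) t
    rw [Polynomial.eval₂_eq_sum_range, Finset.sum_range_succ, hf.coeff_natDegree, map_one,
      one_mul] at hft
    have hu : ∑ i ∈ Finset.range f.natDegree,
        algebraMap ℂ T (MvPolynomial.constantCoeff (f.coeff i)) * t ^ i + t ^ f.natDegree ∈ J := by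
      have h1 : ∑ i ∈ Finset.range f.natDegree, (algebraMap (A ℂ) T (f.coeff i) -
          algebraMap ℂ T (MvPolynomial.constantCoeff (f.coeff i))) * t ^ i ∈ J :=
        J.sum_mem fun i _ => J.mul_mem_right _ (hred _)
      simp only [sub_mul, Finset.sum_sub_distrib] at h1
      have h2 := J.neg_mem h1
      rw [eq_neg_of_add_eq_zero_left hft] at h2
      convert h2 using 1
      ring
    have h3 := hJh (f.natDegree • n) hu
    rw [← GradedRing.proj_apply, map_add, map_sum, GradedRing.proj_apply,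
      DirectSum.decompose_of_mem_same 𝒜 (SetLike.pow_mem_graded f.natDegree ht'),
      Finset.sum_eq_zero, zero_add] at h3
    · exact ⟨_, h3⟩
    · intro i hi
      have h4 : algebraMap ℂ T (MvPolynomial.constantCoeff (f.coeff i)) * t ^ i ∈ 𝒜 (i • n) := by
        rw [← Algebra.smul_def]
        exact Submodule.smul_mem _ _ (SetLike.pow_mem_graded i ht')
      rw [GradedRing.proj_apply, DirectSum.decompose_of_mem_ne 𝒜 h4]
      rw [Finset.mem_range] at hi
      simp only [smul_eq_mul]
      exact (Nat.mul_lt_mul_of_pos_right hi hn).ne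
  · rw [hmax.isPrime.radical_le_iff, Ideal.span_le]
    rintro _ ⟨i, rfl⟩
    exact HomogeneousIdeal.mem_irrelevant_of_mem 𝒜 (by norm_num) (hX i)

/-! ### Subtask Fin-e -/

theorem no_mcm_localization_height (k : Type) [Field k] (n : ℕ) :
    ∀ M : Ideal (MvPolynomial (Fin n) k), M.IsMaximal → M.height = n := by
  induction n with
  | zero =>
    intro M hM
    have e := (MvPolynomial.isEmptyRingEquiv k (Fin 0))
    rw [← e.height_map M]
    have : (M.map e).IsMaximal := Ideal.map_isMaximal_of_equiv e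
    rw [Ideal.eq_bot_of_prime (M.map e), Ideal.height_bot]
    rfl
  | succ n ih =>
    intro M hM
    have e := (MvPolynomial.finSuccEquiv k n).toRingEquiv
    rw [← e.height_map M]
    have : (M.map e).IsMaximal := Ideal.map_isMaximal_of_equiv e
    have h1 := Polynomial.isMaximal_comap_C_of_isJacobsonRing (M.map e)
    rw [Polynomial.height_eq_height_add_one ((M.map e).under _) (M.map e)]
    erw [ih _ h1]
    rfl

/-- No maximal Cohen-Macaulay module over the localisation at the origin. -/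
theorem no_mcm_localization (P : Par ℂ) {T : Type} [CommRing T] [IsDomain T] [Algebra (A ℂ) T]
    [Module.Finite (A ℂ) T] (φ : R P →ₐ[A ℂ] T) (hinj : Function.Injective (algebraMap (A ℂ) T))
    (m : Ideal T) [m.IsMaximal]
    (hm : m = (Ideal.span (Set.range fun i : Fin 3 =>
      algebraMap (A ℂ) T (MvPolynomial.X i))).radical) :
    ringKrullDim (Localization.AtPrime m) = 3 ∧
      ∀ (M : Type) [AddCommGroup M] [Module (Localization.AtPrime m) M],
        Module.Finite (Localization.AtPrime m) M → Nontrivial M →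
        ∀ rs : List (Localization.AtPrime m), rs.length = 3 →
          (∀ r ∈ rs, r ∈ IsLocalRing.maximalIdeal (Localization.AtPrime m)) →
          ¬ RingTheory.Sequence.IsRegular M rs := by
  let n : Ideal (A ℂ) := MvPolynomial.idealOfVars (Fin 3) ℂ
  have hn : ∀ a : A ℂ, a ∈ n ↔ MvPolynomial.constantCoeff a = 0 := by
    intro a
    have := MvPolynomial.mem_pow_idealOfVars_iff' (σ := Fin 3) (R := ℂ) 1 a
    rw [pow_one] at this
    rw [this]
    constructor
    · intro h
      exact h 0 (by simp)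
    · intro h x hx
      have : x = 0 := (Finsupp.degree_eq_zero_iff x).mp (by omega)
      subst this
      exact h
  have hmax : n.IsMaximal := by
    have : n = RingHom.ker (MvPolynomial.constantCoeff : A ℂ →+* ℂ) := Ideal.ext hn
    rw [this]
    exact RingHom.ker_isMaximal_of_surjective _ fun c => ⟨MvPolynomial.C c, by simp⟩
  have hover : ∀ Q : Ideal T, Q.IsPrime → (n ≤ Q.comap (algebraMap (A ℂ) T) ↔ m ≤ Q) := by
    intro Q hQ
    rw [hm, hQ.radical_le_iff, Ideal.span_le, Ideal.span_le, Set.range_subset_iff,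
      Set.range_subset_iff]
    rfl
  have hnm : n = m.comap (algebraMap (A ℂ) T) :=
    hmax.eq_of_le (Ideal.comap_ne_top _ (Ideal.IsMaximal.ne_top inferInstance))
      ((hover m inferInstance).mpr le_rfl)
  let B := Localization.AtPrime n
  let S := Localization.AtPrime m
  let : Algebra B S := (Localization.localRingHom n m (algebraMap (A ℂ) T) hnm).toAlgebra
  have : IsScalarTower (A ℂ) B S := IsScalarTower.of_algebraMap_eq fun a => by
    rw [IsScalarTower.algebraMap_apply (A ℂ) T S]
    exact (Localization.localRingHom_to_map n m _ hnm a).symm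
  have : IsLocalization (Algebra.algebraMapSubmonoid T n.primeCompl) S := by
    refine (IsLocalization.iff_of_le_of_exists_dvd _ m.primeCompl ?_ ?_).mpr inferInstance
    · rintro _ ⟨a, ha, rfl⟩ h
      exact ha (by rw [hnm]; exact h)
    · intro t ht
      by_contra hcon
      obtain ⟨Q, hQ, hQp, hQn⟩ := Ideal.exists_ideal_over_prime_of_isIntegral n (Ideal.span {t})
        (fun a ha => by
          by_contra han
          exact hcon ⟨_, ⟨a, han, rfl⟩, Ideal.mem_span_singleton.mp ha⟩)
      have h1 : m = Q := Ideal.IsMaximal.eq_of_le inferInstance hQp.ne_top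
        ((hover Q hQp).mp hQn.ge)
      exact ht (h1 ▸ hQ (Ideal.mem_span_singleton_self t))
  have : Module.Finite B S := Module.Finite.of_isLocalization (A ℂ) T n.primeCompl
  have hBS : Function.Injective (algebraMap B S) := by
    rw [injective_iff_map_eq_zero]
    intro b hb
    obtain ⟨a, s, rfl⟩ := IsLocalization.exists_mk'_eq n.primeCompl b
    have h1 : algebraMap (A ℂ) S a = 0 := by
      rw [IsScalarTower.algebraMap_apply (A ℂ) B S, ← IsLocalization.mk'_spec B a s, map_mul, hb,
        zero_mul]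
    rw [IsScalarTower.algebraMap_apply (A ℂ) T S] at h1
    have h2 : algebraMap (A ℂ) T a = 0 :=
      IsLocalization.injective S m.primeCompl_le_nonZeroDivisors (by rw [h1, map_zero])
    have h3 : a = 0 := hinj (by rw [h2, map_zero])
    rw [h3, IsLocalization.mk'_zero]
  have hx : Ideal.span (Set.range fun i : Fin 3 => algebraMap (A ℂ) B (MvPolynomial.X i)) =
      maximalIdeal B := by
    rw [← Localization.AtPrime.map_eq_maximalIdeal, Ideal.map_span, ← Set.range_comp]
    rfl
  refine ⟨?_, fun M _ _ hM hM' rs hl hr h => ?_⟩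
  · rw [ringKrullDim_eq_of_integral hBS, IsLocalization.AtPrime.ringKrullDim_eq_height n B,
      no_mcm_localization_height ℂ 3 n hmax]
    rfl
  · obtain ⟨j, hj, ⟨ρ⟩⟩ := exists_matrix_rep (B := B) (S := S) _ hx M rs hl
      (fun r hr' => by
        obtain ⟨j, hj⟩ := pow_mem_map_maximalIdeal (B := B) (hr r hr')
        rw [← hx, Ideal.map_span, ← Set.range_comp] at hj
        exact ⟨j, hj⟩) h
    have : Nonempty (Fin j) := ⟨⟨0, hj⟩⟩
    let l : B →ₐ[A ℂ] PS ℂ := IsLocalization.liftAlgHom (M := n.primeCompl)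
      (f := Algebra.ofId (A ℂ) (PS ℂ)) fun y => by
        rw [MvPowerSeries.isUnit_iff_constantCoeff, isUnit_iff_ne_zero]
        intro h0
        refine y.2 ((hn _).mpr ?_)
        rw [Algebra.ofId_apply, MvPowerSeries.algebraMap_apply', Algebra.algebraMap_self,
          MvPowerSeries.map_id] at h0
        exact h0
    exact core P (ι := Fin j) (l.mapMatrix.comp ((ρ.restrictScalars (A ℂ)).comp
      ((IsScalarTower.toAlgHom (A ℂ) T S).comp φ)))

theorem graded_result :
    ∃ (T : Type) (_ : CommRing T) (_ : Algebra ℂ T) (𝒜 : ℕ → Submodule ℂ T) (_ : GradedAlgebra 𝒜)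
      (_ : (HomogeneousIdeal.irrelevant 𝒜).toIdeal.IsMaximal),
      Algebra.FiniteType ℂ T ∧ IsDomain T ∧ ringKrullDim T = 3 ∧
      Function.Bijective (algebraMap ℂ (T ⧸ (HomogeneousIdeal.irrelevant 𝒜).toIdeal)) ∧
      ringKrullDim (Localization.AtPrime (HomogeneousIdeal.irrelevant 𝒜).toIdeal) = 3 ∧
      ∀ (M : Type) [AddCommGroup M]
        [Module (Localization.AtPrime (HomogeneousIdeal.irrelevant 𝒜).toIdeal) M],
        Module.Finite (Localization.AtPrime (HomogeneousIdeal.irrelevant 𝒜).toIdeal) M →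
        Nontrivial M →
        ∀ rs : List (Localization.AtPrime (HomogeneousIdeal.irrelevant 𝒜).toIdeal), rs.length = 3 →
          (∀ r ∈ rs, r ∈ IsLocalRing.maximalIdeal
            (Localization.AtPrime (HomogeneousIdeal.irrelevant 𝒜).toIdeal)) →
          ¬ RingTheory.Sequence.IsRegular M rs := by
  obtain ⟨P⟩ := (exists_par : Nonempty (Par ℂ))
  obtain ⟨T, _, _, _, _, _, 𝒜, _, ⟨φ⟩, hfin, hinj, h0, hX⟩ := exists_graded P
  obtain ⟨hmax, hbij, hrad⟩ := irrelevant_facts 𝒜 h0 hX
  obtain ⟨hdim, hno⟩ := no_mcm_localization P φ hinj _ hrad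
  refine ⟨T, inferInstance, inferInstance, 𝒜, inferInstance, hmax, ?_, inferInstance, ?_, hbij,
    hdim, hno⟩
  · exact Algebra.FiniteType.trans (inferInstance : Algebra.FiniteType ℂ (A ℂ)) inferInstance
  · rw [ringKrullDim_eq_of_integral hinj, MvPolynomial.ringKrullDim_of_isNoetherianRing]
    simp

end Crest.Agent.R169
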