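import Crest.Agent.R169.Adm

/-!
# Row 169: Frobenius pull-back of admissible lattices
-/

set_option autoImplicit false

namespace Crest.Agent.R169

open MvPolynomial Matrix TensorProduct

variable {k : Type} [Field k] (p : ℕ) [Fact p.Prime] [CharP k p]

instance charP_K : CharP (K k) p := charP_of_injective_algebraMap (algebraMap k (K k)).injective p

instance charP_R (P : Par k) : CharP (R P) p :=
  charP_of_injective_algebraMap (algebraMap k (R P)).injective p

/-- Coordinatewise Frobenius. -/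
noncomputable def frV {ι : Type} (v : ι → K k) : ι → K k := fun i => v i ^ p

/-- Entrywise Frobenius. -/
noncomputable def frM {ι κ : Type} (U : Matrix ι κ (K k)) : Matrix ι κ (K k) :=
  U.map (frobenius (K k) p)

variable {P : Par k} {lam : kˣ} {q : ℕ} {ι : Type} [Fintype ι] [DecidableEq ι]

/-- The `p`-th root of the Frobenius twist of `s a`. -/
noncomputable def frobS (Y : Gen → Matrix ι ι (K k)) (a : Li) : Matrix ι ι (K k) :=
  ((algebraMap (A k) (K k) (lin k a))⁻¹ ^ (p / 2)) • frM p (Y (.s a))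

/-- The `p`-th roots of the Frobenius twists of the generators. -/
noncomputable def frobY (P : Par k) (Y : Gen → Matrix ι ι (K k)) : Gen → Matrix ι ι (K k)
  | .s a => frobS p Y a
  | .u t => ((algebraMap (A k) (K k) (C (P.ga t ^ 2) * lin k t.c))⁻¹ ^ (p / 2)) •
      (frM p (Y (.u t)) * (P.al t • frobS p Y t.a - P.be t • frobS p Y t.b) ^ (p / 2))
  | .v t => ((algebraMap (A k) (K k) (C (P.ga t ^ 2) * lin k t.c))⁻¹ ^ (p / 2)) •
      (frM p (Y (.v t)) * (P.al t • frobS p Y t.a + P.be t • frobS p Y t.b) ^ (p / 2))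

/-- `D'` is the Frobenius pull-back of `D`. -/
structure IsFrob (D D' : Adm P lam q ι) : Prop where
  Y : D'.Y = frobY p P D.Y
  Γ : ∀ σ, D'.Γ σ = frM p (D.Γ σ)
  Θ : D'.Θ = frM p D.Θ
  E : D'.E = Submodule.span (A k) {x | ∃ (r : R P) (e : ι → K k), e ∈ D.E ∧ x = D'.act r *ᵥ frV p e}

/-! ### Subtask Frob-a -/

theorem frV_mulVec {κ : Type} (U : Matrix κ ι (K k)) (v : ι → K k) :
    frV p (U *ᵥ v) = frM p U *ᵥ frV p v := by
  funext i
  simp only [frV, frM, mulVec, dotProduct, map_apply, frobenius_def]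
  rw [sum_pow_char]
  simp only [mul_pow]

omit [DecidableEq ι] in
theorem frobY_frM_mul {κ κ' : Type} (U : Matrix κ ι (K k)) (U' : Matrix ι κ' (K k)) :
    frM p (U * U') = frM p U * frM p U' := Matrix.map_mul

theorem frobY_frM_smul {κ κ' : Type} (c : K k) (U : Matrix κ κ' (K k)) :
    frM p (c • U) = c ^ p • frM p U := by
  ext i j
  simp [frM, frobenius_def, mul_pow]

theorem frobY_frM_add {κ κ' : Type} (U U' : Matrix κ κ' (K k)) :
    frM p (U + U') = frM p U + frM p U' := by
  ext i j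
  simp [frM]

theorem frobY_frM_sub {κ κ' : Type} (U U' : Matrix κ κ' (K k)) :
    frM p (U - U') = frM p U - frM p U' := by
  ext i j
  simp [frM]

theorem frobY_frM_algebraMap (c : K k) :
    frM p (algebraMap (K k) (Matrix ι ι (K k)) c) = algebraMap (K k) (Matrix ι ι (K k)) (c ^ p) := by
  rw [Algebra.algebraMap_eq_smul_one, Algebra.algebraMap_eq_smul_one, frobY_frM_smul]
  congr 1
  exact Matrix.map_one _ (map_zero _) (map_one _)

omit [Fact p.Prime] [CharP k p] in
theorem frobY_k_smul {κ κ' : Type} (c : k) (U : Matrix κ κ' (K k)) :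
    c • U = algebraMap k (K k) c • U := (algebraMap_smul (K k) c U).symm

omit [Fact p.Prime] [CharP k p] in
theorem frobY_alg_C (c : k) : algebraMap (A k) (K k) (C c) = algebraMap k (K k) c :=
  (IsScalarTower.algebraMap_apply k (A k) (K k) c).symm

omit [Fact p.Prime] [CharP k p] in
theorem frobY_C_smul {κ κ' : Type} (c : k) (U : Matrix κ κ' (K k)) :
    (C c : A k) • U = algebraMap k (K k) c • U := by
  rw [← frobY_alg_C, algebraMap_smul]

theorem frobY_odd (hk : GoodChar k) : p = 2 * (p / 2) + 1 := by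
  have h2 : p ≠ 2 := by
    rintro rfl
    exact hk 2 (by norm_num) (by norm_num) (CharP.cast_eq_zero k 2)
  have := (Fact.out : p.Prime).eq_two_or_odd
  omega

section Root

variable {F B : Type} [Field F] [Ring B] [Algebra F B]

theorem frobY_root_mul {x y U V : B} {m : F} (n : ℕ) (hm : m ≠ 0) (hxy : Commute x y)
    (hV : Commute V y) (h : x * y = algebraMap F B m) :
    (m⁻¹ ^ n • (U * y ^ n)) * (m⁻¹ ^ n • (V * x ^ n)) = m⁻¹ ^ n • (U * V) := by
  have h1 : y ^ n * x ^ n = algebraMap F B (m ^ n) := by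
    rw [← hxy.symm.mul_pow, ← hxy.eq, h, map_pow]
  have h2 : U * y ^ n * (V * x ^ n) = m ^ n • (U * V) := by
    rw [mul_assoc, ← mul_assoc (y ^ n), ← (hV.pow_right n).eq, mul_assoc, h1, ← mul_assoc,
      Algebra.algebraMap_eq_smul_one, mul_smul_comm, mul_one]
  rw [smul_mul_smul_comm, h2, smul_smul, mul_assoc, ← mul_pow m⁻¹ m, inv_mul_cancel₀ hm, one_pow,
    mul_one]

theorem frobY_root {x y U : B} {m : F} (n : ℕ) (hm : m ≠ 0) (hxy : Commute x y)
    (hx : Commute U x) (hy : Commute U y) (h : x * y = algebraMap F B m)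
    (hU : U * U = x ^ (2 * n + 1)) :
    (m⁻¹ ^ n • (U * y ^ n)) * (m⁻¹ ^ n • (U * y ^ n)) = x ∧
      (m⁻¹ ^ n • (U * y ^ n)) ^ (2 * n + 1) = U := by
  have h1 : x ^ n * y ^ n = algebraMap F B (m ^ n) := by rw [← hxy.mul_pow, h, map_pow]
  have hc : m⁻¹ ^ n * m ^ n = 1 := by rw [← mul_pow, inv_mul_cancel₀ hm, one_pow]
  have h2 : U * y ^ n * (U * y ^ n) = (m ^ n * m ^ n) • x := by
    rw [mul_assoc, ← mul_assoc (y ^ n), ← (hy.pow_right n).eq, mul_assoc, ← mul_assoc U U, hU,
      pow_succ', two_mul, pow_add, mul_assoc, mul_assoc, ← mul_assoc (x ^ n) (y ^ n), h1,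
      Algebra.algebraMap_eq_smul_one, smul_mul_assoc, one_mul, mul_smul_comm, h1,
      Algebra.algebraMap_eq_smul_one, smul_smul, mul_smul_comm, mul_one]
  have h3 : (m⁻¹ ^ n • (U * y ^ n)) * (m⁻¹ ^ n • (U * y ^ n)) = x := by
    rw [smul_mul_smul_comm, h2, smul_smul, mul_mul_mul_comm, hc, one_mul, one_smul]
  refine ⟨h3, ?_⟩
  rw [pow_succ, pow_mul, pow_two, h3, mul_smul_comm, ← mul_assoc, ← (hx.pow_right n).eq,
    mul_assoc, h1, Algebra.algebraMap_eq_smul_one, mul_smul_comm, mul_one, smul_smul, hc, one_smul]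

theorem frobY_add_pow [CharP F p] {x y : B} (h : Commute x y) : (x + y) ^ p = x ^ p + y ^ p := by
  cases subsingleton_or_nontrivial B with
  | inl _ => exact Subsingleton.elim _ _
  | inr _ =>
    have : CharP B p := charP_of_injective_algebraMap (algebraMap F B).injective p
    exact add_pow_char_of_commute p h

end Root

theorem frobY_mem (Y : Gen → Matrix ι ι (K k)) (g : Gen) :
    frobY p P Y g ∈ Algebra.adjoin (K k) (Set.range fun g => frM p (Y g)) := by
  have h0 : ∀ g, frM p (Y g) ∈ Algebra.adjoin (K k) (Set.range fun g => frM p (Y g)) :=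
    fun g => Algebra.subset_adjoin ⟨g, rfl⟩
  have hs : ∀ a, frobS p Y a ∈ Algebra.adjoin (K k) (Set.range fun g => frM p (Y g)) :=
    fun a => Subalgebra.smul_mem _ (h0 _) _
  cases g with
  | s a => exact hs a
  | u t =>
    simp only [frobY, frobY_k_smul]
    exact Subalgebra.smul_mem _ (mul_mem (h0 _) (pow_mem (sub_mem (Subalgebra.smul_mem _ (hs _) _)
      (Subalgebra.smul_mem _ (hs _) _)) _)) _
  | v t =>
    simp only [frobY, frobY_k_smul]
    exact Subalgebra.smul_mem _ (mul_mem (h0 _) (pow_mem (add_mem (Subalgebra.smul_mem _ (hs _) _)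
      (Subalgebra.smul_mem _ (hs _) _)) _)) _

theorem frobY_rel (hk : GoodChar k) {Y : Gen → Matrix ι ι (K k)} (h : RelD P 1 Y) :
    RelD P 1 (frobY p P Y) ∧ ∀ g, frobY p P Y g ^ p = frM p (Y g) := by
  have hp := frobY_odd p hk
  have hc0 : ∀ g g', Commute (frM p (Y g)) (frM p (Y g')) := fun g g' => by
    rw [Commute, SemiconjBy, ← frobY_frM_mul, h.comm, frobY_frM_mul]
  have hc1 : ∀ g g', Commute (frM p (Y g)) (frobY p P Y g') := fun g g' =>
    Algebra.commute_of_mem_adjoin_of_forall_mem_commute (frobY_mem p Y g') (by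
      rintro _ ⟨g'', rfl⟩; exact hc0 g g'')
  have hc2 : ∀ g g', Commute (frobY p P Y g) (frobY p P Y g') := fun g g' =>
    Algebra.commute_of_mem_adjoin_of_forall_mem_commute (frobY_mem p Y g') (by
      rintro _ ⟨g'', rfl⟩; exact (hc1 g'' g).symm)
  have hl : ∀ a, algebraMap (A k) (K k) (lin k a) ≠ 0 := fun a =>
    (map_ne_zero_iff _ (IsFractionRing.injective (A k) (K k))).mpr (lin_ne_zero a)
  have hs : ∀ a, frobS p Y a * frobS p Y a =
        algebraMap (K k) (Matrix ι ι (K k)) (algebraMap (A k) (K k) (lin k a)) ∧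
      frobS p Y a ^ p = frM p (Y (.s a)) := by
    intro a
    have := frobY_root (x := algebraMap (K k) (Matrix ι ι (K k)) (algebraMap (A k) (K k) (lin k a)))
      (y := 1) (U := frM p (Y (.s a))) (p / 2) (hl a) (Commute.one_right _)
      (Algebra.commute_algebraMap_right _ _) (Commute.one_right _) (mul_one _) (by
        rw [← frobY_frM_mul, h.s, one_pow, one_mul, ← hp, ← map_pow,
          IsScalarTower.algebraMap_apply (A k) (K k) (Matrix ι ι (K k)), frobY_frM_algebraMap])
    rw [one_pow, mul_one, ← hp] at this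
    exact this
  have key : ∀ t : Tr,
      (frobY p P Y (.u t) * frobY p P Y (.u t) =
          P.al t • frobS p Y t.a + P.be t • frobS p Y t.b ∧
        frobY p P Y (.u t) ^ p = frM p (Y (.u t))) ∧
      (frobY p P Y (.v t) * frobY p P Y (.v t) =
          P.al t • frobS p Y t.a - P.be t • frobS p Y t.b ∧
        frobY p P Y (.v t) ^ p = frM p (Y (.v t))) ∧
      frobY p P Y (.u t) * frobY p P Y (.v t) = P.ga t • frobS p Y t.c := by
    intro t
    have hga : algebraMap k (K k) (P.ga t) ≠ 0 :=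
      (map_ne_zero _).mpr (par_ne_zero hk P t).2.2
    have hm : algebraMap (A k) (K k) (C (P.ga t ^ 2) * lin k t.c) ≠ 0 := by
      rw [map_mul, frobY_alg_C, map_pow]
      exact mul_ne_zero (pow_ne_zero _ hga) (hl _)
    have hab : Commute (P.al t • frobS p Y t.a) (P.be t • frobS p Y t.b) :=
      ((hc2 (.s t.a) (.s t.b)).smul_left _).smul_right _
    have hxy : Commute (P.al t • frobS p Y t.a + P.be t • frobS p Y t.b)
        (P.al t • frobS p Y t.a - P.be t • frobS p Y t.b) :=
      ((Commute.refl _).sub_right hab).add_left (hab.symm.sub_right (Commute.refl _))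
    have hx : ∀ g, Commute (frM p (Y g)) (P.al t • frobS p Y t.a + P.be t • frobS p Y t.b) :=
      fun g => ((hc1 g (.s t.a)).smul_right _).add_right ((hc1 g (.s t.b)).smul_right _)
    have hy : ∀ g, Commute (frM p (Y g)) (P.al t • frobS p Y t.a - P.be t • frobS p Y t.b) :=
      fun g => ((hc1 g (.s t.a)).smul_right _).sub_right ((hc1 g (.s t.b)).smul_right _)
    have hmul : (P.al t • frobS p Y t.a + P.be t • frobS p Y t.b) *
        (P.al t • frobS p Y t.a - P.be t • frobS p Y t.b) =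
        algebraMap (K k) (Matrix ι ι (K k))
          (algebraMap (A k) (K k) (C (P.ga t ^ 2) * lin k t.c)) := by
      rw [add_mul, mul_sub, mul_sub, hab.eq, sub_add_sub_cancel, smul_mul_smul_comm,
        smul_mul_smul_comm, (hs _).1, (hs _).1, ← lin_rel]
      simp only [map_sub, map_mul, frobY_alg_C, Algebra.smul_def, pow_two,
        IsScalarTower.algebraMap_apply k (K k) (Matrix ι ι (K k))]
    have ha : (P.al t • frobS p Y t.a) ^ p = frM p ((1 * C (P.al t) : A k) • Y (.s t.a)) := by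
      rw [one_mul, frobY_C_smul, frobY_frM_smul, frobY_k_smul, smul_pow, (hs _).2]
    have hb : (P.be t • frobS p Y t.b) ^ p = frM p ((1 * C (P.be t) : A k) • Y (.s t.b)) := by
      rw [one_mul, frobY_C_smul, frobY_frM_smul, frobY_k_smul, smul_pow, (hs _).2]
    have hu := frobY_root (U := frM p (Y (.u t))) (p / 2) hm hxy (hx _) (hy _) hmul (by
      rw [← hp, ← frobY_frM_mul, h.u, frobY_frM_add, frobY_add_pow p (F := K k) hab, ha, hb])
    have hv := frobY_root (U := frM p (Y (.v t))) (p / 2) hm hxy.symm (hy _) (hx _)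
      (hxy.symm.eq.trans hmul) (by
        rw [← hp, ← frobY_frM_mul, h.v, frobY_frM_sub, sub_eq_add_neg (P.al t • _),
          frobY_add_pow p (F := K k) hab.neg_right, Odd.neg_pow ⟨p / 2, hp⟩, ha, hb,
          sub_eq_add_neg])
    rw [← hp] at hu hv
    refine ⟨hu, hv, ?_⟩
    have huv := frobY_root_mul (U := frM p (Y (.u t))) (V := frM p (Y (.v t))) (p / 2) hm hxy
      (hy _) hmul
    refine huv.trans ?_
    rw [← frobY_frM_mul, h.uv, one_mul, frobY_C_smul, frobY_frM_smul, frobY_k_smul, frobS,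
      smul_smul, smul_smul]
    congr 1
    rw [map_mul, frobY_alg_C, map_pow, mul_inv, mul_pow]
    generalize p / 2 = n at hp
    have e : algebraMap k (K k) (P.ga t) ^ p =
        (algebraMap k (K k) (P.ga t) ^ 2) ^ n * algebraMap k (K k) (P.ga t) := by
      rw [← pow_mul, ← pow_succ, ← hp]
    rw [e, inv_pow]
    have := pow_ne_zero n (pow_ne_zero 2 hga)
    field_simp
  refine ⟨⟨fun g g' => (hc2 g g').eq, fun a => ?_, fun t => ?_, fun t => ?_, fun t => ?_⟩,
    fun g => ?_⟩
  · rw [one_pow, one_mul, IsScalarTower.algebraMap_apply (A k) (K k) (Matrix ι ι (K k))]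
    exact (hs a).1
  · rw [(key t).1.1, one_mul, one_mul, frobY_C_smul, frobY_C_smul, frobY_k_smul, frobY_k_smul]
    rfl
  · rw [(key t).2.1.1, one_mul, one_mul, frobY_C_smul, frobY_C_smul, frobY_k_smul, frobY_k_smul]
    rfl
  · rw [(key t).2.2, one_mul, frobY_C_smul, frobY_k_smul]
    rfl
  · cases g with
    | s a => exact (hs a).2
    | u t => exact (key t).1.2
    | v t => exact (key t).2.1.2

omit [Fact p.Prime] [CharP k p] in
theorem frobY_tw {κ : Type} [Fintype κ] [DecidableEq κ] {G : Matrix κ ι (K k)}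
    {U y : Matrix ι ι (K k)} {U' y' : Matrix κ κ (K k)} {c ε : K k} (μ : K k) (n : ℕ)
    (hU : G * U = c • (U' * G)) (hy : G * y = ε • (y' * G)) :
    G * (μ • (U * y ^ n)) = (c * ε ^ n) • ((μ • (U' * y' ^ n)) * G) := by
  have h1 : G * y ^ n = ε ^ n • (y' ^ n * G) := by
    induction n with
    | zero => simp
    | succ n ih =>
      rw [pow_succ, ← Matrix.mul_assoc, ih, Matrix.smul_mul, Matrix.mul_assoc, hy,
        Matrix.mul_smul, smul_smul, pow_succ, pow_succ, Matrix.mul_assoc]
  rw [Matrix.mul_smul, ← Matrix.mul_assoc, hU, Matrix.smul_mul, Matrix.mul_assoc, h1,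
    Matrix.mul_smul, Matrix.smul_mul, smul_smul, smul_smul, smul_smul, Matrix.mul_assoc]
  congr 1
  ring

theorem frobY_sym (hk : GoodChar k) {Y : Gen → Matrix ι ι (K k)} (σ : Sym) {Γ : Matrix ι ι (K k)}
    (h : ∀ g, Γ * Y g = (C (cf P σ g) : A k) • (Y (pr σ g) * Γ)) (g : Gen) :
    frM p Γ * frobY p P Y g = (C (cf P σ g) : A k) • (frobY p P Y (pr σ g) * frM p Γ) := by
  have hp := frobY_odd p hk
  have hodd : Odd p := ⟨p / 2, hp⟩
  have h0 : ∀ g, frM p Γ * frM p (Y g) =
      algebraMap k (K k) (cf P σ g ^ p) • (frM p (Y (pr σ g)) * frM p Γ) := fun g => by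
    rw [← frobY_frM_mul, h, frobY_C_smul, frobY_frM_smul, frobY_frM_mul, map_pow]
  have hprs : ∀ a, pr σ (.s a) = .s a := fun a => by cases σ <;> rfl
  have hcs : ∀ a, cf P σ (.s a) ^ p = cf P σ (.s a) := fun a => by
    cases σ with
    | l a' => simp only [cf]; split_ifs <;> simp [hodd.neg_pow]
    | z t => simp [cf]
  have hs : ∀ a, frM p Γ * frobS p Y a = cf P σ (.s a) • (frobS p Y a * frM p Γ) := fun a => by
    rw [frobS, Matrix.mul_smul, h0, hprs, hcs, Matrix.smul_mul, frobY_k_smul, smul_comm]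
  have hadd : ∀ t : Tr, frM p Γ * (P.al t • frobS p Y t.a + P.be t • frobS p Y t.b) =
      (cf P σ (.s t.a) • P.al t • frobS p Y t.a + cf P σ (.s t.b) • P.be t • frobS p Y t.b) *
        frM p Γ := fun t => by
    simp only [Matrix.mul_add, Matrix.add_mul, Matrix.mul_smul, Matrix.smul_mul, hs, smul_smul,
      mul_comm]
  have hsub : ∀ t : Tr, frM p Γ * (P.al t • frobS p Y t.a - P.be t • frobS p Y t.b) =
      (cf P σ (.s t.a) • P.al t • frobS p Y t.a - cf P σ (.s t.b) • P.be t • frobS p Y t.b) *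
        frM p Γ := fun t => by
    simp only [Matrix.mul_sub, Matrix.sub_mul, Matrix.mul_smul, Matrix.smul_mul, hs, smul_smul,
      mul_comm]
  have hio : P.io ^ p * (-1) ^ (p / 2) = P.io := by
    have e : P.io ^ p = (P.io ^ 2) ^ (p / 2) * P.io := by rw [← pow_mul, ← pow_succ, ← hp]
    rw [e, P.io_sq, mul_right_comm, ← mul_pow]
    simp
  have fin : ∀ {U U' y y' : Matrix ι ι (K k)} {c ε c' : k} (μ : K k),
      frM p Γ * U = algebraMap k (K k) c • (U' * frM p Γ) →
      frM p Γ * y = (ε • y') * frM p Γ → c * ε ^ (p / 2) = c' →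
      frM p Γ * (μ • (U * y ^ (p / 2))) =
        (C c' : A k) • ((μ • (U' * y' ^ (p / 2))) * frM p Γ) := by
    intro U U' y y' c ε c' μ h1 h2 h3
    rw [Matrix.smul_mul, frobY_k_smul] at h2
    rw [frobY_tw μ _ h1 h2, frobY_C_smul, ← h3, map_mul, map_pow]
  cases g with
  | s a => rw [hprs, frobY_C_smul, ← frobY_k_smul]; exact hs a
  | u t =>
    have hab : t.a ≠ t.b := t.2.1.ne
    have h1 := h0 (.u t)
    have h2 := hsub t
    cases σ with
    | l a =>
      by_cases ha : a = t.a
      · subst ha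
        simp only [pr, cf, true_or, if_true, if_neg hab] at h1 h2 ⊢
        refine fin (ε := -1) _ h1 (h2.trans ?_) hio
        congr 1
        simp only [neg_smul, one_smul, neg_add]
        abel
      · by_cases hb : a = t.b
        · subst hb
          simp only [pr, cf, or_true, if_true, if_neg ha] at h1 h2 ⊢
          refine fin (ε := 1) _ h1 (h2.trans ?_) (by simp)
          congr 1
          simp only [neg_smul, one_smul, sub_neg_eq_add]
        · simp only [pr, cf, ha, hb, or_self, if_false] at h1 h2 ⊢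
          refine fin (ε := 1) _ h1 (h2.trans ?_) (by simp)
          simp only [one_smul]
    | z t' =>
      simp only [pr, cf] at h1 h2 ⊢
      refine fin (ε := 1) _ h1 (h2.trans ?_) (by split_ifs <;> simp [hodd.neg_pow])
      simp only [one_smul]
  | v t =>
    have hab : t.a ≠ t.b := t.2.1.ne
    have hbc : t.b ≠ t.c := t.2.2.1.ne
    have h1 := h0 (.v t)
    have h2 := hadd t
    cases σ with
    | l a =>
      by_cases ha : a = t.a
      · subst ha
        simp only [pr, cf, true_or, if_true, if_neg hab] at h1 h2 ⊢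
        refine fin (ε := -1) _ h1 (h2.trans ?_) (by rw [hodd.neg_pow, neg_mul, hio])
        congr 1
        simp only [neg_smul, one_smul, neg_sub]
        abel
      · by_cases hb : a = t.b
        · subst hb
          simp only [pr, cf, or_true, if_true, if_neg ha, if_neg hbc] at h1 h2 ⊢
          refine fin (ε := 1) _ h1 (h2.trans ?_) (by simp)
          congr 1
          simp only [neg_smul, one_smul, sub_eq_add_neg]
        · simp only [pr, cf, ha, hb, or_self, if_false] at h1 h2 ⊢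
          refine fin (ε := 1) _ h1 (h2.trans ?_) (by split_ifs <;> simp [hodd.neg_pow])
          simp only [one_smul]
    | z t' =>
      simp only [pr, cf] at h1 h2 ⊢
      refine fin (ε := 1) _ h1 (h2.trans ?_) (by split_ifs <;> simp [hodd.neg_pow])
      simp only [one_smul]

theorem frobY_intertwine {κ : Type} [Fintype κ] [DecidableEq κ] {Y : Gen → Matrix ι ι (K k)}
    {Y' : Gen → Matrix κ κ (K k)} {π : Matrix κ ι (K k)} (h : ∀ g, π * Y g = Y' g * π) (g : Gen) :
    frM p π * frobY p P Y g = frobY p P Y' g * frM p π := by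
  have h0 : ∀ g, frM p π * frM p (Y g) = frM p (Y' g) * frM p π := fun g => by
    rw [← frobY_frM_mul, h, frobY_frM_mul]
  have hs : ∀ a, frM p π * frobS p Y a = frobS p Y' a * frM p π := fun a => by
    rw [frobS, frobS, Matrix.mul_smul, h0, Matrix.smul_mul]
  have fin : ∀ {U y : Matrix ι ι (K k)} {U' y' : Matrix κ κ (K k)} (μ : K k),
      frM p π * U = U' * frM p π → frM p π * y = y' * frM p π →
      frM p π * (μ • (U * y ^ (p / 2))) = (μ • (U' * y' ^ (p / 2))) * frM p π := by
    intro U y U' y' μ h1 h2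
    rw [frobY_tw (c := 1) (ε := 1) μ _ (by rw [h1, one_smul]) (by rw [h2, one_smul]), one_pow,
      one_mul, one_smul]
  cases g with
  | s a => exact hs a
  | u t =>
    refine fin _ (h0 _) ?_
    simp only [Matrix.mul_sub, Matrix.sub_mul, Matrix.mul_smul, Matrix.smul_mul, hs]
  | v t =>
    refine fin _ (h0 _) ?_
    simp only [Matrix.mul_add, Matrix.add_mul, Matrix.mul_smul, Matrix.smul_mul, hs]

theorem θW_frV (w : ℕ) (Θ : Matrix ι ι (K k)) (v : ι → K k) :
    θW lam w (frM p Θ) (frV p v) = frV p (θW lam w Θ v) := by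
  change frM p Θ *ᵥ (fun i => θK lam w (v i ^ p)) = frV p (Θ *ᵥ fun i => θK lam w (v i))
  rw [frV_mulVec]
  congr 1
  funext i
  simp only [frV, map_pow]

omit [Fintype ι] [DecidableEq ι] in
theorem span_frV_add (v v' : ι → K k) : frV p (v + v') = frV p v + frV p v' := by
  funext i
  simp only [frV, Pi.add_apply, add_pow_char]

omit [Fintype ι] [DecidableEq ι] [CharP k p] in
theorem span_frV_zero : frV p (0 : ι → K k) = 0 := by
  funext i
  simp only [frV, Pi.zero_apply, zero_pow (Fact.out : p.Prime).ne_zero]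

omit [Fintype ι] [DecidableEq ι] [Fact p.Prime] [CharP k p] in
theorem span_frV_smul {S : Type} [CommRing S] [Algebra S (K k)] (a : S) (v : ι → K k) :
    frV p (a • v) = a ^ p • frV p v := by
  funext i
  simp only [frV, Pi.smul_apply, Algebra.smul_def, mul_pow, map_pow]

theorem span_frV {F : Set (ι → K k)} (h : Submodule.span (K k) F = ⊤) :
    Submodule.span (K k) (frV p '' F) = ⊤ := by
  have key : ∀ v ∈ Submodule.span (K k) F, frV p v ∈ Submodule.span (K k) (frV p '' F) := by
    intro v hv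
    induction hv using Submodule.span_induction with
    | mem x hx => exact Submodule.subset_span ⟨x, hx, rfl⟩
    | zero => rw [span_frV_zero]; exact Submodule.zero_mem _
    | add x y _ _ hx hy => rw [span_frV_add]; exact Submodule.add_mem _ hx hy
    | smul a x _ hx => rw [span_frV_smul]; exact Submodule.smul_mem _ _ hx
  rw [eq_top_iff, ← (Pi.basisFun (K k) ι).span_eq, Submodule.span_le]
  rintro _ ⟨i, rfl⟩
  have h1 := key (Pi.basisFun (K k) ι i) (by rw [h]; trivial)
  have h2 : frV p (Pi.basisFun (K k) ι i) = Pi.basisFun (K k) ι i := by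
    funext j
    simp only [frV, Pi.basisFun_apply, Pi.single_apply]
    split_ifs
    · exact one_pow _
    · exact zero_pow (Fact.out : p.Prime).ne_zero
  rwa [h2] at h1

/-- Matrix form of `HomDeg`. -/
def frobY_hom_HD (lam : kˣ) (w : ℕ) (Θ U : Matrix ι ι (K k)) (e : ℤ) : Prop :=
  Θ * U.map (θK lam w) = ((lam ^ e : kˣ) : k) • (U * Θ)

omit [Fact p.Prime] [CharP k p] in
theorem frobY_hom_iff {w : ℕ} {Θ U : Matrix ι ι (K k)} {e : ℤ} :
    HomDeg lam (θW lam w Θ) (θW lam w Θ) (fun v => U *ᵥ v) e ↔ frobY_hom_HD lam w Θ U e := by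
  have key : ∀ v : ι → K k, θW lam w Θ (U *ᵥ v) =
      (Θ * U.map (θK lam w)) *ᵥ fun i => θK lam w (v i) := by
    intro v
    change Θ *ᵥ (fun i => θK lam w ((U *ᵥ v) i)) = _
    rw [← mulVec_mulVec]
    congr 1
    funext i
    exact RingHom.map_mulVec (θK lam w : K k →+* K k) U v i
  have key2 : ∀ v : ι → K k, ((lam ^ e : kˣ) : k) • (U *ᵥ θW lam w Θ v) =
      (((lam ^ e : kˣ) : k) • (U * Θ)) *ᵥ fun i => θK lam w (v i) := by
    intro v
    rw [smul_mulVec, ← mulVec_mulVec]
    rfl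
  constructor
  · intro h
    apply Matrix.toLin'.injective
    refine LinearMap.ext fun u => ?_
    have := h fun i => (θK lam w).symm (u i)
    simp only [key, key2, AlgEquiv.apply_symm_apply] at this
    exact this
  · intro h v
    simp only [key, key2]
    rw [h]

namespace frobY_hom_HD

variable {w : ℕ} {Θ U V : Matrix ι ι (K k)} {e e' : ℤ}

omit [Fact p.Prime] [CharP k p] in
theorem map_mul' (U V : Matrix ι ι (K k)) :
    (U * V).map (θK lam w) = U.map (θK lam w) * V.map (θK lam w) :=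
  Matrix.map_mul (f := (θK lam w : K k →+* K k))

omit [Fact p.Prime] [CharP k p] [DecidableEq ι] in
theorem cast (h : frobY_hom_HD lam w Θ U e) (he : e = e') : frobY_hom_HD lam w Θ U e' := he ▸ h

omit [Fact p.Prime] [CharP k p] in
theorem mul (h : frobY_hom_HD lam w Θ U e) (h' : frobY_hom_HD lam w Θ V e') :
    frobY_hom_HD lam w Θ (U * V) (e + e') := by
  unfold frobY_hom_HD at *
  rw [map_mul', ← Matrix.mul_assoc, h, Matrix.smul_mul, Matrix.mul_assoc, h', Matrix.mul_smul,
    smul_smul, _root_.zpow_add, Units.val_mul, Matrix.mul_assoc]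

omit [Fact p.Prime] [CharP k p] in
theorem one : frobY_hom_HD lam w Θ 1 0 := by
  unfold frobY_hom_HD
  rw [Matrix.map_one _ (map_zero _) (map_one _), _root_.zpow_zero, Units.val_one, one_smul,
    Matrix.mul_one, Matrix.one_mul]

omit [Fact p.Prime] [CharP k p] in
theorem pow (h : frobY_hom_HD lam w Θ U e) (n : ℕ) : frobY_hom_HD lam w Θ (U ^ n) (n * e) := by
  induction n with
  | zero => simpa using one
  | succ n ih =>
    have := ih.mul h
    rw [pow_succ]
    convert this using 1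
    push_cast
    ring

omit [Fact p.Prime] [CharP k p] in
theorem add (h : frobY_hom_HD lam w Θ U e) (h' : frobY_hom_HD lam w Θ V e) :
    frobY_hom_HD lam w Θ (U + V) e := by
  unfold frobY_hom_HD at *
  rw [Matrix.map_add _ (map_add _), Matrix.mul_add, h, h', Matrix.add_mul, smul_add]

omit [Fact p.Prime] [CharP k p] in
theorem sub (h : frobY_hom_HD lam w Θ U e) (h' : frobY_hom_HD lam w Θ V e) :
    frobY_hom_HD lam w Θ (U - V) e := by
  unfold frobY_hom_HD at *
  rw [Matrix.map_sub _ (map_sub _), Matrix.mul_sub, h, h', Matrix.sub_mul, smul_sub]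

omit [Fact p.Prime] [CharP k p] in
theorem smulk (h : frobY_hom_HD lam w Θ U e) (a : k) : frobY_hom_HD lam w Θ (a • U) e := by
  unfold frobY_hom_HD at *
  rw [Matrix.map_smul _ _ (map_smul _ a), Matrix.mul_smul, h, Matrix.smul_mul, smul_comm]

omit [Fact p.Prime] [CharP k p] in
theorem smulK (h : frobY_hom_HD lam w Θ U e) {c : K k} {d : ℤ}
    (hc : θK lam w c = ((lam ^ d : kˣ) : k) • c) : frobY_hom_HD lam w Θ (c • U) (d + e) := by
  unfold frobY_hom_HD at *
  have : (c • U).map (θK lam w) = θK lam w c • U.map (θK lam w) := by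
    ext i j
    simp only [Matrix.map_apply, Matrix.smul_apply, smul_eq_mul, map_mul]
  rw [this, Matrix.mul_smul, h, hc, Matrix.smul_mul, smul_assoc, _root_.zpow_add, Units.val_mul,
    mul_smul, smul_comm c]

theorem frob (h : frobY_hom_HD lam w Θ U e) :
    frobY_hom_HD lam w (frM p Θ) (frM p U) (p * e) := by
  unfold frobY_hom_HD at *
  have h1 : (frM p U).map (θK lam w) = frM p (U.map (θK lam w)) := by
    ext i j
    simp only [frM, Matrix.map_apply, frobenius_def, map_pow]
  rw [h1]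
  unfold frM
  rw [← Matrix.map_mul, h, ← Matrix.map_mul]
  ext i j
  simp only [Matrix.map_apply, Matrix.smul_apply, frobenius_def, smul_pow]
  rw [mul_comm, _root_.zpow_mul, _root_.zpow_natCast, Units.val_pow_eq_pow_val]

end frobY_hom_HD

omit [Fact p.Prime] [CharP k p] in
theorem frobY_hom_scalar (w : ℕ) (c : k) (a : Li) (n : ℕ) :
    θK lam w ((algebraMap (A k) (K k) (C c * lin k a))⁻¹ ^ n) =
      ((lam ^ (-(n * w : ℤ)) : kˣ) : k) • (algebraMap (A k) (K k) (C c * lin k a))⁻¹ ^ n := by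
  have hX : ∀ i, θA lam w (X i) = C ((lam ^ w : kˣ) : k) * X i := fun i => by
    simp [θA]
  have hC : ∀ a : k, θA lam w (C a) = C a := fun a => (θA lam w).commutes a
  have h1 : θA lam w (C c * lin k a) = ((lam ^ w : kˣ) : k) • (C c * lin k a) := by
    simp only [lin, map_mul, map_add, hX, hC, smul_eq_C_mul]
    ring
  have h2 : algebraMap (A k) (K k) (((lam ^ w : kˣ) : k) • (C c * lin k a)) =
      ((lam ^ w : kˣ) : k) • algebraMap (A k) (K k) (C c * lin k a) :=
    (IsScalarTower.toAlgHom k (A k) (K k)).toLinearMap.map_smul _ _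
  rw [map_pow, map_inv₀, θK_algebraMap, h1, h2, smul_inv₀, smul_pow]
  congr 1
  rw [← Units.val_inv_eq_inv_val, ← Units.val_pow_eq_pow_val, _root_.zpow_neg, inv_pow, ← pow_mul,
    mul_comm w n, ← Nat.cast_mul, _root_.zpow_natCast]

theorem frobY_hom (hk : GoodChar k) (D : Adm P lam q ι) (g : Gen) :
    HomDeg lam (θW lam (4 * q) (frM p D.Θ)) (θW lam (4 * q) (frM p D.Θ))
      (fun v => frobY p P D.Y g *ᵥ v) (q * g.deg : ℕ) := by
  have hp2 : p ≠ 2 := by
    rintro rfl
    exact hk 2 (by norm_num) (by norm_num) (CharP.cast_eq_zero k 2)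
  have hodd : (p : ℤ) = 2 * (p / 2 : ℕ) + 1 := by
    have := (Fact.out : p.Prime).eq_two_or_odd.resolve_left hp2
    omega
  have hY : ∀ g, frobY_hom_HD lam (4 * q) (frM p D.Θ) (frM p (D.Y g)) (p * (q * g.deg : ℕ)) :=
    fun g => (frobY_hom_iff.1 (D.θY g)).frob p
  have hS : ∀ a, frobY_hom_HD lam (4 * q) (frM p D.Θ) (frobS p D.Y a) (2 * q) := by
    intro a
    have h1 := frobY_hom_scalar (lam := lam) (4 * q) 1 a (p / 2)
    rw [C_1, one_mul] at h1
    refine ((hY (.s a)).smulK h1).cast ?_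
    simp only [Gen.deg]
    push_cast at hodd ⊢
    linear_combination (2 * (q : ℤ)) * hodd
  rw [frobY_hom_iff]
  cases g with
  | s a =>
    refine (hS a).cast ?_
    simp only [Gen.deg]
    push_cast
    ring
  | u t =>
    have h2 := ((hY (.u t)).mul ((((hS t.a).smulk (P.al t)).sub ((hS t.b).smulk (P.be t))).pow
      (p / 2))).smulK (frobY_hom_scalar (lam := lam) (4 * q) (P.ga t ^ 2) t.c (p / 2))
    refine h2.cast ?_
    simp only [Gen.deg]
    push_cast at hodd ⊢
    linear_combination (q : ℤ) * hodd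
  | v t =>
    have h2 := ((hY (.v t)).mul ((((hS t.a).smulk (P.al t)).add ((hS t.b).smulk (P.be t))).pow
      (p / 2))).smulK (frobY_hom_scalar (lam := lam) (4 * q) (P.ga t ^ 2) t.c (p / 2))
    refine h2.cast ?_
    simp only [Gen.deg]
    push_cast at hodd ⊢
    linear_combination (q : ℤ) * hodd

omit [Fact p.Prime] [CharP k p] in
theorem exists_frob_θ (hl : InfOrd lam) (hq : 0 < q) (φ : R P →ₐ[A k] Matrix ι ι (K k))
    (Θ : Matrix ι ι (K k))
    (hY : ∀ g, HomDeg lam (θW lam (4 * q) Θ) (θW lam (4 * q) Θ) (fun v => φ (yR P g) *ᵥ v)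
      (q * g.deg : ℕ)) (r : R P) :
    ∀ v, θW lam (4 * q) Θ (φ r *ᵥ v) = φ (θR P lam q r) *ᵥ θW lam (4 * q) Θ v := by
  induction r using R_induction P with
  | h0 a =>
    intro v
    rw [θR_algebraMap, AlgHom.commutes, AlgHom.commutes, Algebra.algebraMap_eq_smul_one,
      Algebra.algebraMap_eq_smul_one, smul_mulVec, smul_mulVec, one_mulVec, one_mulVec]
    exact (gd_W hl (by omega) Θ).comm.smul a v
  | hadd r r' h1 h2 =>
    intro v
    rw [map_add, map_add, map_add, add_mulVec, add_mulVec, map_add, h1, h2]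
  | hmul g r h1 =>
    intro v
    have e : φ (((lam ^ (q * g.deg) : kˣ) : k) • yR P g) =
        ((lam ^ (q * g.deg) : kˣ) : k) • φ (yR P g) := φ.toLinearMap.map_smul_of_tower _ _
    rw [map_mul, map_mul, map_mul, ← mulVec_mulVec, ← mulVec_mulVec, hY g, h1, θR_y, e,
      smul_mulVec, _root_.zpow_natCast]

omit [Fact p.Prime] [CharP k p] in
theorem exists_frob_Γ (φ : R P →ₐ[A k] Matrix ι ι (K k)) (σ : Sym) (Γ : Matrix ι ι (K k))
    (h : ∀ g, Γ * φ (yR P g) = (C (cf P σ g) : A k) • (φ (yR P (pr σ g)) * Γ)) (r : R P) :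
    Γ * φ r = φ (sym P σ r) * Γ := by
  induction r using R_induction P with
  | h0 a =>
    rw [AlgEquiv.commutes, AlgHom.commutes]
    exact (Algebra.commutes a Γ).symm
  | hadd r r' h1 h2 => rw [map_add, map_add, map_add, Matrix.mul_add, Matrix.add_mul, h1, h2]
  | hmul g r h1 =>
    rw [map_mul, map_mul, map_mul, ← Matrix.mul_assoc, h, sym_y, map_smul, Matrix.smul_mul,
      Matrix.mul_assoc, h1, Matrix.smul_mul, Matrix.smul_mul, Matrix.mul_assoc]

theorem exists_frob (hk : GoodChar k) (hl : InfOrd lam) (hq : 0 < q) (D : Adm P lam q ι) :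
    ∃ D' : Adm P lam q ι, IsFrob p D D' := by
  have hrel := (frobY_rel p hk D.rel).1
  let φ := (exists_lift P matrix_tf (frobY p P D.Y) hrel).choose
  have hφ : ∀ g, φ (yR P g) = frobY p P D.Y g :=
    (exists_lift P matrix_tf (frobY p P D.Y) hrel).choose_spec
  let S : Set (ι → K k) := {x | ∃ (r : R P) (e : ι → K k), e ∈ D.E ∧ x = φ r *ᵥ frV p e}
  have hw : 0 < 4 * q := by omega
  have hstab : ∀ U : Matrix ι ι (K k), (∀ x ∈ S, U *ᵥ x ∈ S) →
      ∀ v ∈ Submodule.span (A k) S, U *ᵥ v ∈ Submodule.span (A k) S := by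
    intro U hU v hv
    induction hv using Submodule.span_induction with
    | mem x hx => exact Submodule.subset_span (hU x hx)
    | zero => rw [mulVec_zero]; exact Submodule.zero_mem _
    | add x y _ _ hx hy => rw [mulVec_add]; exact Submodule.add_mem _ hx hy
    | smul a x _ hx => rw [mulVec_smul]; exact Submodule.smul_mem _ _ hx
  have hθ := exists_frob_θ hl hq φ (frM p D.Θ) fun g => by
    rw [hφ]; exact frobY_hom p hk D g
  have hgs : GS lam (θW lam (4 * q) (frM p D.Θ)) (Submodule.span (A k) S) := by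
    obtain ⟨m, ρ, d, hρ, hρs⟩ := (R_gs P lam q).exists_gens
    obtain ⟨n, e, b, he, hes⟩ := D.gs.exists_gens
    have h1 := GS.span (gd_W hl hw (frM p D.Θ)) (fun x : Fin m × Fin n => φ (ρ x.1) *ᵥ frV p (e x.2))
      (fun x => d x.1 + p * b x.2) fun x => by
        have e1 : θR P lam q (ρ x.1) = ((lam ^ d x.1 : kˣ) : k) • ρ x.1 := mem_eig.1 (hρ x.1)
        have e2 : φ (((lam ^ d x.1 : kˣ) : k) • ρ x.1) = ((lam ^ d x.1 : kˣ) : k) • φ (ρ x.1) :=
          φ.toLinearMap.map_smul_of_tower _ _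
        rw [mem_eig, hθ, θW_frV, mem_eig.1 (he x.2), span_frV_smul, e1, e2, smul_mulVec,
          mulVec_smul, smul_smul, _root_.zpow_add, Units.val_mul, mul_comm (p : ℤ), _root_.zpow_mul,
          _root_.zpow_natCast, Units.val_pow_eq_pow_val]
    convert h1 using 1
    apply le_antisymm
    · rw [Submodule.span_le]
      rintro _ ⟨r, v, hv, rfl⟩
      rw [← hes] at hv
      induction hv using Submodule.span_induction with
      | mem x hx =>
        obtain ⟨j, rfl⟩ := hx
        have hr : r ∈ Submodule.span (A k) (Set.range ρ) := by rw [hρs]; trivial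
        induction hr using Submodule.span_induction with
        | mem y hy =>
          obtain ⟨i, rfl⟩ := hy
          exact Submodule.subset_span ⟨(i, j), rfl⟩
        | zero => rw [map_zero, zero_mulVec]; exact Submodule.zero_mem _
        | add x y _ _ hx hy => rw [map_add, add_mulVec]; exact Submodule.add_mem _ hx hy
        | smul a x _ hx => rw [map_smul, smul_mulVec]; exact Submodule.smul_mem _ _ hx
      | zero => rw [span_frV_zero, mulVec_zero]; exact Submodule.zero_mem _
      | add x y _ _ hx hy => rw [span_frV_add, mulVec_add]; exact Submodule.add_mem _ hx hy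
      | smul a x _ hx => rw [span_frV_smul, mulVec_smul]; exact Submodule.smul_mem _ _ hx
    · apply Submodule.span_mono
      rintro _ ⟨x, rfl⟩
      refine ⟨ρ x.1, e x.2, ?_, rfl⟩
      rw [← hes]
      exact Submodule.subset_span ⟨x.2, rfl⟩
  refine ⟨
    { Y := frobY p P D.Y
      Γ := fun σ => frM p (D.Γ σ)
      Θ := frM p D.Θ
      E := Submodule.span (A k) S
      rel := hrel
      Γunit := fun σ => (D.Γunit σ).map (RingHom.mapMatrix (frobenius (K k) p))
      ΓY := fun σ g => frobY_sym p hk σ (D.ΓY σ) g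
      θY := frobY_hom p hk D
      θΓ := fun σ => ?_
      gs := hgs
      span := ?_
      Ystab := fun g => hstab _ ?_
      Γstab := fun σ => hstab _ ?_ }, rfl, fun _ => rfl, rfl, rfl⟩
  · have := (frobY_hom_iff.1 (D.θΓ σ)).frob p
    rw [mul_zero] at this
    exact frobY_hom_iff.2 this
  · rw [eq_top_iff, ← span_frV p D.span]
    apply Submodule.span_mono
    rintro _ ⟨e, he, rfl⟩
    exact Submodule.subset_span ⟨1, e, he, by rw [map_one, one_mulVec]⟩
  · rintro _ ⟨r, e, he, rfl⟩
    exact ⟨yR P g * r, e, he, by rw [map_mul, hφ, mulVec_mulVec]⟩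
  · rintro _ ⟨r, e, he, rfl⟩
    refine ⟨sym P σ r, D.Γ σ *ᵥ e, D.Γstab σ e he, ?_⟩
    rw [frV_mulVec, mulVec_mulVec, mulVec_mulVec, exists_frob_Γ φ σ]
    intro g
    rw [hφ, hφ]
    exact frobY_sym p hk σ (D.ΓY σ) g

theorem IsFrob.act_pow (hk : GoodChar k) {D D' : Adm P lam q ι} (h : IsFrob p D D') (r : R P) :
    D'.act (r ^ p) = frM p (D.act r) := by
  have key := R_ringHom_ext P ((D'.act : R P →+* Matrix ι ι (K k)).comp (frobenius (R P) p))
    ((RingHom.mapMatrix (frobenius (K k) p)).comp (D.act : R P →+* Matrix ι ι (K k)))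
    (fun a => by
      change D'.act (algebraMap _ _ a ^ p) = frM p (D.act (algebraMap _ _ a))
      rw [← map_pow, AlgHom.commutes, AlgHom.commutes]
      ext i j
      simp only [frM, Matrix.map_apply, Matrix.algebraMap_matrix_apply, frobenius_def]
      split_ifs
      · rw [map_pow]
      · rw [zero_pow (Fact.out : p.Prime).ne_zero])
    (fun g => by
      change D'.act (yR P g ^ p) = frM p (D.act (yR P g))
      rw [map_pow, Adm.act_y, Adm.act_y, h.Y, (frobY_rel p hk D.rel).2])
  exact DFunLike.congr_fun key r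

/-! ### Subtask Frob-b (Frobenius twist of scalars) -/

/-- The same additive group, scalars acting through Frobenius. -/
def Tw (_p : ℕ) (V : Type) : Type := V

instance (V : Type) [AddCommGroup V] : AddCommGroup (Tw p V) := inferInstanceAs (AddCommGroup V)

instance twModule (S : Type) [CommRing S] [CharP S p] (V : Type) [AddCommGroup V] [Module S V] :
    Module S (Tw p V) := Module.compHom V (frobenius S p)

/-- The identity map. -/
def toTw {V : Type} (v : V) : Tw p V := v

/-- The identity map. -/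
def ofTw {V : Type} (v : Tw p V) : V := v

theorem ofTw_smul {S : Type} [CommRing S] [CharP S p] {V : Type} [AddCommGroup V] [Module S V]
    (c : S) (v : Tw p V) : ofTw p (c • v) = c ^ p • ofTw p v := rfl

instance twTower (S S' : Type) [CommRing S] [CharP S p] [CommRing S'] [CharP S' p] [Algebra S S']
    (V : Type) [AddCommGroup V] [Module S V] [Module S' V] [IsScalarTower S S' V] :
    IsScalarTower S S' (Tw p V) := by
  refine ⟨fun a b v => ?_⟩
  change ((a • b) ^ p • ofTw p v : V) = a ^ p • b ^ p • ofTw p v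
  rw [smul_pow, smul_assoc]

section Tw

variable {V : Type} [AddCommGroup V] [Module k V] [Module (A k) V] [IsScalarTower k (A k) V]

/-- The grading of the twist. -/
def θTw (θ : V →ₗ[k] V) : Tw p V →ₗ[k] Tw p V where
  toFun v := toTw p (θ (ofTw p v))
  map_add' _ _ := θ.map_add _ _
  map_smul' c v := θ.map_smul (c ^ p) (ofTw p v)

/-- A submodule seen in the twist. -/
def subTw (N : Submodule (A k) V) : Submodule (A k) (Tw p V) where
  carrier := {v | ofTw p v ∈ N}
  add_mem' ha hb := N.add_mem ha hb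
  zero_mem' := N.zero_mem
  smul_mem' c _ hv := N.smul_mem (c ^ p) hv

theorem hilb_Tw_eig (lam' : kˣ) (θ : V →ₗ[k] V) (n : ℤ) (v : Tw p V) :
    v ∈ eig lam' (θTw p θ) n ↔ ofTw p v ∈ eig (lam' ^ p) θ n := by
  rw [mem_eig, mem_eig]
  change (θ (ofTw p v) = ((lam' ^ n : kˣ) : k) ^ p • ofTw p v) ↔ _
  rw [← Units.val_pow_eq_pow_val, ← zpow_natCast, ← _root_.zpow_mul, mul_comm, _root_.zpow_mul, zpow_natCast]

theorem hilb_Tw_piece (lam' : kˣ) (θ : V →ₗ[k] V) (N : Submodule (A k) V) (n : ℤ) (v : Tw p V) :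
    v ∈ piece lam' (θTw p θ) (subTw p N) n ↔ ofTw p v ∈ piece (lam' ^ p) θ N n :=
  and_congr Iff.rfl (hilb_Tw_eig p lam' θ n v)

theorem hilb_Tw [IsAlgClosed k] (lam' : kˣ) (θ : V →ₗ[k] V) (N : Submodule (A k) V) :
    hilb lam' (θTw p θ) (subTw p N) = hilb (lam' ^ p) θ N := by
  funext n
  let j : piece lam' (θTw p θ) (subTw p N) n ≃+ piece (lam' ^ p) θ N n :=
    { toFun := fun v => ⟨ofTw p v.1, (hilb_Tw_piece p lam' θ N n _).1 v.2⟩
      invFun := fun v => ⟨toTw p v.1, (hilb_Tw_piece p lam' θ N n _).2 v.2⟩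
      left_inv := fun _ => rfl
      right_inv := fun _ => rfl
      map_add' := fun _ _ => rfl }
  have := rank_eq_of_equiv_equiv (frobenius k p) j (bijective_frobenius k p) fun _ _ => rfl
  simp only [hilb, Module.finrank, this]

omit [Fact p.Prime] [CharP k p] in
theorem gd_Tw_inf {lam' : kˣ} (h : InfOrd (lam' ^ p)) : InfOrd lam' := fun n hn =>
  h n (by rw [← zpow_natCast, ← _root_.zpow_mul, mul_comm, _root_.zpow_mul, hn, _root_.one_zpow])

theorem gd_Tw {lam' : kˣ} {w : ℕ} {θ : V →ₗ[k] V} (g : Gd (lam' ^ p) w θ) :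
    Gd lam' (p * w) (θTw p θ) := by
  refine ⟨gd_Tw_inf p g.inf, Nat.mul_pos (Fact.out : p.Prime).pos g.pos, fun i v => ?_⟩
  have key : ∀ (m : ℕ) (u : V), θ ((X i : A k) ^ m • u) =
      (((lam' ^ p) ^ w : kˣ) : k) ^ m • (X i : A k) ^ m • θ u := by
    intro m
    induction m with
    | zero => simp
    | succ m ih =>
      intro u
      rw [pow_succ', mul_smul, g.comm, ih, pow_succ', mul_smul, mul_smul,
        smul_comm (X i : A k) (_ : k)]
  change θ ((X i : A k) ^ p • ofTw p v) =
    ((lam' ^ (p * w) : kˣ) : k) ^ p • (X i : A k) ^ p • θ (ofTw p v)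
  rw [key, pow_mul]

theorem gs_Tw [IsAlgClosed k] {lam' : kˣ} {θ : V →ₗ[k] V} {N : Submodule (A k) V}
    (hN : GS (lam' ^ p) θ N) : GS lam' (θTw p θ) (subTw p N) := by
  have hp : 0 < p := (Fact.out : p.Prime).pos
  constructor
  · obtain ⟨S, hS, hSN⟩ := Submodule.fg_def.1 hN.fg
    let T : Set (Tw p V) := Set.image2 (fun (ν : Fin 3 → Fin p) (s : V) =>
      toTw p ((monomial (Finsupp.equivFunOnFinite.symm fun i => (ν i : ℕ)) (1 : k) : A k) • s))
      Set.univ S
    refine Submodule.fg_def.2 ⟨T, Set.finite_univ.image2 _ hS, le_antisymm ?_ ?_⟩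
    · rw [Submodule.span_le]
      rintro _ ⟨ν, -, s, hs, rfl⟩
      exact N.smul_mem _ (hSN ▸ Submodule.subset_span hs)
    · have key : ∀ v ∈ Submodule.span (A k) S, ∀ f : A k,
          toTw p (f • v) ∈ Submodule.span (A k) T := by
        intro v hv
        induction hv using Submodule.span_induction with
        | mem s hs =>
          intro f
          induction f using MvPolynomial.induction_on' with
          | monomial μ c =>
            obtain ⟨c', rfl⟩ := (bijective_frobenius k p).2 c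
            let ν : Fin 3 → Fin p := fun i => ⟨μ i % p, Nat.mod_lt _ hp⟩
            let μ' : Fin 3 →₀ ℕ := Finsupp.equivFunOnFinite.symm fun i => μ i / p
            have e : (monomial μ (frobenius k p c') : A k) = (monomial μ' c') ^ p *
                monomial (Finsupp.equivFunOnFinite.symm fun i => (ν i : ℕ)) (1 : k) := by
              rw [monomial_pow, monomial_mul, mul_one, frobenius_def]
              congr 2
              ext i
              simp [μ', ν, Nat.div_add_mod]
            rw [e, mul_smul]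
            exact Submodule.smul_mem (Submodule.span (A k) T) (monomial μ' c' : A k)
              (Submodule.subset_span ⟨ν, trivial, s, hs, rfl⟩)
          | add f g hf hg =>
            rw [add_smul]
            exact Submodule.add_mem (Submodule.span (A k) T) hf hg
        | zero => intro f; rw [smul_zero]; exact Submodule.zero_mem (Submodule.span (A k) T)
        | add u v _ _ hu hv =>
          intro f
          rw [smul_add]
          exact Submodule.add_mem (Submodule.span (A k) T) (hu f) (hv f)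
        | smul g v _ hv => intro f; rw [← mul_smul]; exact hv _
      intro v hv
      have := key (ofTw p v) (hSN ▸ hv) 1
      rwa [one_smul] at this
  · intro v hv
    have h := hN.diag (ofTw p v) hv
    refine Submodule.iSup_induction (motive := fun x : V => toTw p x ∈
      ⨆ n : ℤ, piece lam' (θTw p θ) (subTw p N) n) _ h (fun n x hx => ?_) ?_ fun x y hx hy => ?_
    · exact Submodule.mem_iSup_of_mem n ((hilb_Tw_piece p lam' θ N n _).2 hx)
    · exact Submodule.zero_mem (⨆ n : ℤ, piece lam' (θTw p θ) (subTw p N) n)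
    · exact Submodule.add_mem (⨆ n : ℤ, piece lam' (θTw p θ) (subTw p N) n) hx hy

theorem tau_Tw [IsAlgClosed k] {lam' : kˣ} {w : ℕ} {θ : V →ₗ[k] V} (g : Gd (lam' ^ p) w θ)
    {N : Submodule (A k) V} (hN : GS (lam' ^ p) θ N) :
    tauS lam' (p * w) (θTw p θ) (subTw p N) =
      (∑ j ∈ Finset.range p, ex ((j * w : ℕ) : ℤ)) ^ 3 * tauS (lam' ^ p) w θ N := by
  rw [tauS, hilb_Tw]
  exact (tauH_weight p (hN.isHF g)).2

omit [Fact p.Prime] [CharP k p] in
/-- The same grading with respect to a `p`-th root of the base. -/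
theorem tau_rebase (hp : 0 < p) {lam' : kˣ} {w : ℕ} {θ : V →ₗ[k] V} (g : Gd (lam' ^ p) w θ)
    {N : Submodule (A k) V} (hN : GS (lam' ^ p) θ N) :
    Gd lam' (p * w) θ ∧ GS lam' θ N ∧
      tauS lam' (p * w) θ N = T3.sc p (tauS (lam' ^ p) w θ N) := by
  have he : ∀ n : ℤ, eig lam' θ (p * n) = eig (lam' ^ p) θ n := fun n => by
    rw [eig, eig, _root_.zpow_mul, zpow_natCast]
  have hpc : ∀ n : ℤ, piece lam' θ N (p * n) = piece (lam' ^ p) θ N n := fun n => by
    rw [piece, piece, he]
  refine ⟨⟨gd_Tw_inf p g.inf, Nat.mul_pos hp g.pos, fun i v => ?_⟩, ⟨hN.fg, fun v hv => ?_⟩, ?_⟩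
  · rw [g.comm, pow_mul]
  · refine (iSup_le fun n => ?_ : _ ≤ ⨆ n : ℤ, piece lam' θ N n) (hN.diag v hv)
    rw [← hpc]
    exact le_iSup (fun n : ℤ => piece lam' θ N n) _
  · refine (tauH_scale hp (hN.isHF g) (fun n => ?_) fun n hn => ?_).2
    · rw [hilb, hilb, hpc]
    · have : piece lam' θ N n = ⊥ := by
        rw [eq_bot_iff]
        intro v hv
        refine (eig_independent (gd_Tw_inf p g.inf) θ n).le_bot ⟨hv.2, ?_⟩
        refine (iSup_le fun m => ?_ : _ ≤ ⨆ j, ⨆ (_ : j ≠ n), eig lam' θ j) (hN.diag v hv.1)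
        rw [← hpc]
        exact inf_le_right.trans (le_iSup₂_of_le (f := fun j (_ : j ≠ n) => eig lam' θ j)
          ((p : ℤ) * m) (fun e => hn ⟨m, e.symm⟩) le_rfl)
      rw [hilb, this, finrank_bot, Nat.cast_zero]

end Tw

omit [Fact p.Prime] [CharP k p] in
theorem θR_rebase_θA (lam' : kˣ) (q : ℕ) : θA lam' (4 * (p * q)) = θA (lam' ^ p) (4 * q) := by
  have e : lam' ^ (4 * (p * q)) = (lam' ^ p) ^ (4 * q) := by
    rw [← pow_mul]; congr 1; ring
  refine AlgEquiv.ext fun f => ?_
  change aeval (fun i => (C ((lam' ^ (4 * (p * q)) : kˣ) : k) * X i : A k)) f =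
    aeval (fun i => (C (((lam' ^ p) ^ (4 * q) : kˣ) : k) * X i : A k)) f
  rw [e]

omit [Fact p.Prime] [CharP k p] in
theorem θR_rebase (P : Par k) (lam' : kˣ) (q : ℕ) : θR P lam' (p * q) = θR P (lam' ^ p) q := by
  have := R_ringHom_ext P (θR P lam' (p * q) : R P →+* R P) (θR P (lam' ^ p) q : R P →+* R P)
    (fun a => by
      change θR P lam' (p * q) _ = θR P (lam' ^ p) q _
      rw [θR_algebraMap, θR_algebraMap, θR_rebase_θA])
    (fun g => by
      change θR P lam' (p * q) _ = θR P (lam' ^ p) q _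
      rw [θR_y, θR_y, ← pow_mul, mul_assoc])
  exact AlgEquiv.ext fun r => congrArg (fun φ : R P →+* R P => φ r) this

omit [Fact p.Prime] [CharP k p] in
theorem exists_rebase (hp : 0 < p) {lam' : kˣ} (hl : InfOrd (lam' ^ p)) (hq : 0 < q)
    (D : Adm P (lam' ^ p) q ι) :
    ∃ D' : Adm P lam' (p * q) ι, D'.Y = D.Y ∧ D'.Γ = D.Γ ∧ D'.Θ = D.Θ ∧ D'.E = D.E ∧
      D'.θ = D.θ := by
  have hθ : θW lam' (4 * (p * q)) D.Θ = θW (lam' ^ p) (4 * q) D.Θ := by
    have : θK lam' (4 * (p * q)) = θK (lam' ^ p) (4 * q) := by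
      rw [θK, θK, θR_rebase_θA]
    refine LinearMap.ext fun v => ?_
    change D.Θ.mulVec (fun i => θK lam' (4 * (p * q)) (v i)) =
      D.Θ.mulVec fun i => θK (lam' ^ p) (4 * q) (v i)
    rw [this]
  refine ⟨{ Y := D.Y
            Γ := D.Γ
            Θ := D.Θ
            E := D.E
            rel := D.rel
            Γunit := D.Γunit
            ΓY := D.ΓY
            θY := fun g v => ?_
            θΓ := fun σ v => ?_
            gs := ?_
            span := D.span
            Ystab := D.Ystab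
            Γstab := D.Γstab }, rfl, rfl, rfl, rfl, hθ⟩
  · rw [hθ, D.θY g v, zpow_natCast, zpow_natCast, ← pow_mul, mul_assoc]
  · rw [hθ, D.θΓ σ v, zpow_zero, zpow_zero]
  · rw [hθ]
    exact (tau_rebase p hp (gd_W hl (by omega) D.Θ) D.gs).2.1

/-! ### Subtask Frob-c (Riemann-Roch for the Frobenius pull-back) -/

section RRFrobAux
open TensorProduct

omit [Fintype ι] [DecidableEq ι] in
theorem rr_frob_frV_add (v v' : ι → K k) : frV p (v + v') = frV p v + frV p v' := by
  ext i; simp [frV, add_pow_char]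

omit [Fact (Nat.Prime p)] [CharP k p] [Fintype ι] [DecidableEq ι] in
theorem rr_frob_frV_smul (c : K k) (v : ι → K k) : frV p (c • v) = c ^ p • frV p v := by
  ext i; simp [frV, mul_pow]

/-- The comparison map, additive version. -/
noncomputable def rrPhi0 (hk : GoodChar k) {lam' : kˣ} {q' : ℕ} {D D' : Adm P lam q ι}
    (h : IsFrob p D D') (Ds : Adm P lam' q' ι) (hY : Ds.Y = D.Y) :
    Ds.M ⊗[R P] Tw p (R P) →+ Tw p (ι → K k) :=
  TensorProduct.liftAddHom
    { toFun := fun v =>
        { toFun := fun y => toTw p (D'.act (ofTw p y) *ᵥ frV p v.val)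
          map_zero' := by
            change D'.act 0 *ᵥ _ = 0
            rw [map_zero, zero_mulVec]
          map_add' := fun y y' => by
            change D'.act (ofTw p y + ofTw p y') *ᵥ _ = D'.act _ *ᵥ _ + D'.act _ *ᵥ _
            rw [map_add, add_mulVec] }
      map_zero' := by
        ext y
        change D'.act _ *ᵥ frV p 0 = 0
        have : frV p (0 : ι → K k) = 0 := by
          ext i; simp [frV, (Fact.out : p.Prime).ne_zero]
        rw [this, mulVec_zero]
      map_add' := fun v v' => by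
        ext y
        change D'.act _ *ᵥ frV p (v.val + v'.val) = D'.act _ *ᵥ _ + D'.act _ *ᵥ _
        rw [rr_frob_frV_add, mulVec_add] }
    (fun r v y => by
      change D'.act (ofTw p y) *ᵥ frV p (Ds.act r *ᵥ v.val) =
        D'.act (r ^ p * ofTw p y) *ᵥ frV p v.val
      have hact : Ds.act = D.act := R_hom_ext P _ _ fun g => by rw [Ds.act_y, D.act_y, hY]
      rw [hact, frV_mulVec, ← h.act_pow p hk, mulVec_mulVec, ← map_mul, mul_comm])

theorem rrPhi0_tmul (hk : GoodChar k) {lam' : kˣ} {q' : ℕ} {D D' : Adm P lam q ι}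
    (h : IsFrob p D D') (Ds : Adm P lam' q' ι) (hY : Ds.Y = D.Y) (v : Ds.M) (y : Tw p (R P)) :
    rrPhi0 p hk h Ds hY (v ⊗ₜ y) = toTw p (D'.act (ofTw p y) *ᵥ frV p v.val) := rfl

/-- The comparison map. -/
noncomputable def rrPhi (hk : GoodChar k) {lam' : kˣ} {q' : ℕ} {D D' : Adm P lam q ι}
    (h : IsFrob p D D') (Ds : Adm P lam' q' ι) (hY : Ds.Y = D.Y) :
    Ds.M ⊗[R P] Tw p (R P) →ₗ[A k] Tw p (ι → K k) where
  toFun := rrPhi0 p hk h Ds hY
  map_add' := map_add _
  map_smul' a z := by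
    induction z using TensorProduct.induction_on with
    | zero => simp
    | add z z' h1 h2 => rw [smul_add, map_add, map_add, h1, h2, smul_add]
    | tmul v y =>
      rw [smul_tmul', rrPhi0_tmul, rrPhi0_tmul]
      change D'.act (ofTw p y) *ᵥ frV p (a • v.val) = a ^ p • (D'.act (ofTw p y) *ᵥ frV p v.val)
      rw [← algebraMap_smul (K k) a, rr_frob_frV_smul, mulVec_smul, ← map_pow, algebraMap_smul]

theorem rrPhi_tmul (hk : GoodChar k) {lam' : kˣ} {q' : ℕ} {D D' : Adm P lam q ι}
    (h : IsFrob p D D') (Ds : Adm P lam' q' ι) (hY : Ds.Y = D.Y) (v : Ds.M) (y : Tw p (R P)) :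
    rrPhi p hk h Ds hY (v ⊗ₜ y) = toTw p (D'.act (ofTw p y) *ᵥ frV p v.val) := rfl

omit [Fact p.Prime] [CharP k p] in
theorem rr_toTw_add {V : Type} [AddCommGroup V] (v v' : V) :
    toTw p (v + v') = toTw p v + toTw p v' := rfl

omit [Fact p.Prime] [CharP k p] in
theorem rr_toTw_zero {V : Type} [AddCommGroup V] : toTw p (0 : V) = 0 := rfl

theorem rr_mem_subTw {V : Type} [AddCommGroup V] [Module (A k) V] (N : Submodule (A k) V) (v : V) :
    toTw p v ∈ subTw p N ↔ v ∈ N := Iff.rfl

theorem rrPhi_range_le (hk : GoodChar k) {lam' : kˣ} {q' : ℕ} {D D' : Adm P lam q ι}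
    (h : IsFrob p D D') (Ds : Adm P lam' q' ι) (hY : Ds.Y = D.Y) (hE : Ds.E = D.E)
    (z : Ds.M ⊗[R P] Tw p (R P)) : rrPhi p hk h Ds hY z ∈ subTw p D'.E := by
  induction z using TensorProduct.induction_on with
  | zero => rw [map_zero]; exact Submodule.zero_mem _
  | add z z' h1 h2 => rw [map_add]; exact Submodule.add_mem _ h1 h2
  | tmul v y =>
    rw [rrPhi_tmul, rr_mem_subTw, h.E]
    exact Submodule.subset_span ⟨_, _, by rw [← hE]; exact v.mem, rfl⟩

theorem rrPhi_range_ge (hk : GoodChar k) {lam' : kˣ} {q' : ℕ} {D D' : Adm P lam q ι}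
    (h : IsFrob p D D') (Ds : Adm P lam' q' ι) (hY : Ds.Y = D.Y) (hE : Ds.E = D.E)
    (x' : ι → K k) (hx' : x' ∈ Submodule.span (A k)
        {x | ∃ (r : R P) (e : ι → K k), e ∈ D.E ∧ x = D'.act r *ᵥ frV p e}) (r : R P) :
    ∃ z, rrPhi p hk h Ds hY z = toTw p (D'.act r *ᵥ x') := by
  induction hx' using Submodule.span_induction generalizing r with
  | mem x' hx' =>
    obtain ⟨r', e, he, rfl⟩ := hx'
    have he' : e ∈ Ds.E := by rw [hE]; exact he
    obtain ⟨v, hv⟩ : ∃ v : Ds.M, v.val = e := ⟨⟨e, he'⟩, rfl⟩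
    obtain ⟨y, hy⟩ : ∃ y : Tw p (R P), ofTw p y = r * r' := ⟨toTw p (r * r'), rfl⟩
    refine ⟨v ⊗ₜ y, ?_⟩
    rw [rrPhi_tmul, hv, hy, map_mul, mulVec_mulVec]
  | zero => exact ⟨0, by rw [mulVec_zero, map_zero, rr_toTw_zero]⟩
  | add a b _ _ ha hb =>
    obtain ⟨z, hz⟩ := ha r
    obtain ⟨z', hz'⟩ := hb r
    exact ⟨z + z', by rw [map_add, hz, hz', mulVec_add, rr_toTw_add]⟩
  | smul a b _ hb =>
    obtain ⟨z, hz⟩ := hb (a • r)
    exact ⟨z, by rw [hz, map_smul, smul_mulVec, mulVec_smul]⟩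

theorem rr_range_eq {V W : Type} [AddCommGroup V] [Module (A k) V] [AddCommGroup W]
    [Module (A k) W] (φ : W →ₗ[A k] Tw p V) (N : Submodule (A k) V)
    (h1 : ∀ z, φ z ∈ subTw p N) (h2 : ∀ x ∈ N, ∃ z, φ z = toTw p x) :
    Submodule.map φ ⊤ = subTw p N := by
  apply le_antisymm
  · rintro _ ⟨z, -, rfl⟩
    exact h1 z
  · intro x hx
    obtain ⟨z, hz⟩ := h2 (ofTw p x) hx
    exact ⟨z, trivial, hz⟩

theorem rrPhi_range (hk : GoodChar k) {lam' : kˣ} {q' : ℕ} {D D' : Adm P lam q ι}
    (h : IsFrob p D D') (Ds : Adm P lam' q' ι) (hY : Ds.Y = D.Y) (hE : Ds.E = D.E) :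
    Submodule.map (rrPhi p hk h Ds hY) ⊤ = subTw p D'.E := by
  refine rr_range_eq p _ _ (rrPhi_range_le p hk h Ds hY hE) fun x hx => ?_
  rw [h.E] at hx
  obtain ⟨z, hz⟩ := rrPhi_range_ge p hk h Ds hY hE _ hx 1
  rw [map_one, one_mulVec] at hz
  exact ⟨z, hz⟩

theorem rrPhi_hom (hk : GoodChar k) {lam' : kˣ} {q' : ℕ} {D D' : Adm P lam q ι}
    (h : IsFrob p D D') (Ds : Adm P lam' q' ι) (hY : Ds.Y = D.Y) (hθ : Ds.θ = D.θ)
    {θT : Ds.M ⊗[R P] Tw p (R P) →ₗ[k] Ds.M ⊗[R P] Tw p (R P)}
    (hT : IsTen Ds.θM (θTw p (θR P lam q).toLinearMap) θT) :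
    HomDeg lam' θT (θTw p D'.θ) (rrPhi p hk h Ds hY) 0 := by
  intro z
  simp only [zpow_zero, Units.val_one, one_smul]
  induction z using TensorProduct.induction_on with
  | zero => simp
  | add z z' h1 h2 => simp only [map_add, h1, h2]
  | tmul v y =>
    rw [hT, rrPhi_tmul, rrPhi_tmul]
    change D'.θ (D'.act (ofTw p y) *ᵥ frV p v.val) =
      D'.act (θR P lam q (ofTw p y)) *ᵥ frV p (Ds.θ v.val)
    rw [D'.θ_act, hθ, Adm.θ, h.Θ, θW_frV]

theorem rr_frob_subTw_top {V : Type} [AddCommGroup V] [Module (A k) V] :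
    subTw p (⊤ : Submodule (A k) V) = ⊤ := by
  ext v; exact Iff.rfl

theorem rr_frob_gm [IsAlgClosed k] (lam' : kˣ) :
    GM lam' (θR P lam' (p * q)) (θTw p (θR P (lam' ^ p) q).toLinearMap) := by
  refine ⟨fun r v => ?_, ?_⟩
  · rw [θR_rebase]
    change θR P (lam' ^ p) q (r ^ p * ofTw p v) =
      θR P (lam' ^ p) q r ^ p * θR P (lam' ^ p) q (ofTw p v)
    rw [map_mul, map_pow]
  · rw [← rr_frob_subTw_top]; exact gs_Tw p (R_gs P _ q)

omit [Fact p.Prime] [CharP k p] in
theorem c0_R_pos (P : Par k) (hl : InfOrd lam) (hq : 0 < q) :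
    0 < (tauS lam (4 * q) (θR P lam q).toLinearMap ⊤).c0 := by
  have gR := R_gd P hl hq
  have h1 : (1 : R P) ∈ eig lam (θR P lam q).toLinearMap 0 := by
    rw [mem_eig]; simp
  have hli : LinearIndependent (A k) (fun _ : Unit => (1 : R P)) := by
    rw [Fintype.linearIndependent_iff]
    intro g hg i
    by_contra h0
    have : g i • (1 : R P) = 0 := by simpa using hg
    exact one_ne_zero (R_tf P _ h0 _ this)
  have := tauS_pos gR (R_gs P _ q)
    (GS.span gR (fun _ : Unit => (1 : R P)) (fun _ => 0) fun _ => h1) le_top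
  rw [tauS_free gR _ (fun _ => 0) (fun _ => h1) hli] at this
  have h2 := this.1
  simp [ex] at h2
  linarith

theorem rr_frob_neg [IsAlgClosed k] {V : Type} [AddCommGroup V] [Module k V] [Module (A k) V]
    [Module (R P) V] [IsScalarTower k (A k) V] [IsScalarTower (A k) (R P) V]
    [IsScalarTower k (R P) V] (fl : FlatOff k (R P) V) (hl : InfOrd lam) (hq : 0 < q)
    {θT : V ⊗[R P] Tw p (R P) →ₗ[k] V ⊗[R P] Tw p (R P)} (gT : Gd lam (4 * q) θT)
    {N : Submodule (A k) (V ⊗[R P] Tw p (R P))} (hN : GS lam θT N)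
    (h0 : (tauS lam (4 * q) θT N).c0 = 0) : tauS lam (4 * q) θT N = 0 := by
  have htor := torsion_of_c0_eq gT hN (GS.bot _ _) bot_le (by rw [h0, tauS_bot, T3.zero_c0])
  have := tauS_eq_of_pt (N' := ⊥) (gr_R P hl hq) gT hN
    (by rw [Submodule.restrictScalars_bot]; exact GS.bot _ _)
    (by rw [Submodule.restrictScalars_bot]; exact bot_le) (fun z hz pp hpp => by
      obtain ⟨f, hf, hfz⟩ := htor z hz
      refine fl pp hpp (Tw p (R P)) (Tw p (R P))
        (LinearMap.lsmul (R P) (Tw p (R P)) (algebraMap (A k) (R P) f)) ?_ z ?_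
      · rw [injective_iff_map_eq_zero]
        intro y hy
        have hy' : (algebraMap (A k) (R P) f) ^ p * ofTw p y = 0 := hy
        rw [← map_pow, ← Algebra.smul_def] at hy'
        exact R_tf P _ (pow_ne_zero p hf) _ hy'
      · have : ∀ z : V ⊗[R P] Tw p (R P), LinearMap.lTensor V
            (LinearMap.lsmul (R P) (Tw p (R P)) (algebraMap (A k) (R P) f)) z = f • z := by
          intro z
          induction z using TensorProduct.induction_on with
          | zero => simp
          | add z z' h1 h2 => rw [map_add, h1, h2, smul_add]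
          | tmul v y =>
            rw [LinearMap.lTensor_tmul, LinearMap.lsmul_apply, ← smul_tmul, smul_tmul',
              algebraMap_smul]
        rw [this]; simpa using hfz)
  rw [this, Submodule.restrictScalars_bot, tauS_bot]

theorem rr_frob_alg {σ a e e' t z : T3} {p : ℚ} (hp : 0 < p) (hσ : σ.c0 = p ^ 3) (ha : 0 < a.c0)
    (he : e.c0 = e'.c0) (rr : T3.sc p a * t = T3.sc p e * (σ * a)) (tm : σ * e' = t - z)
    (hz : z.c0 = 0 → z = 0) : T3.sc p a * e' = T3.sc p e * a := by
  have e1 := congrArg T3.c0 rr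
  have e2 := congrArg T3.c0 tm
  simp only [T3.mul_c0, T3.sub_c0, T3.sc, hσ] at e1 e2
  have h1 : t.c0 = p ^ 3 * e.c0 := by
    apply mul_left_cancel₀ ha.ne'
    rw [e1]; ring
  rw [hz (by rw [← he] at e2; linarith), sub_zero] at tm
  rw [← tm] at rr
  refine T3.mul_left_cancel_of_c0 (a := σ) (by rw [hσ]; positivity) ?_
  linear_combination rr

theorem rr_frob_aux [IsAlgClosed k] (hk : GoodChar k) {lam' : kˣ} (hl : InfOrd (lam' ^ p))
    (hq : 0 < q) {D D' : Adm P (lam' ^ p) q ι} (h : IsFrob p D D') (hr : hull D.E ≤ D.E)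
    (flR : FlatOff k (A k) (R P)) :
    T3.sc p (tauS (lam' ^ p) (4 * q) (θR P (lam' ^ p) q).toLinearMap ⊤) * D'.tau D'.E =
      T3.sc p (D.tau D.E) * tauS (lam' ^ p) (4 * q) (θR P (lam' ^ p) q).toLinearMap ⊤ := by
  have hp : 0 < p := (Fact.out : p.Prime).pos
  obtain ⟨Ds, hY, -, -, hE, hθ⟩ := exists_rebase p hp hl hq D
  have hw : 4 * (p * q) = p * (4 * q) := by ring
  have gW : Gd (lam' ^ p) (4 * q) D.θ := gd_W hl (by positivity) _
  have gW' : Gd (lam' ^ p) (4 * q) D'.θ := gd_W hl (by positivity) _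
  have gR := R_gd P hl hq
  obtain ⟨gR', -, tR⟩ := tau_rebase p hp gR (R_gs P (lam' ^ p) q)
  obtain ⟨-, -, tE⟩ := tau_rebase p hp gW D.gs
  have hl' : InfOrd lam' := gR'.inf
  have hpq : 0 < p * q := by positivity
  have hG := rr_frob_gm (P := P) (q := q) p lam'
  have hrs : hull Ds.E ≤ Ds.E := by rw [hE]; exact hr
  obtain ⟨θT, hT⟩ := exists_isTen Ds.gm hG
  have rr := rr_R hl' hpq Ds.gm (Ds.hasSym hl' hpq) (Ds.flatOff_R hk hrs) (Ds.flatOff_A hrs) flR
    hG hT
  have gmT := hT.gm (gr_R P hl' hpq) Ds.gm hG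
  have gT := gmT.gd (gr_R P hl' hpq)
  have hσ0 : ((∑ j ∈ Finset.range p, ex ((j * (4 * q) : ℕ) : ℤ)) ^ 3).c0 = (p : ℚ) ^ 3 := by
    have : (∑ j ∈ Finset.range p, ex ((j * (4 * q) : ℕ) : ℤ)).c0 = p := by
      rw [T3.sum_c0]; simp [ex]
    rw [pow_succ, pow_two, T3.mul_c0, T3.mul_c0, this]; ring
  have t1 : tauS lam' (4 * (p * q)) (θR P lam' (p * q)).toLinearMap ⊤ =
      T3.sc p (tauS (lam' ^ p) (4 * q) (θR P (lam' ^ p) q).toLinearMap ⊤) := by
    rw [hw, θR_rebase, tR]
  have t2 : tauS lam' (4 * (p * q)) Ds.θM ⊤ = T3.sc p (D.tau D.E) := by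
    rw [tauS, Ds.hilb_M, hθ, hE, hw]; exact tE
  have t3 := tau_Tw p gR (R_gs P _ q)
  rw [rr_frob_subTw_top, ← hw] at t3
  have t4 := tau_Tw p gW' D'.gs
  rw [← hw] at t4
  have hom := rrPhi_hom p hk h Ds hY hθ hT
  have tm := tauS_map gT gmT.gs (rrPhi p hk h Ds hY) hom
  rw [rrPhi_range p hk h Ds hY hE, t4, ex_zero, one_mul] at tm
  rw [t1, t2, t3] at rr
  have hker : GS lam' θT (⊤ ⊓ LinearMap.ker (rrPhi p hk h Ds hY)) := by
    refine gmT.gs.inf hl' fun v hv => ?_
    have := hom v
    rw [LinearMap.mem_ker] at hv ⊢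
    rw [hv, map_zero] at this
    simpa using this.symm
  exact rr_frob_alg (by exact_mod_cast hp) hσ0 (c0_R_pos P hl hq)
    ((D.c0_eq hl hq).trans (D'.c0_eq hl hq).symm) rr tm
    (rr_frob_neg p (Ds.flatOff_R hk hrs) hl' hpq gT hker)

end RRFrobAux

theorem rr_frob [IsAlgClosed k] (hk : GoodChar k) (hl : InfOrd lam) (hq : 0 < q)
    {D D' : Adm P lam q ι} (h : IsFrob p D D') (hr : hull D.E ≤ D.E)
    (flR : FlatOff k (A k) (R P)) :
    T3.sc p (tauS lam (4 * q) (θR P lam q).toLinearMap ⊤) * D'.tau D'.E =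
      T3.sc p (D.tau D.E) * tauS lam (4 * q) (θR P lam q).toLinearMap ⊤ := by
  obtain ⟨x, hx⟩ := IsAlgClosed.exists_pow_nat_eq (lam : k) (Fact.out : p.Prime).pos
  have hx0 : x ≠ 0 := by
    rintro rfl
    rw [zero_pow (Fact.out : p.Prime).ne_zero] at hx
    exact lam.ne_zero hx.symm
  obtain ⟨lam', rfl⟩ : ∃ lam' : kˣ, lam = lam' ^ p :=
    ⟨Units.mk0 x hx0, Units.ext (by rw [Units.val_pow_eq_pow_val, Units.val_mk0, hx])⟩
  exact rr_frob_aux p hk hl hq h hr flR

end Crest.Agent.R169
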