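import Crest.Agent.R169.HF

/-!
# Row 169: graded submodules and their classes
-/

set_option autoImplicit false

namespace Crest.Agent.R169

open MvPolynomial

variable {k : Type} [Field k] {lam : kˣ} {w : ℕ}
variable {V : Type} [AddCommGroup V] [Module k V] [Module (A k) V] [IsScalarTower k (A k) V]
variable {V' : Type} [AddCommGroup V'] [Module k V'] [Module (A k) V'] [IsScalarTower k (A k) V']
variable {θ : V →ₗ[k] V} {θ' : V' →ₗ[k] V'}

/-- `φ` raises degrees by `e`. -/
def HomDeg (lam : kˣ) (θ : V →ₗ[k] V) (θ' : V' →ₗ[k] V') (φ : V → V') (e : ℤ) : Prop :=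
  ∀ v, θ' (φ v) = ((lam ^ e : kˣ) : k) • φ (θ v)

/-- The grading induced on a quotient. -/
noncomputable def θQ (θ : V →ₗ[k] V) (N : Submodule (A k) V) (h : ∀ v ∈ N, θ v ∈ N) :
    (V ⧸ N) →ₗ[k] (V ⧸ N) where
  toFun := QuotientAddGroup.map N.toAddSubgroup N.toAddSubgroup θ.toAddMonoidHom h
  map_add' := map_add _
  map_smul' c x := by
    induction x using Submodule.Quotient.induction_on with
    | H x =>
      change Submodule.Quotient.mk (θ (c • x)) = c • Submodule.Quotient.mk (θ x)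
      rw [map_smul, Submodule.Quotient.mk_smul]

theorem θQ_mk (θ : V →ₗ[k] V) (N : Submodule (A k) V) (h : ∀ v ∈ N, θ v ∈ N) (v : V) :
    θQ θ N h (N.mkQ v) = N.mkQ (θ v) := rfl

/-- The grading induced on a submodule. -/
noncomputable def θS (θ : V →ₗ[k] V) (N : Submodule (A k) V) (h : ∀ v ∈ N, θ v ∈ N) :
    N →ₗ[k] N where
  toFun v := ⟨θ v, h v v.2⟩
  map_add' v v' := by ext; simp
  map_smul' c v := by ext; simp

/-! ### Subtask Grad-a (linear algebra of eigenspaces, the ring `A`) -/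

theorem InfOrd.infinite_inj (hl : InfOrd lam) :
    Function.Injective fun n : ℤ => ((lam ^ n : kˣ) : k) := by
  intro a b hab
  have h1 : lam ^ a = lam ^ b := Units.ext hab
  have h2 : lam ^ (a - b) = 1 := by rw [zpow_sub, h1, mul_inv_cancel]
  exact sub_eq_zero.1 (hl _ h2)

theorem InfOrd.infinite (hl : InfOrd lam) : Infinite k :=
  Infinite.of_injective _ hl.infinite_inj

theorem eig_independent (hl : InfOrd lam) (θ : V →ₗ[k] V) : iSupIndep (eig lam θ) :=
  (Module.End.eigenspaces_iSupIndep θ).comp hl.infinite_inj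

/-- A sum of homogeneous vectors lying in a `θ`-stable subspace has all components in it. -/
theorem component_mem (hl : InfOrd lam) (U : Submodule k V) (hU : ∀ v ∈ U, θ v ∈ U)
    (s : Finset ℤ) (c : ℤ → V) (hc : ∀ n ∈ s, c n ∈ eig lam θ n) (h : ∑ n ∈ s, c n ∈ U) :
    ∀ n ∈ s, c n ∈ U := by
  classical
  induction s using Finset.induction_on generalizing c with
  | empty => intro n hn; simp at hn
  | insert a s ha ih =>
    have h1 : ∑ n ∈ s, (((lam ^ n : kˣ) : k) - ((lam ^ a : kˣ) : k)) • c n ∈ U := by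
      have h2 := U.sub_mem (hU _ h) (U.smul_mem ((lam ^ a : kˣ) : k) h)
      rw [Finset.sum_insert ha, map_add, map_sum, smul_add, Finset.smul_sum,
        mem_eig.1 (hc a (Finset.mem_insert_self _ _)), add_sub_add_left_eq_sub,
        ← Finset.sum_sub_distrib] at h2
      convert h2 using 1
      refine Finset.sum_congr rfl fun n hn => ?_
      rw [sub_smul, mem_eig.1 (hc n (Finset.mem_insert_of_mem hn))]
    have h3 : ∀ n ∈ s, c n ∈ U := by
      intro n hn
      have h4 := ih _ (fun n hn => Submodule.smul_mem _ _ (hc n (Finset.mem_insert_of_mem hn)))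
        h1 n hn
      have hne : ((lam ^ n : kˣ) : k) - ((lam ^ a : kˣ) : k) ≠ 0 := by
        rw [sub_ne_zero]
        intro he
        have : n = a := hl.infinite_inj he
        exact ha (this ▸ hn)
      exact (U.smul_mem_iff hne).1 h4
    intro n hn
    rcases Finset.mem_insert.1 hn with rfl | hn
    · rw [Finset.sum_insert ha] at h
      have := U.sub_mem h (U.sum_mem h3)
      rwa [add_sub_cancel_right] at this
    · exact h3 n hn

theorem GS.exists_sum {N : Submodule (A k) V} (hN : GS lam θ N) {v : V} (hv : v ∈ N) :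
    ∃ (s : Finset ℤ) (c : ℤ → V), (∀ n, c n ∈ piece lam θ N n) ∧ v = ∑ n ∈ s, c n := by
  obtain ⟨f, hf, hs⟩ := (Submodule.mem_iSup_iff_exists_finsupp _ _).1 (hN.diag v hv)
  exact ⟨f.support, f, hf, hs.symm⟩

theorem GS.stable {N : Submodule (A k) V} (hN : GS lam θ N) : ∀ v ∈ N, θ v ∈ N := by
  intro v hv
  obtain ⟨s, c, hc, rfl⟩ := hN.exists_sum hv
  rw [map_sum]
  refine N.sum_mem fun n _ => ?_
  obtain ⟨h1, h2⟩ := Submodule.mem_inf.1 (hc n)
  rw [mem_eig.1 h2]
  exact N.smul_of_tower_mem _ h1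

theorem Comm.smul_θA_X (lam : kˣ) (w : ℕ) (i : Fin 3) :
    θA lam w (X i) = C ((lam ^ w : kˣ) : k) * X i := by
  simp [θA]

theorem Comm.smul_θA_C (lam : kˣ) (w : ℕ) (a : k) : θA lam w (C a) = C a :=
  (θA lam w).commutes a

theorem Comm.smul_C (a : k) (v : V) : (C a : A k) • v = a • v := algebraMap_smul (A k) a v

theorem Comm.smul (h : Comm lam w θ) (f : A k) (v : V) : θ (f • v) = θA lam w f • θ v := by
  induction f using MvPolynomial.induction_on generalizing v with
  | C a => rw [Comm.smul_θA_C, Comm.smul_C, Comm.smul_C, map_smul]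
  | add p q hp hq => rw [add_smul, map_add, hp, hq, map_add, add_smul]
  | mul_X p i hp =>
    rw [mul_smul, hp, h i v, map_mul, Comm.smul_θA_X, mul_smul, mul_smul, Comm.smul_C]

theorem θK_algebraMap (lam : kˣ) (w : ℕ) (f : A k) :
    θK lam w (algebraMap (A k) (K k) f) = algebraMap (A k) (K k) (θA lam w f) :=
  IsFractionRing.algEquivOfAlgEquiv_algebraMap _ f

theorem mem_eigA_iff_monomial (lam : kˣ) (w : ℕ) (μ : Fin 3 →₀ ℕ) (a : k) :
    θA lam w (monomial μ a) =
      ((lam ^ ((w : ℤ) * (μ.degree : ℤ)) : kˣ) : k) • monomial μ a := by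
  rw [monomial_eq, map_mul, Comm.smul_θA_C, Finsupp.prod, map_prod]
  simp only [map_pow, Comm.smul_θA_X, mul_pow]
  rw [Finset.prod_mul_distrib, Finset.prod_pow_eq_pow_sum, ← Finsupp.degree_apply, smul_eq_C_mul,
    zpow_mul, zpow_natCast, zpow_natCast, Units.val_pow_eq_pow_val (lam ^ w), map_pow]
  ring

theorem mem_eigA_iff_coeff (lam : kˣ) (w : ℕ) (f : A k) (μ : Fin 3 →₀ ℕ) :
    coeff μ (θA lam w f) = ((lam ^ ((w : ℤ) * (μ.degree : ℤ)) : kˣ) : k) * coeff μ f := by
  classical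
  induction f using MvPolynomial.induction_on' with
  | monomial ν a =>
    rw [mem_eigA_iff_monomial, coeff_smul, coeff_monomial, smul_eq_mul]
    split_ifs with h
    · rw [h]
    · rw [mul_zero, mul_zero]
  | add p q hp hq => rw [map_add, coeff_add, hp, hq, coeff_add, mul_add]

theorem mem_eigA_iff_of_homZ {f : A k} {d : ℤ} (hf : HomZ w f d) :
    θA lam w f = ((lam ^ d : kˣ) : k) • f := by
  ext μ
  rw [mem_eigA_iff_coeff, coeff_smul, smul_eq_mul]
  by_cases h : coeff μ f = 0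
  · rw [h, mul_zero, mul_zero]
  · rw [hf μ h]

theorem mem_eigA_iff (hl : InfOrd lam) (f : A k) (d : ℤ) :
    f ∈ eig lam (θA lam w).toLinearMap d ↔ HomZ w f d := by
  rw [mem_eig]
  refine ⟨fun h μ hμ => ?_, fun h => mem_eigA_iff_of_homZ h⟩
  have h1 := congrArg (coeff μ) h
  rw [AlgEquiv.toLinearMap_apply, mem_eigA_iff_coeff, coeff_smul, smul_eq_mul] at h1
  exact hl.infinite_inj (mul_right_cancel₀ hμ h1)

theorem homZ_of_isHomogeneous {Λ : Type} [CommRing Λ] (w : ℕ) {f : A Λ} {j : ℕ}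
    (hf : f.IsHomogeneous j) : HomZ w f ((w : ℤ) * j) := by
  intro μ hμ
  have : μ.degree = j := by
    by_contra h
    exact hμ (hf.coeff_eq_zero h)
  rw [this]

theorem HomZ.exists_isHomogeneous (hw : 0 < w) {f : A k} {d : ℤ} (hf : HomZ w f d) (h0 : f ≠ 0) :
    ∃ j : ℕ, d = (w : ℤ) * j ∧ f.IsHomogeneous j := by
  obtain ⟨μ0, h0⟩ := exists_coeff_ne_zero h0
  refine ⟨μ0.degree, (hf μ0 h0).symm, fun μ hμ => ?_⟩
  have h1 := (hf μ hμ).trans (hf μ0 h0).symm
  have hw' : (w : ℤ) ≠ 0 := by exact_mod_cast hw.ne'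
  rw [mul_right_inj' hw', Nat.cast_inj] at h1
  rw [← h1, Finsupp.degree_eq_weight_one]
  rfl

theorem Comm.smul_mem_eig (h : Comm lam w θ) {f : A k} {d n : ℤ} (hf : HomZ w f d) {v : V}
    (hv : v ∈ eig lam θ n) : f • v ∈ eig lam θ (d + n) := by
  rw [mem_eig] at hv ⊢
  rw [h.smul, hv, mem_eigA_iff_of_homZ hf, smul_assoc, smul_comm f, smul_smul, zpow_add,
    Units.val_mul]

theorem gd_A (hl : InfOrd lam) (hw : 0 < w) : Gd lam w (θA lam w).toLinearMap := by
  refine ⟨hl, hw, fun i v => ?_⟩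
  simp only [AlgEquiv.toLinearMap_apply, smul_eq_mul, map_mul, Comm.smul_θA_X]
  rw [smul_eq_C_mul, mul_assoc]

theorem gs_A (lam : kˣ) (w : ℕ) : GS lam (θA lam w).toLinearMap (⊤ : Submodule (A k) (A k)) := by
  refine ⟨Module.Finite.fg_top, fun v _ => ?_⟩
  rw [as_sum v]
  refine Submodule.sum_mem _ fun μ _ => ?_
  refine Submodule.mem_iSup_of_mem ((w : ℤ) * (μ.degree : ℤ)) ?_
  refine Submodule.mem_inf.2 ⟨Submodule.mem_top, mem_eig.2 ?_⟩
  exact mem_eigA_iff_monomial lam w μ _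

theorem hilb_A_finrank (j : ℕ) :
    Module.finrank k (homogeneousSubmodule (Fin 3) k j) = (j + 2).choose 2 := by
  classical
  have h1 : homogeneousSubmodule (Fin 3) k j = restrictSupport k
      (((Finset.univ : Finset (Fin 3)).finsuppAntidiag j : Finset (Fin 3 →₀ ℕ)) :
        Set (Fin 3 →₀ ℕ)) := by
    rw [homogeneousSubmodule_eq_finsupp_supported, restrictSupport]
    congr 1
    ext d
    simp [Finsupp.degree_eq_sum]
  rw [h1, Module.finrank_eq_card_basis (basisRestrictSupport k _)]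
  simp only [Finset.coe_sort_coe, Fintype.card_coe]
  rw [Finset.card_finsuppAntidiag_nat_eq_choose, Finset.card_univ, Fintype.card_fin]
  have : 3 + j - 1 = j + 2 := by omega
  rw [this, Nat.choose_symm_add]

theorem hilb_A (hl : InfOrd lam) (hw : 0 < w) :
    hilb lam (θA lam w).toLinearMap (⊤ : Submodule (A k) (A k)) = hA w := by
  ext n
  have hw' : (w : ℤ) ≠ 0 := by exact_mod_cast hw.ne'
  unfold hilb hA
  split_ifs with h
  · obtain ⟨⟨m, rfl⟩, h2⟩ := h
    have hm : 0 ≤ m := by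
      have : (0 : ℤ) < w := by exact_mod_cast hw
      exact nonneg_of_mul_nonneg_right h2 this |> fun h => by nlinarith
    obtain ⟨j, rfl⟩ := Int.eq_ofNat_of_zero_le hm
    have h1 : piece lam (θA lam w).toLinearMap (⊤ : Submodule (A k) (A k)) ((w : ℤ) * j) =
        homogeneousSubmodule (Fin 3) k j := by
      ext f
      rw [piece, Submodule.mem_inf, mem_eigA_iff hl, mem_homogeneousSubmodule]
      refine ⟨fun hf => ?_, fun hf => ⟨Submodule.mem_top, homZ_of_isHomogeneous w hf⟩⟩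
      by_cases h0 : f = 0
      · rw [h0]; exact isHomogeneous_zero _ _ _
      · obtain ⟨i, hi, hf'⟩ := hf.2.exists_isHomogeneous hw h0
        rw [mul_right_inj' hw', Nat.cast_inj] at hi
        rwa [hi]
    rw [h1, hilb_A_finrank, Int.mul_ediv_cancel_left _ hw', Nat.cast_choose_two]
    push_cast
    ring
  · have h1 : piece lam (θA lam w).toLinearMap (⊤ : Submodule (A k) (A k)) n = ⊥ := by
      rw [eq_bot_iff]
      intro f hf
      rw [piece, Submodule.mem_inf, mem_eigA_iff hl] at hf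
      rw [Submodule.mem_bot]
      by_contra h0
      obtain ⟨i, hi, -⟩ := hf.2.exists_isHomogeneous hw h0
      exact h ⟨⟨i, hi⟩, by rw [hi]; positivity⟩
    rw [h1, finrank_bot, Nat.cast_zero]

theorem gd_F {ι : Type} (hl : InfOrd lam) (hw : 0 < w) (b : ι → ℤ) : Gd lam w (θF lam w b) := by
  refine ⟨hl, hw, fun i v => ?_⟩
  ext1 j
  change ((lam ^ b j : kˣ) : k) • θA lam w (X i * v j) =
    ((lam ^ w : kˣ) : k) • (X i * (((lam ^ b j : kˣ) : k) • θA lam w (v j)))
  rw [map_mul, Comm.smul_θA_X]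
  simp only [smul_eq_C_mul]
  ring

theorem gd_W_smul {ι : Type} [Fintype ι] (lam : kˣ) (w : ℕ) (Θ : Matrix ι ι (K k)) (c : K k)
    (v : ι → K k) : θW lam w Θ (c • v) = θK lam w c • θW lam w Θ v := by
  change Θ.mulVec (fun i => θK lam w ((c • v) i)) =
    θK lam w c • Θ.mulVec (fun i => θK lam w (v i))
  rw [← Matrix.mulVec_smul]
  congr 1
  ext1 i
  simp

theorem gd_W {ι : Type} [Fintype ι] (hl : InfOrd lam) (hw : 0 < w) (Θ : Matrix ι ι (K k)) :
    Gd lam w (θW lam w Θ) := by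
  refine ⟨hl, hw, fun i v => ?_⟩
  rw [← algebraMap_smul (K k) (X i : A k) v, gd_W_smul, θK_algebraMap, algebraMap_smul,
    Comm.smul_θA_X, mul_smul, Comm.smul_C]

theorem θW_smul {ι : Type} [Fintype ι] (lam : kˣ) (w : ℕ) (Θ : Matrix ι ι (K k)) (c : K k)
    (v : ι → K k) : θW lam w Θ (c • v) = θK lam w c • θW lam w Θ v :=
  gd_W_smul lam w Θ c v

theorem mem_eigF_iff {ι : Type} (hl : InfOrd lam) (b : ι → ℤ) (v : ι → A k) (n : ℤ) :
    v ∈ eig lam (θF lam w b) n ↔ ∀ i, HomZ w (v i) (n - b i) := by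
  rw [mem_eig, funext_iff]
  refine forall_congr' fun i => ?_
  rw [← mem_eigA_iff hl, mem_eig, AlgEquiv.toLinearMap_apply]
  change ((lam ^ b i : kˣ) : k) • θA lam w (v i) = ((lam ^ n : kˣ) : k) • v i ↔ _
  have hn : ((lam ^ n : kˣ) : k) = ((lam ^ b i : kˣ) : k) * ((lam ^ (n - b i) : kˣ) : k) := by
    rw [← Units.val_mul, ← zpow_add, add_sub_cancel]
  rw [hn, mul_smul]
  exact smul_right_injective (A k) (Units.ne_zero (lam ^ b i)) |>.eq_iff

theorem Gd.quot (g : Gd lam w θ) (N : Submodule (A k) V) (h : ∀ v ∈ N, θ v ∈ N) :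
    Gd lam w (θQ θ N h) := by
  refine ⟨g.inf, g.pos, fun i v => ?_⟩
  obtain ⟨v, rfl⟩ := N.mkQ_surjective v
  rw [← map_smul, θQ_mk, θQ_mk, g.comm i v, LinearMap.map_smul_of_tower, map_smul]

theorem Gd.sub (g : Gd lam w θ) (N : Submodule (A k) V) (h : ∀ v ∈ N, θ v ∈ N) :
    Gd lam w (θS θ N h) := by
  refine ⟨g.inf, g.pos, fun i v => ?_⟩
  apply Subtype.ext
  exact g.comm i v

theorem isHomogeneous_of_dvd_coeff (f : A k) (j : ℕ) :
    (aeval (fun i : Fin 3 => Polynomial.C (X i : A k) * Polynomial.X) f :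
      Polynomial (A k)).coeff j = homogeneousComponent j f := by
  classical
  induction f using MvPolynomial.induction_on' with
  | monomial ν a =>
    have h1 : (aeval (fun i : Fin 3 => Polynomial.C (X i : A k) * Polynomial.X) (monomial ν a) :
        Polynomial (A k)) = Polynomial.C (monomial ν a) * Polynomial.X ^ ν.degree := by
      rw [aeval_monomial, monomial_eq, Finsupp.prod, Finsupp.prod]
      simp only [mul_pow]
      rw [Finset.prod_mul_distrib, Finset.prod_pow_eq_pow_sum, ← Finsupp.degree_apply, map_mul,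
        map_prod, mul_assoc]
      simp only [map_pow]
      rfl
    rw [h1, Polynomial.coeff_C_mul_X_pow,
      homogeneousComponent_of_mem (isHomogeneous_monomial a rfl)]
  | add p q hp hq => rw [map_add, Polynomial.coeff_add, hp, hq, map_add]

/-- A divisor of a nonzero homogeneous polynomial is homogeneous. -/
theorem isHomogeneous_of_dvd {f g : A k} {j : ℕ} (hg : g.IsHomogeneous j) (h0 : g ≠ 0)
    (h : f ∣ g) : ∃ i : ℕ, f.IsHomogeneous i := by
  classical
  obtain ⟨q, rfl⟩ := h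
  set Φ : A k →ₐ[k] Polynomial (A k) :=
    aeval (fun i : Fin 3 => Polynomial.C (X i : A k) * Polynomial.X) with hΦ
  have hc : ∀ (p : A k) (i : ℕ), (Φ p).coeff i = homogeneousComponent i p :=
    isHomogeneous_of_dvd_coeff
  have h1 : Φ f * Φ q = Polynomial.monomial j (f * q) := by
    rw [← map_mul]
    ext1 i
    rw [hc, homogeneousComponent_of_mem hg, Polynomial.coeff_monomial]
    by_cases hi : i = j
    · rw [if_pos hi, if_pos hi.symm]
    · rw [if_neg hi, if_neg (Ne.symm hi)]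
  have h2 : Φ f * Φ q ≠ 0 := by
    rw [h1]; exact (Polynomial.monomial_eq_zero_iff _ _).not.2 h0
  have hf0 : Φ f ≠ 0 := left_ne_zero_of_mul h2
  have hq0 : Φ q ≠ 0 := right_ne_zero_of_mul h2
  have h3 := Polynomial.natDegree_mul hf0 hq0
  have h4 := Polynomial.natTrailingDegree_mul hf0 hq0
  rw [h1, Polynomial.natDegree_monomial_eq j h0] at h3
  rw [h1, Polynomial.natTrailingDegree_monomial h0] at h4
  have h5 := Polynomial.natTrailingDegree_le_natDegree (Φ f)
  have h6 := Polynomial.natTrailingDegree_le_natDegree (Φ q)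
  refine ⟨(Φ f).natDegree, ?_⟩
  rw [← sum_homogeneousComponent f]
  refine IsHomogeneous.sum _ _ _ fun i _ => ?_
  rw [sum_homogeneousComponent f]
  by_cases hi : i = (Φ f).natDegree
  · rw [hi]; exact homogeneousComponent_isHomogeneous _ _
  · have : homogeneousComponent i f = 0 := by
      rw [← hc]
      rcases lt_or_gt_of_ne hi with h | h
      · exact Polynomial.coeff_eq_zero_of_lt_natTrailingDegree (by omega)
      · exact Polynomial.coeff_eq_zero_of_natDegree_lt h
    rw [this]; exact isHomogeneous_zero _ _ _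

/-! ### Subtask Grad-b (closure properties, generators, finiteness) -/

theorem GS.of_le (hl : InfOrd lam) {N N' : Submodule (A k) V} (hN : GS lam θ N) (hle : N' ≤ N)
    (hs : ∀ v ∈ N', θ v ∈ N') : GS lam θ N' := by
  refine ⟨?_, fun v hv => ?_⟩
  · have : IsNoetherian (A k) N := isNoetherian_of_fg_of_noetherian N hN.fg
    exact isNoetherian_submodule.1 this N' hle
  · obtain ⟨s, c, hc, rfl⟩ := hN.exists_sum (hle hv)
    have h1 := component_mem (θ := θ) hl (N'.restrictScalars k) hs s c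
      (fun n _ => (Submodule.mem_inf.1 (hc n)).2) hv
    exact Submodule.sum_mem _ fun n hn => Submodule.mem_iSup_of_mem n
      (Submodule.mem_inf.2 ⟨h1 n hn, (Submodule.mem_inf.1 (hc n)).2⟩)

theorem GS.bot (lam : kˣ) (θ : V →ₗ[k] V) : GS lam θ (⊥ : Submodule (A k) V) := by
  refine ⟨Submodule.fg_bot, fun v hv => ?_⟩
  rw [Submodule.mem_bot] at hv
  rw [hv]
  exact Submodule.zero_mem _

theorem GS.inf (hl : InfOrd lam) {N N' : Submodule (A k) V} (hN : GS lam θ N)
    (hs : ∀ v ∈ N', θ v ∈ N') : GS lam θ (N ⊓ N') :=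
  hN.of_le hl inf_le_left fun v hv => ⟨hN.stable v hv.1, hs v hv.2⟩

theorem GS.sup_mono {N N' : Submodule (A k) V} (hle : N ≤ N') :
    (⨆ n : ℤ, piece lam θ N n) ≤ ⨆ n : ℤ, piece lam θ N' n :=
  iSup_mono fun _ _ hv =>
    Submodule.mem_inf.2 ⟨hle (Submodule.mem_inf.1 hv).1, (Submodule.mem_inf.1 hv).2⟩

theorem GS.sup {N N' : Submodule (A k) V} (hN : GS lam θ N) (hN' : GS lam θ N') :
    GS lam θ (N ⊔ N') := by
  refine ⟨hN.fg.sup hN'.fg, fun v hv => ?_⟩
  obtain ⟨a, ha, b, hb, rfl⟩ := Submodule.mem_sup.1 hv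
  exact Submodule.add_mem _ (GS.sup_mono le_sup_left (hN.diag a ha))
    (GS.sup_mono le_sup_right (hN'.diag b hb))

theorem GS.map {N : Submodule (A k) V} (hN : GS lam θ N) (φ : V →ₗ[A k] V') {e : ℤ}
    (hφ : HomDeg lam θ θ' φ e) : GS lam θ' (N.map φ) := by
  refine ⟨hN.fg.map φ, ?_⟩
  rintro _ ⟨v, hv, rfl⟩
  obtain ⟨s, c, hc, rfl⟩ := hN.exists_sum hv
  rw [map_sum]
  refine Submodule.sum_mem _ fun n _ => Submodule.mem_iSup_of_mem (e + n) ?_
  obtain ⟨h1, h2⟩ := Submodule.mem_inf.1 (hc n)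
  refine Submodule.mem_inf.2 ⟨Submodule.mem_map_of_mem (f := φ) (p := N) h1, ?_⟩
  rw [mem_eig] at h2 ⊢
  rw [hφ, h2, LinearMap.map_smul_of_tower, smul_smul, ← Units.val_mul, ← zpow_add]

theorem GS.span (g : Gd lam w θ) {ι : Type} [Finite ι] (e : ι → V) (d : ι → ℤ)
    (he : ∀ i, e i ∈ eig lam θ (d i)) : GS lam θ (Submodule.span (A k) (Set.range e)) := by
  classical
  have := Fintype.ofFinite ι
  refine ⟨Submodule.fg_span (Set.finite_range e), fun v hv => ?_⟩
  obtain ⟨f, rfl⟩ := (Submodule.mem_span_range_iff_exists_fun (A k)).1 hv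
  refine Submodule.sum_mem _ fun i _ => ?_
  rw [as_sum (f i), Finset.sum_smul]
  refine Submodule.sum_mem _ fun μ _ =>
    Submodule.mem_iSup_of_mem ((w : ℤ) * (μ.degree : ℕ) + d i) ?_
  refine Submodule.mem_inf.2 ⟨?_, g.comm.smul_mem_eig
    (homZ_of_isHomogeneous w (isHomogeneous_monomial _ rfl)) (he i)⟩
  exact Submodule.smul_mem (Submodule.span (A k) (Set.range e)) _
    (Submodule.subset_span ⟨i, rfl⟩)

theorem GS.top_sub {N : Submodule (A k) V} (hN : GS lam θ N) :
    GS lam (θS θ N hN.stable) (⊤ : Submodule (A k) N) := by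
  refine ⟨(Submodule.fg_top N).2 hN.fg, fun v _ => ?_⟩
  obtain ⟨s, c, hc, hv⟩ := hN.exists_sum v.2
  have h1 : v = ∑ n ∈ s, (⟨c n, (Submodule.mem_inf.1 (hc n)).1⟩ : N) := by
    apply Subtype.ext
    rw [hv, AddSubmonoidClass.coe_finsetSum]
  rw [h1]
  refine Submodule.sum_mem _ fun n _ => Submodule.mem_iSup_of_mem n ?_
  refine Submodule.mem_inf.2 ⟨Submodule.mem_top, mem_eig.2 (Subtype.ext ?_)⟩
  exact mem_eig.1 (Submodule.mem_inf.1 (hc n)).2

theorem hilb_top_sub (N : Submodule (A k) V) (h : ∀ v ∈ N, θ v ∈ N) :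
    hilb lam (θS θ N h) (⊤ : Submodule (A k) N) = hilb lam θ N := by
  ext n
  unfold hilb
  have h1 : piece lam θ N n = (piece lam (θS θ N h) (⊤ : Submodule (A k) N) n).map
      (N.subtype.restrictScalars k) := by
    ext v
    constructor
    · intro hv
      obtain ⟨h1, h2⟩ := Submodule.mem_inf.1 hv
      exact ⟨⟨v, h1⟩, Submodule.mem_inf.2 ⟨Submodule.mem_top,
        mem_eig.2 (Subtype.ext (mem_eig.1 h2))⟩, rfl⟩
    · rintro ⟨u, hu, rfl⟩
      exact Submodule.mem_inf.2 ⟨u.2,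
        mem_eig.2 (congrArg Subtype.val (mem_eig.1 (Submodule.mem_inf.1 hu).2))⟩
  rw [h1, ← LinearEquiv.finrank_eq (Submodule.equivMapOfInjective
    (N.subtype.restrictScalars k) N.injective_subtype _)]

theorem GS.exists_gens {N : Submodule (A k) V} (hN : GS lam θ N) :
    ∃ (m : ℕ) (e : Fin m → V) (d : Fin m → ℤ), (∀ i, e i ∈ eig lam θ (d i)) ∧
      Submodule.span (A k) (Set.range e) = N := by
  classical
  obtain ⟨S, hS⟩ := hN.fg
  have hSN : ∀ v : S, (v : V) ∈ N := fun v => hS ▸ Submodule.subset_span v.2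
  choose s c hc hv using fun v : S => hN.exists_sum (hSN v)
  let ι := Σ v : S, s v
  let eq := Fintype.equivFin ι
  refine ⟨Fintype.card ι, fun i => c (eq.symm i).1 (eq.symm i).2, fun i => (eq.symm i).2,
    fun i => (Submodule.mem_inf.1 (hc _ _)).2, le_antisymm ?_ ?_⟩
  · rw [Submodule.span_le]
    rintro _ ⟨i, rfl⟩
    exact (Submodule.mem_inf.1 (hc _ _)).1
  · rw [← hS, Submodule.span_le]
    intro v hvS
    rw [SetLike.mem_coe, show v = _ from hv ⟨v, hvS⟩]
    refine Submodule.sum_mem _ fun n hn => Submodule.subset_span ⟨eq ⟨⟨v, hvS⟩, ⟨n, hn⟩⟩, ?_⟩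
    change (fun x : ι => c x.1 x.2) (eq.symm (eq _)) = _
    rw [Equiv.symm_apply_apply]

theorem exists_hom_coeff_comp (hl : InfOrd lam) {v : V} {n : ℤ} (hn : v ∈ eig lam θ n)
    (s : Finset ℤ) (hs : n ∈ s) (c : ℤ → V) (hc : ∀ m ∈ s, c m ∈ eig lam θ m)
    (h : v = ∑ m ∈ s, c m) : v = c n := by
  classical
  have key := component_mem (θ := θ) hl (⊥ : Submodule k V)
    (by intro v hv; rw [Submodule.mem_bot] at hv ⊢; rw [hv, map_zero]) s
    (fun m => c m - if m = n then v else 0)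
    (by
      intro m hm
      refine Submodule.sub_mem _ (hc m hm) ?_
      split_ifs with hmn
      · rw [hmn]; exact hn
      · exact Submodule.zero_mem _)
    (by
      rw [Submodule.mem_bot, Finset.sum_sub_distrib, Finset.sum_ite_eq' s n, if_pos hs, ← h,
        sub_self]) n hs
  rw [Submodule.mem_bot, if_pos rfl, sub_eq_zero] at key
  exact key.symm

/-- The part of weighted degree `m` of a polynomial. -/
noncomputable def exists_hom_coeff_pz (w : ℕ) (m : ℤ) (f : A k) : A k :=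
  ∑ μ ∈ f.support with (w : ℤ) * (μ.degree : ℤ) = m, monomial μ (coeff μ f)

theorem exists_hom_coeff_homZ (w : ℕ) (m : ℤ) (f : A k) :
    HomZ w (exists_hom_coeff_pz w m f) m := by
  classical
  intro μ hμ
  by_contra hne
  apply hμ
  unfold exists_hom_coeff_pz
  rw [coeff_sum]
  refine Finset.sum_eq_zero fun ν hν => ?_
  rw [coeff_monomial, if_neg]
  rintro rfl
  exact hne (Finset.mem_filter.1 hν).2

theorem exists_hom_coeff_sum (w : ℕ) (f : A k) (a : ℤ) (s : Finset ℤ)
    (hs : ∀ μ ∈ f.support, (w : ℤ) * (μ.degree : ℤ) + a ∈ s) :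
    ∑ m ∈ s, exists_hom_coeff_pz w (m - a) f = f := by
  classical
  unfold exists_hom_coeff_pz
  have := Finset.sum_fiberwise_of_maps_to (s := f.support) (t := s)
    (g := fun μ : Fin 3 →₀ ℕ => (w : ℤ) * (μ.degree : ℤ) + a) hs
    (fun μ => monomial μ (coeff μ f))
  refine Eq.trans ?_ (this.trans (as_sum f).symm)
  refine Finset.sum_congr rfl fun m _ => ?_
  refine Finset.sum_congr (Finset.filter_congr fun μ _ => ?_) fun _ _ => rfl
  constructor <;> intro h <;> linarith

theorem exists_hom_coeff_hc (hw : 0 < w) (j : ℕ) (f : A k) :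
    exists_hom_coeff_pz w ((w : ℤ) * j) f = homogeneousComponent j f := by
  classical
  unfold exists_hom_coeff_pz
  rw [homogeneousComponent_apply]
  refine Finset.sum_congr (Finset.filter_congr fun μ _ => ?_) fun _ _ => rfl
  have hw' : (w : ℤ) ≠ 0 := by exact_mod_cast hw.ne'
  rw [mul_right_inj' hw', Nat.cast_inj]

/-- A homogeneous element is a combination of homogeneous generators with homogeneous
coefficients. -/
theorem exists_hom_coeff (g : Gd lam w θ) {ι : Type} [Fintype ι] (e : ι → V) (d : ι → ℤ)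
    (he : ∀ i, e i ∈ eig lam θ (d i)) {v : V} {n : ℤ} (hv : v ∈ Submodule.span (A k) (Set.range e))
    (hn : v ∈ eig lam θ n) : ∃ c : ι → A k, (∀ i, HomZ w (c i) (n - d i)) ∧ v = ∑ i, c i • e i := by
  classical
  obtain ⟨f, hf⟩ := (Submodule.mem_span_range_iff_exists_fun (A k)).1 hv
  refine ⟨fun i => exists_hom_coeff_pz w (n - d i) (f i), fun i => exists_hom_coeff_homZ _ _ _, ?_⟩
  set s : Finset ℤ := insert n (Finset.univ.biUnion fun i =>
    (f i).support.image fun μ => (w : ℤ) * (μ.degree : ℤ) + d i) with hs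
  refine exists_hom_coeff_comp g.inf hn s (Finset.mem_insert_self _ _)
    (fun m => ∑ i, exists_hom_coeff_pz w (m - d i) (f i) • e i) ?_ ?_
  · intro m _
    refine Submodule.sum_mem _ fun i _ => ?_
    have := g.comm.smul_mem_eig (exists_hom_coeff_homZ w (m - d i) (f i)) (he i)
    rwa [sub_add_cancel] at this
  · rw [Finset.sum_comm, ← hf]
    refine Finset.sum_congr rfl fun i _ => ?_
    rw [← Finset.sum_smul, exists_hom_coeff_sum]
    intro μ hμ
    exact Finset.mem_insert_of_mem (Finset.mem_biUnion.2 ⟨i, Finset.mem_univ _,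
      Finset.mem_image.2 ⟨μ, hμ, rfl⟩⟩)

theorem GS.finite_piece (g : Gd lam w θ) {N : Submodule (A k) V} (hN : GS lam θ N) (n : ℤ) :
    Module.Finite k (piece lam θ N n) := by
  classical
  obtain ⟨m, e, d, he, hspan⟩ := hN.exists_gens
  let L : (∀ i : Fin m, restrictTotalDegree (Fin 3) k (n - d i).toNat) →ₗ[k] V :=
    { toFun := fun c => ∑ i, (c i : A k) • e i
      map_add' := by
        intro a b
        simp only [Pi.add_apply, Submodule.coe_add, add_smul, Finset.sum_add_distrib]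
      map_smul' := by
        intro a b
        simp only [Pi.smul_apply, Submodule.coe_smul, smul_assoc, RingHom.id_apply,
          Finset.smul_sum] }
  have hle : piece lam θ N n ≤ LinearMap.range L := by
    intro v hv
    obtain ⟨hv1, hv2⟩ := Submodule.mem_inf.1 hv
    have hv1' : v ∈ Submodule.span (A k) (Set.range e) := by rw [hspan]; exact hv1
    obtain ⟨c, hc, hvc⟩ := exists_hom_coeff g e d he hv1' hv2
    refine ⟨fun i => ⟨c i, ?_⟩, hvc.symm⟩
    rw [mem_restrictTotalDegree]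
    by_cases h0 : c i = 0
    · rw [h0, totalDegree_zero]; exact Nat.zero_le _
    · obtain ⟨j, hj, hh⟩ := (hc i).exists_isHomogeneous g.pos h0
      refine hh.totalDegree_le.trans ?_
      have hw : (1 : ℤ) ≤ w := by exact_mod_cast g.pos
      have hj0 : (0 : ℤ) ≤ j := Int.natCast_nonneg j
      have : (j : ℤ) ≤ n - d i := by rw [hj]; nlinarith
      omega
  exact Submodule.finiteDimensional_of_le hle

theorem GS.bdd_below (g : Gd lam w θ) {N : Submodule (A k) V} (hN : GS lam θ N) :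
    ∃ b : ℤ, ∀ n < b, piece lam θ N n = ⊥ := by
  classical
  obtain ⟨m, e, d, he, hspan⟩ := hN.exists_gens
  obtain ⟨b, hb⟩ := (Set.finite_range d).bddBelow
  refine ⟨b, fun n hn => ?_⟩
  rw [eq_bot_iff]
  intro v hv
  obtain ⟨hv1, hv2⟩ := Submodule.mem_inf.1 hv
  have hv1' : v ∈ Submodule.span (A k) (Set.range e) := by rw [hspan]; exact hv1
  obtain ⟨c, hc, hvc⟩ := exists_hom_coeff g e d he hv1' hv2
  rw [Submodule.mem_bot, hvc]
  refine Finset.sum_eq_zero fun i _ => ?_
  have h0 : c i = 0 := by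
    by_contra h0
    obtain ⟨j, hj, -⟩ := (hc i).exists_isHomogeneous g.pos h0
    have h1 : b ≤ d i := hb ⟨i, rfl⟩
    have h2 : (0 : ℤ) ≤ (w : ℤ) * j := by positivity
    omega
  rw [h0, zero_smul]

theorem hilb_map_eig (φ : V →ₗ[A k] V') {e : ℤ} (hφ : HomDeg lam θ θ' φ e) {m : ℤ} {v : V}
    (hv : v ∈ eig lam θ m) : φ v ∈ eig lam θ' (m + e) := by
  rw [mem_eig] at hv ⊢
  rw [hφ v, hv, LinearMap.map_smul_of_tower, smul_smul, ← Units.val_mul, ← zpow_add, add_comm]

theorem hilb_map_piece (g : Gd lam w θ) {N : Submodule (A k) V} (hN : GS lam θ N)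
    (φ : V →ₗ[A k] V') {e : ℤ} (hφ : HomDeg lam θ θ' φ e) (n : ℤ) :
    piece lam θ' (N.map φ) n = (piece lam θ N (n - e)).map (φ.restrictScalars k) := by
  classical
  apply le_antisymm
  · intro v' hv'
    obtain ⟨hv1, hv2⟩ := Submodule.mem_inf.1 hv'
    obtain ⟨v, hv, rfl⟩ := Submodule.mem_map.1 (show v' ∈ N.map φ from hv1)
    obtain ⟨s, c, hc, hvc⟩ := hN.exists_sum hv
    let c' : ℤ → V := fun m => if m ∈ s then c m else 0
    have hc' : ∀ m, c' m ∈ piece lam θ N m := by
      intro m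
      simp only [c']
      split_ifs
      · exact hc m
      · exact Submodule.zero_mem _
    refine ⟨c' (n - e), hc' _, ?_⟩
    symm
    refine exists_hom_coeff_comp g.inf hv2 (insert n (s.image fun m => m + e))
      (Finset.mem_insert_self _ _) (fun m => φ (c' (m - e))) ?_ ?_
    · intro m _
      have := hilb_map_eig φ hφ (Submodule.mem_inf.1 (hc' (m - e))).2
      rwa [sub_add_cancel] at this
    · rw [← Finset.sum_subset (Finset.subset_insert n (s.image fun m => m + e)),
        Finset.sum_image (fun a _ b _ h => add_right_cancel h), hvc, map_sum]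
      · refine Finset.sum_congr rfl fun m hm => ?_
        simp only [c', add_sub_cancel_right, if_pos hm]
      · intro m _ hm
        have : m - e ∉ s := fun h => hm (Finset.mem_image.2 ⟨m - e, h, sub_add_cancel _ _⟩)
        simp only [c', if_neg this, map_zero]
  · rintro _ ⟨v, hv, rfl⟩
    obtain ⟨hv1, hv2⟩ := Submodule.mem_inf.1 hv
    refine Submodule.mem_inf.2 ⟨Submodule.mem_map_of_mem (f := φ) (p := N) hv1, ?_⟩
    have := hilb_map_eig φ hφ hv2
    rwa [sub_add_cancel] at this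

/-- Rank-nullity in each degree. -/
theorem hilb_map (g : Gd lam w θ) {N : Submodule (A k) V} (hN : GS lam θ N) (φ : V →ₗ[A k] V')
    {e : ℤ} (hφ : HomDeg lam θ θ' φ e) (n : ℤ) :
    hilb lam θ' (N.map φ) n = hilb lam θ N (n - e) - hilb lam θ (N ⊓ LinearMap.ker φ) (n - e) := by
  have := hN.finite_piece g (n - e)
  unfold hilb
  rw [hilb_map_piece g hN φ hφ n]
  have h1 := LinearMap.finrank_range_add_finrank_ker
    ((φ.restrictScalars k).domRestrict (piece lam θ N (n - e)))
  rw [LinearMap.range_domRestrict, LinearMap.ker_domRestrict] at h1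
  have h2 : Module.finrank k (Submodule.comap (piece lam θ N (n - e)).subtype
      (LinearMap.ker (φ.restrictScalars k))) =
      Module.finrank k (piece lam θ (N ⊓ LinearMap.ker φ) (n - e)) := by
    have h3 : piece lam θ N (n - e) ⊓ LinearMap.ker (φ.restrictScalars k) =
        piece lam θ (N ⊓ LinearMap.ker φ) (n - e) := by
      ext v
      simp only [piece, Submodule.mem_inf, Submodule.restrictScalars_mem, LinearMap.mem_ker,
        LinearMap.restrictScalars_apply]
      tauto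
    rw [← Submodule.finrank_map_subtype_eq, Submodule.map_comap_subtype, h3]
  rw [h2] at h1
  rw [← h1]
  push_cast
  ring

theorem hilb_mono_piece {N N' : Submodule (A k) V} (hle : N' ≤ N) (n : ℤ) :
    piece lam θ N' n ≤ piece lam θ N n := fun _ hv =>
  Submodule.mem_inf.2 ⟨hle (Submodule.mem_inf.1 hv).1, (Submodule.mem_inf.1 hv).2⟩

theorem hilb_mono (g : Gd lam w θ) {N N' : Submodule (A k) V} (hN : GS lam θ N) (hle : N' ≤ N)
    (n : ℤ) : hilb lam θ N' n ≤ hilb lam θ N n := by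
  have := hN.finite_piece g n
  unfold hilb
  exact_mod_cast Submodule.finrank_mono (hilb_mono_piece hle n)

theorem GS.eq_of_hilb_eq (g : Gd lam w θ) {N N' : Submodule (A k) V} (hN : GS lam θ N)
    (hle : N' ≤ N) (h : ∀ n, hilb lam θ N' n = hilb lam θ N n) : N' = N := by
  refine le_antisymm hle fun v hv => ?_
  obtain ⟨s, c, hc, rfl⟩ := hN.exists_sum hv
  refine Submodule.sum_mem _ fun n _ => ?_
  have := hN.finite_piece g n
  have h1 : piece lam θ N' n = piece lam θ N n :=
    Submodule.eq_of_le_of_finrank_eq (hilb_mono_piece hle n) (by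
      have := h n
      unfold hilb at this
      exact_mod_cast this)
  have h2 := hc n
  rw [← h1] at h2
  exact (Submodule.mem_inf.1 h2).1

theorem exists_hom_ann_aux (g : Gd lam w θ) (N : Submodule (A k) V)
    (hs : ∀ v ∈ N, θ v ∈ N) {v : V} {n : ℤ} (hv : v ∈ eig lam θ n) {f : A k} (h : f • v ∈ N)
    (j : ℕ) : homogeneousComponent j f • v ∈ N := by
  classical
  set s : Finset ℤ := insert ((w : ℤ) * j + n)
    (f.support.image fun μ => (w : ℤ) * (μ.degree : ℤ) + n) with hsdef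
  have key := component_mem (θ := θ) g.inf (N.restrictScalars k) hs s
    (fun m => exists_hom_coeff_pz w (m - n) f • v)
    (by
      intro m _
      have := g.comm.smul_mem_eig (exists_hom_coeff_homZ w (m - n) f) hv
      rwa [sub_add_cancel] at this)
    (by
      rw [← Finset.sum_smul, exists_hom_coeff_sum]
      · exact h
      · intro μ hμ
        exact Finset.mem_insert_of_mem (Finset.mem_image.2 ⟨μ, hμ, rfl⟩))
    ((w : ℤ) * j + n) (Finset.mem_insert_self _ _)
  simp only [add_sub_cancel_right, exists_hom_coeff_hc g.pos] at key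
  exact key

/-- A homogeneous element killed modulo a stable submodule by a nonzero polynomial is killed by a
nonzero homogeneous polynomial. -/
theorem exists_hom_ann (g : Gd lam w θ) (N : Submodule (A k) V) (hs : ∀ v ∈ N, θ v ∈ N) {v : V}
    {n : ℤ} (hv : v ∈ eig lam θ n) {f : A k} (hf : f ≠ 0) (h : f • v ∈ N) :
    ∃ (f' : A k) (j : ℕ), f' ≠ 0 ∧ f'.IsHomogeneous j ∧ f' • v ∈ N := by
  have : ∃ j, homogeneousComponent j f ≠ 0 := by
    by_contra hc
    push Not at hc
    apply hf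
    rw [← sum_homogeneousComponent f]
    exact Finset.sum_eq_zero fun j _ => hc j
  obtain ⟨j, hj⟩ := this
  exact ⟨_, j, hj, homogeneousComponent_isHomogeneous j f, exists_hom_ann_aux g N hs hv h j⟩

/-- All homogeneous components of such a polynomial kill it. -/
theorem homogeneousComponent_smul_mem (g : Gd lam w θ) (N : Submodule (A k) V)
    (hs : ∀ v ∈ N, θ v ∈ N) {v : V} {n : ℤ} (hv : v ∈ eig lam θ n) {f : A k} (h : f • v ∈ N)
    (j : ℕ) : homogeneousComponent j f • v ∈ N :=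
  exists_hom_ann_aux g N hs hv h j

/-! ### Subtask Grad-c (Hilbert-Serre and additivity) -/

theorem isHF_iter_sub (w : ℕ) (j : ℕ) (a b : ℤ → ℚ) :
    (dif w)^[j] (fun n => a n - b (n - w)) =
      fun n => (dif w)^[j] a n - (dif w)^[j] b (n - w) := by
  induction j generalizing a b with
  | zero => rfl
  | succ j ih =>
    simp only [Function.iterate_succ_apply]
    rw [← ih]
    congr 1
    funext n
    simp only [dif]
    ring

theorem isHF_smul_of_kill {v : V} (hv : ∀ i : Fin 3, (X i : A k) • v = 0) (f : A k) :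
    f • v = constantCoeff f • v := by
  induction f using MvPolynomial.induction_on with
  | C a => rw [constantCoeff_C, ← algebraMap_eq, algebraMap_smul]
  | add p q hp hq => rw [add_smul, hp, hq, map_add, add_smul]
  | mul_X p i _ => rw [mul_smul, hv, smul_zero, map_mul, constantCoeff_X, mul_zero, zero_smul]

theorem isHF_ker_stable {φ : V →ₗ[A k] V'} {e : ℤ} (hφ : HomDeg lam θ θ' φ e) :
    ∀ v ∈ LinearMap.ker φ, θ v ∈ LinearMap.ker φ := by
  intro v hv
  rw [LinearMap.mem_ker] at hv ⊢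
  have h1 := hφ v
  rw [hv, map_zero] at h1
  have h2 := congrArg (fun z => (((lam ^ e)⁻¹ : kˣ) : k) • z) h1
  simp only [smul_zero, smul_smul, Units.inv_mul, one_smul] at h2
  exact h2.symm

theorem isHF_mkQ (N : Submodule (A k) V) (h : ∀ v ∈ N, θ v ∈ N) :
    HomDeg lam θ (θQ θ N h) N.mkQ 0 := by
  intro v
  rw [zpow_zero, Units.val_one, one_smul, θQ_mk]

theorem isHF_aux (j : ℕ) (hj : j ≤ 3) : ∀ (V : Type) [AddCommGroup V] [Module k V]
    [Module (A k) V] [IsScalarTower k (A k) V] (θ : V →ₗ[k] V), Gd lam w θ →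
    ∀ N : Submodule (A k) V, GS lam θ N →
    (∀ i : Fin 3, j ≤ i.1 → ∀ v ∈ N, (X i : A k) • v = 0) →
    (Function.support ((dif w)^[j] (hilb lam θ N))).Finite := by
  induction j with
  | zero =>
    intro V _ _ _ _ θ g N hN hk
    obtain ⟨m, e, d, he, hsp⟩ := hN.exists_gens
    refine (Set.finite_range d).subset fun n hn => ?_
    by_contra hnd
    apply hn
    have hb : piece lam θ N n = ⊥ := by
      rw [eq_bot_iff]
      rintro v ⟨hv, hvn⟩
      have hv' : v ∈ Submodule.span (A k) (Set.range e) := by rw [hsp]; exact hv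
      obtain ⟨c, hc, rfl⟩ := exists_hom_coeff g e d he hv' hvn
      rw [Submodule.mem_bot]
      refine Finset.sum_eq_zero fun i _ => ?_
      have hei : e i ∈ N := hsp ▸ Submodule.subset_span ⟨i, rfl⟩
      rw [isHF_smul_of_kill fun i' => hk i' (Nat.zero_le _) _ hei]
      have h0 : constantCoeff (c i) = 0 := by
        by_contra h0
        have := hc i 0 h0
        apply hnd
        refine ⟨i, ?_⟩
        simp only [map_zero, Nat.cast_zero, mul_zero] at this
        omega
      rw [h0, zero_smul]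
    change hilb lam θ N n = 0
    unfold hilb
    rw [hb]
    simp
  | succ j ih =>
    intro V _ _ _ _ θ g N hN hk
    have hj' : j < 3 := hj
    let φ : V →ₗ[A k] V := LinearMap.lsmul (A k) V (X ⟨j, hj'⟩)
    have hφa : ∀ v, φ v = (X ⟨j, hj'⟩ : A k) • v := fun v => rfl
    have hφ : HomDeg lam θ θ φ w := by
      intro v
      rw [hφa, hφa, g.comm, zpow_natCast]
    have hM : GS lam θ (N.map φ) := hN.map φ hφ
    have hMle : N.map φ ≤ N := by
      rintro _ ⟨v, hv, rfl⟩
      exact N.smul_mem _ hv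
    have hq := isHF_mkQ (lam := lam) (N.map φ) hM.stable
    have e1 : dif w (hilb lam θ N) = fun n =>
        hilb lam (θQ θ (N.map φ) hM.stable) (N.map (N.map φ).mkQ) n -
          hilb lam θ (N ⊓ LinearMap.ker φ) (n - w) := by
      funext n
      rw [hilb_map g hN _ hq n, Submodule.ker_mkQ, inf_eq_right.2 hMle, sub_zero,
        hilb_map g hN φ hφ n]
      simp only [dif]
      ring
    rw [Function.iterate_succ_apply, e1, isHF_iter_sub]
    have key : ∀ i : Fin 3, j ≤ i.1 → i = ⟨j, hj'⟩ ∨ j + 1 ≤ i.1 := by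
      intro i hi
      rcases hi.eq_or_lt with h | h
      · exact Or.inl (Fin.ext h.symm)
      · exact Or.inr h
    have f1 := ih hj'.le _ _ (g.quot (N.map φ) hM.stable) _ (hN.map _ hq) (by
      rintro i hi _ ⟨v, hv, rfl⟩
      rw [← map_smul]
      rcases key i hi with rfl | h
      · exact (Submodule.Quotient.mk_eq_zero _).2 ⟨v, hv, rfl⟩
      · rw [hk i h v hv, map_zero])
    have f2 := ih hj'.le _ _ g _ (GS.inf g.inf hN (isHF_ker_stable hφ)) (by
      rintro i hi v ⟨hv, hv0⟩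
      rcases key i hi with rfl | h
      · exact hv0
      · exact hk i h v hv)
    refine (f1.union (f2.image fun n => n + (w : ℤ))).subset fun n hn => ?_
    by_contra hc
    simp only [Set.mem_union, Function.mem_support, Set.mem_image, not_or, not_not,
      not_exists, not_and] at hc
    apply hn
    have h2 : (dif w)^[j] (hilb lam θ (N ⊓ LinearMap.ker φ)) (n - w) = 0 := by
      by_contra h2
      exact hc.2 _ h2 (by ring)
    simp only [hc.1, h2, sub_zero]

theorem GS.isHF (g : Gd lam w θ) {N : Submodule (A k) V} (hN : GS lam θ N) :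
    IsHF w (hilb lam θ N) := by
  refine ⟨?_, isHF_aux 3 le_rfl V θ g N hN fun i hi => absurd i.2 (by omega)⟩
  obtain ⟨b, hb⟩ := hN.bdd_below g
  refine ⟨b, fun n hn => ?_⟩
  unfold hilb
  rw [hb n hn]
  simp

theorem tauS_map (g : Gd lam w θ) {N : Submodule (A k) V} (hN : GS lam θ N) (φ : V →ₗ[A k] V')
    {e : ℤ} (hφ : HomDeg lam θ θ' φ e) :
    tauS lam w θ' (N.map φ) = ex e * (tauS lam w θ N - tauS lam w θ (N ⊓ LinearMap.ker φ)) := by
  have hK : GS lam θ (N ⊓ LinearMap.ker φ) := GS.inf g.inf hN (isHF_ker_stable hφ)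
  have e1 : hilb lam θ' (N.map φ) = fun n =>
      (fun n => hilb lam θ N n - hilb lam θ (N ⊓ LinearMap.ker φ) n) (n - e) := by
    funext n
    exact hilb_map g hN φ hφ n
  unfold tauS
  rw [e1, tauH_shift ((hN.isHF g).sub (hK.isHF g)), tauH_sub (hN.isHF g) (hK.isHF g)]

theorem tauS_bot (lam : kˣ) (w : ℕ) (θ : V →ₗ[k] V) :
    tauS lam w θ (⊥ : Submodule (A k) V) = 0 := by
  refine (tauH_eq_zero ?_).2
  refine Set.finite_empty.subset fun n hn => hn ?_
  have hb : piece lam θ (⊥ : Submodule (A k) V) n = ⊥ := by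
    rw [eq_bot_iff]
    rintro v ⟨hv, -⟩
    exact hv
  unfold hilb
  rw [hb]
  simp

theorem tauS_sup_add_inf (g : Gd lam w θ) {N N' : Submodule (A k) V} (hN : GS lam θ N)
    (hN' : GS lam θ N') :
    tauS lam w θ (N ⊔ N') + tauS lam w θ (N ⊓ N') = tauS lam w θ N + tauS lam w θ N' := by
  have hq := isHF_mkQ (lam := lam) N' hN'.stable
  have e1 := tauS_map g (hN.sup hN') _ hq
  have e2 := tauS_map g hN _ hq
  rw [Submodule.map_sup, Submodule.mkQ_map_self, sup_bot_eq, e2, Submodule.ker_mkQ,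
    inf_eq_right.2 (le_sup_right : N' ≤ N ⊔ N'), ex_zero, one_mul, one_mul] at e1
  linear_combination -e1

theorem tauS_pos (g : Gd lam w θ) {N N' : Submodule (A k) V} (hN : GS lam θ N)
    (hN' : GS lam θ N') (hle : N' ≤ N) : (tauS lam w θ N - tauS lam w θ N').Pos := by
  unfold tauS
  rw [← tauH_sub (hN.isHF g) (hN'.isHF g)]
  exact tauH_pos g.pos ((hN.isHF g).sub (hN'.isHF g)) fun n => sub_nonneg.2 (hilb_mono g hN hle n)

theorem tauS_int (g : Gd lam w θ) {N : Submodule (A k) V} (hN : GS lam θ N) :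
    (∃ m : ℤ, (tauS lam w θ N).c0 = m) ∧ (∃ m : ℤ, (tauS lam w θ N).c1 = m) ∧
      ∃ m : ℤ, 2 * (tauS lam w θ N).c2 = m := by
  exact tauH_int (hN.isHF g) fun n => ⟨Module.finrank k (piece lam θ N n), by simp [hilb]⟩

theorem hilb_free_gsF (hl : InfOrd lam) (hw : 0 < w) {ι : Type} [Fintype ι] (b : ι → ℤ) :
    GS lam (θF lam w b) ⊤ := by
  classical
  have h1 := GS.span (gd_F hl hw b) (fun i : ι => (Pi.single i 1 : ι → A k)) b (by
    intro i
    rw [mem_eigF_iff hl]
    intro j μ hμ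
    by_cases hij : j = i
    · subst hij
      rw [Pi.single_eq_same, coeff_one] at hμ
      have : μ = 0 := by
        by_contra h
        exact hμ (if_neg (Ne.symm h))
      rw [this]; simp
    · rw [Pi.single_eq_of_ne hij] at hμ
      exact absurd (coeff_zero μ) hμ)
  have h2 : Submodule.span (A k) (Set.range fun i : ι => (Pi.single i 1 : ι → A k)) = ⊤ := by
    have := (Pi.basisFun (A k) ι).span_eq
    convert this using 3
    ext1 i
    rw [Pi.basisFun_apply]
  rwa [h2] at h1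

theorem hilb_free_hilbF (hl : InfOrd lam) (hw : 0 < w) {ι : Type} [Fintype ι] (b : ι → ℤ)
    (n : ℤ) : hilb lam (θF lam w b) ⊤ n = ∑ i, hA w (n - b i) := by
  classical
  let E : piece lam (θF lam w b) (⊤ : Submodule (A k) (ι → A k)) n ≃ₗ[k]
      ∀ i : ι, piece lam (θA lam w).toLinearMap (⊤ : Submodule (A k) (A k)) (n - b i) :=
    { toFun := fun v i => ⟨v.1 i, Submodule.mem_inf.2 ⟨Submodule.mem_top, (mem_eigA_iff hl _ _).2
        ((mem_eigF_iff hl b v.1 n).1 (Submodule.mem_inf.1 v.2).2 i)⟩⟩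
      map_add' := fun _ _ => rfl
      map_smul' := fun _ _ => rfl
      invFun := fun f => ⟨fun i => (f i).1, Submodule.mem_inf.2 ⟨Submodule.mem_top,
        (mem_eigF_iff hl b _ n).2 fun i =>
          (mem_eigA_iff hl _ _).1 (Submodule.mem_inf.1 (f i).2).2⟩⟩
      left_inv := fun _ => rfl
      right_inv := fun _ => rfl }
  have hfin : ∀ i : ι, Module.Finite k
      (piece lam (θA lam w).toLinearMap (⊤ : Submodule (A k) (A k)) (n - b i)) :=
    fun i => (gs_A lam w).finite_piece (gd_A hl hw) _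
  unfold hilb
  rw [E.finrank_eq, Module.finrank_pi_fintype, Nat.cast_sum]
  refine Finset.sum_congr rfl fun i _ => ?_
  rw [← hilb_A hl hw]
  rfl

theorem hilb_free_homDeg (g : Gd lam w θ) {ι : Type} [Fintype ι] (e : ι → V) (d : ι → ℤ)
    (he : ∀ i, e i ∈ eig lam θ (d i)) :
    HomDeg lam (θF lam w d) θ (Fintype.linearCombination (A k) e) 0 := by
  intro v
  rw [zpow_zero, Units.val_one, one_smul, Fintype.linearCombination_apply,
    Fintype.linearCombination_apply, map_sum]
  refine Finset.sum_congr rfl fun i _ => ?_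
  rw [g.comm.smul, mem_eig.1 (he i), smul_comm]
  exact (smul_assoc _ _ _).symm

theorem hilb_free_bot (lam : kˣ) (θ : V →ₗ[k] V) (n : ℤ) :
    hilb lam θ (⊥ : Submodule (A k) V) n = 0 := by
  unfold hilb piece
  rw [Submodule.restrictScalars_bot, bot_inf_eq, finrank_bot, Nat.cast_zero]

theorem hilb_free (g : Gd lam w θ) {ι : Type} [Fintype ι] (e : ι → V) (d : ι → ℤ)
    (he : ∀ i, e i ∈ eig lam θ (d i)) (hli : LinearIndependent (A k) e) (n : ℤ) :
    hilb lam θ (Submodule.span (A k) (Set.range e)) n = ∑ i, hA w (n - d i) := by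
  have h1 := hilb_map (gd_F g.inf g.pos d) (hilb_free_gsF g.inf g.pos d)
    (Fintype.linearCombination (A k) e) (hilb_free_homDeg g e d he) n
  rw [Submodule.map_top, Fintype.range_linearCombination,
    LinearMap.ker_eq_bot.2 hli.fintypeLinearCombination_injective, inf_bot_eq,
    hilb_free_bot, sub_zero, sub_zero, hilb_free_hilbF g.inf g.pos] at h1
  exact h1

theorem tauS_free_aux (hw : 0 < w) {ι : Type} [Fintype ι] (d : ι → ℤ) :
    tauH w (fun n => ∑ i, hA w (n - d i)) = ∑ i, ex (d i) := by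
  rw [tauH_sum Finset.univ (h := fun i n => hA w (n - d i)) fun i _ => (isHF_hA hw).shift (d i)]
  refine Finset.sum_congr rfl fun i _ => ?_
  rw [tauH_shift (isHF_hA hw), tauH_hA hw, mul_one]

theorem tauS_free (g : Gd lam w θ) {ι : Type} [Fintype ι] (e : ι → V) (d : ι → ℤ)
    (he : ∀ i, e i ∈ eig lam θ (d i)) (hli : LinearIndependent (A k) e) :
    tauS lam w θ (Submodule.span (A k) (Set.range e)) = ∑ i, ex (d i) := by
  unfold tauS
  rw [funext (hilb_free g e d he hli), tauS_free_aux g.pos]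

theorem gs_F (hl : InfOrd lam) (hw : 0 < w) {ι : Type} [Fintype ι] (b : ι → ℤ) :
    GS lam (θF lam w b) ⊤ ∧ tauS lam w (θF lam w b) ⊤ = ∑ i, ex (b i) := by
  refine ⟨hilb_free_gsF hl hw b, ?_⟩
  unfold tauS
  rw [funext (hilb_free_hilbF hl hw b), tauS_free_aux hw]

theorem tauS_eq_of_neg_homDeg (N' : Submodule (A k) V) (hs : ∀ v ∈ N', θ v ∈ N') :
    HomDeg lam θ (θQ θ N' hs) N'.mkQ 0 := by
  intro v
  rw [zpow_zero, Units.val_one, one_smul, θQ_mk]

theorem tauS_eq_of_neg_quot (g : Gd lam w θ) {N N' : Submodule (A k) V} (hN : GS lam θ N)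
    (hN' : GS lam θ N') (hle : N' ≤ N) :
    tauS lam w (θQ θ N' hN'.stable) (N.map N'.mkQ) = tauS lam w θ N - tauS lam w θ N' := by
  rw [tauS_map g hN N'.mkQ (tauS_eq_of_neg_homDeg N' hN'.stable), ex_zero, one_mul,
    Submodule.ker_mkQ, inf_eq_right.2 hle]

theorem tauS_eq_of_neg_zero (g : Gd lam w θ) {Z : Submodule (A k) V} (hZ : GS lam θ Z)
    (h : ∀ v ∈ Z, ∀ i : Fin 3, ∃ m : ℕ, (X i : A k) ^ m • v = 0) : tauS lam w θ Z = 0 := by
  classical
  obtain ⟨m, e, d, he, hspan⟩ := hZ.exists_gens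
  have heZ : ∀ i, e i ∈ Z := fun i => hspan ▸ Submodule.subset_span ⟨i, rfl⟩
  choose M hM using fun (i : Fin m) (j : Fin 3) => h (e i) (heZ i) j
  obtain ⟨b, hb⟩ := hZ.bdd_below g
  obtain ⟨B, hB⟩ := (Set.finite_range fun i => d i + (w : ℤ) * (∑ j, M i j : ℕ)).bddAbove
  refine (tauH_eq_zero ((Set.finite_Icc b B).subset fun n hn => ?_)).2
  by_contra hn'
  apply hn
  have hp : piece lam θ Z n = ⊥ := by
    by_cases h1 : n < b
    · exact hb n h1
    have h2 : B < n := by
      by_contra h2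
      exact hn' ⟨not_lt.1 h1, not_lt.1 h2⟩
    rw [eq_bot_iff]
    intro v hv
    obtain ⟨hv1, hv2⟩ := Submodule.mem_inf.1 hv
    have hv1' : v ∈ Submodule.span (A k) (Set.range e) := by rw [hspan]; exact hv1
    obtain ⟨c, hc, hvc⟩ := exists_hom_coeff g e d he hv1' hv2
    rw [Submodule.mem_bot, hvc]
    refine Finset.sum_eq_zero fun i _ => ?_
    rw [as_sum (c i), Finset.sum_smul]
    refine Finset.sum_eq_zero fun μ hμ => ?_
    have h3 := hc i μ (mem_support_iff.1 hμ)
    have h4 : d i + (w : ℤ) * (∑ j, M i j : ℕ) ≤ B := hB ⟨i, rfl⟩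
    have hw : (0 : ℤ) < w := by exact_mod_cast g.pos
    have h5 : ((∑ j, M i j : ℕ) : ℤ) < (μ.degree : ℤ) := by
      apply lt_of_mul_lt_mul_left _ hw.le
      linarith
    have h6 : ∑ j, M i j < ∑ j, μ j := by
      rw [← Finsupp.degree_eq_sum]; exact_mod_cast h5
    obtain ⟨j, -, hj⟩ := Finset.exists_lt_of_sum_lt h6
    have h7 : μ = (μ - Finsupp.single j (M i j)) + Finsupp.single j (M i j) := by
      rw [tsub_add_cancel_of_le]
      rw [Finsupp.single_le_iff]; exact hj.le
    rw [h7, monomial_add_single, mul_smul, hM, smul_zero]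
  unfold hilb
  rw [hp, finrank_bot, Nat.cast_zero]

/-- Finite length quotient. -/
theorem tauS_eq_of_neg (g : Gd lam w θ) {N N' : Submodule (A k) V} (hN : GS lam θ N)
    (hN' : GS lam θ N') (hle : N' ≤ N) (h : ∀ v ∈ N, ∀ i : Fin 3, ∃ m : ℕ, (X i : A k) ^ m • v ∈ N') :
    tauS lam w θ N = tauS lam w θ N' := by
  rw [← sub_eq_zero, ← tauS_eq_of_neg_quot g hN hN' hle]
  refine tauS_eq_of_neg_zero (g.quot N' hN'.stable)
    (hN.map N'.mkQ (tauS_eq_of_neg_homDeg N' hN'.stable)) ?_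
  rintro _ ⟨v, hv, rfl⟩ i
  obtain ⟨m, hm⟩ := h v hv i
  refine ⟨m, ?_⟩
  rw [← map_smul, Submodule.mkQ_apply, Submodule.Quotient.mk_eq_zero]
  exact hm

/-! ### Subtask Grad-d (torsion, codimension two, rank) -/

theorem tauS_torsion_homDeg (g : Gd lam w θ) {f : A k} {j : ℕ} (hf : f.IsHomogeneous j) :
    HomDeg lam θ θ (f • (LinearMap.id : V →ₗ[A k] V) : V →ₗ[A k] V) ((w : ℤ) * j) := by
  intro v
  change θ (f • v) = _ • f • θ v
  rw [g.comm.smul, mem_eigA_iff_of_homZ (homZ_of_isHomogeneous w hf), smul_assoc]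

theorem tauS_torsion_zero (g : Gd lam w θ) {Z : Submodule (A k) V} (hZ : GS lam θ Z)
    (h : ∀ v ∈ Z, ∃ f : A k, f ≠ 0 ∧ f • v = 0) : (tauS lam w θ Z).c0 = 0 := by
  classical
  obtain ⟨m, e, d, he, hspan⟩ := hZ.exists_gens
  have heZ : ∀ i, e i ∈ Z := fun i => hspan ▸ Submodule.subset_span ⟨i, rfl⟩
  have h1 : ∀ i, ∃ (f : A k) (j : ℕ), f ≠ 0 ∧ f.IsHomogeneous j ∧ f • e i = 0 := by
    intro i
    obtain ⟨f, hf, hfe⟩ := h (e i) (heZ i)
    obtain ⟨f', j, h1, h2, h3⟩ := exists_hom_ann g ⊥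
      (by intro v hv; rw [Submodule.mem_bot] at hv ⊢; rw [hv, map_zero]) (he i) hf
      (by rw [Submodule.mem_bot]; exact hfe)
    exact ⟨f', j, h1, h2, (Submodule.mem_bot _).1 h3⟩
  choose f j hf0 hfj hfe using h1
  have hF : (∏ i, f i).IsHomogeneous (∑ i, j i) := IsHomogeneous.prod _ _ _ fun i _ => hfj i
  have hF0 : ∏ i, f i ≠ 0 := Finset.prod_ne_zero_iff.2 fun i _ => hf0 i
  have gF := gd_F (k := k) g.inf g.pos d
  have sF := hilb_free_gsF (k := k) g.inf g.pos d
  set φ := Fintype.linearCombination (A k) e with hφ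
  have hφd := hilb_free_homDeg g e d he
  have h2 := tauS_map gF sF φ hφd
  rw [Submodule.map_top, hφ, Fintype.range_linearCombination, hspan, ex_zero, one_mul,
    top_inf_eq, ← hφ] at h2
  have sK : GS lam (θF lam w d) (LinearMap.ker φ) := by
    refine sF.of_le g.inf le_top fun v hv => ?_
    rw [LinearMap.mem_ker] at hv ⊢
    have := hφd v
    rw [zpow_zero, Units.val_one, one_smul, ← hφ, hv, map_zero] at this
    exact this.symm
  set ψ : (Fin m → A k) →ₗ[A k] (Fin m → A k) := (∏ i, f i) • LinearMap.id with hψ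
  have hψd := tauS_torsion_homDeg gF hF
  have h3 := tauS_map gF sF ψ hψd
  have hker : LinearMap.ker ψ = ⊥ := by
    rw [eq_bot_iff]
    intro v hv
    rw [LinearMap.mem_ker, hψ, LinearMap.smul_apply, LinearMap.id_apply] at hv
    exact (smul_eq_zero.1 hv).resolve_left hF0
  rw [hker, inf_bot_eq, tauS_bot, sub_zero] at h3
  have hle : (⊤ : Submodule (A k) (Fin m → A k)).map ψ ≤ LinearMap.ker φ := by
    rintro _ ⟨v, -, rfl⟩
    rw [LinearMap.mem_ker, hψ, LinearMap.smul_apply, LinearMap.id_apply, map_smul, hφ,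
      Fintype.linearCombination_apply, Finset.smul_sum]
    refine Finset.sum_eq_zero fun i _ => ?_
    rw [smul_comm, ← Finset.prod_erase_mul _ _ (Finset.mem_univ i), mul_smul, hfe, smul_zero,
      smul_zero]
  have p1 := (tauS_pos gF sF sK le_top).1
  have p2 := (tauS_pos gF sK (sF.map ψ hψd) hle).1
  rw [h3] at p2
  rw [h2]
  simp only [T3.sub_c0, T3.mul_c0, ex, one_mul] at p1 p2 ⊢
  linarith

/-- Torsion quotient. -/
theorem tauS_torsion (g : Gd lam w θ) {N N' : Submodule (A k) V} (hN : GS lam θ N)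
    (hN' : GS lam θ N') (hle : N' ≤ N) (h : ∀ v ∈ N, ∃ f : A k, f ≠ 0 ∧ f • v ∈ N') :
    (tauS lam w θ N).c0 = (tauS lam w θ N').c0 ∧ (tauS lam w θ N).c1 ≤ (tauS lam w θ N').c1 := by
  have h0 := tauS_torsion_zero (g.quot N' hN'.stable)
    (hN.map N'.mkQ (tauS_eq_of_neg_homDeg N' hN'.stable)) (by
      rintro _ ⟨v, hv, rfl⟩
      obtain ⟨f, hf, hm⟩ := h v hv
      refine ⟨f, hf, ?_⟩
      rw [← map_smul, Submodule.mkQ_apply, Submodule.Quotient.mk_eq_zero]
      exact hm)
  rw [tauS_eq_of_neg_quot g hN hN' hle] at h0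
  have h1 := ((tauS_pos g hN hN' hle).2 h0).1
  rw [T3.sub_c0] at h0
  rw [T3.sub_c1] at h1
  constructor <;> linarith

/-- Conversely, equal rank forces a torsion quotient. -/
theorem torsion_of_c0_eq (g : Gd lam w θ) {N N' : Submodule (A k) V} (hN : GS lam θ N)
    (hN' : GS lam θ N') (hle : N' ≤ N) (h : (tauS lam w θ N).c0 = (tauS lam w θ N').c0) :
    ∀ v ∈ N, ∃ f : A k, f ≠ 0 ∧ f • v ∈ N' := by
  classical
  intro v hv
  obtain ⟨s, c, hc, rfl⟩ := hN.exists_sum hv
  have key : ∀ n, ∃ f : A k, f ≠ 0 ∧ f • c n ∈ N' := by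
    intro n
    by_contra hcon
    push Not at hcon
    obtain ⟨h1, h2⟩ := Submodule.mem_inf.1 (hc n)
    have gQ := g.quot N' hN'.stable
    have hd := tauS_eq_of_neg_homDeg (lam := lam) N' hN'.stable
    have he : ∀ _ : Unit, N'.mkQ (c n) ∈ eig lam (θQ θ N' hN'.stable) n := fun _ => by
      have := hilb_map_eig N'.mkQ hd h2
      rwa [add_zero] at this
    have hli : LinearIndependent (A k) fun _ : Unit => N'.mkQ (c n) := by
      rw [Fintype.linearIndependent_iff]
      intro a ha i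
      rw [Fintype.sum_unique, ← map_smul, Submodule.mkQ_apply,
        Submodule.Quotient.mk_eq_zero] at ha
      by_contra hne
      exact hcon _ hne ha
    have h3 := tauS_free gQ _ (fun _ : Unit => n) he hli
    have h4 := (tauS_pos gQ (hN.map N'.mkQ hd) (GS.span gQ _ (fun _ : Unit => n) he) (by
      rw [Submodule.span_le]
      rintro _ ⟨_, rfl⟩
      exact Submodule.mem_map_of_mem (f := N'.mkQ) (p := N) h1)).1
    rw [h3, tauS_eq_of_neg_quot g hN hN' hle, Fintype.sum_unique] at h4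
    simp only [T3.sub_c0, ex] at h4
    linarith
  choose f hf0 hf using key
  refine ⟨∏ n ∈ s, f n, Finset.prod_ne_zero_iff.2 fun n _ => hf0 n, ?_⟩
  rw [Finset.smul_sum]
  refine N'.sum_mem fun n hn => ?_
  rw [← Finset.prod_erase_mul _ _ hn, mul_smul]
  exact N'.smul_mem _ (hf n)

theorem exists_coprime_pair_var {p : A k} (hp : Prime p) : ∃ i : Fin 3, ¬ p ∣ X i := by
  by_contra hc
  push Not at hc
  have h0 : Associated p (X 0 : A k) :=
    hp.irreducible.associated_of_dvd (X_prime (i := (0 : Fin 3))).irreducible (hc 0)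
  have h1 : (X 0 : A k) ∣ X 1 := h0.symm.dvd.trans (hc 1)
  rw [X_dvd_X] at h1
  exact absurd h1 (by decide)

theorem exists_coprime_pair_hom (J : Ideal (A k))
    (hJ : ∀ f ∈ J, ∀ j, homogeneousComponent j f ∈ J) {p h : A k} (hh : h ∈ J)
    (hph : ¬ p ∣ h) : ∃ (j : ℕ) (g : A k), g ∈ J ∧ g.IsHomogeneous j ∧ ¬ p ∣ g := by
  by_contra hc
  push Not at hc
  apply hph
  rw [← sum_homogeneousComponent h]
  exact Finset.dvd_sum fun j _ => hc j _ (hJ h hh j) (homogeneousComponent_isHomogeneous j h)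

theorem exists_coprime_pair_up (J : Ideal (A k)) {p g : A k} (hp : Prime p) {j D : ℕ}
    (hg : g ∈ J) (hj : g.IsHomogeneous j) (hpg : ¬ p ∣ g) (hD : j ≤ D) :
    ∃ g' ∈ J, g'.IsHomogeneous D ∧ ¬ p ∣ g' := by
  obtain ⟨i, hi⟩ := exists_coprime_pair_var hp
  refine ⟨g * X i ^ (D - j), J.mul_mem_right _ hg, ?_, fun hd => ?_⟩
  · have := hj.mul ((isHomogeneous_X k i).pow (D - j))
    rwa [one_mul, Nat.add_sub_cancel' hD] at this
  · rcases hp.dvd_or_dvd hd with h | h
    · exact hpg h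
    · exact hi (hp.dvd_of_dvd_pow h)

/-- A homogeneous ideal contained in no principal prime contains a coprime homogeneous pair. -/
theorem exists_coprime_pair (hl : InfOrd lam) (J : Ideal (A k))
    (hJ : ∀ f ∈ J, ∀ j, homogeneousComponent j f ∈ J) (hb : ∀ f : A k, Prime f → ∃ h ∈ J, ¬ f ∣ h) :
    ∃ (f₁ f₂ : A k) (j₁ j₂ : ℕ), f₁ ∈ J ∧ f₂ ∈ J ∧ f₁ ≠ 0 ∧ f₁.IsHomogeneous j₁ ∧
      f₂.IsHomogeneous j₂ ∧ IsRelPrime f₁ f₂ := by
  classical
  have := hl.infinite
  have key : ∀ p : A k, Prime p → ∃ (j : ℕ) (g : A k), g ∈ J ∧ g.IsHomogeneous j ∧ ¬ p ∣ g := by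
    intro p hp
    obtain ⟨h, hh, hph⟩ := hb p hp
    exact exists_coprime_pair_hom J hJ hh hph
  obtain ⟨j₁, f₁, hf₁, hh₁, hn₁⟩ := key (X 0) X_prime
  have h0 : f₁ ≠ 0 := fun h => hn₁ (h ▸ dvd_zero _)
  let S : Finset (A k) := (UniqueFactorizationMonoid.factors f₁).toFinset
  have hS : ∀ p : S, Prime (p : A k) := fun p =>
    UniqueFactorizationMonoid.prime_of_factor _ (Multiset.mem_toFinset.1 p.2)
  choose j g hgJ hgh hgn using fun p : S => key p (hS p)
  let D : ℕ := Finset.univ.sup j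
  let W : Submodule k (A k) := J.restrictScalars k ⊓ homogeneousSubmodule (Fin 3) k D
  let U : S → Submodule k W := fun p =>
    ((Ideal.span {(p : A k)}).restrictScalars k).comap W.subtype
  have hU : ∀ p, U p ≠ ⊤ := by
    intro p hp
    obtain ⟨g', h1, h2, h3⟩ := exists_coprime_pair_up J (hS p) (hgJ p) (hgh p) (hgn p)
      (Finset.le_sup (f := j) (Finset.mem_univ p))
    have : (⟨g', ⟨h1, h2⟩⟩ : W) ∈ U p := hp ▸ Submodule.mem_top
    exact h3 (Ideal.mem_span_singleton.1 this)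
  obtain ⟨x, hx⟩ := Submodule.exists_forall_notMem_of_forall_ne_top U hU
  refine ⟨f₁, x, j₁, D, hf₁, x.2.1, h0, hh₁, x.2.2, ?_⟩
  rw [UniqueFactorizationMonoid.isRelPrime_iff_no_prime_factors h0]
  intro d hd1 hd2 hd
  obtain ⟨q, hq, hdq⟩ := UniqueFactorizationMonoid.exists_mem_factors_of_dvd h0 hd.irreducible hd1
  exact hx ⟨q, Multiset.mem_toFinset.2 hq⟩ (Ideal.mem_span_singleton.2 (hdq.symm.dvd.trans hd2))

theorem tauS_big_homDeg (g : Gd lam w θ) {f : A k} {j : ℕ} (hf : f.IsHomogeneous j) :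
    HomDeg lam θ θ (LinearMap.lsmul (A k) V f) ((w : ℤ) * j) := by
  intro v
  simp only [LinearMap.lsmul_apply]
  rw [g.comm.smul, mem_eigA_iff_of_homZ (homZ_of_isHomogeneous w hf), smul_assoc]

theorem tauS_big_smul (hl : InfOrd lam) (hw : 0 < w) {ι : Type} [Fintype ι] (b : ι → ℤ)
    {f : A k} {j : ℕ} (hf : f.IsHomogeneous j) (h0 : f ≠ 0) :
    GS lam (θF lam w b) ((⊤ : Submodule (A k) (ι → A k)).map (LinearMap.lsmul (A k) _ f)) ∧
    tauS lam w (θF lam w b) ((⊤ : Submodule (A k) (ι → A k)).map (LinearMap.lsmul (A k) _ f)) =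
      ex ((w : ℤ) * j) * tauS lam w (θF lam w b) ⊤ := by
  have g := gd_F hl hw b
  have hF := (gs_F hl hw b).1
  refine ⟨hF.map _ (tauS_big_homDeg g hf), ?_⟩
  rw [tauS_map g hF _ (tauS_big_homDeg g hf)]
  have : (⊤ : Submodule (A k) (ι → A k)) ⊓ LinearMap.ker (LinearMap.lsmul (A k) (ι → A k) f) = ⊥ := by
    rw [top_inf_eq, LinearMap.ker_eq_bot']
    intro v hv
    simp only [LinearMap.lsmul_apply] at hv
    exact (smul_eq_zero.1 hv).resolve_left h0
  rw [this, tauS_bot, sub_zero]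

/-- Quotient supported in codimension two. -/
theorem tauS_big (g : Gd lam w θ) {N N' : Submodule (A k) V} (hN : GS lam θ N)
    (hN' : GS lam θ N') (hle : N' ≤ N) (h : N ≤ hull N') :
    (tauS lam w θ N).c0 = (tauS lam w θ N').c0 ∧ (tauS lam w θ N).c1 = (tauS lam w θ N').c1 ∧
      (tauS lam w θ N').c2 ≤ (tauS lam w θ N).c2 := by
  classical
  obtain ⟨m, e, d, he, hspan⟩ := hN.exists_gens
  have heN : ∀ i, e i ∈ N := fun i => hspan ▸ Submodule.subset_span ⟨i, rfl⟩
  let J : Ideal (A k) :=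
    { carrier := {f | ∀ i, f • e i ∈ N'}
      add_mem' := fun ha hb i => by rw [add_smul]; exact N'.add_mem (ha i) (hb i)
      zero_mem' := fun i => by rw [zero_smul]; exact N'.zero_mem
      smul_mem' := fun c a ha i => by rw [smul_eq_mul, mul_smul]; exact N'.smul_mem _ (ha i) }
  have hJ : ∀ f ∈ J, ∀ j, homogeneousComponent j f ∈ J := fun f hf j i =>
    homogeneousComponent_smul_mem g N' hN'.stable (he i) (hf i) j
  have hb : ∀ f : A k, Prime f → ∃ h ∈ J, ¬ f ∣ h := by
    intro f hf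
    choose c hc1 hc2 using fun i => h (heN i) f hf
    refine ⟨∏ i, c i, fun i => ?_, fun hd => ?_⟩
    · rw [← Finset.prod_erase_mul _ _ (Finset.mem_univ i), mul_smul]
      exact N'.smul_mem _ (hc2 i)
    · obtain ⟨i, -, hi⟩ := (hf.dvd_finsetProd_iff _).1 hd
      exact hc1 i hi
  obtain ⟨f₁, f₂, j₁, j₂, h1, h2, h10, hh1, hh2, hrel⟩ : ∃ (f₁ f₂ : A k) (j₁ j₂ : ℕ),
      f₁ ∈ J ∧ f₂ ∈ J ∧ (f₁ ≠ 0 ∧ f₂ ≠ 0) ∧ f₁.IsHomogeneous j₁ ∧
      f₂.IsHomogeneous j₂ ∧ IsRelPrime f₁ f₂ := by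
    obtain ⟨f₁, f₂, j₁, j₂, h1, h2, h10, hh1, hh2, hrel⟩ := exists_coprime_pair g.inf J hJ hb
    by_cases h20 : f₂ = 0
    · subst h20
      exact ⟨f₁, f₁, j₁, j₁, h1, h1, ⟨h10, h10⟩, hh1, hh1,
        (isRelPrime_zero_right.1 hrel).isRelPrime_left⟩
    · exact ⟨f₁, f₂, j₁, j₂, h1, h2, ⟨h10, h20⟩, hh1, hh2, hrel⟩
  have gF := gd_F g.inf g.pos d
  have hF := (gs_F g.inf g.pos d).1
  let ψ : (Fin m → A k) →ₗ[A k] V := Fintype.linearCombination (A k) e
  have hψ : ∀ c, θ (ψ c) = ψ (θF lam w d c) := by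
    intro c
    simp only [ψ, Fintype.linearCombination_apply, map_sum]
    refine Finset.sum_congr rfl fun i _ => ?_
    rw [g.comm.smul, mem_eig.1 (he i)]
    change _ = (((lam ^ d i : kˣ) : k) • θA lam w (c i)) • e i
    rw [smul_assoc, smul_comm]
  have hφ : HomDeg lam (θF lam w d) (θQ θ N' hN'.stable) (N'.mkQ ∘ₗ ψ) 0 := by
    intro c
    rw [zpow_zero, Units.val_one, one_smul, LinearMap.comp_apply, LinearMap.comp_apply, θQ_mk, hψ]
  have hq : HomDeg lam θ (θQ θ N' hN'.stable) N'.mkQ 0 := by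
    intro c
    rw [zpow_zero, Units.val_one, one_smul, θQ_mk]
  have e1 := tauS_map gF hF _ hφ
  have e2 := tauS_map g hN _ hq
  have hrange : (⊤ : Submodule (A k) (Fin m → A k)).map (N'.mkQ ∘ₗ ψ) = N.map N'.mkQ := by
    rw [Submodule.map_comp, Submodule.map_top, Fintype.range_linearCombination, hspan]
  rw [hrange, e2, Submodule.ker_mkQ, inf_eq_right.2 hle, ex_zero, one_mul, one_mul] at e1
  have hK : GS lam (θF lam w d) (⊤ ⊓ LinearMap.ker (N'.mkQ ∘ₗ ψ)) := by
    refine hF.inf g.inf fun v hv => ?_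
    rw [LinearMap.mem_ker] at hv ⊢
    have := hφ v
    rw [hv, map_zero, zpow_zero, Units.val_one, one_smul] at this
    exact this.symm
  obtain ⟨s1, t1⟩ := tauS_big_smul g.inf g.pos d hh1 h10.1
  obtain ⟨s2, t2⟩ := tauS_big_smul g.inf g.pos d hh2 h10.2
  obtain ⟨-, t3⟩ := tauS_big_smul g.inf g.pos d (hh1.mul hh2) (mul_ne_zero h10.1 h10.2)
  have hinf : (⊤ : Submodule (A k) (Fin m → A k)).map (LinearMap.lsmul (A k) _ f₁) ⊓
      (⊤ : Submodule (A k) (Fin m → A k)).map (LinearMap.lsmul (A k) _ f₂) =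
      (⊤ : Submodule (A k) (Fin m → A k)).map (LinearMap.lsmul (A k) _ (f₁ * f₂)) := by
    apply le_antisymm
    · rintro v ⟨⟨a, -, ha⟩, ⟨b, -, hb⟩⟩
      have : ∀ i, ∃ c, v i = f₁ * f₂ * c := fun i =>
        hrel.mul_dvd ⟨a i, by rw [← ha]; rfl⟩ ⟨b i, by rw [← hb]; rfl⟩
      choose c hc using this
      exact ⟨c, trivial, funext fun i => (hc i).symm⟩
    · rintro v ⟨a, -, rfl⟩
      refine ⟨⟨f₂ • a, trivial, ?_⟩, ⟨f₁ • a, trivial, ?_⟩⟩
      · simp only [LinearMap.lsmul_apply, mul_smul]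
      · simp only [LinearMap.lsmul_apply]
        rw [mul_comm, mul_smul]
  have e3 := tauS_sup_add_inf gF s1 s2
  rw [hinf, t1, t2, t3] at e3
  have hJk : ∀ f ∈ J, (⊤ : Submodule (A k) (Fin m → A k)).map (LinearMap.lsmul (A k) _ f) ≤
      ⊤ ⊓ LinearMap.ker (N'.mkQ ∘ₗ ψ) := by
    rintro f hf _ ⟨a, -, rfl⟩
    refine ⟨trivial, ?_⟩
    simp only [SetLike.mem_coe, LinearMap.mem_ker, LinearMap.comp_apply, Submodule.mkQ_apply,
      Submodule.Quotient.mk_eq_zero, ψ, Fintype.linearCombination_apply, LinearMap.lsmul_apply]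
    refine N'.sum_mem fun i _ => ?_
    rw [Pi.smul_apply, smul_eq_mul, mul_comm, mul_smul]
    exact N'.smul_mem _ (hf i)
  have p1 := tauS_pos gF hK (s1.sup s2) (sup_le (hJk _ h1) (hJk _ h2))
  have p2 := tauS_pos g hN hN' hle
  have c0 := congrArg T3.c0 e1
  have c1 := congrArg T3.c1 e1
  have d0 := congrArg T3.c0 e3
  have d1 := congrArg T3.c1 e3
  simp only [T3.Pos, T3.sub_c0, T3.sub_c1, T3.sub_c2, T3.add_c0, T3.add_c1, T3.mul_c0, T3.mul_c1,
    ex] at p1 p2 c0 c1 d0 d1
  push_cast at d1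
  have z0 : (tauS lam w θ N).c0 - (tauS lam w θ N').c0 = 0 := by linarith [p1.1, p2.1]
  have z1 : (tauS lam w θ N).c1 - (tauS lam w θ N').c1 = 0 := by
    have a1 := (p1.2 (by linarith)).1
    have a2 := (p2.2 z0).1
    linarith
  have z2 := (p2.2 z0).2 z1
  exact ⟨by linarith, by linarith, by linarith⟩

/-- The rank. -/
theorem tauS_rank [Module (K k) V] [IsScalarTower (A k) (K k) V] (g : Gd lam w θ)
    {N : Submodule (A k) V} (hN : GS lam θ N) :
    (tauS lam w θ N).c0 = Module.finrank (K k) (Submodule.span (K k) (N : Set V)) := by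
  classical
  obtain ⟨m, e, d, he, hspan⟩ := hN.exists_gens
  obtain ⟨κ, a, ha, hsp, hli⟩ := exists_linearIndependent' (K k) e
  have : Finite κ := Finite.of_injective a ha
  have := Fintype.ofFinite κ
  have hliA : LinearIndependent (A k) (e ∘ a) :=
    (LinearIndependent.iff_fractionRing (A k) (K k)).2 hli
  have h1 : Submodule.span (K k) (N : Set V) = Submodule.span (K k) (Set.range (e ∘ a)) := by
    rw [hsp, ← hspan, Submodule.span_span_of_tower]
  have h2 := tauS_free g (e ∘ a) (d ∘ a) (fun i => he (a i)) hliA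
  have h3 := (tauS_torsion g hN (GS.span g (e ∘ a) (d ∘ a) fun i => he (a i)) (by
    rw [← hspan]
    exact Submodule.span_mono (Set.range_comp_subset_range a e)) (by
    intro v hv
    have hv' : v ∈ Submodule.span (K k) (Set.range (e ∘ a)) := by
      rw [← h1]; exact Submodule.subset_span hv
    obtain ⟨c, rfl⟩ := (Submodule.mem_span_range_iff_exists_fun (K k)).1 hv'
    obtain ⟨b, hb⟩ := IsLocalization.exist_integer_multiples_of_finite (nonZeroDivisors (A k)) c
    refine ⟨b, nonZeroDivisors.ne_zero b.2, ?_⟩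
    rw [Finset.smul_sum]
    refine Submodule.sum_mem _ fun i _ => ?_
    obtain ⟨x, hx⟩ := hb i
    rw [← smul_assoc, ← hx, algebraMap_smul]
    exact Submodule.smul_mem _ _ (Submodule.subset_span ⟨i, rfl⟩))).1
  rw [h3, h2, h1, finrank_span_eq_card hli, T3.sum_c0]
  simp [ex]

theorem exists_c1_lower_ideal (hl : InfOrd lam) (hw : 0 < w) {J : Submodule (A k) (A k)}
    (hJ : GS lam (θA lam w).toLinearMap J) : 0 ≤ (tauS lam w (θA lam w).toLinearMap J).c1 := by
  by_cases h : J = ⊥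
  · rw [h, tauS_bot]; rfl
  · obtain ⟨f, hf, hf0⟩ := Submodule.exists_mem_ne_zero_of_ne_bot h
    have h1 := (tauS_torsion (gd_A hl hw) (gs_A lam w) hJ le_top fun v _ =>
      ⟨f, hf0, by rw [smul_eq_mul, mul_comm]; exact J.smul_mem v hf⟩).2
    rwa [tauS, hilb_A hl hw, tauH_hA hw, T3.one_c1] at h1

theorem exists_c1_lower_free (hl : InfOrd lam) (hw : 0 < w) {ι : Type} [Fintype ι] (b : ι → ℤ)
    (b0 : ℤ) (hb : ∀ i, b0 ≤ b i) {N : Submodule (A k) (ι → A k)} (hN : GS lam (θF lam w b) N) :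
    (tauS lam w (θF lam w b) N).c0 * b0 ≤ (tauS lam w (θF lam w b) N).c1 := by
  classical
  have key : ∀ s : Finset ι, ∀ N : Submodule (A k) (ι → A k), GS lam (θF lam w b) N →
      (∀ v ∈ N, ∀ i ∉ s, v i = 0) →
      (tauS lam w (θF lam w b) N).c0 * b0 ≤ (tauS lam w (θF lam w b) N).c1 := by
    intro s
    induction s using Finset.induction_on with
    | empty =>
      intro N _ h
      have : N = ⊥ := (Submodule.eq_bot_iff _).2 fun v hv => funext fun i => h v hv i (by simp)
      rw [this, tauS_bot]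
      simp
    | insert a s _ ih =>
      intro N hN h
      let π : (ι → A k) →ₗ[A k] A k := LinearMap.proj a
      have hπ : HomDeg lam (θF lam w b) (θA lam w).toLinearMap π (-b a) := fun v => by
        show θA lam w (v a) = ((lam ^ (-b a) : kˣ) : k) • ((lam ^ b a : kˣ) : k) • θA lam w (v a)
        rw [smul_smul, ← Units.val_mul, ← zpow_add, neg_add_cancel, zpow_zero, Units.val_one,
          one_smul]
      have hK : GS lam (θF lam w b) (N ⊓ LinearMap.ker π) := by
        refine hN.inf hl fun v hv => ?_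
        have hv' : v a = 0 := hv
        show ((lam ^ b a : kˣ) : k) • θA lam w (v a) = 0
        rw [hv', map_zero, smul_zero]
      have h1 := ih _ hK fun v hv i hi => by
        by_cases e : i = a
        · rw [e]; exact hv.2
        · exact h v hv.1 i (by simp [e, hi])
      have h2 := exists_c1_lower_ideal hl hw (hN.map π hπ)
      have h3 := (tauS_pos (gd_F hl hw b) hN hK inf_le_left).1
      rw [tauS_map (gd_F hl hw b) hN π hπ] at h2
      simp only [T3.mul_c1, T3.sub_c0, T3.sub_c1, ex, one_mul, Int.cast_neg] at h2 h3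
      have h4 : (b0 : ℚ) ≤ b a := by exact_mod_cast hb a
      nlinarith [mul_le_mul_of_nonneg_left h4 h3]
  exact key Finset.univ N hN fun v _ i hi => absurd (Finset.mem_univ i) hi

/-- In a torsion-free graded module a submodule of rank `r` has `c1 ≥ r b` for a uniform `b`. -/
theorem exists_c1_lower (g : Gd lam w θ) {N : Submodule (A k) V} (hN : GS lam θ N)
    (htf : ∀ v ∈ N, ∀ f : A k, f ≠ 0 → f • v = 0 → v = 0) :
    ∃ b : ℤ, ∀ N' : Submodule (A k) V, GS lam θ N' → N' ≤ N →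
      (tauS lam w θ N').c0 * b ≤ (tauS lam w θ N').c1 := by
  classical
  obtain ⟨m, e, d, he, rfl⟩ := hN.exists_gens
  obtain ⟨s, hs, hmax⟩ := exists_maximal_linearIndepOn (A k) e
  let φ : (s → A k) →ₗ[A k] V := Fintype.linearCombination (A k) fun i : s => e i
  have hφ : HomDeg lam (θF lam w fun i : s => d i) θ φ 0 := fun c => by
    simp only [φ, Fintype.linearCombination_apply, map_sum, zpow_zero, Units.val_one, one_smul]
    refine Finset.sum_congr rfl fun i _ => ?_
    rw [g.comm.smul, mem_eig.1 (he i), smul_comm, ← smul_assoc]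
    rfl
  have hφ' : ∀ c, θ (φ c) = φ (θF lam w (fun i : s => d i) c) := fun c => by simpa using hφ c
  have hinj : LinearMap.ker φ = ⊥ :=
    LinearMap.ker_eq_bot.2 (linearIndependent_iff_injective_fintypeLinearCombination.1 hs)
  have hst : ∀ v ∈ LinearMap.range φ, θ v ∈ LinearMap.range φ := by
    rintro _ ⟨c, rfl⟩
    exact ⟨_, (hφ' c).symm⟩
  have hr : LinearMap.range φ = Submodule.span (A k) (e '' s) := by
    rw [Fintype.range_linearCombination, Set.image_eq_range]
  have hann : ∀ i, ∃ (f : A k) (j : ℕ), f ≠ 0 ∧ f.IsHomogeneous j ∧ f • e i ∈ LinearMap.range φ := by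
    intro i
    by_cases hi : i ∈ s
    · exact ⟨1, 0, one_ne_zero, isHomogeneous_one _ _, by
        rw [one_smul, hr]; exact Submodule.subset_span ⟨i, hi, rfl⟩⟩
    · obtain ⟨a, ha, hae⟩ := hmax i hi
      exact exists_hom_ann g _ hst (he i) ha (hr ▸ hae)
  choose f j hf0 hfj hfe using hann
  have hH : (∏ i, f i).IsHomogeneous (∑ i, j i) := IsHomogeneous.prod _ _ _ fun i _ => hfj i
  have hH0 : ∏ i, f i ≠ 0 := Finset.prod_ne_zero_iff.2 fun i _ => hf0 i
  have hHe : ∀ i, (∏ i, f i) • e i ∈ LinearMap.range φ := fun i => by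
    rw [← Finset.prod_erase_mul _ _ (Finset.mem_univ i), mul_smul]
    exact Submodule.smul_mem _ _ (hfe i)
  generalize ∏ i, f i = H at hH hH0 hHe
  generalize ∑ i, j i = J at hH
  let μ : V →ₗ[A k] V := LinearMap.lsmul (A k) V H
  have hμ : HomDeg lam θ θ μ ((w : ℤ) * J) := fun v => by
    show θ (H • v) = _ • H • θ v
    have := mem_eig.1 ((mem_eigA_iff g.inf H _).2 (homZ_of_isHomogeneous w hH))
    rw [g.comm.smul, ← smul_assoc, ← this]
    rfl
  have hle : (Submodule.span (A k) (Set.range e)).map μ ≤ LinearMap.range φ := by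
    rw [Submodule.map_span, Submodule.span_le]
    rintro _ ⟨_, ⟨i, rfl⟩, rfl⟩
    exact hHe i
  obtain ⟨b0, hb0⟩ : ∃ b0 : ℤ, ∀ i : s, b0 ≤ d i := by
    obtain ⟨b0, hb0⟩ := (Set.finite_range d).bddBelow
    exact ⟨b0, fun i => hb0 ⟨i, rfl⟩⟩
  refine ⟨b0 - w * J, fun N' hN' hle' => ?_⟩
  have e1 := tauS_map g hN' μ hμ
  have k1 : N' ⊓ LinearMap.ker μ = ⊥ :=
    (Submodule.eq_bot_iff _).2 fun v hv => htf v (hle' hv.1) H hH0 hv.2
  have h2 : GS lam (θF lam w fun i : s => d i) ((N'.map μ).comap φ) :=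
    (gs_F g.inf g.pos _).1.of_le g.inf le_top fun c hc => by
      rw [Submodule.mem_comap, ← hφ']
      exact (hN'.map μ hμ).stable _ hc
  have e2 := tauS_map (gd_F g.inf g.pos _) h2 φ hφ
  rw [Submodule.map_comap_eq_of_le ((Submodule.map_mono hle').trans hle), hinj, inf_bot_eq,
    tauS_bot, sub_zero, ex_zero, one_mul, e1, k1, tauS_bot, sub_zero] at e2
  have h3 := exists_c1_lower_free g.inf g.pos _ b0 hb0 h2
  rw [← e2] at h3
  simp only [T3.mul_c0, T3.mul_c1, ex, one_mul] at h3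
  push_cast at h3 ⊢
  linarith

/-- Submodules of a free module with generators in degrees `≥ b0`. -/
theorem c1_ge_of_le_free (hl : InfOrd lam) (hw : 0 < w) {ι : Type} [Fintype ι] (b : ι → ℤ)
    (b0 : ℤ) (hb : ∀ i, b0 ≤ b i) {N : Submodule (A k) (ι → A k)} (hN : GS lam (θF lam w b) N) :
    (tauS lam w (θF lam w b) N).c0 * b0 ≤ (tauS lam w (θF lam w b) N).c1 := by
  exact exists_c1_lower_free hl hw b b0 hb hN

end Crest.Agent.R169
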