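import Crest.Agent.R169.Defs

/-!
# Row 169: numerical lemmas on Hilbert functions (no modules here)
-/

set_option autoImplicit false

namespace Crest.Agent.R169

/-! ### Subtask HF-a -/

theorem ex_zero : ex 0 = 1 := by
  ext <;> simp [ex]

theorem ex_add (m n : ℤ) : ex (m + n) = ex m * ex n := by
  ext <;> simp [ex] <;> ring

theorem T3.sum_c0 {ι : Type} (s : Finset ι) (f : ι → T3) :
    (∑ i ∈ s, f i).c0 = ∑ i ∈ s, (f i).c0 := by
  classical
  induction s using Finset.induction_on with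
  | empty => simp
  | insert a s ha ih => rw [Finset.sum_insert ha, Finset.sum_insert ha, T3.add_c0, ih]

theorem T3.sum_c1 {ι : Type} (s : Finset ι) (f : ι → T3) :
    (∑ i ∈ s, f i).c1 = ∑ i ∈ s, (f i).c1 := by
  classical
  induction s using Finset.induction_on with
  | empty => simp
  | insert a s ha ih => rw [Finset.sum_insert ha, Finset.sum_insert ha, T3.add_c1, ih]

theorem T3.sum_c2 {ι : Type} (s : Finset ι) (f : ι → T3) :
    (∑ i ∈ s, f i).c2 = ∑ i ∈ s, (f i).c2 := by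
  classical
  induction s using Finset.induction_on with
  | empty => simp
  | insert a s ha ih => rw [Finset.sum_insert ha, Finset.sum_insert ha, T3.add_c2, ih]

theorem T3.sig_mul (a b : T3) : (a * b).sig = b.c0 ^ 2 * a.sig + a.c0 ^ 2 * b.sig := by
  simp only [T3.sig, T3.mul_c0, T3.mul_c1, T3.mul_c2]; ring

theorem T3.sc_mul (p : ℚ) (a b : T3) : T3.sc p (a * b) = T3.sc p a * T3.sc p b := by
  ext <;> simp [T3.sc] <;> ring

theorem T3.sig_sc (p : ℚ) (a : T3) : (T3.sc p a).sig = p ^ 2 * a.sig := by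
  simp only [T3.sig, T3.sc]; ring

theorem T3.mul_left_cancel_of_c0 {a b c : T3} (ha : a.c0 ≠ 0) (h : a * b = a * c) : b = c := by
  have h0 := congrArg T3.c0 h
  have h1 := congrArg T3.c1 h
  have h2 := congrArg T3.c2 h
  simp only [T3.mul_c0, T3.mul_c1, T3.mul_c2] at h0 h1 h2
  have e0 : b.c0 = c.c0 := mul_left_cancel₀ ha h0
  have e1 : b.c1 = c.c1 := mul_left_cancel₀ ha (by rw [e0] at h1; linarith)
  have e2 : b.c2 = c.c2 := mul_left_cancel₀ ha (by rw [e0, e1] at h2; linarith)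
  exact T3.ext e0 e1 e2

/-- If `a` and `b` are positive with sum zero, both vanish. -/
theorem T3.Pos.eq_zero {a b : T3} (ha : a.Pos) (hb : b.Pos) (h : a + b = 0) : a = 0 := by
  have h0 := congrArg T3.c0 h
  have h1 := congrArg T3.c1 h
  have h2 := congrArg T3.c2 h
  simp only [T3.add_c0, T3.add_c1, T3.add_c2, T3.zero_c0, T3.zero_c1, T3.zero_c2] at h0 h1 h2
  obtain ⟨a0, ha⟩ := ha
  obtain ⟨b0, hb⟩ := hb
  have e0 : a.c0 = 0 := by linarith
  obtain ⟨a1, ha⟩ := ha e0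
  obtain ⟨b1, hb⟩ := hb (by linarith)
  have e1 : a.c1 = 0 := by linarith
  have a2 := ha e1
  have b2 := hb (by linarith)
  exact T3.ext e0 e1 (by simp only [T3.zero_c2]; linarith)

/-- Moments of a finitely supported function. -/
noncomputable def mom (Q : ℤ → ℚ) : T3 :=
  ⟨∑ᶠ a : ℤ, Q a, ∑ᶠ a : ℤ, Q a * a, ∑ᶠ a : ℤ, Q a * ((a : ℚ) ^ 2 / 2)⟩

theorem tauH_eq_mom (w : ℕ) (h : ℤ → ℚ) : tauH w h = mom (dif3 w h) := rfl

theorem mom_eq {Q : ℤ → ℚ} (s : Finset ℤ) (hs : Function.support Q ⊆ s) :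
    mom Q = ⟨∑ a ∈ s, Q a, ∑ a ∈ s, Q a * a, ∑ a ∈ s, Q a * ((a : ℚ) ^ 2 / 2)⟩ := by
  unfold mom
  rw [finsum_eq_sum_of_support_subset _ hs,
    finsum_eq_sum_of_support_subset _ ((Function.support_mul_subset_left _ _).trans hs),
    finsum_eq_sum_of_support_subset _ ((Function.support_mul_subset_left _ _).trans hs)]

theorem mom_fin_add {Q Q' : ℤ → ℚ} (H : (Function.support Q).Finite)
    (H' : (Function.support Q').Finite) : (Function.support fun n => Q n + Q' n).Finite :=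
  (H.union H').subset (Function.support_add _ _)

theorem mom_fin_sub {Q Q' : ℤ → ℚ} (H : (Function.support Q).Finite)
    (H' : (Function.support Q').Finite) : (Function.support fun n => Q n - Q' n).Finite :=
  (H.union H').subset (Function.support_sub _ _)

theorem mom_fin_shift {Q : ℤ → ℚ} (H : (Function.support Q).Finite) (e : ℤ) :
    (Function.support fun n => Q (n - e)).Finite :=
  (H.image (· + e)).subset fun n hn => ⟨n - e, hn, by simp⟩

theorem mom_add {Q Q' : ℤ → ℚ} (H : (Function.support Q).Finite)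
    (H' : (Function.support Q').Finite) : mom (fun n => Q n + Q' n) = mom Q + mom Q' := by
  have hs := (H.union H').coe_toFinset
  rw [mom_eq (H.union H').toFinset (by rw [hs]; exact Function.support_add _ _),
    mom_eq (Q := Q) (H.union H').toFinset (by rw [hs]; exact Set.subset_union_left),
    mom_eq (Q := Q') (H.union H').toFinset (by rw [hs]; exact Set.subset_union_right)]
  ext <;> simp [add_mul, Finset.sum_add_distrib]

theorem mom_sub {Q Q' : ℤ → ℚ} (H : (Function.support Q).Finite)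
    (H' : (Function.support Q').Finite) : mom (fun n => Q n - Q' n) = mom Q - mom Q' := by
  rw [eq_sub_iff_add_eq, ← mom_add (mom_fin_sub H H') H']
  simp

theorem mom_shift {Q : ℤ → ℚ} (H : (Function.support Q).Finite) (e : ℤ) :
    mom (fun n => Q (n - e)) = ex e * mom Q := by
  classical
  rw [mom_eq (Q := Q) H.toFinset (by rw [H.coe_toFinset]),
    mom_eq (H.toFinset.image (· + e)) (fun n hn => by
      rw [Finset.coe_image, H.coe_toFinset]; exact ⟨n - e, hn, by simp⟩)]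
  have hi : Set.InjOn (· + e) (H.toFinset : Set ℤ) := fun a _ b _ h => by simpa using h
  rw [Finset.sum_image hi, Finset.sum_image hi, Finset.sum_image hi]
  ext
  · simp [ex]
  · simp only [ex, T3.mul_c1, add_sub_cancel_right, one_mul, Finset.mul_sum,
      ← Finset.sum_add_distrib]
    exact Finset.sum_congr rfl fun a _ => by push_cast; ring
  · simp only [ex, T3.mul_c2, add_sub_cancel_right, one_mul, Finset.mul_sum,
      ← Finset.sum_add_distrib]
    exact Finset.sum_congr rfl fun a _ => by push_cast; ring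

theorem mom_fin_dif {Q : ℤ → ℚ} (H : (Function.support Q).Finite) (w : ℕ) :
    (Function.support (dif w Q)).Finite := mom_fin_sub H (mom_fin_shift H _)

theorem mom_dif {Q : ℤ → ℚ} (H : (Function.support Q).Finite) (w : ℕ) :
    mom (dif w Q) = (1 - ex w) * mom Q := by
  rw [sub_mul, one_mul, ← mom_shift H, ← mom_sub H (mom_fin_shift H _)]
  rfl

theorem dif3_add (w : ℕ) (h h' : ℤ → ℚ) :
    dif3 w (fun n => h n + h' n) = fun n => dif3 w h n + dif3 w h' n := by
  funext n; simp only [dif3, dif]; ring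

theorem dif3_sub (w : ℕ) (h h' : ℤ → ℚ) :
    dif3 w (fun n => h n - h' n) = fun n => dif3 w h n - dif3 w h' n := by
  funext n; simp only [dif3, dif]; ring

theorem dif3_shift (w : ℕ) (h : ℤ → ℚ) (e : ℤ) :
    dif3 w (fun n => h (n - e)) = fun n => dif3 w h (n - e) := by
  funext n; simp only [dif3, dif, sub_right_comm _ e]

theorem IsHF.add {w : ℕ} {h h' : ℤ → ℚ} (H : IsHF w h) (H' : IsHF w h') :
    IsHF w (fun n => h n + h' n) := by
  obtain ⟨⟨b, hb⟩, H⟩ := H
  obtain ⟨⟨b', hb'⟩, H'⟩ := H'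
  refine ⟨⟨min b b', fun n hn => ?_⟩, ?_⟩
  · show h n + h' n = 0
    rw [hb n (lt_of_lt_of_le hn (min_le_left _ _)), hb' n (lt_of_lt_of_le hn (min_le_right _ _)),
      add_zero]
  · rw [dif3_add]; exact mom_fin_add H H'

theorem IsHF.sub {w : ℕ} {h h' : ℤ → ℚ} (H : IsHF w h) (H' : IsHF w h') :
    IsHF w (fun n => h n - h' n) := by
  obtain ⟨⟨b, hb⟩, H⟩ := H
  obtain ⟨⟨b', hb'⟩, H'⟩ := H'
  refine ⟨⟨min b b', fun n hn => ?_⟩, ?_⟩
  · show h n - h' n = 0
    rw [hb n (lt_of_lt_of_le hn (min_le_left _ _)), hb' n (lt_of_lt_of_le hn (min_le_right _ _)),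
      sub_zero]
  · rw [dif3_sub]; exact mom_fin_sub H H'

theorem IsHF.shift {w : ℕ} {h : ℤ → ℚ} (H : IsHF w h) (e : ℤ) : IsHF w (fun n => h (n - e)) := by
  obtain ⟨⟨b, hb⟩, H⟩ := H
  refine ⟨⟨b + e, fun n hn => hb _ (by omega)⟩, ?_⟩
  rw [dif3_shift]; exact mom_fin_shift H e

theorem IsHF.sum {w : ℕ} {ι : Type} (s : Finset ι) {h : ι → ℤ → ℚ} (H : ∀ i ∈ s, IsHF w (h i)) :
    IsHF w (fun n => ∑ i ∈ s, h i n) := by
  classical
  induction s using Finset.induction_on with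
  | empty =>
    refine ⟨⟨0, fun n _ => by simp⟩, ?_⟩
    have : dif3 w (fun n => ∑ i ∈ (∅ : Finset ι), h i n) = fun _ => 0 := by
      funext n; simp [dif3, dif]
    rw [this]; simp
  | insert a s ha ih =>
    simp only [Finset.sum_insert ha]
    exact (H a (Finset.mem_insert_self _ _)).add
      (ih fun i hi => H i (Finset.mem_insert_of_mem hi))

theorem tauH_add {w : ℕ} {h h' : ℤ → ℚ} (H : IsHF w h) (H' : IsHF w h') :
    tauH w (fun n => h n + h' n) = tauH w h + tauH w h' := by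
  rw [tauH_eq_mom, dif3_add, mom_add H.2 H'.2]; rfl

theorem tauH_sub {w : ℕ} {h h' : ℤ → ℚ} (H : IsHF w h) (H' : IsHF w h') :
    tauH w (fun n => h n - h' n) = tauH w h - tauH w h' := by
  rw [tauH_eq_mom, dif3_sub, mom_sub H.2 H'.2]; rfl

theorem tauH_shift {w : ℕ} {h : ℤ → ℚ} (H : IsHF w h) (e : ℤ) :
    tauH w (fun n => h (n - e)) = ex e * tauH w h := by
  rw [tauH_eq_mom, dif3_shift, mom_shift H.2]; rfl

theorem tauH_sum {w : ℕ} {ι : Type} (s : Finset ι) {h : ι → ℤ → ℚ} (H : ∀ i ∈ s, IsHF w (h i)) :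
    tauH w (fun n => ∑ i ∈ s, h i n) = ∑ i ∈ s, tauH w (h i) := by
  classical
  induction s using Finset.induction_on with
  | empty => ext <;> simp [tauH, dif3, dif]
  | insert a s ha ih =>
    simp only [Finset.sum_insert ha]
    rw [tauH_add (H a (Finset.mem_insert_self _ _))
      (IsHF.sum s fun i hi => H i (Finset.mem_insert_of_mem hi)),
      ih fun i hi => H i (Finset.mem_insert_of_mem hi)]

theorem dif3_hA_mul {w : ℕ} (hw : 0 < w) (m : ℤ) :
    hA w (w * m) = if 0 ≤ m then ((m : ℚ) + 2) * ((m : ℚ) + 1) / 2 else 0 := by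
  have hw' : (0 : ℤ) < w := by omega
  simp only [hA, dvd_mul_right, true_and, mul_nonneg_iff_of_pos_left hw',
    Int.mul_ediv_cancel_left _ hw'.ne']
  push_cast
  rfl

theorem dif3_hA {w : ℕ} (hw : 0 < w) (n : ℤ) : dif3 w (hA w) n = if n = 0 then 1 else 0 := by
  have hw' : (w : ℤ) ≠ 0 := by omega
  by_cases hd : (w : ℤ) ∣ n
  · obtain ⟨m, rfl⟩ := hd
    have e : ∀ m : ℤ, (w : ℤ) * m - w = w * (m - 1) := fun m => by ring
    simp only [dif3, dif, e, dif3_hA_mul hw, mul_eq_zero, hw', false_or]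
    rcases lt_or_ge m 0 with h | h
    · rw [if_neg (by omega), if_neg (by omega), if_neg (by omega), if_neg (by omega),
        if_neg (by omega)]
      norm_num
    rcases lt_or_ge m 3 with h3 | h3
    · interval_cases m <;> norm_num
    · rw [if_pos (by omega), if_pos (by omega), if_pos (by omega), if_pos (by omega),
        if_neg (by omega)]
      push_cast; ring
  · have h0 : n ≠ 0 := by rintro rfl; exact hd (dvd_zero _)
    have e : ∀ m : ℤ, (w : ℤ) ∣ m - w ↔ (w : ℤ) ∣ m := fun m => dvd_sub_self_right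
    simp [dif3, dif, hA, e, hd, h0]

theorem isHF_hA {w : ℕ} (hw : 0 < w) : IsHF w (hA w) := by
  refine ⟨⟨0, fun n hn => by simp [hA, not_le.2 hn]⟩, (Set.finite_singleton 0).subset ?_⟩
  intro n hn
  rw [Function.mem_support, dif3_hA hw] at hn
  by_contra h
  exact hn (if_neg h)

theorem tauH_hA {w : ℕ} (hw : 0 < w) : tauH w (hA w) = 1 := by
  rw [tauH_eq_mom, mom_eq {0} (fun n hn => by
    rw [Function.mem_support, dif3_hA hw] at hn
    by_contra h
    exact hn (if_neg (by simpa using h)))]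
  ext <;> simp [dif3_hA hw]

/-- A finitely supported function has class zero. -/
theorem tauH_eq_zero {w : ℕ} {h : ℤ → ℚ} (H : (Function.support h).Finite) :
    IsHF w h ∧ tauH w h = 0 := by
  refine ⟨⟨?_, mom_fin_dif (mom_fin_dif (mom_fin_dif H w) w) w⟩, ?_⟩
  · obtain ⟨b, hb⟩ := H.bddBelow
    exact ⟨b, fun n hn => by_contra fun h => absurd (hb h) (not_le.2 hn)⟩
  · rw [tauH_eq_mom, dif3, mom_dif (mom_fin_dif (mom_fin_dif H w) w), mom_dif (mom_fin_dif H w),
      mom_dif H]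
    ext <;> simp [ex]

/-- Integrality. -/
theorem tauH_int {w : ℕ} {h : ℤ → ℚ} (H : IsHF w h) (hi : ∀ n, ∃ m : ℤ, h n = m) :
    (∃ m : ℤ, (tauH w h).c0 = m) ∧ (∃ m : ℤ, (tauH w h).c1 = m) ∧
      ∃ m : ℤ, 2 * (tauH w h).c2 = m := by
  choose g hg using hi
  have hd : ∀ n, ∃ m : ℤ, dif3 w h n = m := fun n =>
    ⟨_, by simp only [dif3, dif, hg]; norm_cast⟩
  choose d hd using hd
  rw [tauH_eq_mom, mom_eq H.2.toFinset (by rw [H.2.coe_toFinset])]
  refine ⟨⟨∑ a ∈ H.2.toFinset, d a, ?_⟩, ⟨∑ a ∈ H.2.toFinset, d a * a, ?_⟩,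
    ⟨∑ a ∈ H.2.toFinset, d a * a ^ 2, ?_⟩⟩
  · simp [hd]
  · simp [hd]
  · simp only [hd, Finset.mul_sum]
    push_cast
    exact Finset.sum_congr rfl fun a _ => by ring

/-! ### Subtask HF-b -/

theorem qq_eq_hA_mul {w : ℕ} (hw : 0 < w) (q : ℤ) :
    hA w (w * q) = if 0 ≤ q then ((q : ℚ) + 2) * ((q : ℚ) + 1) / 2 else 0 := by
  have hw' : (0 : ℤ) < w := by exact_mod_cast hw
  unfold hA
  rw [Int.mul_ediv_cancel_left _ hw'.ne']
  by_cases hq : 0 ≤ q
  · rw [if_pos ⟨dvd_mul_right _ _, mul_nonneg hw'.le hq⟩, if_pos hq]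
    push_cast
    ring
  · rw [if_neg hq, if_neg]
    rintro ⟨-, h⟩
    exact hq (nonneg_of_mul_nonneg_right h hw' |> fun h => h)

theorem qq_eq {w : ℕ} (hw : 0 < w) (i : ℤ) : qq w i = hA w i + hA w (-(3 * w) - i) := by
  have hw' : (0 : ℤ) < w := by exact_mod_cast hw
  by_cases hd : (w : ℤ) ∣ i
  · obtain ⟨q, rfl⟩ := hd
    have e : -(3 * (w : ℤ)) - w * q = w * (-3 - q) := by ring
    rw [e, qq_eq_hA_mul hw, qq_eq_hA_mul hw]
    unfold qq
    rw [if_pos (dvd_mul_right _ _), Int.mul_ediv_cancel_left _ hw'.ne']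
    push_cast
    by_cases h1 : 0 ≤ q
    · rw [if_pos h1, if_neg (by omega)]
      ring
    · rw [if_neg h1]
      by_cases h2 : 0 ≤ -3 - q
      · rw [if_pos h2]
        ring
      · rw [if_neg h2]
        have : q = -1 ∨ q = -2 := by omega
        rcases this with rfl | rfl <;> norm_num
  · have hd' : ¬ (w : ℤ) ∣ -(3 * (w : ℤ)) - i := by
      intro h
      apply hd
      have : i = -(-(3 * (w : ℤ)) - i) - w * 3 := by ring
      rw [this]
      exact dvd_sub (dvd_neg.2 h) (dvd_mul_right _ _)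
    unfold qq hA
    rw [if_neg hd, if_neg fun h => hd h.1, if_neg fun h => hd' h.1, add_zero]

theorem eq_finsum_inj {w : ℕ} (hw : 0 < w) {g : ℤ → ℚ} (hb : ∃ b : ℤ, ∀ n < b, g n = 0)
    (h : ∀ n, dif w g n = 0) (n : ℤ) : g n = 0 := by
  obtain ⟨b, hb⟩ := hb
  have key : ∀ m : ℕ, ∀ n < b + m, g n = 0 := by
    intro m
    induction m with
    | zero => simpa using hb
    | succ m ih =>
      intro n hn
      have h1 := h n
      unfold dif at h1
      rw [ih (n - w) (by push_cast at hn; omega)] at h1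
      simpa using h1
  exact key ((n - b).toNat + 1) n (by push_cast; omega)

theorem eq_finsum_left (w : ℕ) {g : ℤ → ℚ} (hb : ∃ b : ℤ, ∀ n < b, g n = 0) :
    ∃ b : ℤ, ∀ n < b, dif w g n = 0 := by
  obtain ⟨b, hb⟩ := hb
  refine ⟨b, fun n hn => ?_⟩
  unfold dif
  rw [hb n hn, hb _ (by omega), sub_zero]

theorem eq_finsum_inj3 {w : ℕ} (hw : 0 < w) {g g' : ℤ → ℚ} (hb : ∃ b : ℤ, ∀ n < b, g n = 0)
    (hb' : ∃ b : ℤ, ∀ n < b, g' n = 0) (h : ∀ n, dif3 w g n = dif3 w g' n) (n : ℤ) :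
    g n = g' n := by
  have h0 : ∃ b : ℤ, ∀ n < b, (fun n => g n - g' n) n = 0 := by
    obtain ⟨b, hb⟩ := hb
    obtain ⟨b', hb'⟩ := hb'
    refine ⟨min b b', fun n hn => ?_⟩
    simp only [lt_min_iff] at hn
    simp only [hb n hn.1, hb' n hn.2, sub_zero]
  have h1 := eq_finsum_left w h0
  have h2 := eq_finsum_left w h1
  have h3 : ∀ n, dif w (dif w (dif w fun n => g n - g' n)) n = 0 := by
    intro n
    have := h n
    simp only [dif3, dif] at this ⊢
    linarith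
  exact sub_eq_zero.1 (eq_finsum_inj hw h0 (eq_finsum_inj hw h1 (eq_finsum_inj hw h2 h3)) n)

theorem eq_finsum_dif3 (w : ℕ) (s : Finset ℤ) (P q : ℤ → ℚ) (n : ℤ) :
    dif3 w (fun n => ∑ a ∈ s, P a * q (n - a)) n = ∑ a ∈ s, P a * dif3 w q (n - a) := by
  simp only [dif3, dif, ← Finset.sum_sub_distrib, ← mul_sub]
  refine Finset.sum_congr rfl fun a _ => ?_
  simp only [sub_right_comm _ a]

theorem eq_finsum_sum {w : ℕ} {h : ℤ → ℚ} (H : IsHF w h) (q : ℤ → ℚ) :
    ∑ᶠ a : ℤ, dif3 w h a * q a = ∑ a ∈ H.2.toFinset, dif3 w h a * q a := by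
  apply finsum_eq_sum_of_support_subset
  intro a ha
  rw [Set.Finite.coe_toFinset]
  exact left_ne_zero_of_mul ha

/-- `h = P / (1 - t^w)^3`. -/
theorem IsHF.eq_finsum {w : ℕ} (hw : 0 < w) {h : ℤ → ℚ} (H : IsHF w h) (n : ℤ) :
    h n = ∑ᶠ a : ℤ, dif3 w h a * hA w (n - a) := by
  rw [eq_finsum_sum H]
  refine eq_finsum_inj3 hw (g' := fun n => ∑ a ∈ H.2.toFinset, dif3 w h a * hA w (n - a))
    H.1 ?_ (fun n => ?_) n
  · obtain ⟨b, hb⟩ := H.2.bddBelow
    refine ⟨b, fun n hn => Finset.sum_eq_zero fun a ha => ?_⟩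
    have : b ≤ a := hb (H.2.mem_toFinset.1 ha)
    unfold hA
    rw [if_neg fun h => absurd h.2 (by omega), mul_zero]
  · have e : dif3 w (fun n => ∑ a ∈ H.2.toFinset, dif3 w h a * hA w (n - a)) n =
        ∑ a ∈ H.2.toFinset, dif3 w h a * dif3 w (hA w) (n - a) := by
      exact eq_finsum_dif3 _ _ _ _ _
    rw [e]
    simp only [dif3_hA hw, sub_eq_zero, mul_ite, mul_one, mul_zero]
    rw [Finset.sum_ite_eq]
    split_ifs with h1
    · rfl
    · by_contra h2
      exact h1 (H.2.mem_toFinset.2 h2)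

/-- Sliding sum. -/
def cubeS (w : ℕ) (h : ℤ → ℚ) : ℤ → ℚ := fun n => ∑ i ∈ Finset.range w, h (n - i)

theorem cube_eq_S (w : ℕ) (h : ℤ → ℚ) : cube w h = cubeS w (cubeS w (cubeS w h)) := rfl

theorem cube_dif_one (w : ℕ) (h : ℤ → ℚ) : dif 1 (cubeS w h) = dif w h := by
  funext n
  induction w with
  | zero => simp [dif, cubeS]
  | succ w ih =>
    simp only [dif, cubeS, Finset.sum_range_succ] at ih ⊢
    push_cast at ih ⊢
    have e : n - 1 - w = n - (w + 1) := by ring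
    rw [e]
    linarith

theorem cube_dif_comm (a b : ℕ) (h : ℤ → ℚ) : dif a (dif b h) = dif b (dif a h) := by
  funext n
  simp only [dif, sub_right_comm n a b]
  ring

theorem cube_dif3 (w : ℕ) (h : ℤ → ℚ) : dif3 1 (cube w h) = dif3 w h := by
  unfold dif3
  rw [cube_eq_S, cube_dif_one, cube_dif_comm 1 w, cube_dif_one, cube_dif_comm 1 w,
    cube_dif_comm 1 w, cube_dif_one]

theorem cube_hA_aux {w : ℕ} (hw : 0 < w) (n : ℤ) :
    cube w (hA w) n = if 0 ≤ n then ((n : ℚ) + 2) * ((n : ℚ) + 1) / 2 else 0 := by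
  have h1 := qq_eq_hA_mul Nat.one_pos n
  rw [Nat.cast_one, one_mul] at h1
  rw [← h1]
  refine eq_finsum_inj3 Nat.one_pos ⟨0, fun n hn => ?_⟩ ⟨0, fun n hn => ?_⟩ (fun n => ?_) n
  · refine Finset.sum_eq_zero fun i _ => Finset.sum_eq_zero fun j _ =>
      Finset.sum_eq_zero fun l _ => ?_
    unfold hA
    rw [if_neg fun h => absurd h.2 (by omega)]
  · unfold hA
    rw [if_neg fun h => absurd h.2 (by omega)]
  · rw [cube_dif3, dif3_hA hw, dif3_hA Nat.one_pos]

theorem cube_reflect (w : ℕ) (h : ℤ → ℚ) (c : ℤ) :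
    cubeS w (fun n => h (c - n)) = fun n => cubeS w h (c + w - 1 - n) := by
  funext n
  unfold cubeS
  rw [← Finset.sum_range_reflect]
  refine Finset.sum_congr rfl fun i hi => ?_
  rw [Finset.mem_range] at hi
  have : c - (n - ((w - 1 - i : ℕ) : ℤ)) = c + w - 1 - n - i := by omega
  beta_reduce
  rw [this]

theorem cube_qq {w : ℕ} (hw : 0 < w) (n : ℤ) :
    cube w (qq w) n = ((n : ℚ) + 2) * ((n : ℚ) + 1) / 2 := by
  have e1 : cube w (qq w) n = cube w (hA w) n + cube w (fun i => hA w (-(3 * w) - i)) n := by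
    unfold cube
    simp only [qq_eq hw, Finset.sum_add_distrib]
  have e2 : cube w (fun i => hA w (-(3 * w) - i)) n = cube w (hA w) (-3 - n) := by
    rw [cube_eq_S, cube_eq_S, cube_reflect, cube_reflect, cube_reflect]
    have : -(3 * (w : ℤ)) + w - 1 + w - 1 + w - 1 - n = -3 - n := by ring
    beta_reduce
    rw [this]
  rw [e1, e2, cube_hA_aux hw, cube_hA_aux hw]
  push_cast
  by_cases h1 : 0 ≤ n
  · rw [if_pos h1, if_neg (by omega)]
    ring
  · rw [if_neg h1]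
    by_cases h2 : 0 ≤ -3 - n
    · rw [if_pos h2]
      ring
    · rw [if_neg h2]
      have : n = -1 ∨ n = -2 := by omega
      rcases this with rfl | rfl <;> norm_num

theorem cube_hA {w : ℕ} (hw : 0 < w) (n : ℤ) :
    cube w (hA w) n = if 0 ≤ n then ((n : ℚ) + 2) * ((n : ℚ) + 1) / 2 else 0 := by
  exact cube_hA_aux hw n

theorem cube_chi_S (w : ℕ) (s : Finset ℤ) (P q : ℤ → ℚ) :
    cubeS w (fun m => ∑ a ∈ s, P a * q (m - a)) =
      fun m => ∑ a ∈ s, P a * cubeS w q (m - a) := by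
  funext n
  unfold cubeS
  simp only [Finset.mul_sum]
  rw [Finset.sum_comm]
  refine Finset.sum_congr rfl fun a _ => Finset.sum_congr rfl fun i _ => ?_
  rw [sub_right_comm]

theorem cube_chi_sum (w : ℕ) (s : Finset ℤ) (P q : ℤ → ℚ) (n : ℤ) :
    cube w (fun m => ∑ a ∈ s, P a * q (m - a)) n = ∑ a ∈ s, P a * cube w q (n - a) := by
  rw [cube_eq_S, cube_eq_S, cube_chi_S, cube_chi_S, cube_chi_S]

theorem cube_chi_poly {w : ℕ} {h : ℤ → ℚ} (H : IsHF w h) (n : ℤ) :
    ∑ a ∈ H.2.toFinset, dif3 w h a * ((((n - a : ℤ) : ℚ) + 2) * (((n - a : ℤ) : ℚ) + 1) / 2) =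
      (tauH w h).c0 * (((n : ℚ) + 3 / 2) ^ 2 / 2 - 1 / 8) - ((n : ℚ) + 3 / 2) * (tauH w h).c1 +
        (tauH w h).c2 := by
  have e0 := eq_finsum_sum H fun _ => 1
  simp only [mul_one] at e0
  unfold tauH
  simp only
  rw [e0, eq_finsum_sum H, eq_finsum_sum H, Finset.sum_mul, Finset.mul_sum,
    ← Finset.sum_sub_distrib, ← Finset.sum_add_distrib]
  refine Finset.sum_congr rfl fun a _ => ?_
  push_cast
  ring

/-- The averaged Hilbert polynomial. -/
theorem cube_chi {w : ℕ} (hw : 0 < w) {h : ℤ → ℚ} (H : IsHF w h) (n : ℤ) :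
    cube w (fun m => ∑ᶠ a : ℤ, dif3 w h a * qq w (m - a)) n =
      (tauH w h).c0 * (((n : ℚ) + 3 / 2) ^ 2 / 2 - 1 / 8) - ((n : ℚ) + 3 / 2) * (tauH w h).c1 +
        (tauH w h).c2 := by
  simp only [eq_finsum_sum H]
  rw [cube_chi_sum, ← cube_chi_poly H]
  simp only [cube_qq hw]

theorem tauH_pos {w : ℕ} (hw : 0 < w) {h : ℤ → ℚ} (H : IsHF w h) (h0 : ∀ n, 0 ≤ h n) :
    (tauH w h).Pos := by
  obtain ⟨b, hb⟩ := H.2.bddAbove
  have key : ∀ n : ℤ, b ≤ n → 0 ≤ (tauH w h).c0 * (((n : ℚ) + 3 / 2) ^ 2 / 2 - 1 / 8) -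
      ((n : ℚ) + 3 / 2) * (tauH w h).c1 + (tauH w h).c2 := by
    intro n hn
    have e1 : h = fun m => ∑ a ∈ H.2.toFinset, dif3 w h a * hA w (m - a) := by
      funext m
      rw [← eq_finsum_sum H]
      exact H.eq_finsum hw m
    have e2 : 0 ≤ cube w h n := Finset.sum_nonneg fun i _ => Finset.sum_nonneg fun j _ =>
      Finset.sum_nonneg fun l _ => h0 _
    have e3 : cube w h n = ∑ a ∈ H.2.toFinset, dif3 w h a * cube w (hA w) (n - a) := by
      rw [← cube_chi_sum, ← e1]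
    rw [← cube_chi_poly H]
    refine e2.trans (le_of_eq (e3.trans (Finset.sum_congr rfl fun a ha => ?_)))
    have : a ≤ b := hb (H.2.mem_toFinset.1 ha)
    rw [cube_hA hw, if_pos (by omega)]
  have big : ∀ c : ℚ, ∃ n : ℤ, b ≤ n ∧ c ≤ n ∧ (0 : ℚ) ≤ n := fun c =>
    ⟨max b (max ⌈c⌉ 0), le_max_left _ _,
      (Int.le_ceil c).trans (by exact_mod_cast (le_max_left _ _).trans (le_max_right _ _)),
      by exact_mod_cast (le_max_right _ _).trans (le_max_right _ _)⟩
  generalize tauH w h = t at key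
  refine ⟨?_, fun hc0 => ⟨?_, fun hc1 => ?_⟩⟩
  · by_contra hneg
    push Not at hneg
    obtain ⟨n, hn1, hn2, hn3⟩ := big (2 * (|t.c1| + |t.c2| + |t.c0|) / (-t.c0))
    have h1 := key n hn1
    rw [div_le_iff₀ (by linarith)] at hn2
    have a1 := neg_abs_le t.c1
    have a2 := le_abs_self t.c2
    have a3 := neg_abs_le t.c0
    have a4 := abs_nonneg t.c1
    have a5 := abs_nonneg t.c2
    have a6 := abs_nonneg t.c0
    obtain ⟨x, hx⟩ : ∃ x : ℚ, x = n + 3 / 2 := ⟨_, rfl⟩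
    rw [← hx] at h1
    have b1 : 2 * (|t.c1| + |t.c2| + |t.c0|) < x * -t.c0 := by rw [hx]; nlinarith
    have b2 : 1 ≤ x := by linarith
    have b3 : 2 * (|t.c1| + |t.c2| + |t.c0|) * x < x * -t.c0 * x :=
      mul_lt_mul_of_pos_right b1 (by linarith)
    have b4 : -(x * t.c1) ≤ x * |t.c1| := by nlinarith
    have b5 : |t.c2| ≤ |t.c2| * x := by nlinarith
    have b6 : |t.c0| ≤ |t.c0| * x := by nlinarith
    nlinarith
  · by_contra hneg
    push Not at hneg
    obtain ⟨n, hn1, hn2, hn3⟩ := big (t.c2 / t.c1)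
    have h1 := key n hn1
    rw [div_le_iff₀ hneg] at hn2
    rw [hc0] at h1
    nlinarith
  · have h1 := key b le_rfl
    rw [hc0, hc1] at h1
    simpa using h1

/-- Change of weight. -/
theorem tauH_weight {w : ℕ} (p : ℕ) {h : ℤ → ℚ} (H : IsHF w h) :
    IsHF (p * w) h ∧
      tauH (p * w) h = (∑ j ∈ Finset.range p, ex ((j * w : ℕ) : ℤ)) ^ 3 * tauH w h := by
  let S : (ℤ → ℚ) → ℤ → ℚ := fun Q n => ∑ j ∈ Finset.range p, Q (n - ((j * w : ℕ) : ℤ))
  have h1 : ∀ Q, dif (p * w) Q = S (dif w Q) := by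
    intro Q
    funext n
    have := Finset.sum_range_sub' (fun j => Q (n - ((j * w : ℕ) : ℤ))) p
    simp only [zero_mul, Nat.cast_zero, sub_zero] at this
    simp only [S, dif]
    rw [← this]
    refine Finset.sum_congr rfl fun j _ => ?_
    congr 2
    push_cast; ring
  have h2 : ∀ Q, dif w (S Q) = S (dif w Q) := by
    intro Q
    funext n
    simp only [S, dif, Finset.sum_sub_distrib, sub_right_comm _ (w : ℤ)]
  have h3 : dif3 (p * w) h = S (S (S (dif3 w h))) := by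
    simp only [dif3, h1, h2]
  have h4 : ∀ Q, (Function.support Q).Finite → (Function.support (S Q)).Finite ∧
      mom (S Q) = (∑ j ∈ Finset.range p, ex ((j * w : ℕ) : ℤ)) * mom Q := by
    intro Q hQ
    simp only [S]
    generalize Finset.range p = s
    induction s using Finset.induction_on with
    | empty => exact ⟨by simp, by ext <;> simp [mom]⟩
    | insert a s ha ih =>
      simp only [Finset.sum_insert ha]
      exact ⟨mom_fin_add (mom_fin_shift hQ _) ih.1, by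
        rw [mom_add (mom_fin_shift hQ _) ih.1, ih.2, mom_shift hQ, add_mul]⟩
  obtain ⟨a1, b1⟩ := h4 _ H.2
  obtain ⟨a2, b2⟩ := h4 _ a1
  obtain ⟨a3, b3⟩ := h4 _ a2
  refine ⟨⟨H.1, h3 ▸ a3⟩, ?_⟩
  rw [tauH_eq_mom, h3, b3, b2, b1, tauH_eq_mom]
  ring

/-- Change of scale. -/
theorem tauH_scale {w : ℕ} {p : ℕ} (hp : 0 < p) {h h' : ℤ → ℚ} (H : IsHF w h)
    (h1 : ∀ n : ℤ, h' (p * n) = h n) (h2 : ∀ n : ℤ, ¬ (p : ℤ) ∣ n → h' n = 0) :
    IsHF (p * w) h' ∧ tauH (p * w) h' = T3.sc p (tauH w h) := by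
  classical
  have hp' : (0 : ℤ) < p := by omega
  have step : ∀ Q Q' : ℤ → ℚ, ((∀ n : ℤ, Q' (p * n) = Q n) ∧ ∀ n : ℤ, ¬ (p : ℤ) ∣ n → Q' n = 0) →
      (∀ n : ℤ, dif (p * w) Q' (p * n) = dif w Q n) ∧
        ∀ n : ℤ, ¬ (p : ℤ) ∣ n → dif (p * w) Q' n = 0 := by
    rintro Q Q' ⟨a, b⟩
    refine ⟨fun n => ?_, fun n hn => ?_⟩
    · simp only [dif]
      rw [Nat.cast_mul, ← mul_sub, a, a]
    · simp only [dif]
      rw [b n hn, b, sub_zero]
      rw [Nat.cast_mul]
      intro hd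
      exact hn ((dvd_sub_left (dvd_mul_right _ _)).1 hd)
  obtain ⟨d1, d2⟩ : (∀ n : ℤ, dif3 (p * w) h' (p * n) = dif3 w h n) ∧
      ∀ n : ℤ, ¬ (p : ℤ) ∣ n → dif3 (p * w) h' n = 0 := step _ _ (step _ _ (step _ _ ⟨h1, h2⟩))
  have hs : Function.support (dif3 (p * w) h') ⊆
      (H.2.toFinset.image fun n : ℤ => (p : ℤ) * n : Finset ℤ) := by
    intro n hn
    rw [Finset.coe_image, H.2.coe_toFinset]
    obtain ⟨m, rfl⟩ : (p : ℤ) ∣ n := by_contra fun hd => hn (d2 n hd)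
    exact ⟨m, by rwa [Function.mem_support, ← d1], rfl⟩
  refine ⟨⟨?_, (Finset.finite_toSet _).subset hs⟩, ?_⟩
  · obtain ⟨b, hb⟩ := H.1
    refine ⟨p * b, fun n hn => ?_⟩
    by_cases hd : (p : ℤ) ∣ n
    · obtain ⟨m, rfl⟩ := hd
      rw [h1]; exact hb m (lt_of_mul_lt_mul_left hn hp'.le)
    · exact h2 n hd
  · have hi : Set.InjOn (fun n : ℤ => (p : ℤ) * n) (H.2.toFinset : Set ℤ) :=
      fun a _ b _ h => mul_left_cancel₀ hp'.ne' h
    rw [tauH_eq_mom, tauH_eq_mom, mom_eq _ hs, mom_eq H.2.toFinset (by rw [H.2.coe_toFinset]),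
      Finset.sum_image hi, Finset.sum_image hi, Finset.sum_image hi]
    ext
    · simp [T3.sc, d1]
    · simp only [T3.sc, d1, Finset.mul_sum]
      exact Finset.sum_congr rfl fun a _ => by push_cast; ring
    · simp only [T3.sc, d1, Finset.mul_sum]
      exact Finset.sum_congr rfl fun a _ => by push_cast; ring

end Crest.Agent.R169
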