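import Crest.Agent.R169.Grad

/-!
# Row 169: Koszul homology by hand, freeness criteria
-/

set_option autoImplicit false

namespace Crest.Agent.R169

open MvPolynomial

section General

variable {S : Type} [CommRing S]
variable {M' M M'' : Type} [AddCommGroup M'] [AddCommGroup M] [AddCommGroup M'']
  [Module S M'] [Module S M] [Module S M'']

/-! ### Subtask Kos-a -/

/-- `H_3(M'') → H_2(M') → H_2(M)`. -/
theorem chase2 (x : Fin 3 → S) (f : M' →ₗ[S] M) (g : M →ₗ[S] M'') (hf : Function.Injective f)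
    (hfg : Function.Exact f g) (h3 : KZ3 x M'') (e : Fin 3 → M') (m : M)
    (hm : ∀ i, f (e i) = x i • m) : ∃ m' : M', ∀ i, e i = x i • m' := by
  have h0 : g m = 0 := by
    refine h3 _ fun i => ?_
    rw [← map_smul, ← hm]
    exact hfg.apply_apply_eq_zero _
  obtain ⟨m', rfl⟩ := (hfg m).1 h0
  exact ⟨m', fun i => hf (by rw [hm, map_smul])⟩

/-- `H_2(M'') → H_1(M') → H_1(M)`. -/
theorem chase1 (x : Fin 3 → S) (f : M' →ₗ[S] M) (g : M →ₗ[S] M'') (hf : Function.Injective f)
    (hfg : Function.Exact f g) (hg : Function.Surjective g) (h2 : KZ2 x M'') (e : Fin 3 → M')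
    (c : Fin 3 → Fin 3 → M) (hc : ∀ i j, c i j = -c j i) (hc0 : ∀ i, c i i = 0)
    (he : ∀ i, f (e i) = ∑ j, x j • c i j) :
    ∃ c' : Fin 3 → Fin 3 → M', (∀ i j, c' i j = -c' j i) ∧ (∀ i, c' i i = 0) ∧
      ∀ i, e i = ∑ j, x j • c' i j := by
  have e0 : f (e 0) = x 1 • c 0 1 - x 2 • c 2 0 := by
    rw [he, Fin.sum_univ_three, hc0, hc 0 2]; module
  have e1 : f (e 1) = x 2 • c 1 2 - x 0 • c 0 1 := by
    rw [he, Fin.sum_univ_three, hc0, hc 1 0]; module
  have e2 : f (e 2) = x 0 • c 2 0 - x 1 • c 1 2 := by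
    rw [he, Fin.sum_univ_three, hc0, hc 2 1]; module
  have g0 : x 1 • g (c 0 1) = x 2 • g (c 2 0) := by
    have := hfg.apply_apply_eq_zero (e 0)
    rw [e0, map_sub, map_smul, map_smul] at this
    exact sub_eq_zero.1 this
  have g1 : x 2 • g (c 1 2) = x 0 • g (c 0 1) := by
    have := hfg.apply_apply_eq_zero (e 1)
    rw [e1, map_sub, map_smul, map_smul] at this
    exact sub_eq_zero.1 this
  have g2 : x 0 • g (c 2 0) = x 1 • g (c 1 2) := by
    have := hfg.apply_apply_eq_zero (e 2)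
    rw [e2, map_sub, map_smul, map_smul] at this
    exact sub_eq_zero.1 this
  obtain ⟨m'', hm''⟩ := h2 ![g (c 1 2), g (c 2 0), g (c 0 1)] (by
    intro i j
    fin_cases i <;> fin_cases j <;> simp [g0, g1, g2])
  obtain ⟨m, rfl⟩ := hg m''
  have k0 : g (c 1 2 - x 0 • m) = 0 := by
    rw [map_sub, map_smul, ← hm'' 0]; simp
  have k1 : g (c 2 0 - x 1 • m) = 0 := by
    rw [map_sub, map_smul, ← hm'' 1]; simp
  have k2 : g (c 0 1 - x 2 • m) = 0 := by
    rw [map_sub, map_smul, ← hm'' 2]; simp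
  obtain ⟨d0, hd0⟩ := (hfg _).1 k0
  obtain ⟨d1, hd1⟩ := (hfg _).1 k1
  obtain ⟨d2, hd2⟩ := (hfg _).1 k2
  refine ⟨![![0, d2, -d1], ![-d2, 0, d0], ![d1, -d0, 0]], ?_, ?_, ?_⟩
  · intro i j
    fin_cases i <;> fin_cases j <;> simp
  · intro i
    fin_cases i <;> simp
  · intro i
    apply hf
    fin_cases i
    · simp only [Fin.sum_univ_three, Fin.zero_eta, Fin.isValue, Matrix.cons_val_zero,
        Matrix.cons_val_one, Matrix.cons_val, map_add, map_smul, map_neg, map_zero, e0, hd1, hd2]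
      module
    · simp only [Fin.sum_univ_three, Fin.mk_one, Fin.isValue, Matrix.cons_val_zero,
        Matrix.cons_val_one, Matrix.cons_val, map_add, map_smul, map_neg, map_zero, e1, hd0, hd2]
      module
    · simp only [Fin.sum_univ_three, Fin.reduceFinMk, Fin.isValue, Matrix.cons_val_zero,
        Matrix.cons_val_one, Matrix.cons_val, map_add, map_smul, map_neg, map_zero, e2, hd0, hd1]
      module

theorem KZ3.of_injective {x : Fin 3 → S} (f : M' →ₗ[S] M) (hf : Function.Injective f)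
    (h : KZ3 x M) : KZ3 x M' := by
  intro m hm
  apply hf
  rw [map_zero]
  refine h _ fun i => ?_
  rw [← map_smul, hm, map_zero]

theorem KZ2.of_exact {x : Fin 3 → S} (f : M' →ₗ[S] M) (g : M →ₗ[S] M'')
    (hf : Function.Injective f) (hfg : Function.Exact f g) (h2 : KZ2 x M) (h3 : KZ3 x M'') :
    KZ2 x M' := by
  intro e he
  obtain ⟨m, hm⟩ := h2 (fun i => f (e i)) fun i j => by
    rw [← map_smul, ← map_smul, he]
  exact chase2 x f g hf hfg h3 e m hm

theorem KZ1.of_exact {x : Fin 3 → S} (f : M' →ₗ[S] M) (g : M →ₗ[S] M'')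
    (hf : Function.Injective f) (hfg : Function.Exact f g) (hg : Function.Surjective g)
    (h1 : KZ1 x M) (h2 : KZ2 x M'') : KZ1 x M' := by
  intro e he
  obtain ⟨c, hc, hc0, hce⟩ := h1 (fun i => f (e i)) (by
    simp only [← map_smul, ← map_sum, he, map_zero])
  exact chase1 x f g hf hfg hg h2 e c hc hc0 hce

open Pointwise in
theorem KZ1_of_isWeaklyRegular_exact (r : S) (N : Type) [AddCommGroup N] [Module S N] :
    Function.Exact (LinearMap.lsmul S N r) (Submodule.mkQ (r • (⊤ : Submodule S N))) := by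
  intro y
  rw [Submodule.mkQ_apply, Submodule.Quotient.mk_eq_zero, Submodule.mem_smul_pointwise_iff_exists]
  constructor
  · rintro ⟨b, -, hb⟩
    exact ⟨b, hb⟩
  · rintro ⟨b, hb⟩
    exact ⟨b, trivial, hb⟩

theorem KZ1_of_isWeaklyRegular_3 (x : Fin 3 → S) {r : S} {n : ℕ}
    (hr : r ^ n ∈ Ideal.span (Set.range x)) (N : Type) [AddCommGroup N] [Module S N]
    (h : IsSMulRegular N r) : KZ3 x N := by
  intro m hm
  obtain ⟨a, ha⟩ := (Ideal.mem_span_range_iff_exists_fun).1 hr
  refine (h.pow n) ?_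
  change r ^ n • m = r ^ n • (0 : N)
  rw [smul_zero, ← ha, Finset.sum_smul]
  exact Finset.sum_eq_zero fun i _ => by rw [mul_smul, hm, smul_zero]

open Pointwise in
theorem KZ1_of_isWeaklyRegular_2 (x : Fin 3 → S) {r : S} {n : ℕ}
    (hr : r ^ n ∈ Ideal.span (Set.range x)) (N : Type) [AddCommGroup N] [Module S N]
    (h : IsSMulRegular N r) (h3 : KZ3 x (QuotSMulTop r N)) : KZ2 x N := by
  intro e he
  obtain ⟨a, ha⟩ := (Ideal.mem_span_range_iff_exists_fun).1 hr
  have key : ∀ n : ℕ, (∃ m : N, ∀ i, r ^ n • e i = x i • m) → ∃ m : N, ∀ i, e i = x i • m := by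
    intro n
    induction n with
    | zero => simp
    | succ n ih =>
      rintro ⟨m, hm⟩
      refine ih (chase2 x (LinearMap.lsmul S N r) (Submodule.mkQ (r • (⊤ : Submodule S N))) h
        (KZ1_of_isWeaklyRegular_exact r N) h3 (fun i => r ^ n • e i) m fun i => ?_)
      rw [← hm, LinearMap.lsmul_apply, smul_smul, pow_succ']
  refine key n ⟨∑ j, a j • e j, fun i => ?_⟩
  rw [← ha, Finset.sum_smul, Finset.smul_sum]
  refine Finset.sum_congr rfl fun j _ => ?_
  rw [mul_smul, he, smul_comm]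

open Pointwise in
theorem KZ1_of_isWeaklyRegular_1 (x : Fin 3 → S) {r : S} {n : ℕ}
    (hr : r ^ n ∈ Ideal.span (Set.range x)) (N : Type) [AddCommGroup N] [Module S N]
    (h : IsSMulRegular N r) (h2 : KZ2 x (QuotSMulTop r N)) : KZ1 x N := by
  intro e he
  obtain ⟨a, ha⟩ := (Ideal.mem_span_range_iff_exists_fun).1 hr
  have key : ∀ n : ℕ, (∃ c : Fin 3 → Fin 3 → N, (∀ i j, c i j = -c j i) ∧ (∀ i, c i i = 0) ∧
      ∀ i, r ^ n • e i = ∑ j, x j • c i j) → ∃ c : Fin 3 → Fin 3 → N, (∀ i j, c i j = -c j i) ∧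
      (∀ i, c i i = 0) ∧ ∀ i, e i = ∑ j, x j • c i j := by
    intro n
    induction n with
    | zero => simp
    | succ n ih =>
      rintro ⟨c, hc, hc0, hm⟩
      refine ih (chase1 x (LinearMap.lsmul S N r) (Submodule.mkQ (r • (⊤ : Submodule S N))) h
        (KZ1_of_isWeaklyRegular_exact r N) (Submodule.mkQ_surjective _) h2
        (fun i => r ^ n • e i) c hc hc0 fun i => ?_)
      rw [← hm, LinearMap.lsmul_apply, smul_smul, pow_succ']
  refine key n ⟨fun i j => a j • e i - a i • e j, fun i j => (neg_sub _ _).symm, fun i => sub_self _,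
    fun i => ?_⟩
  have h1 : ∑ j, x j • (a j • e i - a i • e j) =
      (∑ j, a j * x j) • e i - a i • ∑ j, x j • e j := by
    rw [Finset.sum_smul, Finset.smul_sum, ← Finset.sum_sub_distrib]
    refine Finset.sum_congr rfl fun j _ => ?_
    module
  rw [h1, he, ha, smul_zero, sub_zero]

/-- Depth sensitivity: a regular sequence of length three in the radical of `(x)`. -/
theorem KZ1_of_isWeaklyRegular (x : Fin 3 → S) (rs : List S) (hl : rs.length = 3)
    (hr : ∀ r ∈ rs, ∃ n : ℕ, r ^ n ∈ Ideal.span (Set.range x))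
    (h : RingTheory.Sequence.IsWeaklyRegular M rs) : KZ1 x M := by
  obtain ⟨r1, r2, r3, rfl⟩ := List.length_eq_three.1 hl
  rw [RingTheory.Sequence.isWeaklyRegular_cons_iff, RingTheory.Sequence.isWeaklyRegular_cons_iff,
    RingTheory.Sequence.isWeaklyRegular_cons_iff] at h
  obtain ⟨h1, h2, h3, -⟩ := h
  obtain ⟨n1, hn1⟩ := hr r1 (by simp)
  obtain ⟨n2, hn2⟩ := hr r2 (by simp)
  obtain ⟨n3, hn3⟩ := hr r3 (by simp)
  exact KZ1_of_isWeaklyRegular_1 x hn1 _ h1 (KZ1_of_isWeaklyRegular_2 x hn2 _ h2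
    (KZ1_of_isWeaklyRegular_3 x hn3 _ h3))

theorem free_of_KZ1_sum {n : ℕ} {G : Type} [AddCommGroup G] (F : Fin n → Fin n → G)
    (h : ∀ i j, F i j = -F j i) (h0 : ∀ i, F i i = 0) : ∑ i, ∑ j, F i j = 0 := by
  rw [← Finset.sum_product']
  refine Finset.sum_ninvolution Prod.swap (fun a => ?_) (fun a ha hs => ?_) (fun a => by simp)
    (fun a => rfl)
  · rw [Prod.fst_swap, Prod.snd_swap, h a.1 a.2, neg_add_cancel]
  · have : a.2 = a.1 := congrArg Prod.fst hs
    exact ha (by rw [this, h0])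

/-- Over a local ring with maximal ideal `(x)`, vanishing of `H_1` forces freeness. -/
theorem free_of_KZ1 [IsLocalRing S] [IsNoetherianRing S] {n : ℕ} (x : Fin n → S)
    (hx : Ideal.span (Set.range x) = IsLocalRing.maximalIdeal S) [Module.Finite S M]
    (h : KZ1 x M) : Module.Free S M := by
  have : Module.FinitePresentation S M := Module.finitePresentation_of_finite S M
  refine Module.free_of_maximalIdeal_rTensor_injective ?_
  have hxm : ∀ i, x i ∈ IsLocalRing.maximalIdeal S := fun i =>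
    hx ▸ Ideal.subset_span ⟨i, rfl⟩
  have hrep : ∀ z : TensorProduct S (IsLocalRing.maximalIdeal S) M, ∃ e : Fin n → M,
      z = ∑ i, (⟨x i, hxm i⟩ : IsLocalRing.maximalIdeal S) ⊗ₜ[S] e i := by
    intro z
    induction z using TensorProduct.induction_on with
    | zero => exact ⟨0, by simp⟩
    | tmul a m =>
      obtain ⟨c, hc⟩ := (Ideal.mem_span_range_iff_exists_fun).1 (by rw [hx]; exact a.2 :
        (a : S) ∈ Ideal.span (Set.range x))
      refine ⟨fun i => c i • m, ?_⟩
      have ha : a = ∑ i, c i • (⟨x i, hxm i⟩ : IsLocalRing.maximalIdeal S) := by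
        ext
        rw [← hc]
        simp
      rw [ha, TensorProduct.sum_tmul]
      exact Finset.sum_congr rfl fun i _ => by rw [TensorProduct.smul_tmul]
    | add z z' hz hz' =>
      obtain ⟨e, rfl⟩ := hz
      obtain ⟨e', rfl⟩ := hz'
      exact ⟨e + e', by simp [TensorProduct.tmul_add, Finset.sum_add_distrib]⟩
  rw [injective_iff_map_eq_zero]
  intro z hz
  obtain ⟨e, rfl⟩ := hrep z
  have he : ∑ i, x i • e i = 0 := by
    have := congrArg (TensorProduct.lid S M) hz
    simpa [map_sum] using this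
  obtain ⟨c, hc, hc0, hce⟩ := h e he
  have : ∑ i, (⟨x i, hxm i⟩ : IsLocalRing.maximalIdeal S) ⊗ₜ[S] e i =
      ∑ i, ∑ j, (⟨x j * x i, Ideal.mul_mem_left _ _ (hxm i)⟩ : IsLocalRing.maximalIdeal S) ⊗ₜ[S]
        c i j := by
    refine Finset.sum_congr rfl fun i _ => ?_
    rw [hce i, TensorProduct.tmul_sum]
    refine Finset.sum_congr rfl fun j _ => ?_
    rw [← TensorProduct.smul_tmul]
    rfl
  rw [this]
  refine free_of_KZ1_sum _ (fun i j => ?_) (fun i => ?_)
  · rw [hc i j, TensorProduct.tmul_neg]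
    congr 3
    exact mul_comm _ _
  · rw [hc0, TensorProduct.tmul_zero]

/-- Two elements: elementwise form. -/
theorem KZ1_two_iff (a b : S) : KZ1 ![a, b] M ↔
    ∀ e₁ e₂ : M, a • e₁ + b • e₂ = 0 → ∃ e₃ : M, e₁ = b • e₃ ∧ e₂ = -(a • e₃) := by
  constructor
  · intro h e₁ e₂ he
    obtain ⟨c, hc, hc0, hce⟩ := h ![e₁, e₂] (by simpa [Fin.sum_univ_two] using he)
    refine ⟨c 0 1, ?_, ?_⟩
    · simpa [Fin.sum_univ_two, hc0] using hce 0
    · have := hce 1
      rw [Fin.sum_univ_two, hc0, hc 1 0] at this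
      simpa using this
  · intro h e he
    obtain ⟨e₃, h1, h2⟩ := h (e 0) (e 1) (by simpa [Fin.sum_univ_two] using he)
    refine ⟨![![0, e₃], ![-e₃, 0]], ?_, ?_, ?_⟩
    · intro i j
      fin_cases i <;> fin_cases j <;> simp
    · intro i
      fin_cases i <;> simp
    · intro i
      fin_cases i
      · simpa [Fin.sum_univ_two] using h1
      · simpa [Fin.sum_univ_two] using h2

end General

/-! ### Subtask Kos-b -/

variable {k : Type} [Field k] {lam : kˣ} {w : ℕ}
variable {V : Type} [AddCommGroup V] [Module k V] [Module (A k) V] [IsScalarTower k (A k) V]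
variable {θ : V →ₗ[k] V}

theorem KZ_free_sub (f : A k) : ∃ a : A k,
    f = aeval (fun i : Fin 3 => if i = 0 then (0 : A k) else X i) f + X 0 * a := by
  induction f using MvPolynomial.induction_on with
  | C c => exact ⟨0, by simp⟩
  | add p q hp hq =>
    obtain ⟨a, ha⟩ := hp
    obtain ⟨b, hb⟩ := hq
    refine ⟨a + b, ?_⟩
    rw [map_add]
    linear_combination ha + hb
  | mul_X p i hp =>
    obtain ⟨a, ha⟩ := hp
    by_cases hi : i = 0
    · subst hi
      exact ⟨p, by simp [mul_comm]⟩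
    · refine ⟨a * X i, ?_⟩
      rw [map_mul, aeval_X, if_neg hi]
      linear_combination X i * ha

theorem KZ_free_two {i j : Fin 3} (hij : i ≠ j) {a b : A k} (h : X i * a = X j * b) :
    ∃ t : A k, b = X i * t ∧ a = X j * t := by
  have hd : (X i : A k) ∣ X j * b := ⟨a, h.symm⟩
  rcases (X_prime (i := i) (R := k)).dvd_or_dvd hd with h1 | ⟨t, rfl⟩
  · exact absurd (X_dvd_X.1 h1) hij
  · refine ⟨t, rfl, mul_left_cancel₀ (X_ne_zero (R := k) i) ?_⟩
    linear_combination h

theorem KZ_free_one (e : Fin 3 → A k) (he : ∑ i, X i * e i = 0) :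
    ∃ c : Fin 3 → Fin 3 → A k, (∀ i j, c i j = -c j i) ∧ (∀ i, c i i = 0) ∧
      ∀ i, e i = ∑ j, X j * c i j := by
  rw [Fin.sum_univ_three] at he
  obtain ⟨a1, ha1⟩ := KZ_free_sub (e 1)
  obtain ⟨a2, ha2⟩ := KZ_free_sub (e 2)
  set φ : A k →ₐ[k] A k := aeval (fun i : Fin 3 => if i = 0 then (0 : A k) else X i) with hφ
  have h0 : φ (X 0) = 0 := by simp [hφ]
  have h1 : φ (X 1) = X 1 := by simp [hφ]
  have h2 : φ (X 2) = X 2 := by simp [hφ]
  have h := congrArg φ he
  rw [map_add, map_add, map_mul, map_mul, map_mul, h0, h1, h2, map_zero] at h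
  obtain ⟨t, ht2, ht1⟩ := KZ_free_two (k := k) (i := 1) (j := 2) (by decide) (a := φ (e 1))
    (b := -φ (e 2)) (by linear_combination h)
  have he0 : e 0 = -(X 1 * a1) - X 2 * a2 := by
    refine mul_left_cancel₀ (X_ne_zero (R := k) (0 : Fin 3)) ?_
    linear_combination he - X 1 * ha1 - X 2 * ha2 - h
  refine ⟨![![0, -a1, -a2], ![a1, 0, t], ![a2, -t, 0]], ?_, ?_, ?_⟩
  · intro i j
    fin_cases i <;> fin_cases j <;> simp
  · intro i
    fin_cases i <;> simp
  · intro i
    fin_cases i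
    · simp only [Fin.sum_univ_three, Fin.zero_eta, Fin.isValue, Matrix.cons_val_zero,
        Matrix.cons_val_one, Matrix.cons_val]
      linear_combination he0
    · simp only [Fin.sum_univ_three, Fin.mk_one, Fin.isValue, Matrix.cons_val_zero,
        Matrix.cons_val_one, Matrix.cons_val]
      linear_combination ha1 + ht1
    · simp only [Fin.sum_univ_three, Fin.reduceFinMk, Fin.isValue, Matrix.cons_val_zero,
        Matrix.cons_val_one, Matrix.cons_val]
      linear_combination ha2 - ht2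

theorem KZ_free (ι : Type) :
    KZ1 (fun i : Fin 3 => (X i : A k)) (ι → A k) ∧ KZ2 (fun i : Fin 3 => (X i : A k)) (ι → A k) ∧
      KZ3 (fun i : Fin 3 => (X i : A k)) (ι → A k) := by
  refine ⟨fun e he => ?_, fun e he => ?_, fun m hm => ?_⟩
  · have h : ∀ a : ι, ∑ i, X i * e i a = 0 := fun a => by
      simpa [Finset.sum_apply] using congrFun he a
    choose c hc hc0 hce using fun a => KZ_free_one (fun i => e i a) (h a)
    refine ⟨fun i j a => c a i j, fun i j => funext fun a => hc a i j,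
      fun i => funext fun a => hc0 a i, fun i => funext fun a => ?_⟩
    simpa [Finset.sum_apply] using hce a i
  · have h : ∀ (a : ι) (i j : Fin 3), X i * e j a = X j * e i a := fun a i j => by
      simpa using congrFun (he i j) a
    choose t ht0 ht1 using fun a => KZ_free_two (k := k) (i := 0) (j := 1) (by decide) (h a 0 1)
    refine ⟨t, fun i => funext fun a => ?_⟩
    refine mul_left_cancel₀ (X_ne_zero (R := k) (0 : Fin 3)) ?_
    rw [h a 0 i, ht0 a, Pi.smul_apply, smul_eq_mul]
    ring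
  · funext a
    have := congrFun (hm 0) a
    simpa [X_ne_zero] using this

theorem GS.exists_cover_aux (g : Gd lam w θ) {m : ℕ} (e : Fin m → V) (d : Fin m → ℤ)
    (he : ∀ i, e i ∈ eig lam θ (d i)) :
    HomDeg lam (θF lam w d) θ (Fintype.linearCombination (A k) e) 0 := by
  intro v
  rw [zpow_zero, Units.val_one, one_smul, Fintype.linearCombination_apply,
    Fintype.linearCombination_apply, map_sum]
  refine Finset.sum_congr rfl fun i _ => ?_
  rw [g.comm.smul, mem_eig.1 (he i)]
  change _ = (((lam ^ d i : kˣ) : k) • θA lam w (v i)) • e i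
  rw [smul_assoc, smul_comm]

/-- A presentation by a graded free module. -/
theorem GS.exists_cover (g : Gd lam w θ) {N : Submodule (A k) V} (hN : GS lam θ N) :
    ∃ (m : ℕ) (d : Fin m → ℤ) (φ : (Fin m → A k) →ₗ[A k] V),
      HomDeg lam (θF lam w d) θ φ 0 ∧ LinearMap.range φ = N := by
  obtain ⟨m, e, d, he, hs⟩ := hN.exists_gens
  exact ⟨m, d, Fintype.linearCombination (A k) e, GS.exists_cover_aux g e d he, by
    rw [Fintype.range_linearCombination, hs]⟩

theorem GS.free_of_KZ1_const (f : A k) (hf : constantCoeff f = 0) :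
    ∃ a : Fin 3 → A k, f = ∑ j, X j * a j := by
  have h : f ∈ Ideal.span (X '' (Set.univ : Set (Fin 3)) : Set (A k)) := by
    rw [mem_ideal_span_X_image]
    intro μ hμ
    by_contra hc
    push Not at hc
    have : μ = 0 := by
      ext i
      simpa using hc i trivial
    subst this
    exact (mem_support_iff.1 hμ) hf
  rw [Set.image_univ] at h
  obtain ⟨a, ha⟩ := Ideal.mem_span_range_iff_exists_fun.1 h
  exact ⟨a, by rw [← ha]; exact Finset.sum_congr rfl fun j _ => mul_comm _ _⟩

/-- Graded modules with vanishing first Koszul homology are graded free. -/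
theorem GS.free_of_KZ1 (g : Gd lam w θ) {N : Submodule (A k) V} (hN : GS lam θ N)
    (h : KZ1 (fun i : Fin 3 => (X i : A k)) N) :
    ∃ (m : ℕ) (e : Fin m → V) (d : Fin m → ℤ), (∀ i, e i ∈ eig lam θ (d i)) ∧
      LinearIndependent (A k) e ∧ Submodule.span (A k) (Set.range e) = N := by
  classical
  have hex := hN.exists_gens
  obtain ⟨e, d, he, hs⟩ := Nat.find_spec hex
  have hmin : ∀ m' < Nat.find hex, ¬ ∃ (e : Fin m' → V) (d : Fin m' → ℤ),
      (∀ i, e i ∈ eig lam θ (d i)) ∧ Submodule.span (A k) (Set.range e) = N :=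
    fun m' hm' => Nat.find_min hex hm'
  generalize Nat.find hex = m at e d he hs hmin
  refine ⟨m, e, d, he, ?_, hs⟩
  have hconst : ∀ z : Fin m → A k, ∑ i, z i • e i = 0 → ∀ i, constantCoeff (z i) = 0 := by
    intro z hz i0
    by_contra hc
    obtain ⟨m', rfl⟩ : ∃ m', m = m' + 1 := ⟨m - 1, by have := i0.pos; omega⟩
    set N' := Submodule.span (A k) (Set.range fun i : Fin m' => e (i0.succAbove i)) with hN'
    have hG : GS lam θ N' := GS.span g _ (fun i => d (i0.succAbove i)) fun i => he _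
    have hmem : z i0 • e i0 ∈ N' := by
      rw [Fin.sum_univ_succAbove _ i0] at hz
      rw [eq_neg_of_add_eq_zero_left hz]
      exact N'.neg_mem (N'.sum_mem fun i _ => N'.smul_mem _ (Submodule.subset_span ⟨i, rfl⟩))
    have h0 := homogeneousComponent_smul_mem g N' hG.stable (he i0) hmem 0
    rw [homogeneousComponent_zero] at h0
    have h1 : e i0 ∈ N' := by
      have h2 := N'.smul_mem (C (coeff 0 (z i0))⁻¹) h0
      rwa [smul_smul, ← C_mul, inv_mul_cancel₀ (show coeff 0 (z i0) ≠ 0 from hc), C_1,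
        one_smul] at h2
    refine hmin m' (Nat.lt_succ_self _) ⟨_, fun i => d (i0.succAbove i), fun i => he _, ?_⟩
    rw [← hs]
    refine le_antisymm (Submodule.span_mono ?_) (Submodule.span_le.2 ?_)
    · rintro _ ⟨i, rfl⟩
      exact ⟨_, rfl⟩
    · rintro _ ⟨i, rfl⟩
      rcases Fin.eq_self_or_eq_succAbove i0 i with rfl | ⟨j, rfl⟩
      · exact h1
      · exact Submodule.subset_span ⟨j, rfl⟩
  set φ : (Fin m → A k) →ₗ[A k] V := Fintype.linearCombination (A k) e with hφ
  have hφN : ∀ z, φ z ∈ N := fun z => by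
    rw [← hs, ← Fintype.range_linearCombination]
    exact ⟨z, rfl⟩
  have hsurj : ∀ v : N, ∃ z, φ z = v := fun v => by
    have : (v : V) ∈ LinearMap.range φ := by
      rw [hφ, Fintype.range_linearCombination, hs]
      exact v.2
    exact this
  set I : Ideal (A k) := RingHom.ker (constantCoeff : A k →+* k) with hI
  have hXI : ∀ j : Fin 3, (X j : A k) ∈ I := fun j => by simp [hI, RingHom.mem_ker]
  have hle : LinearMap.ker φ ≤ I • LinearMap.ker φ := by
    intro z hz
    have hz0 : ∑ i, z i • e i = 0 := by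
      rwa [LinearMap.mem_ker, hφ, Fintype.linearCombination_apply] at hz
    choose a ha using fun i => GS.free_of_KZ1_const (z i) (hconst z hz0 i)
    set b : Fin 3 → Fin m → A k := fun j i => a i j with hb
    have hzb : z = ∑ j, (X j : A k) • b j := by
      funext i
      simpa [Finset.sum_apply, hb] using ha i
    obtain ⟨c, hc, hc0, hce⟩ := h (fun j => ⟨φ (b j), hφN _⟩) (by
      apply Subtype.ext
      have : φ z = 0 := hz
      rw [hzb, map_sum] at this
      simpa using this)
    obtain ⟨u01, hu01⟩ := hsurj (c 0 1)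
    obtain ⟨u02, hu02⟩ := hsurj (c 0 2)
    obtain ⟨u12, hu12⟩ := hsurj (c 1 2)
    have e0 := congrArg Subtype.val (hce 0)
    have e1 := congrArg Subtype.val (hce 1)
    have e2 := congrArg Subtype.val (hce 2)
    rw [Fin.sum_univ_three, hc0] at e0
    rw [Fin.sum_univ_three, hc0, hc 1 0] at e1
    rw [Fin.sum_univ_three, hc0, hc 2 0, hc 2 1] at e2
    simp only [Submodule.coe_add, Submodule.coe_smul, Submodule.coe_neg, Submodule.coe_zero,
      ← hu01, ← hu02, ← hu12] at e0 e1 e2
    have k0 : b 0 - ((X 1 : A k) • u01 + (X 2 : A k) • u02) ∈ LinearMap.ker φ := by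
      rw [LinearMap.mem_ker, map_sub, map_add, map_smul, map_smul, e0]
      module
    have k1 : b 1 - ((X 2 : A k) • u12 - (X 0 : A k) • u01) ∈ LinearMap.ker φ := by
      rw [LinearMap.mem_ker, map_sub, map_sub, map_smul, map_smul, e1]
      module
    have k2 : b 2 + ((X 0 : A k) • u02 + (X 1 : A k) • u12) ∈ LinearMap.ker φ := by
      rw [LinearMap.mem_ker, map_add, map_add, map_smul, map_smul, e2]
      module
    have hz' : z = (X 0 : A k) • (b 0 - ((X 1 : A k) • u01 + (X 2 : A k) • u02)) +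
        (X 1 : A k) • (b 1 - ((X 2 : A k) • u12 - (X 0 : A k) • u01)) +
        (X 2 : A k) • (b 2 + ((X 0 : A k) • u02 + (X 1 : A k) • u12)) := by
      rw [hzb, Fin.sum_univ_three]
      module
    rw [hz']
    exact Submodule.add_mem _ (Submodule.add_mem _ (Submodule.smul_mem_smul (hXI 0) k0)
      (Submodule.smul_mem_smul (hXI 1) k1)) (Submodule.smul_mem_smul (hXI 2) k2)
  obtain ⟨r, hr1, hr⟩ := Submodule.exists_sub_one_mem_and_smul_eq_zero_of_fg_of_le_smul I
    (LinearMap.ker φ) (IsNoetherian.noetherian _) hle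
  have hr0 : r ≠ 0 := by
    rintro rfl
    simp [hI, RingHom.mem_ker] at hr1
  rw [Fintype.linearIndependent_iff]
  intro z hz i
  have := congrFun (hr z (by rwa [LinearMap.mem_ker, hφ, Fintype.linearCombination_apply])) i
  simpa [hr0] using this

omit [Module k V] [IsScalarTower k (A k) V] in
theorem KZ2_of_hull_tf [Module (K k) V] [IsScalarTower (A k) (K k) V] {f : A k} (hf : f ≠ 0)
    {v v' : V} (h : f • v = f • v') : v = v' := by
  have hf' : algebraMap (A k) (K k) f ≠ 0 := by
    simpa using hf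
  rw [← algebraMap_smul (K k) f v, ← algebraMap_smul (K k) f v'] at h
  exact smul_right_injective V hf' h

omit [Module k V] [IsScalarTower k (A k) V] in
theorem KZ2_of_hull_div [Module (K k) V] [IsScalarTower (A k) (K k) V] {f : A k} (hf : f ≠ 0)
    (v : V) : ∃ u : V, f • u = v := by
  have hf' : algebraMap (A k) (K k) f ≠ 0 := by
    simpa using hf
  refine ⟨(algebraMap (A k) (K k) f)⁻¹ • v, ?_⟩
  rw [← algebraMap_smul (K k) f, smul_smul, mul_inv_cancel₀ hf', one_smul]

/-- Reflexive lattices have depth two. -/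
theorem KZ2_of_hull [Module (K k) V] [IsScalarTower (A k) (K k) V] {N : Submodule (A k) V}
    (h : hull N ≤ N) : KZ2 (fun i : Fin 3 => (X i : A k)) N := by
  intro e he
  obtain ⟨m, hm⟩ := KZ2_of_hull_div (X_ne_zero (R := k) (0 : Fin 3)) (e 0 : V)
  have hi : ∀ i, (e i : V) = (X i : A k) • m := fun i => by
    refine KZ2_of_hull_tf (X_ne_zero (R := k) (0 : Fin 3)) ?_
    rw [smul_comm, hm]
    exact congrArg Subtype.val (he 0 i)
  have hmN : m ∈ hull N := by
    intro f hf
    by_cases h0 : f ∣ X 0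
    · refine ⟨X 1, fun h1 => ?_, hi 1 ▸ (e 1).2⟩
      have h2 : (X 0 : A k) ∣ f :=
        (hf.irreducible.associated_of_dvd (X_prime (i := 0) (R := k)).irreducible h0).symm.dvd
      exact absurd (X_dvd_X.1 (h2.trans h1)) (by decide)
    · exact ⟨X 0, h0, hi 0 ▸ (e 0).2⟩
  exact ⟨⟨m, h hmN⟩, fun i => Subtype.ext (hi i)⟩

omit [Module k V] [IsScalarTower k (A k) V] in
theorem le_hull (N : Submodule (A k) V) : N ≤ hull N := fun v hv f hf =>
  ⟨1, fun hd => hf.not_isUnit (isUnit_of_dvd_one hd), by rwa [one_smul]⟩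

omit [Module k V] [IsScalarTower k (A k) V] in
theorem hull_hull (N : Submodule (A k) V) : hull (hull N) ≤ hull N := by
  intro v hv f hf
  obtain ⟨h, hfh, hh⟩ := hv f hf
  obtain ⟨h', hfh', hh'⟩ := hh f hf
  exact ⟨h' * h, fun hd => (hf.dvd_or_dvd hd).elim hfh' hfh, by rwa [mul_smul]⟩

omit [Module k V] [IsScalarTower k (A k) V] in
theorem mem_hull_of_coprime {N : Submodule (A k) V} {v : V} {f₁ f₂ : A k} (h : IsRelPrime f₁ f₂)
    (h₁ : f₁ • v ∈ N) (h₂ : f₂ • v ∈ N) : v ∈ hull N := by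
  intro f hf
  by_cases h0 : f ∣ f₁
  · exact ⟨f₂, fun h1 => hf.not_isUnit (h h0 h1), h₂⟩
  · exact ⟨f₁, h0, h₁⟩

theorem hull_free_dvd {h c : A k} (h0 : h ≠ 0)
    (H : ∀ f : A k, Prime f → ∃ h' : A k, ¬ f ∣ h' ∧ h ∣ h' * c) : h ∣ c := by
  obtain ⟨a, b, g, hab, rfl, rfl⟩ := UniqueFactorizationMonoid.exists_reduced_factors h h0 c
  have hg : g ≠ 0 := left_ne_zero_of_mul h0
  have ha : a ≠ 0 := right_ne_zero_of_mul h0
  by_cases hu : IsUnit a
  · exact mul_dvd_mul_left g hu.dvd
  · exfalso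
    obtain ⟨f, hf, hfa⟩ := WfDvdMonoid.exists_irreducible_factor hu ha
    have hp : Prime f := hf.prime
    obtain ⟨h', hfh', hd⟩ := H f hp
    rw [mul_left_comm, mul_dvd_mul_iff_left hg] at hd
    rcases hp.dvd_or_dvd (hfa.trans hd) with h1 | h1
    · exact hfh' h1
    · exact hp.not_isUnit (hab hfa h1)

omit [Module k V] [IsScalarTower k (A k) V] in
/-- The hull of the span of a linearly independent family is itself. -/
theorem hull_free [Module (K k) V] [IsScalarTower (A k) (K k) V] {ι : Type} [Fintype ι] (e : ι → V)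
    (hli : LinearIndependent (A k) e) :
    hull (Submodule.span (A k) (Set.range e)) ≤ Submodule.span (A k) (Set.range e) := by
  intro v hv
  obtain ⟨h, hXh, hh⟩ := hv (X 0) X_prime
  have h0 : h ≠ 0 := fun h0 => hXh (h0 ▸ dvd_zero _)
  obtain ⟨c, hc⟩ := (Submodule.mem_span_range_iff_exists_fun _).1 hh
  have hd : ∀ i, h ∣ c i := fun i => by
    refine hull_free_dvd h0 fun f hf => ?_
    obtain ⟨h', hfh', hh'⟩ := hv f hf
    obtain ⟨c', hc'⟩ := (Submodule.mem_span_range_iff_exists_fun _).1 hh'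
    refine ⟨h', hfh', c' i, ?_⟩
    have := Fintype.linearIndependent_iff.1 hli (fun i => h' * c i - h * c' i) (by
      simp only [sub_smul, mul_smul, Finset.sum_sub_distrib, ← Finset.smul_sum, hc, hc']
      rw [smul_comm, sub_self]) i
    exact sub_eq_zero.1 this
  choose d hd using hd
  refine (Submodule.mem_span_range_iff_exists_fun _).2 ⟨d, KZ2_of_hull_tf h0 ?_⟩
  rw [← hc, Finset.smul_sum]
  exact Finset.sum_congr rfl fun i _ => by rw [hd i, mul_smul]

omit [Module k V] [IsScalarTower k (A k) V] in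
theorem GS.hull_mono {N N' : Submodule (A k) V} (h : N ≤ N') :
    Crest.Agent.R169.hull N ≤ Crest.Agent.R169.hull N' := fun v hv f hf => by
  obtain ⟨a, ha, ha'⟩ := hv f hf
  exact ⟨a, ha, h ha'⟩

/-- The hull of a graded lattice is a graded lattice. -/
theorem GS.hull [Module (K k) V] [IsScalarTower (A k) (K k) V] (g : Gd lam w θ)
    {N : Submodule (A k) V} (hN : GS lam θ N) : GS lam θ (hull N) := by
  classical
  obtain ⟨m, e, d, he, hs⟩ := hN.exists_gens
  obtain ⟨I, hI, hmax⟩ := exists_maximal_linearIndepOn (A k) e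
  set N' : Submodule (A k) V := Submodule.span (A k) (Set.range fun i : I => e i) with hN'
  have hG : GS lam θ N' := GS.span g _ (fun i : I => d i) fun i => he i
  have h1 : ∀ j, ∃ (f : A k) (n : ℕ), f ≠ 0 ∧ f.IsHomogeneous n ∧ f • e j ∈ N' := fun j => by
    by_cases hj : j ∈ I
    · exact ⟨1, 0, one_ne_zero, isHomogeneous_one _ _, by
        rw [one_smul]; exact Submodule.subset_span ⟨⟨j, hj⟩, rfl⟩⟩
    · obtain ⟨a, ha, ha'⟩ := hmax j hj
      refine exists_hom_ann g N' hG.stable (he j) ha ?_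
      rwa [hN', ← Set.image_eq_range]
  choose f n hf0 hfn hfe using h1
  have hH0 : ∏ j, f j ≠ 0 := Finset.prod_ne_zero_iff.2 fun j _ => hf0 j
  have hHh : (∏ j, f j).IsHomogeneous (∑ j, n j) :=
    IsHomogeneous.prod _ _ _ fun j _ => hfn j
  have hHN : ∀ v ∈ N, (∏ j, f j) • v ∈ N' := by
    intro v hv
    rw [← hs] at hv
    obtain ⟨c, rfl⟩ := (Submodule.mem_span_range_iff_exists_fun _).1 hv
    rw [Finset.smul_sum]
    refine N'.sum_mem fun j _ => ?_
    rw [smul_comm, ← Finset.prod_erase_mul _ _ (Finset.mem_univ j), mul_smul]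
    exact N'.smul_mem _ (N'.smul_mem _ (hfe j))
  generalize ∏ j, f j = H at hH0 hHh hHN
  generalize ∑ j, n j = dH at hHh
  choose u hu using fun i : I => KZ2_of_hull_div hH0 (e i)
  have hθH : θA lam w H = ((lam ^ ((w : ℤ) * dH) : kˣ) : k) • H :=
    mem_eig.1 ((mem_eigA_iff g.inf H _).2 (homZ_of_isHomogeneous w hHh))
  have hue : ∀ i : I, u i ∈ eig lam θ (d i - w * dH) := fun i => by
    rw [mem_eig]
    refine KZ2_of_hull_tf hH0 ?_
    have h2 := g.comm.smul H (u i)
    rw [hu, mem_eig.1 (he i), hθH, smul_assoc] at h2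
    rw [smul_comm H, hu, zpow_sub, Units.val_mul, mul_comm, mul_smul, h2, smul_smul,
      Units.inv_mul, one_smul]
  have hli : LinearIndependent (A k) u := by
    rw [Fintype.linearIndependent_iff]
    intro c hc
    refine Fintype.linearIndependent_iff.1 hI c ?_
    have := congrArg (H • ·) hc
    simp only [Finset.smul_sum, smul_zero] at this
    rw [← this]
    exact Finset.sum_congr rfl fun i _ => by rw [smul_comm, hu]
  have hle : N ≤ Submodule.span (A k) (Set.range u) := by
    intro v hv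
    obtain ⟨c, hc⟩ := (Submodule.mem_span_range_iff_exists_fun _).1 (hHN v hv)
    refine (Submodule.mem_span_range_iff_exists_fun _).2 ⟨c, KZ2_of_hull_tf hH0 ?_⟩
    rw [← hc, Finset.smul_sum]
    exact Finset.sum_congr rfl fun i _ => by rw [smul_comm, hu]
  refine GS.of_le g.inf (GS.span g u _ hue) ((GS.hull_mono hle).trans (hull_free u hli)) ?_
  intro v hv p hp
  obtain ⟨a, ha, ha'⟩ := hv ((θA lam w).symm p) ((MulEquiv.prime_iff (θA lam w).symm).2 hp)
  refine ⟨θA lam w a, fun hd => ha ?_, ?_⟩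
  · simpa using map_dvd (θA lam w).symm hd
  · rw [← g.comm.smul]
    exact hN.stable _ ha'

end Crest.Agent.R169
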