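import Crest.Agent.R169.Filt

/-!
# Row 169: polynomial data and spreading out
-/

set_option autoImplicit false

namespace Crest.Agent.R169

open MvPolynomial Matrix

variable {ι : Type} [Fintype ι] [DecidableEq ι]

/-- An admissible lattice described by finitely many polynomial identities over a ring `Λ`. -/
@[ext] structure PD (Λ : Type) [CommRing Λ] (q : ℕ) (b : ι → ℤ) (dH m : ℕ) (dg : Fin m → ℤ) where
  P : Par Λ
  H : A Λ
  G : Matrix ι (Fin m) (A Λ)
  G' : Matrix (Fin m) ι (A Λ)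
  Y : Gen → Matrix ι ι (A Λ)
  Γ : Sym → Matrix ι ι (A Λ)
  Γ' : Sym → Matrix ι ι (A Λ)
  TY : Gen → Matrix (Fin m) (Fin m) (A Λ)
  TΓ : Sym → Matrix (Fin m) (Fin m) (A Λ)
  hH : H.IsHomogeneous dH
  hG : ∀ i j, HomZ (4 * q) (G i j) (dg j - b i)
  hY : ∀ g i j, HomZ (4 * q) (Y g i j) ((4 * q * dH + q * g.deg : ℕ) + b j - b i)
  hΓ : ∀ σ i j, HomZ (4 * q) (Γ σ i j) ((4 * q * dH : ℕ) + b j - b i)
  rel : RelD P H Y
  inv : ∀ σ, Γ σ * Γ' σ = (H ^ 2) • (1 : Matrix ι ι (A Λ))
  ΓY : ∀ σ g, Γ σ * Y g = (C (cf P σ g) : A Λ) • (Y (pr σ g) * Γ σ)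
  YG : ∀ g, Y g * G = H • (G * TY g)
  ΓG : ∀ σ, Γ σ * G = H • (G * TΓ σ)
  GG' : G * G' = H • (1 : Matrix ι ι (A Λ))

variable {q dH m : ℕ} {b : ι → ℤ} {dg : Fin m → ℤ}
variable {Λ Λ' : Type} [CommRing Λ] [CommRing Λ']

/-- Change of coefficients of a matrix of polynomials. -/
noncomputable def mapM {α β : Type} (φ : Λ →+* Λ') (U : Matrix α β (A Λ)) : Matrix α β (A Λ') :=
  U.map (MvPolynomial.map φ)

/-! ### Subtask PD-a -/

theorem HomZ.map {w : ℕ} {f : A Λ} {d : ℤ} (h : HomZ w f d) (φ : Λ →+* Λ') :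
    HomZ w (MvPolynomial.map φ f) d := by
  intro μ hμ
  apply h μ
  intro h0
  rw [coeff_map, h0, map_zero] at hμ
  exact hμ rfl

theorem cf_map (P : Par Λ) (φ : Λ →+* Λ') (σ : Sym) (g : Gen) :
    cf (P.map φ) σ g = φ (cf P σ g) := by
  cases σ <;> cases g <;> simp only [cf, Par.map] <;> (try split_ifs) <;> simp

theorem mapM_mul {α β γ : Type} [Fintype β] (φ : Λ →+* Λ') (U : Matrix α β (A Λ))
    (U' : Matrix β γ (A Λ)) : mapM φ (U * U') = mapM φ U * mapM φ U' := by
  exact Matrix.map_mul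

theorem mapM_smul {α β : Type} (φ : Λ →+* Λ') (f : A Λ) (U : Matrix α β (A Λ)) :
    mapM φ (f • U) = MvPolynomial.map φ f • mapM φ U := by
  ext i j : 2
  simp only [mapM, Matrix.map_apply, Matrix.smul_apply, smul_eq_mul, map_mul]

theorem mapM_one (φ : Λ →+* Λ') : mapM φ (1 : Matrix ι ι (A Λ)) = 1 := by
  exact Matrix.map_one _ (map_zero _) (map_one _)

theorem RelD.mapM_add {α β : Type} (φ : Λ →+* Λ') (U U' : Matrix α β (A Λ)) :
    mapM φ (U + U') = mapM φ U + mapM φ U' := by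
  ext i j : 2
  simp only [mapM, Matrix.map_apply, Matrix.add_apply, map_add]

theorem RelD.mapM_sub {α β : Type} (φ : Λ →+* Λ') (U U' : Matrix α β (A Λ)) :
    mapM φ (U - U') = mapM φ U - mapM φ U' := by
  ext i j : 2
  simp only [mapM, Matrix.map_apply, Matrix.sub_apply, map_sub]

theorem RelD.mapM_lin (φ : Λ →+* Λ') (a : Li) : MvPolynomial.map φ (lin Λ a) = lin Λ' a := by
  simp only [lin, map_add, map_mul, map_X, map_C, map_intCast]

theorem RelD.mapM_algebraMap (φ : Λ →+* Λ') (f : A Λ) :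
    mapM φ (algebraMap (A Λ) (Matrix ι ι (A Λ)) f) =
      algebraMap (A Λ') (Matrix ι ι (A Λ')) (MvPolynomial.map φ f) := by
  rw [Algebra.algebraMap_eq_smul_one, Algebra.algebraMap_eq_smul_one, mapM_smul, mapM_one]

theorem RelD.mapM {P : Par Λ} {H : A Λ} {Y : Gen → Matrix ι ι (A Λ)} (h : RelD P H Y)
    (φ : Λ →+* Λ') : RelD (P.map φ) (MvPolynomial.map φ H) fun g => mapM φ (Y g) := by
  refine ⟨fun g g' => ?_, fun a => ?_, fun t => ?_, fun t => ?_, fun t => ?_⟩
  · rw [← mapM_mul, ← mapM_mul, h.comm]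
  · rw [← mapM_mul, h.s, RelD.mapM_algebraMap, map_mul, map_pow, RelD.mapM_lin]
  · rw [← mapM_mul, h.u, RelD.mapM_add, mapM_smul, mapM_smul, map_mul, map_mul, map_C, map_C]
    rfl
  · rw [← mapM_mul, h.v, RelD.mapM_sub, mapM_smul, mapM_smul, map_mul, map_mul, map_C, map_C]
    rfl
  · rw [← mapM_mul, h.uv, mapM_smul, map_mul, map_C]
    rfl

/-- Change of coefficients. -/
noncomputable def PD.map (X : PD Λ q b dH m dg) (φ : Λ →+* Λ') : PD Λ' q b dH m dg where
  P := X.P.map φ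
  H := MvPolynomial.map φ X.H
  G := mapM φ X.G
  G' := mapM φ X.G'
  Y g := mapM φ (X.Y g)
  Γ σ := mapM φ (X.Γ σ)
  Γ' σ := mapM φ (X.Γ' σ)
  TY g := mapM φ (X.TY g)
  TΓ σ := mapM φ (X.TΓ σ)
  hH := X.hH.map φ
  hG i j := (X.hG i j).map φ
  hY g i j := (X.hY g i j).map φ
  hΓ σ i j := (X.hΓ σ i j).map φ
  rel := X.rel.mapM φ
  inv σ := by rw [← mapM_mul, X.inv, mapM_smul, mapM_one, map_pow]
  ΓY σ g := by rw [← mapM_mul, X.ΓY, mapM_smul, mapM_mul, map_C, cf_map]
  YG g := by rw [← mapM_mul, X.YG, mapM_smul, mapM_mul]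
  ΓG σ := by rw [← mapM_mul, X.ΓG, mapM_smul, mapM_mul]
  GG' := by rw [← mapM_mul, X.GG', mapM_smul, mapM_one]

theorem PD.map_map_M {Λ'' : Type} [CommRing Λ''] {α β : Type} (φ : Λ →+* Λ') (ψ : Λ' →+* Λ'')
    (U : Matrix α β (A Λ)) : mapM ψ (mapM φ U) = mapM (ψ.comp φ) U := by
  ext i j : 2
  simp only [mapM, Matrix.map_apply, MvPolynomial.map_map]

theorem PD.map_map {Λ'' : Type} [CommRing Λ''] (X : PD Λ q b dH m dg) (φ : Λ →+* Λ')
    (ψ : Λ' →+* Λ'') : (X.map φ).map ψ = X.map (ψ.comp φ) := by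
  apply PD.ext
  · rfl
  · exact MvPolynomial.map_map φ ψ _
  · exact PD.map_map_M φ ψ _
  · exact PD.map_map_M φ ψ _
  · exact funext fun _ => PD.map_map_M φ ψ _
  · exact funext fun _ => PD.map_map_M φ ψ _
  · exact funext fun _ => PD.map_map_M φ ψ _
  · exact funext fun _ => PD.map_map_M φ ψ _
  · exact funext fun _ => PD.map_map_M φ ψ _

theorem PD.exists_descent_inj {φ : Λ →+* Λ'} (hφ : Function.Injective φ) {α β : Type}
    {U U' : Matrix α β (A Λ)} (h : mapM φ U = mapM φ U') : U = U' := by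
  exact Matrix.ext fun i j => MvPolynomial.map_injective φ hφ (congrFun (congrFun h i) j)

theorem PD.exists_descent_homZ {φ : Λ →+* Λ'} (hφ : Function.Injective φ) {w : ℕ} {f : A Λ}
    {d : ℤ} (h : HomZ w (MvPolynomial.map φ f) d) : HomZ w f d := by
  intro μ hμ
  apply h μ
  rw [coeff_map]
  exact (map_ne_zero_iff φ hφ).2 hμ

theorem PD.exists_descent_rel {φ : Λ →+* Λ'} (hφ : Function.Injective φ) {P : Par Λ} {H : A Λ}
    {Y : Gen → Matrix ι ι (A Λ)}
    (h : RelD (P.map φ) (MvPolynomial.map φ H) fun g => mapM φ (Y g)) : RelD P H Y := by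
  refine ⟨fun g g' => ?_, fun a => ?_, fun t => ?_, fun t => ?_, fun t => ?_⟩ <;>
    apply PD.exists_descent_inj hφ
  · rw [mapM_mul, mapM_mul]
    exact h.comm g g'
  · rw [mapM_mul, RelD.mapM_algebraMap, map_mul, map_pow, RelD.mapM_lin]
    exact h.s a
  · rw [mapM_mul, RelD.mapM_add, mapM_smul, mapM_smul, map_mul, map_mul, map_C, map_C]
    exact h.u t
  · rw [mapM_mul, RelD.mapM_sub, mapM_smul, mapM_smul, map_mul, map_mul, map_C, map_C]
    exact h.v t
  · rw [mapM_mul, mapM_smul, map_mul, map_C]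
    exact h.uv t

theorem PD.exists_descent_ring {k : Type} [Field k] (S : Set k) (hS : S.Finite) (T : Set (A k))
    (hT : T.Finite) : ∃ (Λ : Subring k) (lf : A k → A Λ), Algebra.FiniteType ℤ Λ ∧
      (∀ c ∈ S, c ∈ Λ) ∧ ∀ f ∈ T, MvPolynomial.map Λ.subtype (lf f) = f := by
  classical
  let S' : Set k := S ∪ ⋃ f ∈ T, (f.coeffs : Set k)
  have hS' : S'.Finite := hS.union (hT.biUnion fun f _ => f.coeffs.finite_toSet)
  let Λ : Subring k := (Algebra.adjoin ℤ S').toSubring
  have hsub : ∀ c ∈ S', c ∈ Λ := fun c hc => Algebra.subset_adjoin (R := ℤ) hc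
  have h1 : ∀ f : A k, ∃ f0 : A Λ, f ∈ T → MvPolynomial.map Λ.subtype f0 = f := by
    intro f
    by_cases hf : f ∈ T
    · have : f ∈ Set.range (MvPolynomial.map (σ := Fin 3) Λ.subtype) := by
        rw [MvPolynomial.mem_range_map_iff_coeffs_subset]
        intro c hc
        exact ⟨⟨c, hsub c (Or.inr (Set.mem_biUnion hf hc))⟩, rfl⟩
      obtain ⟨f0, h0⟩ := this
      exact ⟨f0, fun _ => h0⟩
    · exact ⟨0, fun h => absurd h hf⟩
  choose lf hlf using h1
  refine ⟨Λ, lf, ?_, fun c hc => hsub c (Or.inl hc), hlf⟩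
  have := Algebra.FiniteType.adjoin_of_finite (R := ℤ) hS'
  have e : (Ring.toIntAlgebra Λ : Algebra ℤ Λ) = (Algebra.adjoin ℤ S').algebra :=
    Subsingleton.elim _ _
  exact e ▸ this

theorem PD.exists_descent_par {P P' : Par Λ} (h1 : P.al = P'.al) (h2 : P.be = P'.be)
    (h3 : P.ga = P'.ga) (h4 : P.io = P'.io) : P = P' := by
  cases P
  cases P'
  simp only at h1 h2 h3 h4
  subst h1 h2 h3 h4
  rfl

/-- Descent to a finitely generated ring of coefficients. -/
theorem PD.exists_descent {k : Type} [Field k] (X : PD k q b dH m dg) :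
    ∃ (Λ : Type) (_ : CommRing Λ) (_ : IsDomain Λ) (φ : Λ →+* k) (X0 : PD Λ q b dH m dg),
      Function.Injective φ ∧ Algebra.FiniteType ℤ Λ ∧ X0.map φ = X := by
  obtain ⟨Λ, lf, hft, hc, hlf⟩ := PD.exists_descent_ring
    (Set.range X.P.al ∪ Set.range X.P.be ∪ Set.range X.P.ga ∪ {X.P.io})
    ((((Set.finite_range _).union (Set.finite_range _)).union (Set.finite_range _)).union
      (Set.finite_singleton _))
    ({X.H} ∪ (Set.range fun x : ι × Fin m => X.G x.1 x.2) ∪
      (Set.range fun x : Fin m × ι => X.G' x.1 x.2) ∪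
      (Set.range fun x : Gen × ι × ι => X.Y x.1 x.2.1 x.2.2) ∪
      (Set.range fun x : Sym × ι × ι => X.Γ x.1 x.2.1 x.2.2) ∪
      (Set.range fun x : Sym × ι × ι => X.Γ' x.1 x.2.1 x.2.2) ∪
      (Set.range fun x : Gen × Fin m × Fin m => X.TY x.1 x.2.1 x.2.2) ∪
      (Set.range fun x : Sym × Fin m × Fin m => X.TΓ x.1 x.2.1 x.2.2))
    ((((((((Set.finite_singleton _).union (Set.finite_range _)).union (Set.finite_range _)).union
      (Set.finite_range _)).union (Set.finite_range _)).union (Set.finite_range _)).union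
      (Set.finite_range _)).union (Set.finite_range _))
  simp only [Set.mem_union, Set.mem_range, Set.mem_singleton_iff] at hc hlf
  have hφ : Function.Injective Λ.subtype := Subtype.val_injective
  let P0 : Par Λ :=
    { al := fun t => ⟨X.P.al t, hc _ (Or.inl (Or.inl (Or.inl ⟨t, rfl⟩)))⟩
      be := fun t => ⟨X.P.be t, hc _ (Or.inl (Or.inl (Or.inr ⟨t, rfl⟩)))⟩
      ga := fun t => ⟨X.P.ga t, hc _ (Or.inl (Or.inr ⟨t, rfl⟩))⟩
      io := ⟨X.P.io, hc _ (Or.inr rfl)⟩
      al_sq := fun t => hφ (by rw [map_pow, map_intCast]; exact X.P.al_sq t)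
      be_sq := fun t => hφ (by rw [map_pow, map_intCast]; exact X.P.be_sq t)
      ga_sq := fun t => hφ (by rw [map_pow, map_intCast]; exact X.P.ga_sq t)
      io_sq := hφ (by rw [map_pow, map_neg, map_one]; exact X.P.io_sq) }
  have eP : P0.map Λ.subtype = X.P := PD.exists_descent_par rfl rfl rfl rfl
  have eH : MvPolynomial.map Λ.subtype (lf X.H) = X.H :=
    hlf _ (Or.inl (Or.inl (Or.inl (Or.inl (Or.inl (Or.inl (Or.inl rfl)))))))
  have eG : mapM Λ.subtype (X.G.map lf) = X.G := Matrix.ext fun i j =>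
    hlf _ (Or.inl (Or.inl (Or.inl (Or.inl (Or.inl (Or.inl (Or.inr ⟨(i, j), rfl⟩)))))))
  have eG' : mapM Λ.subtype (X.G'.map lf) = X.G' := Matrix.ext fun i j =>
    hlf _ (Or.inl (Or.inl (Or.inl (Or.inl (Or.inl (Or.inr ⟨(i, j), rfl⟩))))))
  have eY : ∀ g, mapM Λ.subtype ((X.Y g).map lf) = X.Y g := fun g => Matrix.ext fun i j =>
    hlf _ (Or.inl (Or.inl (Or.inl (Or.inl (Or.inr ⟨(g, i, j), rfl⟩)))))
  have eΓ : ∀ σ, mapM Λ.subtype ((X.Γ σ).map lf) = X.Γ σ := fun g => Matrix.ext fun i j =>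
    hlf _ (Or.inl (Or.inl (Or.inl (Or.inr ⟨(g, i, j), rfl⟩))))
  have eΓ' : ∀ σ, mapM Λ.subtype ((X.Γ' σ).map lf) = X.Γ' σ := fun g => Matrix.ext fun i j =>
    hlf _ (Or.inl (Or.inl (Or.inr ⟨(g, i, j), rfl⟩)))
  have eTY : ∀ g, mapM Λ.subtype ((X.TY g).map lf) = X.TY g := fun g => Matrix.ext fun i j =>
    hlf _ (Or.inl (Or.inr ⟨(g, i, j), rfl⟩))
  have eTΓ : ∀ σ, mapM Λ.subtype ((X.TΓ σ).map lf) = X.TΓ σ := fun g => Matrix.ext fun i j =>
    hlf _ (Or.inr ⟨(g, i, j), rfl⟩)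
  have hz : ∀ {α β : Type} {U : Matrix α β (A k)}, mapM Λ.subtype (U.map lf) = U →
      ∀ (i : α) (j : β) (d : ℤ), HomZ (4 * q) (U i j) d → HomZ (4 * q) (U.map lf i j) d := by
    intro α β U hU i j d h
    apply PD.exists_descent_homZ hφ
    have : MvPolynomial.map Λ.subtype (U.map lf i j) = U i j := congrFun (congrFun hU i) j
    rwa [this]
  refine ⟨Λ, inferInstance, inferInstance, Λ.subtype,
    { P := P0
      H := lf X.H
      G := X.G.map lf
      G' := X.G'.map lf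
      Y := fun g => (X.Y g).map lf
      Γ := fun σ => (X.Γ σ).map lf
      Γ' := fun σ => (X.Γ' σ).map lf
      TY := fun g => (X.TY g).map lf
      TΓ := fun σ => (X.TΓ σ).map lf
      hH := IsHomogeneous.of_map hφ (by rw [eH]; exact X.hH)
      hG := fun i j => hz eG i j _ (X.hG i j)
      hY := fun g i j => hz (eY g) i j _ (X.hY g i j)
      hΓ := fun σ i j => hz (eΓ σ) i j _ (X.hΓ σ i j)
      rel := PD.exists_descent_rel hφ (by simp only [eP, eH, eY]; exact X.rel)
      inv := fun σ => PD.exists_descent_inj hφ (by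
        rw [mapM_mul, mapM_smul, mapM_one, map_pow, eΓ, eΓ', eH, X.inv])
      ΓY := fun σ g => PD.exists_descent_inj hφ (by
        rw [mapM_mul, mapM_smul, mapM_mul, map_C, ← cf_map, eP, eΓ, eY, eY, X.ΓY])
      YG := fun g => PD.exists_descent_inj hφ (by
        rw [mapM_mul, mapM_smul, mapM_mul, eH, eY, eG, eTY, X.YG])
      ΓG := fun σ => PD.exists_descent_inj hφ (by
        rw [mapM_mul, mapM_smul, mapM_mul, eH, eΓ, eG, eTΓ, X.ΓG])
      GG' := PD.exists_descent_inj hφ (by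
        rw [mapM_mul, mapM_smul, mapM_one, eH, eG, eG', X.GG']) }, hφ, hft, ?_⟩
  exact PD.ext eP eH eG eG' (funext eY) (funext eΓ) (funext eΓ') (funext eTY) (funext eTΓ)

section Field

variable {k : Type} [Field k]

/-- Polynomial matrices as rational matrices. -/
noncomputable def toK {α β : Type} (U : Matrix α β (A k)) : Matrix α β (K k) :=
  U.map (algebraMap (A k) (K k))

/-- `D` is the lattice described by `X`. -/
structure IsOf (X : PD k q b dH m dg) {lam : kˣ} (D : Adm X.P lam q ι) : Prop where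
  Y : ∀ g, D.Y g = (algebraMap (A k) (K k) X.H)⁻¹ • toK (X.Y g)
  Γ : ∀ σ, D.Γ σ = (algebraMap (A k) (K k) X.H)⁻¹ • toK (X.Γ σ)
  Θ : D.Θ = Matrix.diagonal fun i => algebraMap k (K k) ((lam ^ b i : kˣ) : k)
  E : D.E = Submodule.span (A k) (Set.range fun j i => toK X.G i j)

/-- Homogeneous vectors of degree `n`. -/
def homSub (k : Type) [Field k] (w : ℕ) (b : ι → ℤ) (n : ℤ) : Submodule k (ι → A k) where
  carrier := {v | ∀ i, HomZ w (v i) (n - b i)}
  add_mem' := by
    intro u v hu hv i μ hμ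
    by_cases h : coeff μ (u i) = 0
    · exact hv i μ (by simpa [h] using hμ)
    · exact hu i μ h
  zero_mem' := fun i μ hμ => by simp at hμ
  smul_mem' := by
    intro c v hv i μ hμ
    exact hv i μ (by intro h; simp [h] at hμ)

/-- Hilbert function of the column span of `G`. -/
noncomputable def hcol (w : ℕ) (b : ι → ℤ) (G : Matrix ι (Fin m) (A k)) (n : ℤ) : ℚ :=
  (Module.finrank k
    ((Submodule.span (A k) (Set.range fun j i => G i j)).restrictScalars k ⊓ homSub k w b n :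
      Submodule k (ι → A k)) : ℚ)

/-! ### Subtask PD-b -/

/-- Polynomial vectors as rational vectors. -/
noncomputable def hilb_cols_emb (k : Type) [Field k] (ι : Type) : (ι → A k) →ₗ[A k] (ι → K k) :=
  (Algebra.linearMap (A k) (K k)).compLeft ι

omit [Fintype ι] [DecidableEq ι] in
theorem hilb_cols_emb_apply (v : ι → A k) (i : ι) :
    hilb_cols_emb k ι v i = algebraMap (A k) (K k) (v i) := rfl

omit [Fintype ι] [DecidableEq ι] in
theorem hilb_cols_emb_inj : Function.Injective (hilb_cols_emb k ι) := fun _ _ h =>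
  funext fun i => IsFractionRing.injective (A k) (K k) (congrFun h i)

theorem hilb_cols_θW (lam : kˣ) (w : ℕ) (b : ι → ℤ) (v : ι → K k) (i : ι) :
    θW lam w (Matrix.diagonal fun i => algebraMap k (K k) ((lam ^ b i : kˣ) : k)) v i =
      ((lam ^ b i : kˣ) : k) • θK lam w (v i) := by
  change (Matrix.diagonal _ *ᵥ _) i = _
  rw [mulVec_diagonal, Algebra.smul_def]

theorem hilb_cols_alg_smul (c : k) (f : A k) :
    algebraMap (A k) (K k) (c • f) = c • algebraMap (A k) (K k) f :=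
  map_smul (IsScalarTower.toAlgHom k (A k) (K k)) c f

theorem hilb_cols_eig {lam : kˣ} (hl : InfOrd lam) (w : ℕ) (b : ι → ℤ) (v : ι → A k) (n : ℤ) :
    hilb_cols_emb k ι v ∈ eig lam
      (θW lam w (Matrix.diagonal fun i => algebraMap k (K k) ((lam ^ b i : kˣ) : k))) n ↔
      ∀ i, HomZ w (v i) (n - b i) := by
  rw [← mem_eigF_iff (lam := lam) hl, mem_eig, mem_eig]
  have e : θW lam w (Matrix.diagonal fun i => algebraMap k (K k) ((lam ^ b i : kˣ) : k))
      (hilb_cols_emb k ι v) = hilb_cols_emb k ι (θF lam w b v) := by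
    funext i
    rw [hilb_cols_θW, hilb_cols_emb_apply, hilb_cols_emb_apply, θK_algebraMap,
      ← hilb_cols_alg_smul]
    rfl
  rw [e, ← LinearMap.map_smul_of_tower, hilb_cols_emb_inj.eq_iff]

theorem hilb_cols {lam : kˣ} (hl : InfOrd lam) (w : ℕ) (b : ι → ℤ) (G : Matrix ι (Fin m) (A k)) :
    hilb lam (θW lam w (Matrix.diagonal fun i => algebraMap k (K k) ((lam ^ b i : kˣ) : k)))
      (Submodule.span (A k) (Set.range fun j i => toK G i j)) = hcol w b G := by
  funext n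
  unfold hilb hcol
  have e : Submodule.span (A k) (Set.range fun j i => toK G i j) =
      (Submodule.span (A k) (Set.range fun j i => G i j)).map (hilb_cols_emb k ι) := by
    rw [Submodule.map_span, ← Set.range_comp]
    rfl
  have e2 : piece lam (θW lam w (Matrix.diagonal fun i => algebraMap k (K k) ((lam ^ b i : kˣ) : k)))
      (Submodule.span (A k) (Set.range fun j i => toK G i j)) n =
      ((Submodule.span (A k) (Set.range fun j i => G i j)).restrictScalars k ⊓ homSub k w b n).map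
        ((hilb_cols_emb k ι).restrictScalars k) := by
    rw [e]
    ext v
    constructor
    · rintro ⟨⟨u, hu, rfl⟩, hv⟩
      exact ⟨u, ⟨hu, (hilb_cols_eig hl w b u n).1 hv⟩, rfl⟩
    · rintro ⟨u, ⟨hu, hu'⟩, rfl⟩
      exact ⟨⟨u, hu, rfl⟩, (hilb_cols_eig hl w b u n).2 hu'⟩
  rw [e2, ← (Submodule.equivMapOfInjective ((hilb_cols_emb k ι).restrictScalars k)
    hilb_cols_emb_inj _).finrank_eq]

theorem homDeg_toK_θK (lam : kˣ) (w : ℕ) {f : A k} {d : ℤ} (hf : HomZ w f d) :
    θK lam w (algebraMap (A k) (K k) f) = ((lam ^ d : kˣ) : k) • algebraMap (A k) (K k) f := by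
  have hc : Comm lam w (θA lam w).toLinearMap := by
    intro i v
    change θA lam w (X i * v) = _ • (X i * θA lam w v)
    rw [map_mul, smul_eq_C_mul, ← mul_assoc]
    congr 1
    simp [θA]
  have h1 : (1 : A k) ∈ eig lam (θA lam w).toLinearMap 0 := by
    rw [mem_eig]; simp
  have h2 := mem_eig.1 (hc.smul_mem_eig hf h1)
  rw [smul_eq_mul, mul_one, add_zero] at h2
  rw [θK_algebraMap, ← hilb_cols_alg_smul, ← h2]
  rfl

/-- A polynomial matrix with homogeneous entries is a homogeneous map. -/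
theorem homDeg_toK (lam : kˣ) (w : ℕ) (b : ι → ℤ) (U : Matrix ι ι (A k)) (e : ℤ)
    (h : ∀ i j, HomZ w (U i j) (e + b j - b i)) :
    HomDeg lam (θW lam w (Matrix.diagonal fun i => algebraMap k (K k) ((lam ^ b i : kˣ) : k)))
      (θW lam w (Matrix.diagonal fun i => algebraMap k (K k) ((lam ^ b i : kˣ) : k)))
      (fun v => toK U *ᵥ v) e := by
  intro v
  funext i
  rw [hilb_cols_θW, Pi.smul_apply]
  simp only [mulVec, dotProduct, map_sum, map_mul, Finset.smul_sum]
  refine Finset.sum_congr rfl fun j _ => ?_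
  rw [hilb_cols_θW]
  change _ • (θK lam w (algebraMap (A k) (K k) (U i j)) * _) =
    _ • (algebraMap (A k) (K k) (U i j) * _)
  rw [homDeg_toK_θK lam w (h i j), smul_mul_assoc, mul_smul_comm, smul_smul, smul_smul,
    ← Units.val_mul, ← Units.val_mul, ← _root_.zpow_add, ← _root_.zpow_add]
  congr 3
  ring

theorem homZ_of_homDeg {lam : kˣ} (hl : InfOrd lam) (w : ℕ) (b : ι → ℤ) (U : Matrix ι ι (A k))
    (e : ℤ)
    (h : HomDeg lam (θW lam w (Matrix.diagonal fun i => algebraMap k (K k) ((lam ^ b i : kˣ) : k)))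
      (θW lam w (Matrix.diagonal fun i => algebraMap k (K k) ((lam ^ b i : kˣ) : k)))
      (fun v => toK U *ᵥ v) e) (i j : ι) : HomZ w (U i j) (e + b j - b i) := by
  have h1 := congrFun (h (Pi.single j 1)) i
  have e : θW lam w (Matrix.diagonal fun i => algebraMap k (K k) ((lam ^ b i : kˣ) : k))
      (Pi.single j 1) = ((lam ^ b j : kˣ) : k) • (Pi.single j 1 : ι → K k) := by
    funext l
    rw [hilb_cols_θW, Pi.smul_apply]
    by_cases hl : l = j
    · subst hl; simp
    · simp [hl]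
  simp only [e] at h1
  rw [hilb_cols_θW, mulVec_smul, mulVec_single_one, Pi.smul_apply, Pi.smul_apply, smul_smul] at h1
  change _ • θK lam w (algebraMap (A k) (K k) (U i j)) = _ • algebraMap (A k) (K k) (U i j) at h1
  rw [θK_algebraMap, ← hilb_cols_alg_smul, ← hilb_cols_alg_smul,
    (IsFractionRing.injective (A k) (K k)).eq_iff] at h1
  rw [← mem_eigA_iff (lam := lam) hl, mem_eig]
  change θA lam w (U i j) = _
  rw [_root_.zpow_sub, _root_.zpow_add, mul_comm, Units.val_mul, Units.val_mul, mul_smul, ← h1,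
    smul_smul, Units.inv_mul, one_smul]

theorem exists_adm_toK_mul {α β γ : Type} [Fintype β] (U : Matrix α β (A k))
    (U' : Matrix β γ (A k)) : toK (U * U') = toK U * toK U' := Matrix.map_mul

theorem exists_adm_toK_smul {α β : Type} (f : A k) (U : Matrix α β (A k)) :
    toK (f • U) = algebraMap (A k) (K k) f • toK U := by
  ext i j; simp [toK]

theorem exists_adm_toK_add {α β : Type} (U U' : Matrix α β (A k)) :
    toK (U + U') = toK U + toK U' := by
  ext i j; simp [toK]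

theorem exists_adm_toK_sub {α β : Type} (U U' : Matrix α β (A k)) :
    toK (U - U') = toK U - toK U' := by
  ext i j; simp [toK]

omit [Fintype ι] in
theorem exists_adm_toK_one : toK (1 : Matrix ι ι (A k)) = 1 :=
  Matrix.map_one _ (map_zero _) (map_one _)

theorem exists_adm_toK_inj {α β : Type} {U U' : Matrix α β (A k)} (h : toK U = toK U') : U = U' :=
  Matrix.ext fun i j => IsFractionRing.injective (A k) (K k) (congrFun (congrFun h i) j)

omit [DecidableEq ι] in
theorem exists_adm_homDeg {lam : kˣ} {w : ℕ} {Θ U : Matrix ι ι (K k)} {e d : ℤ} {c : K k}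
    (h : HomDeg lam (θW lam w Θ) (θW lam w Θ) (fun v => U *ᵥ v) e)
    (hc : θK lam w c = ((lam ^ d : kˣ) : k) • c) :
    HomDeg lam (θW lam w Θ) (θW lam w Θ) (fun v => (c • U) *ᵥ v) (d + e) := by
  intro v
  have h1 := h v
  simp only at h1 ⊢
  rw [smul_mulVec, smul_mulVec, θW_smul, h1, hc, smul_assoc, smul_comm c, smul_smul,
    ← Units.val_mul, ← _root_.zpow_add]

/-- The relations for `Y` and for `Y / H`. -/
theorem exists_adm_rel {P : Par k} {H : A k} (hH : H ≠ 0) {Y : Gen → Matrix ι ι (A k)}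
    {Y' : Gen → Matrix ι ι (K k)} (h : ∀ g, toK (Y g) = algebraMap (A k) (K k) H • Y' g) :
    RelD P H Y ↔ RelD P 1 Y' := by
  have hH' : algebraMap (A k) (K k) H ≠ 0 :=
    (map_ne_zero_iff _ (IsFractionRing.injective (A k) (K k))).2 hH
  have key : ∀ (g g' : Gen) (U : Matrix ι ι (A k)) (U' : Matrix ι ι (K k)),
      toK U = (algebraMap (A k) (K k) H * algebraMap (A k) (K k) H) • U' →
      (Y g * Y g' = U ↔ Y' g * Y' g' = U') := by
    intro g g' U U' hU
    have e : toK (Y g * Y g') =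
        (algebraMap (A k) (K k) H * algebraMap (A k) (K k) H) • (Y' g * Y' g') := by
      rw [exists_adm_toK_mul, h, h, smul_mul_smul_comm]
    constructor
    · intro h1
      rw [h1, hU] at e
      exact (smul_right_injective _ (mul_ne_zero hH' hH') e).symm
    · intro h1
      exact exists_adm_toK_inj (by rw [e, hU, h1])
  have hsm : ∀ (c : A k) (g : Gen), toK ((H * c) • Y g) =
      (algebraMap (A k) (K k) H * algebraMap (A k) (K k) H) • ((1 * c) • Y' g) := by
    intro c g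
    rw [exists_adm_toK_smul, h, one_mul, ← algebraMap_smul (K k) c, smul_smul, smul_smul, map_mul]
    congr 1
    ring
  have k1 := fun g g' => key g g' (Y g' * Y g) (Y' g' * Y' g)
    (by rw [exists_adm_toK_mul, h, h, smul_mul_smul_comm])
  have k2 := fun a => key (.s a) (.s a) (algebraMap (A k) _ (H ^ 2 * lin k a))
    (algebraMap (A k) _ (1 ^ 2 * lin k a)) (by
      rw [Algebra.algebraMap_eq_smul_one (A := Matrix ι ι (A k)),
        Algebra.algebraMap_eq_smul_one (A := Matrix ι ι (K k)), exists_adm_toK_smul,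
        exists_adm_toK_one, one_pow, one_mul, ← algebraMap_smul (K k) (lin k a), smul_smul,
        map_mul, map_pow, sq])
  have k3 := fun t : Tr => key (.u t) (.u t)
    ((H * C (P.al t)) • Y (.s t.a) + (H * C (P.be t)) • Y (.s t.b))
    (((1 : A k) * C (P.al t)) • Y' (.s t.a) + ((1 : A k) * C (P.be t)) • Y' (.s t.b))
    (by rw [exists_adm_toK_add, hsm, hsm, smul_add])
  have k4 := fun t : Tr => key (.v t) (.v t)
    ((H * C (P.al t)) • Y (.s t.a) - (H * C (P.be t)) • Y (.s t.b))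
    (((1 : A k) * C (P.al t)) • Y' (.s t.a) - ((1 : A k) * C (P.be t)) • Y' (.s t.b))
    (by rw [exists_adm_toK_sub, hsm, hsm, smul_sub])
  have k5 := fun t : Tr => key (.u t) (.v t) ((H * C (P.ga t)) • Y (.s t.c))
    (((1 : A k) * C (P.ga t)) • Y' (.s t.c)) (by rw [hsm])
  exact ⟨fun r => ⟨fun g g' => (k1 g g').1 (r.comm g g'), fun a => (k2 a).1 (r.s a),
      fun t => (k3 t).1 (r.u t), fun t => (k4 t).1 (r.v t), fun t => (k5 t).1 (r.uv t)⟩,
    fun r => ⟨fun g g' => (k1 g g').2 (r.comm g g'), fun a => (k2 a).2 (r.s a),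
      fun t => (k3 t).2 (r.u t), fun t => (k4 t).2 (r.v t), fun t => (k5 t).2 (r.uv t)⟩⟩

omit [Fintype ι] [DecidableEq ι] in
theorem exists_adm_col (G : Matrix ι (Fin m) (K k)) (c : Fin m → K k) :
    G *ᵥ c = ∑ j, c j • fun i => G i j := by
  funext i
  simp [mulVec, dotProduct, mul_comm]

omit [DecidableEq ι] in
theorem exists_adm_stab (G : Matrix ι (Fin m) (A k)) (U : Matrix ι ι (K k))
    (T : Matrix (Fin m) (Fin m) (A k)) (h : U * toK G = toK G * toK T) :
    ∀ v ∈ Submodule.span (A k) (Set.range fun j i => toK G i j),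
      U *ᵥ v ∈ Submodule.span (A k) (Set.range fun j i => toK G i j) := by
  intro v hv
  induction hv using Submodule.span_induction with
  | mem u hu =>
    obtain ⟨j, rfl⟩ := hu
    have e : U *ᵥ (fun i => toK G i j) = toK G *ᵥ fun l => toK T l j :=
      funext fun i => congrFun (congrFun h i) j
    rw [e, exists_adm_col]
    refine Submodule.sum_mem _ fun l _ => ?_
    change algebraMap (A k) (K k) (T l j) • _ ∈ _
    rw [algebraMap_smul]
    exact Submodule.smul_mem _ _ (Submodule.subset_span ⟨l, rfl⟩)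
  | zero => rw [mulVec_zero]; exact Submodule.zero_mem _
  | add u v _ _ hu hv => rw [mulVec_add]; exact Submodule.add_mem _ hu hv
  | smul a v _ hv => rw [mulVec_smul]; exact Submodule.smul_mem _ _ hv

theorem PD.exists_adm (X : PD k q b dH m dg) (hH : X.H ≠ 0) {lam : kˣ} (hl : InfOrd lam)
    (hq : 0 < q) : ∃ D : Adm X.P lam q ι, IsOf X D := by
  have hw : 0 < 4 * q := by omega
  have hH' : algebraMap (A k) (K k) X.H ≠ 0 :=
    (map_ne_zero_iff _ (IsFractionRing.injective (A k) (K k))).2 hH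
  have hθ : θK lam (4 * q) (algebraMap (A k) (K k) X.H)⁻¹ =
      ((lam ^ (-((4 * q * dH : ℕ) : ℤ)) : kˣ) : k) • (algebraMap (A k) (K k) X.H)⁻¹ := by
    rw [map_inv₀, homDeg_toK_θK lam (4 * q) (homZ_of_isHomogeneous (4 * q) X.hH), smul_inv₀,
      _root_.zpow_neg, Units.val_inv_eq_inv_val, Nat.cast_mul (4 * q)]
  have hst : ∀ (U : Matrix ι ι (A k)) (T : Matrix (Fin m) (Fin m) (A k)),
      U * X.G = X.H • (X.G * T) →
      ((algebraMap (A k) (K k) X.H)⁻¹ • toK U) * toK X.G = toK X.G * toK T := by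
    intro U T h
    rw [Matrix.smul_mul, ← exists_adm_toK_mul, h, exists_adm_toK_smul, inv_smul_smul₀ hH',
      exists_adm_toK_mul]
  refine ⟨{ Y := fun g => (algebraMap (A k) (K k) X.H)⁻¹ • toK (X.Y g)
            Γ := fun σ => (algebraMap (A k) (K k) X.H)⁻¹ • toK (X.Γ σ)
            Θ := Matrix.diagonal fun i => algebraMap k (K k) ((lam ^ b i : kˣ) : k)
            E := Submodule.span (A k) (Set.range fun j i => toK X.G i j)
            rel := (exists_adm_rel hH fun g => (smul_inv_smul₀ hH' _).symm).1 X.rel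
            Γunit := fun σ => ?_
            ΓY := fun σ g => ?_
            θY := fun g => ?_
            θΓ := fun σ => ?_
            gs := GS.span (gd_W hl hw _) _ dg fun j =>
              (hilb_cols_eig hl (4 * q) b (fun i => X.G i j) (dg j)).2 fun i => X.hG i j
            span := ?_
            Ystab := fun g => exists_adm_stab _ _ _ (hst _ _ (X.YG g))
            Γstab := fun σ => exists_adm_stab _ _ _ (hst _ _ (X.ΓG σ)) },
    fun _ => rfl, fun _ => rfl, rfl, rfl⟩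
  · refine IsUnit.of_mul_eq_one ((algebraMap (A k) (K k) X.H)⁻¹ • toK (X.Γ' σ)) ?_
    rw [smul_mul_smul_comm, ← exists_adm_toK_mul, X.inv, exists_adm_toK_smul, exists_adm_toK_one,
      smul_smul, map_pow, sq, ← mul_inv, inv_mul_cancel₀ (mul_ne_zero hH' hH'), one_smul]
  · rw [smul_mul_smul_comm, smul_mul_smul_comm, ← exists_adm_toK_mul, ← exists_adm_toK_mul, X.ΓY,
      exists_adm_toK_smul, algebraMap_smul, smul_comm]
  · have := exists_adm_homDeg (homDeg_toK lam (4 * q) b (X.Y g) _ (X.hY g)) hθ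
    rwa [Nat.cast_add, neg_add_cancel_left] at this
  · have := exists_adm_homDeg (homDeg_toK lam (4 * q) b (X.Γ σ) _ (X.hΓ σ)) hθ
    rwa [neg_add_cancel] at this
  · rw [eq_top_iff]
    intro v _
    have e : v = toK X.G *ᵥ ((algebraMap (A k) (K k) X.H)⁻¹ • toK X.G' *ᵥ v) := by
      rw [mulVec_smul, mulVec_mulVec, ← exists_adm_toK_mul, X.GG', exists_adm_toK_smul,
        exists_adm_toK_one, smul_mulVec, one_mulVec, inv_smul_smul₀ hH']
    rw [e, exists_adm_col]
    exact Submodule.sum_mem _ fun j _ => Submodule.smul_mem _ _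
      (Submodule.subset_span (Submodule.subset_span ⟨j, rfl⟩))

theorem exists_pd {P : Par k} {lam : kˣ} (hl : InfOrd lam) (hq : 0 < q) (D : Adm P lam q ι)
    {H : A k} (h : D.NF b H dH) :
    ∃ (m : ℕ) (dg : Fin m → ℤ) (X : PD k q b dH m dg) (D' : Adm X.P lam q ι), X.H ≠ 0 ∧
      IsOf X D' ∧ (D.SS → D'.SS) ∧ D'.tau D'.E = D.tau D.E := by
  obtain ⟨hΘ, hpoly, hH, hHd, hsing⟩ := h
  have hH' : algebraMap (A k) (K k) H ≠ 0 :=
    (map_ne_zero_iff _ (IsFractionRing.injective (A k) (K k))).2 hH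
  obtain ⟨m, e, d, he, hspan⟩ := D.gs.exists_gens
  have heE : ∀ j, e j ∈ D.E := fun j => hspan ▸ Submodule.subset_span ⟨j, rfl⟩
  choose G0 hG0 using fun i j => hpoly _ (heE j) i
  obtain ⟨G, hG⟩ : ∃ G : Matrix ι (Fin m) (A k), (fun j i => toK G i j) = e :=
    ⟨Matrix.of G0, funext fun j => funext fun i => (hG0 i j).symm⟩
  subst hG
  have hcoef : ∀ {n : Type} (U : Matrix ι n (K k)), (∀ j, (fun i => U i j) ∈ D.E) →
      ∃ T : Matrix (Fin m) n (A k), U = toK G * toK T := by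
    intro n U hU
    choose c hc using fun j => (Submodule.mem_span_range_iff_exists_fun (A k)).1 (hspan ▸ hU j)
    refine ⟨Matrix.of fun l j => c j l, ?_⟩
    ext i j
    rw [← congrFun (hc j) i, Finset.sum_apply, Matrix.mul_apply]
    refine Finset.sum_congr rfl fun l _ => ?_
    rw [Pi.smul_apply, Algebra.smul_def, mul_comm]
    rfl
  have hT : ∀ U : Matrix ι ι (K k), (∀ v ∈ D.E, U *ᵥ v ∈ D.E) →
      ∃ T : Matrix (Fin m) (Fin m) (A k), U * toK G = toK G * toK T :=
    fun U hU => hcoef _ fun j => hU _ (heE j)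
  have hP : ∀ U : Matrix ι ι (K k), (∀ v ∈ D.E, U *ᵥ v ∈ D.E) →
      ∃ U' : Matrix ι ι (A k), toK U' = algebraMap (A k) (K k) H • U := by
    intro U hU
    choose c hc using fun i j => hpoly _ (hU _ (hsing j)) i
    refine ⟨Matrix.of c, ?_⟩
    ext i j
    change algebraMap (A k) (K k) (c i j) = _
    rw [← hc]
    simp [mul_comm]
  obtain ⟨G', hG'⟩ := hcoef (algebraMap (A k) (K k) H • (1 : Matrix ι ι (K k))) fun j => by
    convert hsing j using 1
    funext i
    by_cases hij : i = j <;> simp [hij]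
  choose Y hY using fun g => hP _ (D.Ystab g)
  choose Γ hΓ using fun σ => hP _ (D.Γstab σ)
  choose TY hTY using fun g => hT _ (D.Ystab g)
  choose TΓ hTΓ using fun σ => hT _ (D.Γstab σ)
  choose Γi hΓi using fun σ => (D.Γunit σ).exists_right_inv
  choose Γ' hΓ' using fun σ => hP (Γi σ) fun v hv => by
    obtain ⟨v', hv', rfl⟩ := D.Γsurj hl hq σ hv
    rwa [mulVec_mulVec, mul_eq_one_comm.1 (hΓi σ), one_mulVec]
  have hθ := homDeg_toK_θK lam (4 * q) (homZ_of_isHomogeneous (4 * q) hHd)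
  have hst : ∀ (U : Matrix ι ι (A k)) (U' : Matrix ι ι (K k)) (T : Matrix (Fin m) (Fin m) (A k)),
      toK U = algebraMap (A k) (K k) H • U' → U' * toK G = toK G * toK T →
      U * G = H • (G * T) := by
    intro U U' T h1 h2
    refine exists_adm_toK_inj ?_
    rw [exists_adm_toK_mul, h1, Matrix.smul_mul, h2, exists_adm_toK_smul, exists_adm_toK_mul]
  refine ⟨m, d,
    { P := P, H := H, G := G, G' := G', Y := Y, Γ := Γ, Γ' := Γ', TY := TY, TΓ := TΓ, hH := hHd
      hG := fun i j => (hilb_cols_eig hl (4 * q) b (fun i => G i j) (d j)).1 (hΘ ▸ he j) i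
      hY := fun g => homZ_of_homDeg hl _ b _ _ ?_
      hΓ := fun σ => homZ_of_homDeg hl _ b _ _ ?_
      rel := (exists_adm_rel hH hY).2 D.rel
      inv := fun σ => exists_adm_toK_inj ?_
      ΓY := fun σ g => exists_adm_toK_inj ?_
      YG := fun g => hst _ _ _ (hY g) (hTY g)
      ΓG := fun σ => hst _ _ _ (hΓ σ) (hTΓ σ)
      GG' := exists_adm_toK_inj ?_ }, D, hH, ⟨fun g => ?_, fun σ => ?_, hΘ, hspan.symm⟩, id, rfl⟩
  · rw [hY, ← hΘ, Nat.cast_add, Nat.cast_mul (4 * q)]
    exact exists_adm_homDeg (D.θY g) hθ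
  · have := exists_adm_homDeg (D.θΓ σ) hθ
    rwa [add_zero, ← Nat.cast_mul, hΘ, ← hΓ] at this
  · rw [exists_adm_toK_mul, hΓ, hΓ', smul_mul_smul_comm, hΓi, exists_adm_toK_smul,
      exists_adm_toK_one, map_pow, sq]
  · rw [exists_adm_toK_smul, exists_adm_toK_mul, exists_adm_toK_mul, hΓ, hY, hY,
      smul_mul_smul_comm, smul_mul_smul_comm, D.ΓY, algebraMap_smul, smul_comm]
  · rw [exists_adm_toK_mul, ← hG', exists_adm_toK_smul, exists_adm_toK_one]
  · exact (inv_smul_smul₀ hH' _).symm.trans (by rw [← hY])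
  · exact (inv_smul_smul₀ hH' _).symm.trans (by rw [← hΓ])

end Field

/-! ### Subtask PD-c (generic freeness) -/

/-- Dickson's lemma for pairs. -/
theorem generic_free_dickson (S : Set (ι × (Fin 3 →₀ ℕ))) :
    ∃ T : Finset (ι × (Fin 3 →₀ ℕ)), (∀ t ∈ T, t ∈ S) ∧
      ∀ x ∈ S, ∃ t ∈ T, ∃ ν, x = (t.1, ν + t.2) := by
  classical
  have hfin : ∀ i : ι, {μ : Fin 3 →₀ ℕ | Minimal (fun μ => (i, μ) ∈ S) μ}.Finite := fun i =>
    WellQuasiOrderedLE.finite_of_isAntichain (setOfPred_minimal_antichain _)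
  refine ⟨Finset.univ.biUnion fun i => (hfin i).toFinset.image fun μ => (i, μ), ?_, ?_⟩
  · intro t ht
    simp only [Finset.mem_biUnion, Finset.mem_univ, true_and, Finset.mem_image,
      Set.Finite.mem_toFinset] at ht
    obtain ⟨i, μ, hμ, rfl⟩ := ht
    exact hμ.1
  · rintro ⟨i, μ⟩ hx
    obtain ⟨μ0, hle, hmin⟩ := exists_minimal_le_of_wellFoundedLT (fun μ => (i, μ) ∈ S) μ hx
    refine ⟨(i, μ0), ?_, μ - μ0, ?_⟩
    · simp only [Finset.mem_biUnion, Finset.mem_univ, true_and, Finset.mem_image,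
        Set.Finite.mem_toFinset]
      exact ⟨i, μ0, hmin, rfl⟩
    · rw [tsub_add_cancel_of_le hle]

/-- The term order. -/
noncomputable def generic_free_key (x : ι × (Fin 3 →₀ ℕ)) : ℕ ×ₗ Lex (Fin 3 →₀ ℕ) :=
  toLex ((Fintype.equivFin ι x.1 : ℕ), toLex x.2)

omit [DecidableEq ι] in
theorem generic_free_key_inj : Function.Injective (generic_free_key (ι := ι)) := by
  rintro ⟨i, μ⟩ ⟨i', μ'⟩ h
  simp only [generic_free_key, toLex_inj, Prod.mk.injEq] at h
  rw [(Fintype.equivFin ι).injective (Fin.ext h.1), h.2]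

omit [DecidableEq ι] in
theorem generic_free_key_lt {i i' : ι} {μ μ' ν : Fin 3 →₀ ℕ}
    (h : generic_free_key (i, ν + μ) < generic_free_key (i', ν + μ')) :
    generic_free_key (i, μ) < generic_free_key (i', μ') := by
  simp only [generic_free_key, Prod.Lex.toLex_lt_toLex, toLex_add] at h ⊢
  rcases h with h | ⟨h, h'⟩
  · exact Or.inl h
  · exact Or.inr ⟨h, lt_of_add_lt_add_left h'⟩

/-- `x` is the leading pair of `v`. -/
def generic_free_Lead (v : ι → A Λ) (x : ι × (Fin 3 →₀ ℕ)) : Prop :=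
  coeff x.2 (v x.1) ≠ 0 ∧ ∀ y, generic_free_key x < generic_free_key y → coeff y.2 (v y.1) = 0

omit [DecidableEq ι] in
theorem generic_free_exists_lead {v : ι → A Λ} (hv : v ≠ 0) : ∃ x, generic_free_Lead v x := by
  classical
  let s : Finset (ι × (Fin 3 →₀ ℕ)) :=
    Finset.univ.biUnion fun i => (v i).support.image fun μ => (i, μ)
  have hs : ∀ y, y ∈ s ↔ coeff y.2 (v y.1) ≠ 0 := by
    rintro ⟨i, μ⟩
    simp only [s, Finset.mem_biUnion, Finset.mem_univ, true_and, Finset.mem_image,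
      mem_support_iff, Prod.mk.injEq]
    constructor
    · rintro ⟨i', μ', h, rfl, rfl⟩; exact h
    · exact fun h => ⟨i, μ, h, rfl, rfl⟩
  have hne : s.Nonempty := by
    obtain ⟨i, hi⟩ := Function.ne_iff.1 hv
    obtain ⟨μ, hμ⟩ := ne_zero_iff.1 hi
    exact ⟨(i, μ), (hs _).2 hμ⟩
  obtain ⟨x, hx, hmax⟩ := s.exists_max_image generic_free_key hne
  refine ⟨x, (hs x).1 hx, fun y hy => ?_⟩
  by_contra h
  exact absurd (hmax y ((hs y).2 h)) (not_le.2 hy)

omit [Fintype ι] [DecidableEq ι] in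
theorem generic_free_hom_mon {w : ℕ} {f : A Λ} {d : ℤ} (hf : HomZ w f d) (ν : Fin 3 →₀ ℕ)
    (c : Λ) : HomZ w (monomial ν c * f) ((w : ℤ) * (ν.degree : ℤ) + d) := by
  intro μ hμ
  rw [coeff_monomial_mul'] at hμ
  split_ifs at hμ with hle
  · obtain ⟨μ', rfl⟩ := exists_add_of_le hle
    rw [add_tsub_cancel_left] at hμ
    have := hf μ' (right_ne_zero_of_mul hμ)
    rw [map_add, ← this]
    push_cast
    ring
  · exact absurd rfl hμ

omit [DecidableEq ι] in
theorem generic_free_lead_mon {v : ι → A Λ} {i : ι} {μ : Fin 3 →₀ ℕ}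
    (h : generic_free_Lead v (i, μ)) (ν : Fin 3 →₀ ℕ) :
    generic_free_Lead ((monomial ν (1 : Λ) : A Λ) • v) (i, ν + μ) ∧
      coeff (ν + μ) (((monomial ν (1 : Λ) : A Λ) • v) i) = coeff μ (v i) := by
  have e : coeff (ν + μ) (((monomial ν (1 : Λ) : A Λ) • v) i) = coeff μ (v i) := by
    rw [Pi.smul_apply, smul_eq_mul, coeff_monomial_mul, one_mul]
  refine ⟨⟨by rw [e]; exact h.1, ?_⟩, e⟩
  rintro ⟨i', μ'⟩ hy
  simp only [Pi.smul_apply, smul_eq_mul, coeff_monomial_mul']
  split_ifs with hle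
  · obtain ⟨μ'', rfl⟩ := exists_add_of_le hle
    rw [add_tsub_cancel_left, one_mul]
    exact h.2 (i', μ'') (generic_free_key_lt hy)
  · rfl

omit [DecidableEq ι] in
/-- A Gröbner-type basis of a graded submodule. -/
theorem generic_free_basis [IsDomain Λ] (w : ℕ) (b : ι → ℤ) (N : Submodule (A Λ) (ι → A Λ)) :
    ∃ a : Λ, a ≠ 0 ∧ ∃ (LM : Set (ι × (Fin 3 →₀ ℕ))) (B : ι × (Fin 3 →₀ ℕ) → ι → A Λ),
      (∀ x ∈ LM, B x ∈ N ∧ (∀ i, HomZ w (B x i) ((w : ℤ) * (x.2.degree : ℤ) + b x.1 - b i)) ∧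
        generic_free_Lead (B x) x ∧ coeff x.2 (B x x.1) ∣ a) ∧
      ∀ (n : ℤ), ∀ v ∈ N, (∀ i, HomZ w (v i) (n - b i)) → ∃ e : ℕ, a ^ e • v ∈
        Submodule.span Λ (B '' {x | x ∈ LM ∧ (w : ℤ) * (x.2.degree : ℤ) + b x.1 = n}) := by
  classical
  let LM : Set (ι × (Fin 3 →₀ ℕ)) := {x | ∃ v ∈ N,
    (∀ i, HomZ w (v i) ((w : ℤ) * (x.2.degree : ℤ) + b x.1 - b i)) ∧ generic_free_Lead v x}
  obtain ⟨T, hT, hcov⟩ := generic_free_dickson LM
  have h1 : ∀ x : ι × (Fin 3 →₀ ℕ), ∃ v : ι → A Λ, x ∈ LM → v ∈ N ∧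
      (∀ i, HomZ w (v i) ((w : ℤ) * (x.2.degree : ℤ) + b x.1 - b i)) ∧ generic_free_Lead v x := by
    intro x
    by_cases hx : x ∈ LM
    · obtain ⟨v, h⟩ := hx
      exact ⟨v, fun _ => h⟩
    · exact ⟨0, fun h => absurd h hx⟩
  choose wit hwit using h1
  let a : Λ := ∏ t ∈ T, coeff t.2 (wit t t.1)
  have ha : a ≠ 0 := Finset.prod_ne_zero_iff.2 fun t ht => (hwit t (hT t ht)).2.2.1
  have h2 : ∀ x : ι × (Fin 3 →₀ ℕ), ∃ v : ι → A Λ, x ∈ LM → v ∈ N ∧
      (∀ i, HomZ w (v i) ((w : ℤ) * (x.2.degree : ℤ) + b x.1 - b i)) ∧ generic_free_Lead v x ∧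
        coeff x.2 (v x.1) ∣ a := by
    intro x
    by_cases hx : x ∈ LM
    · obtain ⟨t, ht, ν, rfl⟩ := hcov x hx
      obtain ⟨hN, hh, hl⟩ := hwit t (hT t ht)
      obtain ⟨hl', e⟩ := generic_free_lead_mon (i := t.1) (μ := t.2) hl ν
      refine ⟨(monomial ν (1 : Λ) : A Λ) • wit t, fun _ => ⟨N.smul_mem _ hN, fun i => ?_, hl', ?_⟩⟩
      · have := generic_free_hom_mon (hh i) ν 1
        rw [Pi.smul_apply, smul_eq_mul]
        convert this using 1
        simp only [map_add]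
        push_cast
        ring
      · simp only
        rw [e]
        exact Finset.dvd_prod_of_mem (fun t : ι × (Fin 3 →₀ ℕ) => coeff t.2 (wit t t.1)) ht
    · exact ⟨0, fun h => absurd h hx⟩
  choose B hB using h2
  refine ⟨a, ha, LM, B, hB, fun n => ?_⟩
  set W := Submodule.span Λ (B '' {x | x ∈ LM ∧ (w : ℤ) * (x.2.degree : ℤ) + b x.1 = n}) with hW
  have key : ∀ κ : ℕ ×ₗ Lex (Fin 3 →₀ ℕ), ∀ x, generic_free_key x = κ → ∀ v ∈ N,
      (∀ i, HomZ w (v i) (n - b i)) → generic_free_Lead v x → ∃ e : ℕ, a ^ e • v ∈ W := by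
    intro κ
    induction κ using WellFoundedLT.induction with
    | ind κ ih =>
      rintro x rfl v hv hh hl
      have hdeg : (w : ℤ) * (x.2.degree : ℤ) + b x.1 = n := by
        have := hh x.1 x.2 hl.1
        omega
      have hx : x ∈ LM := ⟨v, hv, by rw [hdeg]; exact hh, hl⟩
      obtain ⟨hN, hhB, hlB, c, hc⟩ := hB x hx
      rw [hdeg] at hhB
      have hBW : B x ∈ W := Submodule.subset_span ⟨x, ⟨hx, hdeg⟩, rfl⟩
      let v' : ι → A Λ := a • v - (c * coeff x.2 (v x.1)) • B x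
      have hco : ∀ y : ι × (Fin 3 →₀ ℕ), coeff y.2 (v' y.1) =
          a * coeff y.2 (v y.1) - c * coeff x.2 (v x.1) * coeff y.2 (B x y.1) := fun y => by
        simp [v']
      have hv' : v' ∈ N := N.sub_mem (N.smul_of_tower_mem _ hv) (N.smul_of_tower_mem _ hN)
      have hh' : ∀ i, HomZ w (v' i) (n - b i) := fun i μ hμ => by
        by_cases h : coeff μ (v i) = 0
        · refine hhB i μ fun h' => hμ ?_
          rw [hco (i, μ)]; simp [h, h']
        · exact hh i μ h
      have hav : a • v = v' + (c * coeff x.2 (v x.1)) • B x := by simp [v']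
      by_cases h0 : v' = 0
      · refine ⟨1, ?_⟩
        rw [pow_one, hav, h0, zero_add]
        exact W.smul_mem _ hBW
      · obtain ⟨x', hx'⟩ := generic_free_exists_lead h0
        have hlt : generic_free_key x' < generic_free_key x := by
          rcases lt_trichotomy (generic_free_key x') (generic_free_key x) with h | h | h
          · exact h
          · exfalso
            have e := generic_free_key_inj h
            subst e
            apply hx'.1
            rw [hco, hc]; ring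
          · exfalso
            apply hx'.1
            rw [hco, hl.2 _ h, hlB.2 _ h]; ring
        obtain ⟨e, he⟩ := ih _ hlt x' rfl v' hv' hh' hx'
        refine ⟨e + 1, ?_⟩
        rw [pow_succ, mul_smul, hav, smul_add]
        exact W.add_mem he (W.smul_mem _ (W.smul_mem _ hBW))
  intro v hv hh
  by_cases h0 : v = 0
  · exact ⟨0, by rw [h0, smul_zero]; exact W.zero_mem⟩
  · obtain ⟨x, hx⟩ := generic_free_exists_lead h0
    exact key _ x rfl v hv hh hx

theorem generic_free [IsDomain Λ] (w : ℕ) (b : ι → ℤ) (dg : Fin m → ℤ) (G : Matrix ι (Fin m) (A Λ))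
    (hG : ∀ i j, HomZ w (G i j) (dg j - b i)) (hw : 0 < w) :
    ∃ a : Λ, a ≠ 0 ∧ ∃ h : ℤ → ℚ, ∀ (k : Type) [Field k] (φ : Λ →+* k), φ a ≠ 0 →
      hcol w b (mapM φ G) = h := by
  classical
  obtain ⟨a, ha, LM, B, hB, hsp⟩ :=
    generic_free_basis w b (Submodule.span (A Λ) (Set.range fun j i => G i j))
  refine ⟨a, ha, fun n =>
    (Nat.card {x // x ∈ LM ∧ (w : ℤ) * (x.2.degree : ℤ) + b x.1 = n} : ℕ), fun k _ φ hφ => ?_⟩
  funext n
  let Φ : (ι → A Λ) → ι → A k := fun v i => MvPolynomial.map φ (v i)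
  have Φadd : ∀ u v, Φ (u + v) = Φ u + Φ v := fun u v => by funext i; simp [Φ]
  have Φ0 : Φ 0 = 0 := by funext i; simp [Φ]
  have Φsm : ∀ (f : A Λ) v, Φ (f • v) = MvPolynomial.map φ f • Φ v := fun f v => by
    funext i; simp [Φ]
  have Φsc : ∀ (c : Λ) v, Φ (c • v) = φ c • Φ v := fun c v => by
    funext i; simp [Φ, smul_eq_C_mul]
  have Φco : ∀ v i μ, coeff μ (Φ v i) = φ (coeff μ (v i)) := fun v i μ => coeff_map _ _ _
  let E : {x // x ∈ LM ∧ (w : ℤ) * (x.2.degree : ℤ) + b x.1 = n} → ι → A k := fun x => Φ (B x.1)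
  have hli : LinearIndependent k E := by
    rw [linearIndependent_iff']
    intro s g hs
    by_contra hcon
    push Not at hcon
    obtain ⟨x0, hx0, hg0⟩ := hcon
    obtain ⟨x, hx, hmax⟩ := (s.filter fun x => g x ≠ 0).exists_max_image
      (fun x => generic_free_key x.1) ⟨x0, Finset.mem_filter.2 ⟨hx0, hg0⟩⟩
    rw [Finset.mem_filter] at hx
    have h1 := congrArg (fun v : ι → A k => coeff x.1.2 (v x.1.1)) hs
    simp only [Finset.sum_apply, Pi.smul_apply, coeff_sum, coeff_smul, smul_eq_mul, Pi.zero_apply,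
      coeff_zero] at h1
    rw [Finset.sum_eq_single x] at h1
    · refine mul_ne_zero hx.2 ?_ h1
      simp only [E, Φco]
      obtain ⟨c, hc⟩ := (hB x.1 x.2.1).2.2.2
      intro h
      apply hφ
      rw [hc, map_mul, h, zero_mul]
    · intro y hy hne
      by_cases hgy : g y = 0
      · rw [hgy, zero_mul]
      · have hle := hmax y (Finset.mem_filter.2 ⟨hy, hgy⟩)
        have hlt : generic_free_key y.1 < generic_free_key x.1 :=
          lt_of_le_of_ne hle fun e => hne (Subtype.ext (generic_free_key_inj e))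
        simp only [E, Φco]
        rw [(hB y.1 y.2.1).2.2.1.2 _ hlt, map_zero, mul_zero]
    · exact fun h => absurd hx.1 h
  have hΦN : ∀ v ∈ Submodule.span (A Λ) (Set.range fun j i => G i j),
      Φ v ∈ Submodule.span (A k) (Set.range fun j i => mapM φ G i j) := by
    intro v hv
    induction hv using Submodule.span_induction with
    | mem v hv =>
      obtain ⟨j, rfl⟩ := hv
      exact Submodule.subset_span ⟨j, rfl⟩
    | zero => rw [Φ0]; exact Submodule.zero_mem _
    | add u v _ _ hu hv => rw [Φadd]; exact Submodule.add_mem _ hu hv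
    | smul f v _ hv => rw [Φsm]; exact Submodule.smul_mem _ _ hv
  have hle : Submodule.span k (Set.range E) ≤
      (Submodule.span (A k) (Set.range fun j i => mapM φ G i j)).restrictScalars k ⊓
        homSub k w b n := by
    rw [Submodule.span_le]
    rintro _ ⟨x, rfl⟩
    refine ⟨hΦN _ (hB x.1 x.2.1).1, fun i μ hμ => ?_⟩
    have := (hB x.1 x.2.1).2.1 i μ (fun h => hμ (by simp only [E, Φco, h, map_zero]))
    rw [this, x.2.2]
  have hΦW : ∀ v ∈ Submodule.span Λ (B '' {x | x ∈ LM ∧ (w : ℤ) * (x.2.degree : ℤ) + b x.1 = n}),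
      Φ v ∈ Submodule.span k (Set.range E) := by
    intro v hv
    induction hv using Submodule.span_induction with
    | mem v hv =>
      obtain ⟨x, hx, rfl⟩ := hv
      exact Submodule.subset_span ⟨⟨x, hx⟩, rfl⟩
    | zero => rw [Φ0]; exact Submodule.zero_mem _
    | add u v _ _ hu hv => rw [Φadd]; exact Submodule.add_mem _ hu hv
    | smul c v _ hv => rw [Φsc]; exact Submodule.smul_mem _ _ hv
  -- the degree `n` component of an element of the column span
  let Q : Submodule k (ι → A k) :=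
    { carrier := {u | ∃ u' ∈ Submodule.span k (Set.range E), ∀ i (μ : Fin 3 →₀ ℕ),
        (w : ℤ) * (μ.degree : ℤ) = n - b i → coeff μ (u i) = coeff μ (u' i)}
      add_mem' := by
        rintro u v ⟨u', hu', hu⟩ ⟨v', hv', hv⟩
        exact ⟨u' + v', Submodule.add_mem _ hu' hv', fun i μ h => by simp [hu i μ h, hv i μ h]⟩
      zero_mem' := ⟨0, Submodule.zero_mem _, fun _ _ _ => rfl⟩
      smul_mem' := by
        rintro c u ⟨u', hu', hu⟩
        exact ⟨c • u', Submodule.smul_mem _ _ hu', fun i μ h => by simp [hu i μ h]⟩ }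
  have hgen : ∀ (ν : Fin 3 →₀ ℕ) (j : Fin m),
      ((monomial ν (1 : k) : A k) • fun i => mapM φ G i j) ∈ Q := by
    intro ν j
    let v : ι → A Λ := (monomial ν (1 : Λ) : A Λ) • fun i => G i j
    have hv : v ∈ Submodule.span (A Λ) (Set.range fun j i => G i j) :=
      Submodule.smul_mem _ _ (Submodule.subset_span ⟨j, rfl⟩)
    have hΦv : Φ v = (monomial ν (1 : k) : A k) • fun i => mapM φ G i j := by
      rw [Φsm, map_monomial, map_one]; rfl
    have hh : ∀ i, HomZ w (v i) ((w : ℤ) * (ν.degree : ℤ) + (dg j - b i)) := fun i =>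
      generic_free_hom_mon (hG i j) ν 1
    rw [← hΦv]
    by_cases hn : (w : ℤ) * (ν.degree : ℤ) + dg j = n
    · obtain ⟨e, he⟩ := hsp n v hv fun i => by
        have := hh i
        rwa [← add_sub_assoc, hn] at this
      have h1 := hΦW _ he
      rw [Φsc, map_pow] at h1
      exact ⟨Φ v, (Submodule.smul_mem_iff _ (pow_ne_zero e hφ)).1 h1, fun _ _ _ => rfl⟩
    · refine ⟨0, Submodule.zero_mem _, fun i μ h => ?_⟩
      rw [Φco, Pi.zero_apply, coeff_zero]
      by_contra h'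
      have := hh i μ (fun h'' => h' (by rw [h'', map_zero]))
      omega
  have hQ : ∀ u ∈ Submodule.span (A k) (Set.range fun j i => mapM φ G i j), ∀ f : A k,
      f • u ∈ Q := by
    intro u hu
    induction hu using Submodule.span_induction with
    | mem u hu =>
      obtain ⟨j, rfl⟩ := hu
      intro f
      rw [f.as_sum, Finset.sum_smul]
      refine Submodule.sum_mem _ fun ν _ => ?_
      have : (monomial ν (coeff ν f) : A k) = coeff ν f • (monomial ν (1 : k) : A k) := by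
        rw [smul_monomial, smul_eq_mul, mul_one]
      rw [this, smul_assoc]
      exact Q.smul_mem _ (hgen ν j)
    | zero => intro f; rw [smul_zero]; exact Q.zero_mem
    | add u v _ _ hu hv => intro f; rw [smul_add]; exact Q.add_mem (hu f) (hv f)
    | smul g v _ hv => intro f; rw [← mul_smul]; exact hv _
  have hge : (Submodule.span (A k) (Set.range fun j i => mapM φ G i j)).restrictScalars k ⊓
        homSub k w b n ≤ Submodule.span k (Set.range E) := by
    rintro u ⟨hu, hh⟩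
    have h1 := hQ u hu 1
    rw [one_smul] at h1
    obtain ⟨u', hu', h2⟩ := h1
    have : u = u' := by
      funext i
      ext μ
      by_cases h : (w : ℤ) * (μ.degree : ℤ) = n - b i
      · exact h2 i μ h
      · have e1 : coeff μ (u i) = 0 := by
          by_contra h'; exact h (hh i μ h')
        have e2 : coeff μ (u' i) = 0 := by
          by_contra h'; exact h ((hle hu').2 i μ h')
        rw [e1, e2]
    rw [this]; exact hu'
  rw [hcol, le_antisymm hge hle, Module.finrank_eq_nat_card_basis (Module.Basis.span hli)]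

/-! ### Subtask PD-d (destabilising subspaces have bounded complexity) -/

/-- `ker Q` is a stable subspace. -/
structure Destab (X : PD Λ q b dH m dg) (H1 : A Λ) (Q : Matrix ι ι (A Λ)) (d : ℕ) : Prop where
  hH : H1.IsHomogeneous d
  hQ : ∀ i j, HomZ (4 * q) (Q i j) ((4 * q * d : ℕ) + b j - b i)
  Y : ∀ g, Q * X.Y g * (H1 • (1 : Matrix ι ι (A Λ)) - Q) = 0
  Γ : ∀ σ, Q * X.Γ σ * (H1 • (1 : Matrix ι ι (A Λ)) - Q) = 0

/-- The numerical condition violating semistability. -/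
def BadT (ρ : ℕ) (e : ℤ) (tE tI : T3) : Prop :=
  ρ * (tE - ex (-e) * tI).c1 < (tE - ex (-e) * tI).c0 * (tE.c1 - ρ / 2)

/-- A projection along `F` onto a coordinate subspace. -/
theorem exists_destab_proj {L : Type} [Field L] (F : Submodule L (ι → L)) :
    ∃ (I : Set ι) (p : (ι → L) →ₗ[L] (ι → L)), (∀ v, p v = 0 ↔ v ∈ F) ∧ (∀ v, v - p v ∈ F) ∧
      (∀ v, ∀ i ∉ I, p v i = 0) ∧ ∀ v, (∀ i ∉ I, v i = 0) → p v = v := by
  classical
  obtain ⟨κ, a, ha, hsp, hli⟩ :=
    exists_linearIndependent' L (fun j : ι => F.mkQ (Pi.single j (1 : L)))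
  have htop : ⊤ ≤ Submodule.span L
      (Set.range ((fun j : ι => F.mkQ (Pi.single j (1 : L))) ∘ a)) := by
    rw [hsp]
    intro x _
    obtain ⟨v, rfl⟩ := F.mkQ_surjective x
    have hv : v = ∑ i, v i • (Pi.single i (1 : L) : ι → L) := by
      ext j; simp [Finset.sum_apply, Pi.single_apply]
    rw [hv, map_sum]
    refine Submodule.sum_mem _ fun i _ => ?_
    rw [map_smul]
    exact Submodule.smul_mem _ _ (Submodule.subset_span ⟨i, rfl⟩)
  let β := Module.Basis.mk hli htop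
  let s : ((ι → L) ⧸ F) →ₗ[L] (ι → L) := β.constr L fun x => Pi.single (a x) (1 : L)
  have hs : ∀ x, s (β x) = Pi.single (a x) (1 : L) := fun x => β.constr_basis L _ x
  have hβ : ∀ x, β x = F.mkQ (Pi.single (a x) (1 : L)) := fun x => by
    simp [β]
  have hid : F.mkQ ∘ₗ s = LinearMap.id := β.ext fun x => by
    rw [LinearMap.comp_apply, hs, ← hβ]; rfl
  have hid' : ∀ y, F.mkQ (s y) = y := fun y => LinearMap.congr_fun hid y
  refine ⟨Set.range a, s ∘ₗ F.mkQ, fun v => ⟨fun h => ?_, fun h => ?_⟩, fun v => ?_,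
    fun v i hi => ?_, fun v hv => ?_⟩
  · have := hid' (F.mkQ v)
    rw [LinearMap.comp_apply] at h
    rw [h, map_zero] at this
    exact (Submodule.Quotient.mk_eq_zero F).1 this.symm
  · rw [LinearMap.comp_apply, show F.mkQ v = 0 from (Submodule.Quotient.mk_eq_zero F).2 h,
      map_zero]
  · refine (Submodule.Quotient.mk_eq_zero F).1 ?_
    change F.mkQ _ = 0
    rw [map_sub, LinearMap.comp_apply, hid', sub_self]
  · have : (LinearMap.proj i : (ι → L) →ₗ[L] L) ∘ₗ s = 0 := β.ext fun x => by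
      rw [LinearMap.comp_apply, hs]
      have : i ≠ a x := fun h => hi ⟨x, h.symm⟩
      simp [this]
    exact LinearMap.congr_fun this (F.mkQ v)
  · have hv' : v = ∑ i, v i • (Pi.single i (1 : L) : ι → L) := by
      ext j; simp [Finset.sum_apply, Pi.single_apply]
    conv_lhs => rw [hv']
    conv_rhs => rw [hv']
    rw [map_sum]
    refine Finset.sum_congr rfl fun i _ => ?_
    by_cases hi : i ∈ Set.range a
    · obtain ⟨x, rfl⟩ := hi
      rw [map_smul, LinearMap.comp_apply, ← hβ, hs]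
    · rw [hv i hi]; simp

omit [DecidableEq ι] in
/-- The denominators of a rational vector form a principal ideal. -/
theorem exists_destab_den {k : Type} [Field k] (v : ι → K k) :
    ∃ h : A k, h ≠ 0 ∧ ∀ a : A k,
      (∀ i, ∃ f : A k, (a • v) i = algebraMap (A k) (K k) f) ↔ h ∣ a := by
  classical
  have key : ∀ (x : K k) (a : A k), (∃ f : A k, a • x = algebraMap (A k) (K k) f) ↔
      (IsFractionRing.den (A k) x : A k) ∣ a := by
    intro x a
    have hd : algebraMap (A k) (K k) (IsFractionRing.den (A k) x) ≠ 0 :=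
      IsFractionRing.to_map_ne_zero_of_mem_nonZeroDivisors (IsFractionRing.den (A k) x).2
    have hx : x * algebraMap (A k) (K k) (IsFractionRing.den (A k) x) =
        algebraMap (A k) (K k) (IsFractionRing.num (A k) x) :=
      IsFractionRing.num_mul_den_eq_num_iff_eq.2 rfl
    constructor
    · rintro ⟨f, hf⟩
      refine (IsFractionRing.num_den_reduced (A k) x).symm.dvd_of_dvd_mul_right ⟨f, ?_⟩
      apply IsFractionRing.injective (A k) (K k)
      rw [map_mul, map_mul, ← hf, ← hx, Algebra.smul_def]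
      ring
    · rintro ⟨f, rfl⟩
      refine ⟨f * IsFractionRing.num (A k) x, ?_⟩
      rw [map_mul, ← hx, Algebra.smul_def, map_mul]
      ring
  let _ : GCDMonoid (A k) := UniqueFactorizationMonoid.toGCDMonoid (A k)
  have ind : ∀ s : Finset ι, ∃ h : A k, h ≠ 0 ∧ ∀ a : A k,
      (∀ i ∈ s, (IsFractionRing.den (A k) (v i) : A k) ∣ a) ↔ h ∣ a := by
    intro s
    induction s using Finset.induction_on with
    | empty => exact ⟨1, one_ne_zero, fun a => by simp⟩
    | insert i s _ ih =>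
      obtain ⟨h, h0, hh⟩ := ih
      refine ⟨lcm (IsFractionRing.den (A k) (v i) : A k) h, ?_, fun a => ?_⟩
      · rw [Ne, lcm_eq_zero_iff]
        rintro (h1 | h1)
        · exact nonZeroDivisors.coe_ne_zero _ h1
        · exact h0 h1
      · rw [lcm_dvd_iff, ← hh]
        simp
  obtain ⟨h, h0, hh⟩ := ind Finset.univ
  refine ⟨h, h0, fun a => ?_⟩
  rw [← hh]
  simp only [Finset.mem_univ, true_imp_iff]
  exact forall_congr' fun i => key (v i) a

/-- Polynomial vectors supported on `I`. -/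
theorem exists_destab_mem {k : Type} [Field k] (I : Set ι) (v : ι → K k) :
    v ∈ Submodule.span (A k) (Set.range fun x : I => (Pi.single (x : ι) (1 : K k) : ι → K k)) ↔
      (∀ i, ∃ f : A k, v i = algebraMap (A k) (K k) f) ∧ ∀ i ∉ I, v i = 0 := by
  classical
  constructor
  · intro hv
    induction hv using Submodule.span_induction with
    | mem x hx =>
      obtain ⟨x, rfl⟩ := hx
      refine ⟨fun i => ?_, fun i hi => ?_⟩
      · by_cases h : i = x
        · exact ⟨1, by simp [h]⟩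
        · exact ⟨0, by simp [h]⟩
      · have : i ≠ x := fun h => hi (h ▸ x.2)
        simp [this]
    | zero => exact ⟨fun i => ⟨0, by simp⟩, fun i _ => rfl⟩
    | add x y _ _ hx hy =>
      refine ⟨fun i => ?_, fun i hi => ?_⟩
      · obtain ⟨f, hf⟩ := hx.1 i
        obtain ⟨g, hg⟩ := hy.1 i
        exact ⟨f + g, by simp [hf, hg]⟩
      · simp [hx.2 i hi, hy.2 i hi]
    | smul a x _ hx =>
      refine ⟨fun i => ?_, fun i hi => ?_⟩
      · obtain ⟨f, hf⟩ := hx.1 i
        exact ⟨a * f, by simp [hf, Algebra.smul_def]⟩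
      · simp [hx.2 i hi]
  · rintro ⟨h1, h2⟩
    have hv : v = ∑ i, v i • (Pi.single i (1 : K k) : ι → K k) := by
      ext j; simp [Finset.sum_apply, Pi.single_apply]
    rw [hv]
    refine Submodule.sum_mem _ fun i _ => ?_
    by_cases hi : i ∈ I
    · obtain ⟨f, hf⟩ := h1 i
      rw [hf, algebraMap_smul]
      exact Submodule.smul_mem _ _ (Submodule.subset_span ⟨⟨i, hi⟩, rfl⟩)
    · rw [h2 i hi]; simp

omit [Fintype ι] in
theorem exists_destab_li {k : Type} [Field k] (I : Set ι) :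
    LinearIndependent (A k) fun x : I => (Pi.single (x : ι) (1 : K k) : ι → K k) := by
  have h : LinearIndependent (K k) fun i : ι => (Pi.single i (1 : K k) : ι → K k) :=
    Pi.linearIndependent_single_one ι (K k)
  have h2 := h.comp (Subtype.val : I → ι) Subtype.val_injective
  refine h2.restrict_scalars ?_
  intro a b hab
  apply IsFractionRing.injective (A k) (K k)
  simpa [Algebra.smul_def] using hab

theorem exists_destab_θ {k : Type} [Field k] (lam : kˣ) (w : ℕ) (b : ι → ℤ) (v : ι → K k) (i : ι) :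
    θW lam w (Matrix.diagonal fun i => algebraMap k (K k) ((lam ^ b i : kˣ) : k)) v i =
      ((lam ^ b i : kˣ) : k) • θK lam w (v i) := by
  change (Matrix.diagonal _ *ᵥ _) i = _
  rw [Matrix.mulVec_diagonal, Algebra.smul_def]

theorem exists_destab_single {k : Type} [Field k] (lam : kˣ) (w : ℕ) (b : ι → ℤ) (j : ι) :
    (Pi.single j (1 : K k) : ι → K k) ∈
      eig lam (θW lam w (Matrix.diagonal fun i => algebraMap k (K k) ((lam ^ b i : kˣ) : k)))
        (b j) := by
  rw [mem_eig]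
  ext i
  rw [exists_destab_θ]
  by_cases h : i = j
  · subst h; simp
  · simp [h]


theorem exists_destab_comm {k : Type} [Field k] (lam : kˣ) (w : ℕ) (b : ι → ℤ)
    (θ : (ι → K k) →ₗ[k] (ι → K k))
    (hθ : θ = θW lam w (Matrix.diagonal fun i => algebraMap k (K k) ((lam ^ b i : kˣ) : k)))
    (F : Submodule (K k) (ι → K k)) (hF : ∀ v ∈ F, θ v ∈ F) (I : Set ι)
    (p : (ι → K k) →ₗ[K k] (ι → K k)) (h1 : ∀ v, p v = 0 ↔ v ∈ F) (h2 : ∀ v, v - p v ∈ F)
    (h3 : ∀ v, ∀ i ∉ I, p v i = 0) (h4 : ∀ v, (∀ i ∉ I, v i = 0) → p v = v) (v : ι → K k) :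
    θ (p v) = p (θ v) := by
  have e1 : p (θ (v - p v)) = 0 := (h1 _).2 (hF _ (h2 v))
  have e2 : p (θ (p v)) = θ (p v) := h4 _ fun i hi => by
    rw [hθ, exists_destab_θ, h3 v i hi]; simp
  rw [map_sub, map_sub, e2] at e1
  exact (sub_eq_zero.1 e1).symm

theorem exists_destab_c1 {k : Type} [Field k] {lam : kˣ} (hl : InfOrd lam) {w : ℕ} (hw : 0 < w)
    (b : ι → ℤ) (θ : (ι → K k) →ₗ[k] (ι → K k))
    (hθ : θ = θW lam w (Matrix.diagonal fun i => algebraMap k (K k) ((lam ^ b i : kˣ) : k)))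
    (I : Set ι) :
    GS lam θ (Submodule.span (A k)
      (Set.range fun x : I => (Pi.single (x : ι) (1 : K k) : ι → K k))) ∧
    |(tauS lam w θ (Submodule.span (A k)
      (Set.range fun x : I => (Pi.single (x : ι) (1 : K k) : ι → K k)))).c1| ≤
      ∑ i, |(b i : ℚ)| := by
  classical
  have g : Gd lam w θ := hθ ▸ gd_W hl hw _
  have he : ∀ x : I, (Pi.single (x : ι) (1 : K k) : ι → K k) ∈ eig lam θ (b x) := fun x =>
    hθ ▸ exists_destab_single lam w b x
  refine ⟨GS.span g _ _ he, ?_⟩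
  rw [tauS_free g _ _ he (exists_destab_li I), T3.sum_c1]
  refine (Finset.abs_sum_le_sum_abs _ _).trans ?_
  have : ∑ x : I, |(ex (b x)).c1| = ∑ i ∈ Finset.univ.filter (· ∈ I), |(b i : ℚ)| :=
    (Finset.sum_subtype (p := (· ∈ I)) _ (by simp) (fun i => |(b i : ℚ)|)).symm
  rw [this]
  exact Finset.sum_le_sum_of_subset_of_nonneg (Finset.filter_subset _ _)
    fun i _ _ => abs_nonneg _

theorem exists_destab_deg {k : Type} [Field k] {lam : kˣ} (hl : InfOrd lam) {w : ℕ} (hw : 0 < w)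
    (b : ι → ℤ) (θ : (ι → K k) →ₗ[k] (ι → K k))
    (hθ : θ = θW lam w (Matrix.diagonal fun i => algebraMap k (K k) ((lam ^ b i : kˣ) : k)))
    (F : Submodule (K k) (ι → K k)) (hF : ∀ v ∈ F, θ v ∈ F) (I : Set ι)
    (p : (ι → K k) →ₗ[K k] (ι → K k)) (h1 : ∀ v, p v = 0 ↔ v ∈ F) (h2 : ∀ v, v - p v ∈ F)
    (h3 : ∀ v, ∀ i ∉ I, p v i = 0) (h4 : ∀ v, (∀ i ∉ I, v i = 0) → p v = v) (c : ℚ)
    (hc : (tauS lam w θ (Submodule.span (A k) (Set.range fun x : (Set.univ : Set ι) =>
      (Pi.single (x : ι) (1 : K k) : ι → K k)) ⊓ F.restrictScalars (A k))).c1 ≤ c) (j : ι) :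
    ∃ (h : A k) (δ : ℕ), h ≠ 0 ∧ h.IsHomogeneous δ ∧ (δ : ℚ) ≤ 2 * ∑ i, |(b i : ℚ)| + |c| ∧
      ∀ i, ∃ f : A k, (h • p (Pi.single j 1)) i = algebraMap (A k) (K k) f := by
  classical
  have g : Gd lam w θ := hθ ▸ gd_W hl hw _
  have hcomm := exists_destab_comm lam w b θ hθ F hF I p h1 h2 h3 h4
  obtain ⟨gW, cW⟩ := exists_destab_c1 hl hw b θ hθ Set.univ
  obtain ⟨gL, cL⟩ := exists_destab_c1 hl hw b θ hθ I
  have mW := exists_destab_mem (k := k) (Set.univ : Set ι)
  have mL := exists_destab_mem (k := k) I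
  set W := Submodule.span (A k) (Set.range fun x : (Set.univ : Set ι) =>
      (Pi.single (x : ι) (1 : K k) : ι → K k)) with hW
  set L0 := Submodule.span (A k) (Set.range fun x : I =>
      (Pi.single (x : ι) (1 : K k) : ι → K k)) with hL0
  set u : ι → K k := p (Pi.single j 1) with hu
  have hsum : (0 : ℚ) ≤ ∑ i, |(b i : ℚ)| := Finset.sum_nonneg fun i _ => abs_nonneg _
  by_cases hu0 : u = 0
  · refine ⟨1, 0, one_ne_zero, isHomogeneous_one _ _, ?_, fun i => ⟨0, by simp [hu0]⟩⟩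
    have := abs_nonneg c
    push_cast; linarith
  obtain ⟨h, h0, hh⟩ := exists_destab_den u
  have hmem : ∀ a : A k, a • u ∈ L0 ↔ h ∣ a := fun a => by
    rw [mL, ← hh]
    refine ⟨fun h => h.1, fun h => ⟨h, fun i hi => ?_⟩⟩
    rw [Pi.smul_apply, hu, h3 _ i hi, smul_zero]
  have hue : u ∈ eig lam θ (b j) := by
    have := hθ ▸ exists_destab_single lam w b j
    rw [mem_eig] at this ⊢
    rw [hu, hcomm, this, LinearMap.map_smul_of_tower]
  obtain ⟨f', j', hf0, hf1, hf2⟩ := exists_hom_ann g L0 gL.stable hue h0 ((hmem h).2 dvd_rfl)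
  obtain ⟨δ, hδ⟩ := isHomogeneous_of_dvd hf1 hf0 ((hmem f').1 hf2)
  refine ⟨h, δ, h0, hδ, ?_, (hh h).2 dvd_rfl⟩
  -- the classes
  let pA : (ι → K k) →ₗ[A k] (ι → K k) := p.restrictScalars (A k)
  have hpA : HomDeg lam θ θ pA 0 := fun v => by
    change θ (p v) = _ • p (θ v)
    rw [hcomm]; simp
  have gM : GS lam θ (W.map pA) := gW.map pA hpA
  have tM := tauS_map g gW pA hpA
  have hker : LinearMap.ker pA = F.restrictScalars (A k) := by
    ext v; exact h1 v
  rw [hker, ex_zero, one_mul] at tM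
  have tf : ∀ (a : A k) (v : ι → K k), a ≠ 0 → v ≠ 0 → a • v ≠ 0 := fun a v ha hv =>
    smul_ne_zero ha hv
  have li : ∀ v : ι → K k, v ≠ 0 → LinearIndependent (A k) fun _ : Unit => v := fun v hv =>
    linearIndependent_unique_iff.2 hv
  have hhu : h • u ∈ eig lam θ (w * δ + b j) :=
    g.comm.smul_mem_eig (homZ_of_isHomogeneous w hδ) hue
  have g1 := GS.span g (fun _ : Unit => u) (fun _ => b j) fun _ => hue
  have t1 := tauS_free g (fun _ : Unit => u) (fun _ => b j) (fun _ => hue) (li u hu0)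
  have t2 := tauS_free g (fun _ : Unit => h • u) (fun _ => w * δ + b j) (fun _ => hhu)
    (li _ (tf _ _ h0 hu0))
  rw [Set.range_const] at g1 t1 t2
  have hinf : L0 ⊓ Submodule.span (A k) {u} = Submodule.span (A k) {h • u} := by
    ext v
    rw [Submodule.mem_inf, Submodule.mem_span_singleton, Submodule.mem_span_singleton]
    constructor
    · rintro ⟨hv, a, rfl⟩
      obtain ⟨a', rfl⟩ := (hmem a).1 hv
      exact ⟨a', by rw [mul_comm, mul_smul]⟩
    · rintro ⟨a, rfl⟩
      rw [← mul_smul]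
      exact ⟨(hmem _).2 (dvd_mul_left _ _), _, rfl⟩
  have t3 := tauS_sup_add_inf g gL g1
  rw [hinf, t1, t2] at t3
  have hle : L0 ⊔ Submodule.span (A k) {u} ≤ W.map pA := by
    refine sup_le (fun v hv => ?_) ?_
    · obtain ⟨hv1, hv2⟩ := (mL v).1 hv
      exact ⟨v, (mW v).2 ⟨hv1, fun i hi => absurd (Set.mem_univ i) hi⟩, h4 v hv2⟩
    · rw [Submodule.span_singleton_le_iff_mem]
      exact ⟨_, Submodule.subset_span ⟨⟨j, Set.mem_univ j⟩, rfl⟩, rfl⟩
  have t4 := (tauS_torsion g gM (gL.sup g1) hle (by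
    rintro v ⟨v', -, rfl⟩
    obtain ⟨a, a0, ha⟩ := exists_destab_den (p v')
    refine ⟨a, a0, Submodule.mem_sup_left ((mL _).2 ⟨(ha a).2 dvd_rfl, fun i hi => ?_⟩)⟩
    change a • p v' i = 0
    rw [h3 _ i hi, smul_zero])).2
  have t3' := congrArg T3.c1 t3
  have tM' := congrArg T3.c1 tM
  simp only [T3.add_c1, T3.sub_c1, Finset.univ_unique, Finset.sum_singleton, ex] at t3' tM'
  push_cast at t3'
  have hw1 : (1 : ℚ) ≤ w := by exact_mod_cast hw
  have hδ0 : (0 : ℚ) ≤ δ := Nat.cast_nonneg _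
  have a1 := abs_le.1 cW
  have a2 := abs_le.1 cL
  have a3 := le_abs_self c
  nlinarith


theorem exists_destab (hq : 0 < q) (b : ι → ℤ) (c : ℚ) :
    ∃ d : ℕ, ∀ (k : Type) [Field k] (dH m : ℕ) (dg : Fin m → ℤ) (X : PD k q b dH m dg) (lam : kˣ)
      (D : Adm X.P lam q ι), InfOrd lam → X.H ≠ 0 → IsOf X D → (D.tau D.E).c1 = c → ¬ D.SS →
      ∃ (H1 : A k) (Q : Matrix ι ι (A k)), H1 ≠ 0 ∧ Destab X H1 Q d ∧
        BadT (Fintype.card ι) (4 * q * d : ℕ) (tauH (4 * q) (hcol (4 * q) b X.G))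
          (tauH (4 * q) (hcol (4 * q) b (Q * X.G))) := by
  classical
  refine ⟨Fintype.card ι * ⌈2 * ∑ i, |(b i : ℚ)| + |(|c|)|⌉₊, ?_⟩
  intro k _ dH m dg X lam D hl hH hD hc hss
  set N := ⌈2 * ∑ i, |(b i : ℚ)| + |(|c|)|⌉₊ with hN
  have hw : 0 < 4 * q := by omega
  have hθ : D.θ = θW lam (4 * q)
      (Matrix.diagonal fun i => algebraMap k (K k) ((lam ^ b i : kˣ) : k)) := by
    rw [Adm.θ, hD.Θ]
  have g : Gd lam (4 * q) D.θ := gd_W hl hw _
  simp only [Adm.SS, not_forall, not_le] at hss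
  obtain ⟨F, ⟨hY, hΓ, hF⟩, hbad⟩ := hss
  obtain ⟨I, p, h1, h2, h3, h4⟩ := exists_destab_proj F
  have hcomm := exists_destab_comm lam (4 * q) b D.θ hθ F hF I p h1 h2 h3 h4
  obtain ⟨gW, -⟩ := exists_destab_c1 hl hw b D.θ hθ Set.univ
  have mW := exists_destab_mem (k := k) (Set.univ : Set ι)
  have hdeg := exists_destab_deg hl hw b D.θ hθ F hF I p h1 h2 h3 h4 |c|
  set W := Submodule.span (A k) (Set.range fun x : (Set.univ : Set ι) =>
      (Pi.single (x : ι) (1 : K k) : ι → K k)) with hW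
  have hFA : ∀ v ∈ F.restrictScalars (A k), D.θ v ∈ F.restrictScalars (A k) := hF
  have gEF : GS lam D.θ (D.E ⊓ F.restrictScalars (A k)) := D.gs.inf hl hFA
  have hEW : D.E ≤ W := by
    rw [hD.E, Submodule.span_le]
    rintro _ ⟨j, rfl⟩
    exact (mW _).2 ⟨fun i => ⟨X.G i j, rfl⟩, fun i hi => absurd (Set.mem_univ i) hi⟩
  have hWE : ∀ v ∈ W, X.H • v ∈ D.E := by
    intro v hv
    choose f hf using ((mW v).1 hv).1
    have : X.H • v = ∑ j, (X.G' *ᵥ f) j • fun i => toK X.G i j := by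
      ext i
      have h := congrFun (congrArg (· *ᵥ f) X.GG') i
      simp only [← Matrix.mulVec_mulVec, Matrix.smul_mulVec, Matrix.one_mulVec, Pi.smul_apply,
        smul_eq_mul] at h
      rw [Pi.smul_apply, hf, Algebra.smul_def, ← map_mul, ← h, Finset.sum_apply]
      simp only [Matrix.mulVec, dotProduct, map_sum, map_mul, Pi.smul_apply, Algebra.smul_def, toK,
        Matrix.map_apply]
      exact Finset.sum_congr rfl fun j _ => mul_comm _ _
    rw [this, hD.E]
    exact Submodule.sum_mem _ fun j _ =>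
      Submodule.smul_mem _ _ (Submodule.subset_span ⟨j, rfl⟩)
  have c1le : (D.tau (W ⊓ F.restrictScalars (A k))).c1 ≤
      (D.tau (D.E ⊓ F.restrictScalars (A k))).c1 :=
    (tauS_torsion g (gW.inf hl hFA) gEF (inf_le_inf_right _ hEW) fun v hv =>
      ⟨X.H, hH, hWE v hv.1, Submodule.smul_mem _ _ hv.2⟩).2
  have hrank := tauS_rank g gEF
  have hr : Module.finrank (K k) (Submodule.span (K k)
      ((D.E ⊓ F.restrictScalars (A k) : Submodule (A k) (ι → K k)) : Set (ι → K k))) ≤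
      Fintype.card ι := (Submodule.finrank_le _).trans (by simp)
  have c1le' : (D.tau (D.E ⊓ F.restrictScalars (A k))).c1 ≤ |c| := by
    have hb := hbad
    rw [hc] at hb
    change (D.tau _).c0 = _ at hrank
    rw [hrank] at hb
    generalize Module.finrank (K k) (Submodule.span (K k)
      ((D.E ⊓ F.restrictScalars (A k) : Submodule (A k) (ι → K k)) : Set (ι → K k))) = r at hr hb
    generalize Fintype.card ι = ρ at hr hb
    have hr' : (r : ℚ) ≤ ρ := by exact_mod_cast hr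
    have hr0 : (0 : ℚ) ≤ r := Nat.cast_nonneg _
    have hρ0 : (0 : ℚ) ≤ ρ := Nat.cast_nonneg _
    have a1 := le_abs_self c
    have a2 := abs_nonneg c
    by_contra hcon
    push Not at hcon
    nlinarith [mul_nonneg hr0 hρ0, mul_nonneg hr0 (sub_nonneg.2 a1), mul_nonneg (sub_nonneg.2 hr') a2,
      mul_nonneg hρ0 (sub_nonneg.2 hcon.le)]
  choose h δ h0 hδ hδN hpoly using hdeg (c1le.trans c1le')
  have hδN' : ∀ j, δ j ≤ N := fun j => by
    have : (δ j : ℚ) ≤ N := (hδN j).trans (Nat.le_ceil _)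
    exact_mod_cast this
  have hsum : ∑ j, δ j ≤ Fintype.card ι * N := by
    simpa using Finset.sum_le_card_nsmul Finset.univ δ N fun j _ => hδN' j
  set d := Fintype.card ι * N with hd
  set H1 : A k := (∏ j, h j) * MvPolynomial.X 0 ^ (d - ∑ j, δ j) with hH1
  have hH10 : H1 ≠ 0 :=
    mul_ne_zero (Finset.prod_ne_zero_iff.2 fun j _ => h0 j) (pow_ne_zero _ (X_ne_zero _))
  have hH1h : H1.IsHomogeneous d := by
    have := (IsHomogeneous.prod Finset.univ h δ fun j _ => hδ j).mul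
      (isHomogeneous_X_pow (R := k) (0 : Fin 3) (d - ∑ j, δ j))
    rwa [Nat.add_sub_cancel' hsum] at this
  have hpoly' : ∀ i j, ∃ f : A k, (H1 • p (Pi.single j 1)) i = algebraMap (A k) (K k) f := by
    intro i j
    obtain ⟨a, ha⟩ : h j ∣ H1 :=
      (Finset.dvd_prod_of_mem h (Finset.mem_univ j)).trans (dvd_mul_right _ _)
    obtain ⟨f, hf⟩ := hpoly j i
    refine ⟨a * f, ?_⟩
    rw [ha, mul_comm, mul_smul, Pi.smul_apply, hf, Algebra.smul_def, map_mul]
  choose Q hQ using hpoly'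
  have hQv : ∀ v, toK (Matrix.of Q) *ᵥ v = H1 • p v := by
    intro v
    have hv : v = ∑ j, v j • (Pi.single j (1 : K k) : ι → K k) := by
      ext j; simp [Finset.sum_apply, Pi.single_apply]
    ext i
    conv_rhs => rw [hv, map_sum, Finset.smul_sum, Finset.sum_apply]
    simp only [Matrix.mulVec, dotProduct, toK, Matrix.map_apply, Matrix.of_apply]
    refine Finset.sum_congr rfl fun j _ => ?_
    rw [map_smul, smul_comm, Pi.smul_apply, hQ, smul_eq_mul, mul_comm]
  have hθH : θA lam (4 * q) H1 = ((lam ^ ((4 * q * d : ℕ) : ℤ) : kˣ) : k) • H1 := by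
    have := (mem_eigA_iff (w := 4 * q) hl H1 _).2 (homZ_of_isHomogeneous (4 * q) hH1h)
    rw [mem_eig] at this
    rw [Nat.cast_mul (4 * q) d]
    exact this
  have hQdeg : HomDeg lam D.θ D.θ (fun v => toK (Matrix.of Q) *ᵥ v) (4 * q * d : ℕ) := fun v => by
    simp only [hQv]
    rw [g.comm.smul, hθH, hcomm, smul_assoc]
  have hHK : algebraMap (A k) (K k) X.H ≠ 0 := fun h =>
    hH (IsFractionRing.injective (A k) (K k) (by rw [h, map_zero]))
  have kill : ∀ (U : Matrix ι ι (A k)) (U' : Matrix ι ι (K k)),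
      U' = (algebraMap (A k) (K k) X.H)⁻¹ • toK U → (∀ v ∈ F, U' *ᵥ v ∈ F) →
      Matrix.of Q * U * (H1 • (1 : Matrix ι ι (A k)) - Matrix.of Q) = 0 := by
    intro U U' hU hU'
    have hU2 : ∀ v ∈ F, toK U *ᵥ v ∈ F := fun v hv => by
      have := F.smul_mem (algebraMap (A k) (K k) X.H) (hU' v hv)
      rwa [hU, Matrix.smul_mulVec, smul_smul, mul_inv_cancel₀ hHK, one_smul] at this
    have inj : Function.Injective
        (fun U : Matrix ι ι (A k) => U.map (algebraMap (A k) (K k))) :=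
      Matrix.map_injective (IsFractionRing.injective (A k) (K k))
    apply inj
    have hz : (0 : Matrix ι ι (A k)).map (algebraMap (A k) (K k)) = 0 :=
      Matrix.map_zero _ (map_zero _)
    simp only [hz, Matrix.map_mul]
    refine Matrix.toLin'.injective (LinearMap.ext fun v => ?_)
    rw [Matrix.toLin'_apply, map_zero, LinearMap.zero_apply, ← Matrix.mulVec_mulVec,
      ← Matrix.mulVec_mulVec]
    have e1 : (H1 • (1 : Matrix ι ι (A k)) - Matrix.of Q).map (algebraMap (A k) (K k)) *ᵥ v =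
        H1 • (v - p v) := by
      rw [Matrix.map_sub _ (map_sub _), Matrix.sub_mulVec, smul_sub]
      congr 1
      · ext i
        rw [Pi.smul_apply, Algebra.smul_def H1 (v i)]
        simp [Matrix.mulVec, dotProduct, Matrix.one_apply, apply_ite]
      · exact hQv v
    have e2 : H1 • (v - p v) ∈ F := (F.restrictScalars (A k)).smul_mem H1 (h2 v)
    rw [e1]
    change toK (Matrix.of Q) *ᵥ (toK U *ᵥ _) = 0
    rw [hQv, (h1 _).2 (hU2 _ e2), smul_zero]
  refine ⟨H1, Matrix.of Q, hH10, ⟨hH1h, fun i j => ?_, fun g => kill _ _ (hD.Y g) (hY g),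
    fun σ => kill _ _ (hD.Γ σ) (hΓ σ)⟩, ?_⟩
  · exact homZ_of_homDeg hl (4 * q) b (Matrix.of Q) _ (hθ ▸ hQdeg) i j
  · let φ : (ι → K k) →ₗ[A k] (ι → K k) :=
      (Matrix.toLin' (toK (Matrix.of Q))).restrictScalars (A k)
    have hφ : HomDeg lam D.θ D.θ φ (4 * q * d : ℕ) := hQdeg
    have hker : LinearMap.ker φ = F.restrictScalars (A k) := by
      ext v
      change toK (Matrix.of Q) *ᵥ v = 0 ↔ v ∈ F
      rw [hQv, ← h1, smul_eq_zero]
      simp [hH10]
    have t1 := tauS_map g D.gs φ hφ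
    rw [hker] at t1
    have e1 : tauH (4 * q) (hcol (4 * q) b X.G) = D.tau D.E := by
      rw [← hilb_cols hl, ← hθ, ← hD.E]; rfl
    have e2 : tauH (4 * q) (hcol (4 * q) b (Matrix.of Q * X.G)) = D.tau (D.E.map φ) := by
      rw [← hilb_cols hl, ← hθ, hD.E, Submodule.map_span, ← Set.range_comp]
      have : (φ ∘ fun j i => toK X.G i j) = fun j i => toK (Matrix.of Q * X.G) i j := by
        ext j i
        change (toK (Matrix.of Q) *ᵥ fun i => toK X.G i j) i = _
        simp [toK, Matrix.mulVec, dotProduct, Matrix.mul_apply]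
      rw [this]; rfl
    rw [BadT, e1, e2]
    change D.tau _ = ex _ * (D.tau _ - D.tau _) at t1
    rw [t1, ← mul_assoc, ← ex_add, neg_add_cancel, ex_zero, one_mul, sub_sub_cancel]
    exact hbad

theorem not_SS_of_destab_toK_mul {k : Type} [Field k] {α β γ : Type} [Fintype β]
    (U : Matrix α β (A k)) (U' : Matrix β γ (A k)) : toK (U * U') = toK U * toK U' :=
  Matrix.map_mul

theorem not_SS_of_destab_tau {k : Type} [Field k] {X : PD k q b dH m dg} {lam : kˣ}
    {D : Adm X.P lam q ι} (hl : InfOrd lam) (hD : IsOf X D) :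
    D.tau D.E = tauH (4 * q) (hcol (4 * q) b X.G) := by
  unfold Adm.tau Adm.θ tauS
  rw [hD.E, hD.Θ, hilb_cols hl]

theorem not_SS_of_destab_ker {k : Type} [Field k] {H1 : A k} {Q U : Matrix ι ι (A k)}
    (h1 : H1 ≠ 0) (h : Q * U * (H1 • (1 : Matrix ι ι (A k)) - Q) = 0) (c : K k) {v : ι → K k}
    (hv : toK Q *ᵥ v = 0) : toK Q *ᵥ ((c • toK U) *ᵥ v) = 0 := by
  have hH : algebraMap (A k) (K k) H1 ≠ 0 :=
    (map_ne_zero_iff _ (IsFractionRing.injective (A k) (K k))).2 h1
  have e1 : toK (H1 • (1 : Matrix ι ι (A k)) - Q) =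
      algebraMap (A k) (K k) H1 • (1 : Matrix ι ι (K k)) - toK Q := by
    ext i j
    by_cases hij : i = j <;> simp [toK, hij, Algebra.algebraMap_eq_smul_one, sub_smul]
  have e2 : toK (Q * U * (H1 • (1 : Matrix ι ι (A k)) - Q)) *ᵥ v = 0 := by
    rw [h]
    have : toK (0 : Matrix ι ι (A k)) = 0 := by ext i j; simp [toK]
    rw [this, zero_mulVec]
  rw [not_SS_of_destab_toK_mul, not_SS_of_destab_toK_mul, e1, ← mulVec_mulVec, sub_mulVec, hv,
    sub_zero, smul_mulVec, one_mulVec, mulVec_smul, smul_eq_zero] at e2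
  rw [smul_mulVec, mulVec_smul, mulVec_mulVec, e2.resolve_left hH, smul_zero]

theorem not_SS_of_destab {k : Type} [Field k] (hq : 0 < q) (X : PD k q b dH m dg) {lam : kˣ}
    (D : Adm X.P lam q ι) (hl : InfOrd lam) (hD : IsOf X D) {H1 : A k}
    {Q : Matrix ι ι (A k)} {d : ℕ} (h1 : H1 ≠ 0) (h : Destab X H1 Q d)
    (hb : BadT (Fintype.card ι) (4 * q * d : ℕ) (tauH (4 * q) (hcol (4 * q) b X.G))
      (tauH (4 * q) (hcol (4 * q) b (Q * X.G)))) : ¬ D.SS := by
  intro hss
  have hw : 0 < 4 * q := by omega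
  have hdeg : HomDeg lam D.θ D.θ (fun v => toK Q *ᵥ v) ((4 * q * d : ℕ) : ℤ) := by
    unfold Adm.θ
    rw [hD.Θ]
    exact homDeg_toK lam (4 * q) b Q _ h.hQ
  set F : Submodule (K k) (ι → K k) := LinearMap.ker (Matrix.toLin' (toK Q)) with hF
  have mF : ∀ v, v ∈ F ↔ toK Q *ᵥ v = 0 := fun v => by
    rw [hF, LinearMap.mem_ker, Matrix.toLin'_apply]
  have hst : D.Stable F := by
    refine ⟨fun g v hv => ?_, fun σ v hv => ?_, fun v hv => ?_⟩
    · rw [mF] at hv ⊢
      rw [hD.Y]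
      exact not_SS_of_destab_ker h1 (h.Y g) _ hv
    · rw [mF] at hv ⊢
      rw [hD.Γ]
      exact not_SS_of_destab_ker h1 (h.Γ σ) _ hv
    · rw [mF] at hv ⊢
      have := hdeg v
      simp only [hv, map_zero] at this
      exact (smul_eq_zero.1 this.symm).resolve_left (Units.ne_zero _)
  have key := hss F hst
  set φ : (ι → K k) →ₗ[A k] (ι → K k) := (Matrix.toLin' (toK Q)).restrictScalars (A k) with hφ
  have hker : LinearMap.ker φ = F.restrictScalars (A k) := rfl
  have hmap : D.E.map φ = Submodule.span (A k) (Set.range fun j i => toK (Q * X.G) i j) := by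
    rw [hD.E, Submodule.map_span, ← Set.range_comp]
    congr 2
    funext j i
    simp [hφ, not_SS_of_destab_toK_mul, Matrix.mul_apply, Matrix.mulVec, dotProduct]
  have ht := tauS_map (θ' := D.θ) (gd_W hl hw D.Θ) D.gs φ (e := ((4 * q * d : ℕ) : ℤ)) hdeg
  have hI : tauS lam (4 * q) D.θ (D.E.map φ) = tauH (4 * q) (hcol (4 * q) b (Q * X.G)) := by
    unfold Adm.θ tauS
    rw [hmap, hD.Θ, hilb_cols hl]
  have hE := not_SS_of_destab_tau hl hD
  have hsub : D.tau (D.E ⊓ F.restrictScalars (A k)) =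
      tauH (4 * q) (hcol (4 * q) b X.G) -
        ex (-((4 * q * d : ℕ) : ℤ)) * tauH (4 * q) (hcol (4 * q) b (Q * X.G)) := by
    rw [← hI, ht, ← mul_assoc, ← ex_add, neg_add_cancel, ex_zero, one_mul, ← hE, hker]
    simp [Adm.tau, Adm.θ]
  rw [hsub, hE] at key
  exact absurd hb (not_lt.2 key)

/-! ### Subtask PD-e (commutative algebra of spreading out) -/

theorem closure_dichotomy [IsDomain Λ] {B : Type} [CommRing B] [IsNoetherianRing B] [Algebra Λ B]
    (𝒮 : Set (Ideal B)) (h𝒮 : ∀ r ∈ 𝒮, r.IsPrime) :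
    (∃ a : Λ, a ≠ 0 ∧ ∀ r ∈ 𝒮, algebraMap Λ B a ∈ r) ∨
      ∃ p : Ideal B, p.IsPrime ∧ (∀ a : Λ, algebraMap Λ B a ∈ p → a = 0) ∧
        (∀ x, (∀ r ∈ 𝒮, x ∈ r) → x ∈ p) ∧ ∀ x ∉ p, ∃ r ∈ 𝒮, p ≤ r ∧ x ∉ r := by
  classical
  have hfin := Ideal.finite_minimalPrimes_of_isNoetherianRing B (sInf 𝒮)
  have hI : ∀ x : B, (∀ p ∈ (sInf 𝒮).minimalPrimes, x ∈ p) → ∀ r ∈ 𝒮, x ∈ r := by
    intro x hx r hr
    have h1 : x ∈ (sInf 𝒮).radical := by
      rw [← Ideal.sInf_minimalPrimes]
      exact Ideal.mem_sInf.2 fun {p} hp => hx p hp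
    obtain ⟨n, hn⟩ := h1
    exact (h𝒮 r hr).mem_of_pow_mem n (Ideal.mem_sInf.1 hn hr)
  by_cases h : ∀ p ∈ (sInf 𝒮).minimalPrimes, ∃ a : Λ, a ≠ 0 ∧ algebraMap Λ B a ∈ p
  · left
    choose! a ha hap using h
    refine ⟨∏ p ∈ hfin.toFinset, a p, Finset.prod_ne_zero_iff.2 fun p hp =>
      ha p (hfin.mem_toFinset.1 hp), hI _ fun p hp => ?_⟩
    rw [map_prod]
    exact Ideal.prod_mem p (hfin.mem_toFinset.2 hp) (hap p hp)
  · right
    push Not at h
    obtain ⟨p, hp, hpa⟩ := h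
    have hpp : p.IsPrime := hp.1.1
    refine ⟨p, hpp, fun a ha => by_contra fun h0 => hpa a h0 ha,
      fun x hx => hp.1.2 (Ideal.mem_sInf.2 fun {r} hr => hx r hr), fun x hx => ?_⟩
    have hy : ∀ p' ∈ (sInf 𝒮).minimalPrimes, p' ≠ p → ∃ y ∈ p', y ∉ p := by
      intro p' hp' hne
      by_contra hcon
      push Not at hcon
      exact hne (le_antisymm hcon (hp.2 hp'.1 hcon))
    choose! y hy hyp using hy
    set Y := ∏ p' ∈ hfin.toFinset.erase p, y p' with hY
    have hYp : Y ∉ p := by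
      intro hm
      obtain ⟨p', hp', hm'⟩ := (Ideal.IsPrime.prod_mem_iff (p := p)).1 hm
      rw [Finset.mem_erase] at hp'
      exact hyp p' (hfin.mem_toFinset.1 hp'.2) hp'.1 hm'
    have hxY : x * Y ∉ p := fun hm => (hpp.mem_or_mem hm).elim hx hYp
    obtain ⟨r, hr, hxr⟩ : ∃ r ∈ 𝒮, x * Y ∉ r := by
      by_contra hcon
      push Not at hcon
      exact hxY (hp.1.2 (Ideal.mem_sInf.2 fun {r} hr => hcon r hr))
    refine ⟨r, hr, fun z hz => ?_, fun hm => hxr (r.mul_mem_right _ hm)⟩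
    have hzY : z * Y ∈ r := by
      refine hI _ (fun p' hp' => ?_) r hr
      by_cases hpe : p' = p
      · rw [hpe]; exact p.mul_mem_right _ hz
      · exact p'.mul_mem_left _ (Ideal.prod_mem p'
          (Finset.mem_erase.2 ⟨hpe, hfin.mem_toFinset.2 hp'⟩) (hy p' hp' hpe))
    exact ((h𝒮 r hr).mem_or_mem hzY).resolve_right fun hm => hxr (r.mul_mem_left _ hm)

theorem exists_point_alg {k C : Type} [Field k] [IsAlgClosed k] [CommRing C] [Nontrivial C]
    [Algebra k C] [Algebra.FiniteType k C] : Nonempty (C →ₐ[k] k) := by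
  obtain ⟨m, hm⟩ := Ideal.exists_maximal C
  let := Ideal.Quotient.field m
  have := finite_of_finite_type_of_isJacobsonRing k (C ⧸ m)
  exact ⟨(IsAlgClosed.lift : (C ⧸ m) →ₐ[k] k).comp (Ideal.Quotient.mkₐ k m)⟩

theorem exists_point [IsDomain Λ] {k : Type} [Field k] [IsAlgClosed k] (φ : Λ →+* k)
    (hφ : Function.Injective φ) (B : Type) [CommRing B] [IsDomain B] [Algebra Λ B]
    [Algebra.FiniteType Λ B] (hB : Function.Injective (algebraMap Λ B)) (a : B) (ha : a ≠ 0) :
    ∃ ψ : B →+* k, ψ.comp (algebraMap Λ B) = φ ∧ ψ a ≠ 0 := by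
  let : Algebra Λ k := φ.toAlgebra
  have hle : Submonoid.powers a ≤ nonZeroDivisors B := powers_le_nonZeroDivisors_of_noZeroDivisors ha
  have : IsDomain (Localization.Away a) := IsLocalization.isDomain_localization hle
  have hinj : Function.Injective (algebraMap Λ (Localization.Away a)) := by
    rw [IsScalarTower.algebraMap_eq Λ B (Localization.Away a), RingHom.coe_comp]
    exact (IsLocalization.injective (Localization.Away a) hle).comp hB
  have : Algebra.FiniteType Λ (Localization.Away a) :=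
    Algebra.FiniteType.trans (S := B) inferInstance inferInstance
  have : Nontrivial (TensorProduct Λ k (Localization.Away a)) :=
    Algebra.TensorProduct.nontrivial_of_algebraMap_injective_of_isDomain Λ k _ hφ hinj
  obtain ⟨χ⟩ := exists_point_alg (k := k) (C := TensorProduct Λ k (Localization.Away a))
  let ρ : Localization.Away a →ₐ[Λ] k :=
    (χ.restrictScalars Λ).comp Algebra.TensorProduct.includeRight
  refine ⟨(ρ : Localization.Away a →+* k).comp (algebraMap B _), ?_, ?_⟩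
  · ext x
    simp only [RingHom.comp_apply, RingHom.coe_coe]
    rw [← IsScalarTower.algebraMap_apply, AlgHom.commutes]
    rfl
  · exact ((IsLocalization.Away.algebraMap_isUnit (S := Localization.Away a) a).map ρ).ne_zero

theorem exists_charp_point_jac : IsJacobsonRing ℤ := by
  rw [isJacobsonRing_iff_prime_eq]
  intro P hP
  by_cases h0 : P = ⊥
  · subst h0
    refine le_antisymm (fun x hx => ?_) Ideal.le_jacobson
    have := Ideal.mem_jacobson_bot.1 hx x
    rw [Ideal.mem_bot]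
    rcases Int.isUnit_iff.1 this with h | h <;> nlinarith [mul_self_nonneg x]
  · have := hP.isMaximal h0
    exact Ideal.jacobson_eq_self_of_isMaximal

theorem exists_charp_point_fin (κ : Type) [Field κ] (h : Algebra.FiniteType ℤ κ) :
    Module.Finite ℤ κ := by
  have := exists_charp_point_jac
  exact finite_of_finite_type_of_isJacobsonRing ℤ κ

theorem exists_charp_point_res (C : Type) [CommRing C] [Nontrivial C] [inst : Algebra ℤ C]
    (h : Algebra.FiniteType ℤ C) :
    ∃ (κ : Type) (_ : Field κ) (_ : C →+* κ), Module.Finite ℤ κ := by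
  obtain rfl : inst = Ring.toIntAlgebra C := Subsingleton.elim _ _
  obtain ⟨m, hm⟩ := Ideal.exists_maximal C
  let := Ideal.Quotient.field m
  exact ⟨C ⧸ m, inferInstance, Ideal.Quotient.mk m,
    exists_charp_point_fin _ (Algebra.FiniteType.of_surjective
      (Ideal.Quotient.mk m).toIntAlgHom Ideal.Quotient.mk_surjective)⟩

theorem exists_charp_point [IsDomain Λ] [CharZero Λ] [Algebra.FiniteType ℤ Λ] (a : Λ) (ha : a ≠ 0)
    (N : ℕ) : ∃ (k : Type) (_ : Field k) (_ : IsAlgClosed k) (p : ℕ) (_ : Fact p.Prime)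
      (_ : CharP k p) (lam : kˣ) (φ : Λ →+* k), N ≤ p ∧ InfOrd lam ∧ φ a ≠ 0 := by
  have hc : a * (N.factorial : Λ) ≠ 0 := mul_ne_zero ha (Nat.cast_ne_zero.2 N.factorial_ne_zero)
  obtain ⟨κ, _, ρ, hρ, hκ⟩ : ∃ (κ : Type) (_ : Field κ) (ρ : Λ →+* κ),
      ρ (a * (N.factorial : Λ)) ≠ 0 ∧ Module.Finite ℤ κ := by
    set c := a * (N.factorial : Λ)
    have hle : Submonoid.powers c ≤ nonZeroDivisors Λ :=
      powers_le_nonZeroDivisors_of_noZeroDivisors hc
    have : IsDomain (Localization.Away c) := IsLocalization.isDomain_localization hle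
    obtain ⟨κ, _, ρ, hκ⟩ := exists_charp_point_res (Localization.Away c)
      (Algebra.FiniteType.trans (S := Λ) inferInstance inferInstance)
    exact ⟨κ, inferInstance, ρ.comp (algebraMap Λ _),
      ((IsLocalization.Away.algebraMap_isUnit (S := Localization.Away c) c).map ρ).ne_zero, hκ⟩
  obtain ⟨p, hp⟩ := CharP.exists κ
  have hp0 : p ≠ 0 := by
    rintro rfl
    have := CharP.charP_to_charZero κ
    exact Int.not_isField ((Algebra.IsIntegral.isField_iff_isField
      (R := ℤ) (S := κ) (RingHom.injective_int _)).2 (Field.toIsField κ))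
  have hpp : p.Prime := (CharP.char_is_prime_or_zero κ p).resolve_right hp0
  rw [map_mul, map_natCast] at hρ
  have hN : N ≤ p := by
    by_contra hlt
    have : p ∣ N.factorial := Nat.dvd_factorial hpp.pos (by omega)
    exact hρ (by rw [(CharP.cast_eq_zero_iff κ p _).2 this, mul_zero])
  let k := AlgebraicClosure (RatFunc κ)
  let j : Polynomial κ →+* k := (algebraMap (RatFunc κ) k).comp (algebraMap _ _)
  have hj : Function.Injective j :=
    (algebraMap (RatFunc κ) k).injective.comp (IsFractionRing.injective _ _)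
  have hX : j Polynomial.X ≠ 0 := fun h =>
    Polynomial.X_ne_zero (hj (h.trans (map_zero j).symm))
  have hjc : Function.Injective (j.comp Polynomial.C) := RingHom.injective _
  refine ⟨k, inferInstance, inferInstance, p, ⟨hpp⟩, charP_of_injective_ringHom hjc p,
    Units.mk0 _ hX, (j.comp Polynomial.C).comp ρ, hN, fun n hn => ?_, fun h => ?_⟩
  · by_contra h0
    obtain ⟨n', hn', h1⟩ := isOfFinOrder_iff_pow_eq_one.1
      (isOfFinOrder_iff_zpow_eq_one.2 ⟨n, h0, hn⟩)
    have h2 : j (Polynomial.X ^ n') = j 1 := by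
      rw [map_pow, map_one]
      exact congrArg Units.val h1
    have h3 := congrArg Polynomial.natDegree (hj h2)
    rw [Polynomial.natDegree_X_pow, Polynomial.natDegree_one] at h3
    omega
  · exact hρ (by rw [hjc (h.trans (map_zero _).symm), zero_mul])

theorem exists_universal_gen (Λ : Type) [CommRing Λ] {T : Type} [Finite T]
    (M : T → Set (Fin 3 →₀ ℕ)) (hM : ∀ t, (M t).Finite) :
    ∃ (σ : Type) (_ : Finite σ) (U : T → A (MvPolynomial σ Λ)),
      (∀ t μ, coeff μ (U t) ≠ 0 → μ ∈ M t) ∧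
      ∀ (k : Type) [CommRing k] (φ : Λ →+* k) (f : T → A k),
        (∀ t μ, coeff μ (f t) ≠ 0 → μ ∈ M t) →
        ∃ ψ : MvPolynomial σ Λ →+* k, ψ.comp C = φ ∧ ∀ t, MvPolynomial.map ψ (U t) = f t := by
  classical
  have : ∀ t, Fintype (M t) := fun t => (hM t).fintype
  refine ⟨Σ t, M t, inferInstance, fun t => ∑ μ : M t, monomial μ.1 (X ⟨t, μ⟩), ?_, ?_⟩
  · intro t μ h
    rw [coeff_sum] at h
    obtain ⟨ν, -, hν⟩ := Finset.exists_ne_zero_of_sum_ne_zero h
    rw [coeff_monomial] at hν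
    by_cases h1 : ν.1 = μ
    · exact h1 ▸ ν.2
    · exact absurd (if_neg h1) hν
  · intro k _ φ f hf
    refine ⟨eval₂Hom φ fun x => coeff x.2.1 (f x.1), by ext; simp, fun t => ?_⟩
    ext μ
    simp only [map_sum, map_monomial, coe_eval₂Hom, eval₂_X, coeff_sum, coeff_monomial]
    by_cases h : μ ∈ M t
    · rw [Finset.sum_eq_single ⟨μ, h⟩]
      · simp
      · intro ν _ hν
        exact if_neg fun h1 => hν (Subtype.ext h1)
      · simp
    · rw [Finset.sum_eq_zero fun ν _ => if_neg fun h1 : ν.1 = μ => h (h1 ▸ ν.2)]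
      by_contra h1
      exact h (hf t μ fun h2 => h1 h2.symm)

theorem exists_universal (Λ : Type) [CommRing Λ] {w : ℕ} (hw : 0 < w) (d : ℕ) (e : ι → ι → ℤ) :
    ∃ (σ : Type) (_ : Finite σ) (H1 : A (MvPolynomial σ Λ)) (Q : Matrix ι ι (A (MvPolynomial σ Λ))),
      H1.IsHomogeneous d ∧ (∀ i j, HomZ w (Q i j) (e i j)) ∧
      ∀ (k : Type) [CommRing k] (φ : Λ →+* k) (H1' : A k) (Q' : Matrix ι ι (A k)),
        H1'.IsHomogeneous d → (∀ i j, HomZ w (Q' i j) (e i j)) →
        ∃ ψ : MvPolynomial σ Λ →+* k, ψ.comp C = φ ∧ MvPolynomial.map ψ H1 = H1' ∧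
          mapM ψ Q = Q' := by
  obtain ⟨σ, hσ, U, hU, H⟩ := exists_universal_gen Λ (T := Option (ι × ι))
    (fun t => t.elim {μ | Finsupp.weight (1 : Fin 3 → ℕ) μ = d}
      fun x => {μ | (w : ℤ) * (μ.degree : ℤ) = e x.1 x.2}) (by
      rintro (_ | ⟨i, j⟩)
      · refine (Finsupp.finite_of_degree_le d).subset fun μ hμ => ?_
        have h1 : Finsupp.weight (1 : Fin 3 → ℕ) μ = d := hμ
        have h2 : μ.degree = Finsupp.weight (1 : Fin 3 → ℕ) μ := by
          rw [Finsupp.degree_eq_weight_one]; rfl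
        exact (h2.trans h1).le
      · refine (Finsupp.finite_of_degree_le (e i j).toNat).subset fun μ hμ => ?_
        have h1 : (w : ℤ) * (μ.degree : ℤ) = e i j := hμ
        have h2 : (μ.degree : ℤ) ≤ e i j := by
          rw [← h1]
          exact le_mul_of_one_le_left (Int.natCast_nonneg _) (by exact_mod_cast hw)
        change μ.degree ≤ _
        omega)
  refine ⟨σ, hσ, U none, Matrix.of fun i j => U (some (i, j)), fun μ hμ => hU none μ hμ,
    fun i j μ hμ => hU (some (i, j)) μ hμ, fun k _ φ H1' Q' h1 h2 => ?_⟩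
  obtain ⟨ψ, hψ, hm⟩ := H k φ (fun t => t.elim H1' fun x => Q' x.1 x.2) (by
    rintro (_ | ⟨i, j⟩) μ hμ
    · exact h1 hμ
    · exact h2 i j μ hμ)
  refine ⟨ψ, hψ, hm none, ?_⟩
  ext1 i j
  exact hm (some (i, j))

/-! ### Subtask PD-f (openness of semistability) -/

theorem spread_homZ_mul {w : ℕ} {f g : A Λ} {d e : ℤ} (hf : HomZ w f d) (hg : HomZ w g e) :
    HomZ w (f * g) (d + e) := by
  intro μ hμ
  rw [coeff_mul] at hμ
  obtain ⟨x, hx, h⟩ := Finset.exists_ne_zero_of_sum_ne_zero hμ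
  rw [Finset.HasAntidiagonal.mem_antidiagonal] at hx
  have h1 := hf _ (left_ne_zero_of_mul h)
  have h2 := hg _ (right_ne_zero_of_mul h)
  rw [← hx, map_add, ← h1, ← h2]
  push_cast
  ring

theorem spread_homZ_sum {w : ℕ} {α : Type} (s : Finset α) {f : α → A Λ} {d : ℤ}
    (hf : ∀ i ∈ s, HomZ w (f i) d) : HomZ w (∑ i ∈ s, f i) d := by
  intro μ hμ
  rw [coeff_sum] at hμ
  obtain ⟨i, hi, h⟩ := Finset.exists_ne_zero_of_sum_ne_zero hμ
  exact hf i hi μ h

theorem spread_mapM_mapM {Λ'' : Type} [CommRing Λ''] {α β : Type} (φ : Λ →+* Λ') (ψ : Λ' →+* Λ'')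
    (U : Matrix α β (A Λ)) : mapM ψ (mapM φ U) = mapM (ψ.comp φ) U := by
  ext i j : 2
  simp [mapM, MvPolynomial.map_map]

theorem spread_mapM_sub {α β : Type} (φ : Λ →+* Λ') (U U' : Matrix α β (A Λ)) :
    mapM φ (U - U') = mapM φ U - mapM φ U' := by
  ext i j : 2
  simp [mapM]

theorem spread_mapM_eq_zero {α β : Type} (φ : Λ →+* Λ') (U : Matrix α β (A Λ)) :
    mapM φ U = 0 ↔ ∀ i j μ, φ (coeff μ (U i j)) = 0 := by
  constructor
  · intro h i j μ
    have := congrArg (coeff μ) (congrFun (congrFun h i) j)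
    simpa [mapM, coeff_map] using this
  · intro h
    ext i j μ
    simpa [mapM, coeff_map] using h i j μ

theorem spread_mapM_destab {B k : Type} [CommRing B] [CommRing k] (c : Λ →+* B) (ψ : B →+* k)
    (H1 : A B) (Q : Matrix ι ι (A B)) (U : Matrix ι ι (A Λ)) :
    mapM ψ (Q * mapM c U * (H1 • (1 : Matrix ι ι (A B)) - Q)) =
      mapM ψ Q * mapM (ψ.comp c) U *
        (MvPolynomial.map ψ H1 • (1 : Matrix ι ι (A k)) - mapM ψ Q) := by
  rw [mapM_mul, mapM_mul, spread_mapM_sub, mapM_smul, mapM_one, spread_mapM_mapM]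

theorem spread [IsDomain Λ] [IsNoetherianRing Λ] (hq : 0 < q) (X : PD Λ q b dH m dg) {k0 : Type}
    [Field k0] [IsAlgClosed k0] (φ0 : Λ →+* k0) (hφ0 : Function.Injective φ0) (hH : X.H ≠ 0)
    {lam0 : k0ˣ} (hl0 : InfOrd lam0) (D0 : Adm (X.map φ0).P lam0 q ι) (h0 : IsOf (X.map φ0) D0)
    (hss : D0.SS) :
    ∃ a : Λ, a ≠ 0 ∧ ∀ (k : Type) [Field k] (φ : Λ →+* k), φ a ≠ 0 → (X.map φ).H ≠ 0 ∧
      ∀ (lam : kˣ) (D : Adm (X.map φ).P lam q ι), InfOrd lam → IsOf (X.map φ) D →
        D.SS ∧ D.tau D.E = D0.tau D0.E := by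
  have hw : 0 < 4 * q := by omega
  obtain ⟨a0, ha0, hf, hgen⟩ := generic_free (4 * q) b dg X.G X.hG hw
  obtain ⟨μ0, hμ0⟩ := MvPolynomial.ne_zero_iff.1 hH
  have hHne : ∀ (k : Type) [Field k] (φ : Λ →+* k), φ (coeff μ0 X.H) ≠ 0 → (X.map φ).H ≠ 0 := by
    intro k _ φ h e
    apply h
    have := congrArg (coeff μ0) e
    simpa [PD.map, coeff_map] using this
  have hG0 : hcol (4 * q) b (X.map φ0).G = hf :=
    hgen k0 φ0 ((map_ne_zero_iff _ hφ0).2 ha0)
  have hτ0 : D0.tau D0.E = tauH (4 * q) hf := by rw [not_SS_of_destab_tau hl0 h0, hG0]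
  obtain ⟨d, hd⟩ := exists_destab hq b (tauH (4 * q) hf).c1
  obtain ⟨σ, _, H1u, Qu, hH1u, hQu, huniv⟩ :=
    exists_universal Λ hw d fun i j => ((4 * q * d : ℕ) : ℤ) + b j - b i
  obtain ⟨QG, hQG⟩ : ∃ QG : Matrix ι (Fin m) (A (MvPolynomial σ Λ)),
    QG = Qu * mapM (C : Λ →+* MvPolynomial σ Λ) X.G := ⟨_, rfl⟩
  let 𝒮 : Set (Ideal (MvPolynomial σ Λ)) :=
    {r | ∃ (k : Type) (_ : Field k) (ψ : MvPolynomial σ Λ →+* k), r = RingHom.ker ψ ∧
      MvPolynomial.map ψ H1u ≠ 0 ∧
      Destab (X.map (ψ.comp C)) (MvPolynomial.map ψ H1u) (mapM ψ Qu) d ∧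
      BadT (Fintype.card ι) (4 * q * d : ℕ) (tauH (4 * q) hf)
        (tauH (4 * q) (hcol (4 * q) b (mapM ψ QG)))}
  have h𝒮 : ∀ r ∈ 𝒮, r.IsPrime := by
    rintro r ⟨k, _, ψ, rfl, -⟩
    exact RingHom.ker_isPrime ψ
  rcases closure_dichotomy (Λ := Λ) 𝒮 h𝒮 with ⟨a1, ha1, hall⟩ | ⟨p, hp, hpΛ, hp1, hp2⟩
  · refine ⟨a0 * coeff μ0 X.H * a1, mul_ne_zero (mul_ne_zero ha0 hμ0) ha1, fun k _ φ hφ => ?_⟩
    rw [map_mul, map_mul] at hφ
    have k0' := left_ne_zero_of_mul (left_ne_zero_of_mul hφ)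
    have k1 := right_ne_zero_of_mul (left_ne_zero_of_mul hφ)
    have k2 := right_ne_zero_of_mul hφ
    refine ⟨hHne k φ k1, fun lam D hl hD => ?_⟩
    have hG : hcol (4 * q) b (X.map φ).G = hf := hgen k φ k0'
    have hτ : D.tau D.E = tauH (4 * q) hf := by rw [not_SS_of_destab_tau hl hD, hG]
    refine ⟨?_, by rw [hτ, hτ0]⟩
    by_contra hn
    obtain ⟨H1, Q, h1, h2, h3⟩ := hd k dH m dg (X.map φ) lam D hl (hHne k φ k1) hD (by rw [hτ]) hn
    obtain ⟨ψ, e1, e2, e3⟩ := huniv k φ H1 Q h2.hH h2.hQ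
    subst e1 e2 e3
    have hmem : RingHom.ker ψ ∈ 𝒮 := by
      refine ⟨k, inferInstance, ψ, rfl, h1, h2, ?_⟩
      rw [hQG, mapM_mul, spread_mapM_mapM]
      rw [hG] at h3
      exact h3
    exact k2 (hall _ hmem)
  · exfalso
    let π : MvPolynomial σ Λ →+* MvPolynomial σ Λ ⧸ p := Ideal.Quotient.mk p
    obtain ⟨a2, ha2, h2, hgen2⟩ := generic_free (Λ := MvPolynomial σ Λ ⧸ p) (4 * q) b
      (fun j => ((4 * q * d : ℕ) : ℤ) + dg j) (mapM π QG) (fun i j => by
        refine HomZ.map (f := QG i j) ?_ π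
        rw [hQG, Matrix.mul_apply]
        refine spread_homZ_sum _ fun l _ => ?_
        have := spread_homZ_mul (hQu i l) ((X.hG l j).map (C : Λ →+* MvPolynomial σ Λ))
        have e : ((4 * q * d : ℕ) : ℤ) + b l - b i + (dg j - b l) =
          ((4 * q * d : ℕ) : ℤ) + dg j - b i := by ring
        rw [e] at this
        exact this) hw
    obtain ⟨x2, rfl⟩ := Ideal.Quotient.mk_surjective a2
    have hx2 : x2 ∉ p := fun h => ha2 (Ideal.Quotient.eq_zero_iff_mem.2 h)
    obtain ⟨r, ⟨k, _, ψ, rfl, r1, r2, r3⟩, hpr, hxr⟩ := hp2 x2 hx2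
    let ψ' : MvPolynomial σ Λ ⧸ p →+* k := Ideal.Quotient.lift p ψ fun a ha => hpr ha
    have hψ' : ψ'.comp π = ψ := RingHom.ext fun _ => rfl
    have e1 : hcol (4 * q) b (mapM ψ QG) = h2 := by
      rw [← hψ', ← spread_mapM_mapM]
      exact hgen2 k ψ' hxr
    rw [e1] at r3
    obtain ⟨μ1, hμ1⟩ := MvPolynomial.ne_zero_iff.1 r1
    rw [coeff_map] at hμ1
    have hx1 : π (coeff μ1 H1u) ≠ 0 := fun h => hμ1 (hpr (Ideal.Quotient.eq_zero_iff_mem.1 h))
    have hinj : Function.Injective (algebraMap Λ (MvPolynomial σ Λ ⧸ p)) := by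
      rw [injective_iff_map_eq_zero]
      intro a ha
      exact hpΛ a (Ideal.Quotient.eq_zero_iff_mem.1 ha)
    obtain ⟨ψ0, e2, e3⟩ := exists_point φ0 hφ0 (MvPolynomial σ Λ ⧸ p) hinj
      (π x2 * π (coeff μ1 H1u)) (mul_ne_zero ha2 hx1)
    rw [map_mul] at e3
    have e4 : (ψ0.comp π).comp C = φ0 := e2
    have hzero : ∀ U : Matrix ι ι (A Λ),
        (∀ (k : Type) [Field k] (ψ : MvPolynomial σ Λ →+* k),
          Destab (X.map (ψ.comp C)) (MvPolynomial.map ψ H1u) (mapM ψ Qu) d →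
          mapM ψ Qu * mapM (ψ.comp C) U *
            (MvPolynomial.map ψ H1u • (1 : Matrix ι ι (A k)) - mapM ψ Qu) = 0) →
        mapM (ψ0.comp π) Qu * mapM φ0 U *
          (MvPolynomial.map (ψ0.comp π) H1u • (1 : Matrix ι ι (A k0)) - mapM (ψ0.comp π) Qu) = 0 := by
      intro U hU
      rw [← e4, ← spread_mapM_destab, spread_mapM_eq_zero]
      intro i j μ
      rw [RingHom.comp_apply, Ideal.Quotient.eq_zero_iff_mem.2, map_zero]
      refine hp1 _ ?_
      rintro r ⟨k', _, ψ1, rfl, -, s2, -⟩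
      have := hU k' ψ1 s2
      rw [← spread_mapM_destab, spread_mapM_eq_zero] at this
      exact this i j μ
    refine not_SS_of_destab hq (X.map φ0) D0 hl0 h0 (H1 := MvPolynomial.map (ψ0.comp π) H1u)
      (Q := mapM (ψ0.comp π) Qu) (d := d) ?_ ⟨hH1u.map _, fun i j => (hQu i j).map _,
        fun g => hzero _ fun _ _ _ s => s.Y g, fun τ => hzero _ fun _ _ _ s => s.Γ τ⟩ ?_ hss
    · refine MvPolynomial.ne_zero_iff.2 ⟨μ1, ?_⟩
      rw [coeff_map]
      exact right_ne_zero_of_mul e3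
    · have e5 : mapM (ψ0.comp π) Qu * (X.map φ0).G = mapM ψ0 (mapM π QG) := by
        rw [spread_mapM_mapM, hQG, mapM_mul, spread_mapM_mapM, e4]
        rfl
      rw [hG0, e5, hgen2 k0 ψ0 (left_ne_zero_of_mul e3)]
      exact r3

end Crest.Agent.R169
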