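import Crest.Agent.R169.Defs

/-!
# Row 169: the line arrangement and the ring `R`

Lines `l a = x + a y + a^3 z`, `a ∈ [-9, 9]` (19 lines); three of them are concurrent iff
`a + b + c = 0` (41 triple points).  `R` is generated over `A` by `s a` (`s a ^ 2 = l a`) and, for
each triple `t = (a,b,c)`, by `u t, v t` with `u^2 = α s_a + β s_b`, `v^2 = α s_a - β s_b`,
`u v = γ s_c`; `A`-torsion is divided out.
-/

set_option autoImplicit false

namespace Crest.Agent.R169

open MvPolynomial

/-- Lines. -/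
abbrev Li : Type := Fin 19

/-- The parameter of a line. -/
def av (a : Li) : ℤ := (a.val : ℤ) - 9

/-- Triple points. -/
abbrev Tr : Type :=
  {t : Li × Li × Li // t.1 < t.2.1 ∧ t.2.1 < t.2.2 ∧ t.1.val + t.2.1.val + t.2.2.val = 27}

/-- First, second, third line through a triple point. -/
def Tr.a (t : Tr) : Li := t.1.1
def Tr.b (t : Tr) : Li := t.1.2.1
def Tr.c (t : Tr) : Li := t.1.2.2

/-- Generators of `R` over `A`. -/
inductive Gen : Type
  | s (a : Li) : Gen
  | u (t : Tr) : Gen
  | v (t : Tr) : Gen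
  deriving DecidableEq, Fintype

/-- Degrees of the generators (the variables of `A` have degree `4`). -/
def Gen.deg : Gen → ℕ
  | .s _ => 2
  | .u _ => 1
  | .v _ => 1

/-- Generators of the symmetry group. -/
inductive Sym : Type
  | l (a : Li) : Sym
  | z (t : Tr) : Sym
  deriving DecidableEq, Fintype

/-- The constants: square roots. -/
structure Par (Λ : Type) [CommRing Λ] where
  al : Tr → Λ
  be : Tr → Λ
  ga : Tr → Λ
  io : Λ
  al_sq : ∀ t, al t ^ 2 = ((av t.b - av t.c : ℤ) : Λ)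
  be_sq : ∀ t, be t ^ 2 = ((av t.a - av t.c : ℤ) : Λ)
  ga_sq : ∀ t, ga t ^ 2 = ((av t.b - av t.a : ℤ) : Λ)
  io_sq : io ^ 2 = -1

/-- Change of coefficients. -/
def Par.map {Λ Λ' : Type} [CommRing Λ] [CommRing Λ'] (P : Par Λ) (φ : Λ →+* Λ') : Par Λ' where
  al t := φ (P.al t)
  be t := φ (P.be t)
  ga t := φ (P.ga t)
  io := φ P.io
  al_sq t := by rw [← map_pow, P.al_sq, map_intCast]
  be_sq t := by rw [← map_pow, P.be_sq, map_intCast]
  ga_sq t := by rw [← map_pow, P.ga_sq, map_intCast]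
  io_sq := by rw [← map_pow, P.io_sq, map_neg, map_one]

/-- The linear form of a line. -/
noncomputable def lin (Λ : Type) [CommRing Λ] (a : Li) : A Λ :=
  X 0 + C ((av a : ℤ) : Λ) * X 1 + C ((av a ^ 3 : ℤ) : Λ) * X 2

/-- The product of all the linear forms. -/
noncomputable def linProd (Λ : Type) [CommRing Λ] : A Λ := ∏ a : Li, lin Λ a

/-- Target generator of the symmetry `σ`: `σ (y g) = cf σ g • y (pr σ g)`. -/
def pr : Sym → Gen → Gen
  | .l _, .s a => .s a
  | .l a, .u t => if a = t.a ∨ a = t.b then .v t else .u t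
  | .l a, .v t => if a = t.a ∨ a = t.b then .u t else .v t
  | .z _, g => g

/-- Coefficient of the symmetry `σ`: `σ (y g) = cf σ g • y (pr σ g)`. -/
def cf {Λ : Type} [CommRing Λ] (P : Par Λ) : Sym → Gen → Λ
  | .l a, .s a' => if a = a' then -1 else 1
  | .l a, .u t => if a = t.a then P.io else 1
  | .l a, .v t => if a = t.a then -P.io else if a = t.c then -1 else 1
  | .z _, .s _ => 1
  | .z t, .u t' => if t = t' then -1 else 1
  | .z t, .v t' => if t = t' then -1 else 1

/-- The relations of `R`, for the elements `Y g / δ`. -/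
structure RelD {Λ : Type} [CommRing Λ] (P : Par Λ) {B : Type} [Ring B] [Algebra (A Λ) B]
    (δ : A Λ) (Y : Gen → B) : Prop where
  comm : ∀ g g', Y g * Y g' = Y g' * Y g
  s : ∀ a, Y (.s a) * Y (.s a) = algebraMap (A Λ) B (δ ^ 2 * lin Λ a)
  u : ∀ t, Y (.u t) * Y (.u t) =
    (δ * C (P.al t)) • Y (.s t.a) + (δ * C (P.be t)) • Y (.s t.b)
  v : ∀ t, Y (.v t) * Y (.v t) =
    (δ * C (P.al t)) • Y (.s t.a) - (δ * C (P.be t)) • Y (.s t.b)
  uv : ∀ t, Y (.u t) * Y (.v t) = (δ * C (P.ga t)) • Y (.s t.c)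

/-- Small positive integers are invertible. -/
def GoodChar (k : Type) [Field k] : Prop := ∀ n : ℕ, 0 < n → n ≤ 60 → (n : k) ≠ 0

variable {k : Type} [Field k]

/-- The ideal of relations. -/
noncomputable def relIdeal (P : Par k) : Ideal (MvPolynomial Gen (A k)) :=
  Ideal.span
    ((Set.range fun a : Li => X (Gen.s a) * X (Gen.s a) - C (lin k a)) ∪
     (Set.range fun t : Tr => X (Gen.u t) * X (Gen.u t) -
        (C (C (P.al t)) * X (Gen.s t.a) + C (C (P.be t)) * X (Gen.s t.b))) ∪
     (Set.range fun t : Tr => X (Gen.v t) * X (Gen.v t) -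
        (C (C (P.al t)) * X (Gen.s t.a) - C (C (P.be t)) * X (Gen.s t.b))) ∪
     (Set.range fun t : Tr => X (Gen.u t) * X (Gen.v t) - C (C (P.ga t)) * X (Gen.s t.c)))

/-- Its saturation with respect to the nonzero elements of `A`. -/
noncomputable def satIdeal (P : Par k) : Ideal (MvPolynomial Gen (A k)) where
  carrier := {F | ∃ f : A k, f ≠ 0 ∧ C f * F ∈ relIdeal P}
  add_mem' := by
    rintro a b ⟨f, hf, ha⟩ ⟨g, hg, hb⟩
    refine ⟨f * g, mul_ne_zero hf hg, ?_⟩
    have : C (f * g) * (a + b) = C g * (C f * a) + C f * (C g * b) := by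
      rw [C_mul]; ring
    rw [this]
    exact Ideal.add_mem _ (Ideal.mul_mem_left _ _ ha) (Ideal.mul_mem_left _ _ hb)
  zero_mem' := ⟨1, one_ne_zero, by simp⟩
  smul_mem' := by
    rintro c a ⟨f, hf, ha⟩
    refine ⟨f, hf, ?_⟩
    rw [smul_eq_mul, mul_left_comm]
    exact Ideal.mul_mem_left _ _ ha

/-- The ring `R`. -/
def R (P : Par k) : Type := MvPolynomial Gen (A k) ⧸ satIdeal P

noncomputable instance (P : Par k) : CommRing (R P) :=
  inferInstanceAs (CommRing (MvPolynomial Gen (A k) ⧸ satIdeal P))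
noncomputable instance (P : Par k) : Algebra (A k) (R P) :=
  inferInstanceAs (Algebra (A k) (MvPolynomial Gen (A k) ⧸ satIdeal P))
noncomputable instance (P : Par k) : Algebra k (R P) :=
  inferInstanceAs (Algebra k (MvPolynomial Gen (A k) ⧸ satIdeal P))
instance (P : Par k) : IsScalarTower k (A k) (R P) :=
  inferInstanceAs (IsScalarTower k (A k) (MvPolynomial Gen (A k) ⧸ satIdeal P))

/-- The quotient map. -/
noncomputable def mkR (P : Par k) : MvPolynomial Gen (A k) →ₐ[A k] R P :=
  Ideal.Quotient.mkₐ (A k) (satIdeal P)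

/-- The generators. -/
noncomputable def yR (P : Par k) (g : Gen) : R P := mkR P (X g)

/-! ### Subtask Ring-a -/

theorem mkR_surjective (P : Par k) : Function.Surjective (mkR P) :=
  Ideal.Quotient.mkₐ_surjective _ _

theorem lin_rel {Λ : Type} [CommRing Λ] (P : Par Λ) (t : Tr) :
    C (P.al t ^ 2) * lin Λ t.a - C (P.be t ^ 2) * lin Λ t.b = C (P.ga t ^ 2) * lin Λ t.c := by
  have hs : (t.a.val : ℤ) + t.b.val + t.c.val = 27 := by exact_mod_cast t.2.2.2
  have h0 : av t.c = -av t.a - av t.b := by unfold av; omega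
  rw [P.al_sq, P.be_sq, P.ga_sq]
  simp only [lin, h0, map_intCast]
  push_cast
  ring

theorem lin_ne_zero (a : Li) : lin k a ≠ 0 := by
  intro h
  have := congrArg (eval ![1, 0, 0]) h
  simp [lin] at this

theorem lin_isHomogeneous {Λ : Type} [CommRing Λ] (a : Li) : (lin Λ a).IsHomogeneous 1 := by
  exact ((isHomogeneous_X _ _).add ((isHomogeneous_X _ _).C_mul _)).add
    ((isHomogeneous_X _ _).C_mul _)

theorem card_Tr : Fintype.card Tr = 41 := by
  decide +kernel

theorem par_ne_zero (hk : GoodChar k) (P : Par k) (t : Tr) :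
    P.al t ≠ 0 ∧ P.be t ≠ 0 ∧ P.ga t ≠ 0 := by
  obtain ⟨h1, h2, -⟩ := t.2
  have key : ∀ (x : k) (z : ℤ), x ^ 2 = (z : k) → z ≠ 0 → -60 ≤ z → z ≤ 60 → x ≠ 0 := by
    intro x z hx hz hl hu h0
    rw [h0, zero_pow two_ne_zero] at hx
    apply hk z.natAbs (Int.natAbs_pos.2 hz) (by omega)
    rcases Int.natAbs_eq z with e | e
    · rw [e] at hx; simpa using hx.symm
    · rw [e] at hx; simpa using hx.symm
  have h1' : t.a.val < t.b.val := h1
  have h2' : t.b.val < t.c.val := h2
  refine ⟨key _ _ (P.al_sq t) ?_ ?_ ?_, key _ _ (P.be_sq t) ?_ ?_ ?_,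
    key _ _ (P.ga_sq t) ?_ ?_ ?_⟩ <;> unfold av <;> omega

theorem exists_par [IsAlgClosed k] : Nonempty (Par k) := by
  have sq : ∀ x : k, ∃ y : k, y ^ 2 = x := fun x => IsAlgClosed.exists_pow_nat_eq x two_pos
  choose f hf using sq
  exact ⟨⟨fun t => f _, fun t => f _, fun t => f _, f _, fun t => hf _, fun t => hf _,
    fun t => hf _, hf _⟩⟩

theorem R_rel_zero (P : Par k) {F : MvPolynomial Gen (A k)} (h : F ∈ relIdeal P) :
    mkR P F = 0 :=
  Ideal.Quotient.eq_zero_iff_mem.2 ⟨1, one_ne_zero, by simpa using h⟩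

theorem R_rel_C (P : Par k) (f : A k) : mkR P (C f) = algebraMap (A k) (R P) f :=
  (mkR P).commutes f

theorem R_rel (P : Par k) : RelD P 1 (yR P) := by
  refine ⟨fun g g' => mul_comm _ _, fun a => ?_, fun t => ?_, fun t => ?_, fun t => ?_⟩
  · have := R_rel_zero P (Ideal.subset_span (Or.inl (Or.inl (Or.inl ⟨a, rfl⟩))))
    rw [map_sub, map_mul, R_rel_C, sub_eq_zero] at this
    rw [one_pow, one_mul]; exact this
  · have := R_rel_zero P (Ideal.subset_span (Or.inl (Or.inl (Or.inr ⟨t, rfl⟩))))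
    rw [map_sub, map_add, map_mul, map_mul, map_mul, R_rel_C, R_rel_C, sub_eq_zero] at this
    rw [one_mul, one_mul, Algebra.smul_def, Algebra.smul_def]; exact this
  · have := R_rel_zero P (Ideal.subset_span (Or.inl (Or.inr ⟨t, rfl⟩)))
    rw [map_sub, map_sub, map_mul, map_mul, map_mul, R_rel_C, R_rel_C, sub_eq_zero] at this
    rw [one_mul, one_mul, Algebra.smul_def, Algebra.smul_def]; exact this
  · have := R_rel_zero P (Ideal.subset_span (Or.inr ⟨t, rfl⟩))
    rw [map_sub, map_mul, map_mul, R_rel_C, sub_eq_zero] at this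
    rw [one_mul, Algebra.smul_def]; exact this

theorem R_tf (P : Par k) (f : A k) (hf : f ≠ 0) (r : R P) (h : f • r = 0) : r = 0 := by
  obtain ⟨F, rfl⟩ := mkR_surjective P r
  rw [Algebra.smul_def, ← R_rel_C, ← map_mul] at h
  obtain ⟨g, hg, hm⟩ := Ideal.Quotient.eq_zero_iff_mem.1 h
  refine Ideal.Quotient.eq_zero_iff_mem.2 ⟨g * f, mul_ne_zero hg hf, ?_⟩
  rwa [C_mul, mul_assoc]

theorem R_hom_ext (P : Par k) {B : Type} [Semiring B] [Algebra (A k) B] (φ ψ : R P →ₐ[A k] B)
    (h : ∀ g, φ (yR P g) = ψ (yR P g)) : φ = ψ := by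
  refine AlgHom.ext fun r => ?_
  obtain ⟨F, rfl⟩ := mkR_surjective P r
  induction F using MvPolynomial.induction_on with
  | C a => rw [R_rel_C, AlgHom.commutes, AlgHom.commutes]
  | add p q hp hq => rw [map_add, map_add, map_add, hp, hq]
  | mul_X p g hp =>
    rw [map_mul, map_mul, map_mul, hp]
    exact congrArg _ (h g)

theorem R_ringHom_ext (P : Par k) {B : Type} [Semiring B] (φ ψ : R P →+* B)
    (h0 : ∀ a : A k, φ (algebraMap _ _ a) = ψ (algebraMap _ _ a))
    (h : ∀ g, φ (yR P g) = ψ (yR P g)) : φ = ψ := by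
  refine RingHom.ext fun r => ?_
  obtain ⟨F, rfl⟩ := mkR_surjective P r
  induction F using MvPolynomial.induction_on with
  | C a => rw [R_rel_C, h0]
  | add p q hp hq => rw [map_add, map_add, map_add, hp, hq]
  | mul_X p g hp =>
    rw [map_mul, map_mul, map_mul, hp]
    exact congrArg _ (h g)

/-- Induction principle: `R` is generated by `A` and the `yR g`. -/
theorem R_induction (P : Par k) (Q : R P → Prop) (h0 : ∀ a : A k, Q (algebraMap _ _ a))
    (hadd : ∀ r r', Q r → Q r' → Q (r + r')) (hmul : ∀ g r, Q r → Q (yR P g * r)) (r : R P) :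
    Q r := by
  obtain ⟨F, rfl⟩ := mkR_surjective P r
  induction F using MvPolynomial.induction_on with
  | C a => rw [R_rel_C]; exact h0 a
  | add p q hp hq => rw [map_add]; exact hadd _ _ hp hq
  | mul_X p g hp => rw [map_mul, mul_comm]; exact hmul g _ hp

theorem exists_lift_comm (P : Par k) {B : Type} [CommRing B] [Algebra (A k) B]
    (hB : ∀ f : A k, f ≠ 0 → ∀ b : B, f • b = 0 → b = 0) (Y : Gen → B) (hY : RelD P 1 Y) :
    ∃ φ : R P →ₐ[A k] B, ∀ g, φ (yR P g) = Y g := by
  have hrel : ∀ F ∈ relIdeal P, (aeval Y : MvPolynomial Gen (A k) →ₐ[A k] B) F = 0 := by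
    intro F hF
    have : relIdeal P ≤ RingHom.ker (aeval Y : MvPolynomial Gen (A k) →ₐ[A k] B) := by
      rw [relIdeal, Ideal.span_le]
      rintro _ (((⟨a, rfl⟩ | ⟨t, rfl⟩) | ⟨t, rfl⟩) | ⟨t, rfl⟩) <;>
        simp only [SetLike.mem_coe, RingHom.mem_ker, map_sub, map_add, map_mul, aeval_X, aeval_C]
      · rw [hY.s, one_pow, one_mul, sub_self]
      · rw [hY.u, one_mul, one_mul, Algebra.smul_def, Algebra.smul_def, sub_self]
      · rw [hY.v, one_mul, one_mul, Algebra.smul_def, Algebra.smul_def, sub_self]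
      · rw [hY.uv, one_mul, Algebra.smul_def, sub_self]
    exact this hF
  refine ⟨Ideal.Quotient.liftₐ (satIdeal P) (aeval Y) ?_, fun g => ?_⟩
  · rintro F ⟨f, hf, hF⟩
    have := hrel _ hF
    rw [map_mul, aeval_C, ← Algebra.smul_def] at this
    exact hB f hf _ this
  · exact aeval_X Y g

/-- Universal property (the target need not be commutative). -/
theorem exists_lift (P : Par k) {B : Type} [Ring B] [Algebra (A k) B]
    (hB : ∀ f : A k, f ≠ 0 → ∀ b : B, f • b = 0 → b = 0) (Y : Gen → B) (hY : RelD P 1 Y) :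
    ∃ φ : R P →ₐ[A k] B, ∀ g, φ (yR P g) = Y g := by
  let S := Algebra.adjoin (A k) (Set.range Y)
  have hc : ∀ a ∈ Set.range Y, ∀ b ∈ Set.range Y, a * b = b * a := by
    rintro _ ⟨g, rfl⟩ _ ⟨g', rfl⟩
    exact hY.comm g g'
  have hcomm : ∀ a b : S, a * b = b * a := by
    intro a b
    apply Subtype.ext
    exact Algebra.commute_of_mem_adjoin_of_forall_mem_commute b.2 fun y hy =>
      (Algebra.commute_of_mem_adjoin_of_forall_mem_commute a.2 fun x hx => hc y hy x hx).symm
  let inst : CommRing S := { (inferInstance : Ring S) with mul_comm := hcomm }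
  let Y' : Gen → S := fun g => ⟨Y g, Algebra.subset_adjoin ⟨g, rfl⟩⟩
  have hY' : RelD P 1 Y' :=
    ⟨fun g g' => Subtype.ext (hY.comm g g'), fun a => Subtype.ext (hY.s a),
      fun t => Subtype.ext (hY.u t), fun t => Subtype.ext (hY.v t), fun t => Subtype.ext (hY.uv t)⟩
  obtain ⟨φ, hφ⟩ := exists_lift_comm P (B := S)
    (fun f hf b hb => Subtype.ext (hB f hf b.1 (congrArg Subtype.val hb))) Y' hY'
  exact ⟨S.val.comp φ, fun g => congrArg Subtype.val (hφ g)⟩

/-- In an algebraically closed field over `A` the relations have a solution. -/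
theorem exists_sol (P : Par k) (Ω : Type) [Field Ω] [IsAlgClosed Ω] [Algebra (A k) Ω] :
    ∃ Y : Gen → Ω, RelD P 1 Y := by
  classical
  have sq : ∀ x : Ω, ∃ y : Ω, y * y = x := fun x => by
    obtain ⟨y, hy⟩ := IsAlgClosed.exists_eq_mul_self x
    exact ⟨y, hy.symm⟩
  choose f hf using sq
  let φ := algebraMap (A k) Ω
  let s : Li → Ω := fun a => f (φ (lin k a))
  let u : Tr → Ω := fun t => f (φ (C (P.al t)) * s t.a + φ (C (P.be t)) * s t.b)
  have hv : ∀ t : Tr, ∃ v : Ω, v * v = φ (C (P.al t)) * s t.a - φ (C (P.be t)) * s t.b ∧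
      u t * v = φ (C (P.ga t)) * s t.c := by
    intro t
    have hl := congrArg φ (lin_rel P t)
    simp only [map_sub, map_mul, map_pow] at hl
    have ha : s t.a * s t.a = φ (lin k t.a) := hf _
    have hb : s t.b * s t.b = φ (lin k t.b) := hf _
    have hc : s t.c * s t.c = φ (lin k t.c) := hf _
    have hu : u t * u t = φ (C (P.al t)) * s t.a + φ (C (P.be t)) * s t.b := hf _
    have key : (u t * u t) * (φ (C (P.al t)) * s t.a - φ (C (P.be t)) * s t.b) =
        (φ (C (P.ga t)) * s t.c) * (φ (C (P.ga t)) * s t.c) := by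
      rw [hu]
      linear_combination hl + φ (C (P.al t)) ^ 2 * ha - φ (C (P.be t)) ^ 2 * hb -
        φ (C (P.ga t)) ^ 2 * hc
    by_cases h0 : u t = 0
    · refine ⟨f _, hf _, ?_⟩
      rw [h0, zero_mul, zero_mul] at key
      rw [h0, zero_mul]
      exact (mul_self_eq_zero.1 key.symm).symm
    · refine ⟨φ (C (P.ga t)) * s t.c / u t, ?_, ?_⟩
      · rw [div_mul_div_comm, div_eq_iff (mul_ne_zero h0 h0), ← key, mul_comm]
      · rw [mul_div_cancel₀ _ h0]
  choose v hv1 hv2 using hv
  refine ⟨fun g => match g with | .s a => s a | .u t => u t | .v t => v t,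
    fun g g' => mul_comm _ _, fun a => ?_, fun t => ?_, fun t => ?_, fun t => ?_⟩
  · rw [one_pow, one_mul]; exact hf _
  · rw [one_mul, one_mul, Algebra.smul_def, Algebra.smul_def]; exact hf _
  · rw [one_mul, one_mul, Algebra.smul_def, Algebra.smul_def]; exact hv1 t
  · rw [one_mul, Algebra.smul_def]; exact hv2 t

theorem algebraMap_R_injective (P : Par k) : Function.Injective (algebraMap (A k) (R P)) := by
  have hinj : Function.Injective (algebraMap (A k) (AlgebraicClosure (K k))) := by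
    rw [IsScalarTower.algebraMap_eq (A k) (K k) (AlgebraicClosure (K k))]
    exact (algebraMap (K k) _).injective.comp (IsFractionRing.injective (A k) (K k))
  obtain ⟨Y, hY⟩ := exists_sol P (AlgebraicClosure (K k))
  obtain ⟨φ, -⟩ := exists_lift P (B := AlgebraicClosure (K k)) (fun f hf b hb => by
    rw [Algebra.smul_def, mul_eq_zero] at hb
    exact hb.resolve_left fun h => hf (hinj (h.trans (map_zero _).symm))) Y hY
  intro a b hab
  apply hinj
  rw [← φ.commutes, ← φ.commutes, hab]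

instance (P : Par k) : Nontrivial (R P) := (algebraMap_R_injective P).nontrivial

/-! ### Subtask Ring-b -/

/-- The standard monomials `∏_{a ∈ S} s a * ∏_t m t`, `m t ∈ {1, u t, v t}`. -/
noncomputable def stdMon (P : Par k) (S : Finset Li) (e : Tr → Fin 3) : R P :=
  (∏ a ∈ S, yR P (.s a)) * ∏ t : Tr, ![1, yR P (.u t), yR P (.v t)] (e t)

theorem span_stdMon (P : Par k) :
    Submodule.span (A k) (Set.range fun x : Finset Li × (Tr → Fin 3) => stdMon P x.1 x.2) = ⊤ := by
  classical
  set W := Submodule.span (A k)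
    (Set.range fun x : Finset Li × (Tr → Fin 3) => stdMon P x.1 x.2) with hW
  have rel := R_rel P
  have hmon : ∀ S e, stdMon P S e ∈ W := fun S e => Submodule.subset_span ⟨(S, e), rfl⟩
  have hcl : ∀ x : R P, (∀ S e, x * stdMon P S e ∈ W) → ∀ w ∈ W, x * w ∈ W := by
    intro x hx w hw
    induction hw using Submodule.span_induction with
    | mem w h => obtain ⟨⟨S, e⟩, rfl⟩ := h; exact hx S e
    | zero => rw [mul_zero]; exact W.zero_mem
    | add a b _ _ ha hb => rw [mul_add]; exact W.add_mem ha hb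
    | smul c a _ ha => rw [mul_smul_comm]; exact W.smul_mem _ ha
  have hs : ∀ a, ∀ w ∈ W, yR P (.s a) * w ∈ W := by
    intro a
    refine hcl _ fun S e => ?_
    by_cases ha : a ∈ S
    · have : yR P (.s a) * stdMon P S e = lin k a • stdMon P (S.erase a) e := by
        have h1 := rel.s a
        rw [one_pow, one_mul] at h1
        rw [stdMon, stdMon, ← Finset.mul_prod_erase S _ ha, Algebra.smul_def, ← h1]
        ring
      rw [this]; exact W.smul_mem _ (hmon _ _)
    · have : yR P (.s a) * stdMon P S e = stdMon P (insert a S) e := by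
        rw [stdMon, stdMon, Finset.prod_insert ha, mul_assoc]
      rw [this]; exact hmon _ _
  have hup : ∀ S e t i, stdMon P S (Function.update e t i) =
      ![1, yR P (.u t), yR P (.v t)] i * stdMon P S (Function.update e t 0) := by
    intro S e t i
    have h1 : ∀ j, stdMon P S (Function.update e t j) = ![1, yR P (.u t), yR P (.v t)] j *
        ((∏ a ∈ S, yR P (.s a)) *
          ∏ t' ∈ Finset.univ.erase t, ![1, yR P (.u t'), yR P (.v t')] (e t')) := by
      intro j
      rw [stdMon, ← Finset.mul_prod_erase Finset.univ _ (Finset.mem_univ t), Function.update_self,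
        mul_left_comm]
      congr 2
      refine Finset.prod_congr rfl fun t' ht' => ?_
      rw [Function.update_of_ne (Finset.ne_of_mem_erase ht')]
    rw [h1 i, h1 0]
    simp
  have huv : ∀ t S e, yR P (.u t) * stdMon P S e ∈ W ∧ yR P (.v t) * stdMon P S e ∈ W := by
    intro t S e
    have hb := hmon S (Function.update e t 0)
    have h1 : yR P (.u t) * stdMon P S (Function.update e t 0) ∈ W := by
      have := hmon S (Function.update e t 1)
      rwa [hup] at this
    have h2 : yR P (.v t) * stdMon P S (Function.update e t 0) ∈ W := by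
      have := hmon S (Function.update e t 2)
      rwa [hup] at this
    have h3 : yR P (.u t) * yR P (.u t) * stdMon P S (Function.update e t 0) ∈ W := by
      rw [rel.u, add_mul, smul_mul_assoc, smul_mul_assoc]
      exact W.add_mem (W.smul_mem _ (hs _ _ hb)) (W.smul_mem _ (hs _ _ hb))
    have h4 : yR P (.v t) * yR P (.v t) * stdMon P S (Function.update e t 0) ∈ W := by
      rw [rel.v, sub_mul, smul_mul_assoc, smul_mul_assoc]
      exact W.sub_mem (W.smul_mem _ (hs _ _ hb)) (W.smul_mem _ (hs _ _ hb))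
    have h5 : yR P (.u t) * yR P (.v t) * stdMon P S (Function.update e t 0) ∈ W := by
      rw [rel.uv, smul_mul_assoc]
      exact W.smul_mem _ (hs _ _ hb)
    have he : stdMon P S e = ![1, yR P (.u t), yR P (.v t)] (e t) *
        stdMon P S (Function.update e t 0) := by
      rw [← hup, Function.update_eq_self]
    rw [he]
    generalize e t = i
    fin_cases i
    · simpa using ⟨h1, h2⟩
    · refine ⟨by simpa [mul_assoc] using h3, ?_⟩
      simpa [mul_assoc, mul_left_comm (yR P (.u t)) (yR P (.v t))] using h5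
    · exact ⟨by simpa [mul_assoc] using h5, by simpa [mul_assoc] using h4⟩
  rw [eq_top_iff]
  rintro r -
  refine R_induction P (fun r => r ∈ W) (fun a => ?_) (fun _ _ => W.add_mem) (fun g r hr => ?_) r
  · have : stdMon P ∅ (fun _ => 0) = 1 := by simp [stdMon]
    rw [Algebra.algebraMap_eq_smul_one, ← this]
    exact W.smul_mem _ (hmon _ _)
  · cases g with
    | s a => exact hs a r hr
    | u t => exact hcl _ (fun S e => (huv t S e).1) r hr
    | v t => exact hcl _ (fun S e => (huv t S e).2) r hr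

instance R_finite (P : Par k) : Module.Finite (A k) (R P) := by
  exact Module.finite_def.2 (Submodule.fg_def.2 ⟨_, Set.finite_range _, span_stdMon P⟩)

instance (P : Par k) : IsNoetherianRing (R P) :=
  Algebra.FiniteType.isNoetherianRing (A k) (R P)

theorem exists_θR_X (lam : kˣ) (w : ℕ) (i : Fin 3) :
    θA lam w (X i : A k) = C ((lam ^ w : kˣ) : k) * X i := by
  simp [θA]

theorem exists_θR_C (lam : kˣ) (w : ℕ) (c : k) : θA lam w (C c : A k) = C c :=
  (θA lam w).commutes c

theorem exists_θR_inv (lam : kˣ) (w : ℕ) (a : A k) : θA lam w (θA lam⁻¹ w a) = a := by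
  induction a using MvPolynomial.induction_on with
  | C a => rw [exists_θR_C, exists_θR_C]
  | add p q hp hq => rw [map_add, map_add, hp, hq]
  | mul_X p i hp =>
    rw [map_mul, map_mul, hp, exists_θR_X, map_mul, exists_θR_C, exists_θR_X,
      ← mul_assoc (C _), ← C_mul, ← Units.val_mul, ← mul_pow, inv_mul_cancel, one_pow,
      Units.val_one, C_1, one_mul]

theorem exists_θR_smul (P : Par k) (c : k) (r : R P) :
    c • r = algebraMap (A k) (R P) (C c) * r := by
  rw [Algebra.smul_def, IsScalarTower.algebraMap_apply k (A k) (R P), algebraMap_eq]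

theorem exists_θR_hom (P : Par k) (lam : kˣ) (q : ℕ) :
    ∃ θ : R P →+* R P, (∀ a : A k, θ (algebraMap _ _ a) = algebraMap _ _ (θA lam (4 * q) a)) ∧
      ∀ g, θ (yR P g) = ((lam ^ (q * g.deg) : kˣ) : k) • yR P g := by
  have rel := R_rel P
  have hs := rel.s
  have hu := rel.u
  have hv := rel.v
  have huv := rel.uv
  simp only [one_pow, one_mul, Algebra.smul_def] at hs hu hv huv
  have htf := R_tf P
  simp only [Algebra.smul_def] at htf
  let ψ : A k →+* R P := (algebraMap (A k) (R P)).comp (θA lam (4 * q) : A k →+* A k)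
  have hψ : ∀ a, ψ a = algebraMap (A k) (R P) (θA lam (4 * q) a) := fun a => rfl
  have hlin : ∀ a, θA lam (4 * q) (lin k a) = C ((lam ^ (4 * q) : kˣ) : k) * lin k a := by
    intro a
    simp only [lin, map_add, map_mul, exists_θR_X, exists_θR_C]
    ring
  have main : ∀ (Y : Gen → R P), (∀ a, Y (.s a) * Y (.s a) = ψ (lin k a)) →
      (∀ t, Y (.u t) * Y (.u t) = ψ (C (P.al t)) * Y (.s t.a) + ψ (C (P.be t)) * Y (.s t.b)) →
      (∀ t, Y (.v t) * Y (.v t) = ψ (C (P.al t)) * Y (.s t.a) - ψ (C (P.be t)) * Y (.s t.b)) →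
      (∀ t, Y (.u t) * Y (.v t) = ψ (C (P.ga t)) * Y (.s t.c)) →
      ∃ θ : R P →+* R P, (∀ a : A k, θ (algebraMap _ _ a) = ψ a) ∧ ∀ g, θ (yR P g) = Y g := by
    intro Y h1 h2 h3 h4
    obtain ⟨φ, hφ⟩ := @exists_lift_comm k _ P (R P) _ ψ.toAlgebra
      (fun f hf b hb => htf _ (fun h => hf ((θA lam (4 * q)).injective (h.trans (map_zero _).symm)))
        b hb) Y
      (@RelD.mk k _ P (R P) _ ψ.toAlgebra 1 Y (fun g g' => mul_comm _ _)
        (fun a => by rw [one_pow, one_mul]; exact h1 a)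
        (fun t => by rw [one_mul, one_mul]; exact h2 t)
        (fun t => by rw [one_mul, one_mul]; exact h3 t)
        (fun t => by rw [one_mul]; exact h4 t))
    exact ⟨@AlgHom.toRingHom _ _ _ _ _ _ _ ψ.toAlgebra φ,
      fun a => @AlgHom.commutes _ _ _ _ _ _ _ ψ.toAlgebra φ a, hφ⟩
  refine main (fun g => ((lam ^ (q * g.deg) : kˣ) : k) • yR P g) (fun a => ?_) (fun t => ?_)
    (fun t => ?_) (fun t => ?_) <;>
    simp only [exists_θR_smul, hψ, hlin, exists_θR_C, Gen.deg, Units.val_pow_eq_pow_val, map_pow,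
      map_mul]
  · linear_combination (algebraMap (A k) (R P) (C (lam : k))) ^ (4 * q) * hs a
  · linear_combination (algebraMap (A k) (R P) (C (lam : k))) ^ (2 * q) * hu t
  · linear_combination (algebraMap (A k) (R P) (C (lam : k))) ^ (2 * q) * hv t
  · linear_combination (algebraMap (A k) (R P) (C (lam : k))) ^ (2 * q) * huv t

theorem exists_θR (P : Par k) (lam : kˣ) (q : ℕ) :
    ∃ θ : R P ≃ₐ[k] R P, (∀ a : A k, θ (algebraMap _ _ a) = algebraMap _ _ (θA lam (4 * q) a)) ∧
      ∀ g, θ (yR P g) = ((lam ^ (q * g.deg) : kˣ) : k) • yR P g := by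
  obtain ⟨φ, h1, h2⟩ := exists_θR_hom P lam q
  obtain ⟨ψ, h3, h4⟩ := exists_θR_hom P lam⁻¹ q
  have key : ∀ (l : kˣ) (φ ψ : R P →+* R P),
      (∀ a : A k, φ (algebraMap _ _ a) = algebraMap _ _ (θA l (4 * q) a)) →
      (∀ g, φ (yR P g) = ((l ^ (q * g.deg) : kˣ) : k) • yR P g) →
      (∀ a : A k, ψ (algebraMap _ _ a) = algebraMap _ _ (θA l⁻¹ (4 * q) a)) →
      (∀ g, ψ (yR P g) = ((l⁻¹ ^ (q * g.deg) : kˣ) : k) • yR P g) → ∀ r, φ (ψ r) = r := by
    intro l φ ψ h1 h2 h3 h4 r
    have : φ.comp ψ = RingHom.id _ := by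
      refine R_ringHom_ext P _ _ (fun a => ?_) (fun g => ?_)
      · rw [RingHom.comp_apply, h3, h1, exists_θR_inv, RingHom.id_apply]
      · rw [RingHom.comp_apply, h4, exists_θR_smul, map_mul, h1, exists_θR_C, h2,
          ← exists_θR_smul, smul_smul, ← Units.val_mul, ← mul_pow, inv_mul_cancel, one_pow,
          Units.val_one, one_smul, RingHom.id_apply]
    exact RingHom.congr_fun this r
  refine ⟨{ toFun := φ
            invFun := ψ
            left_inv := key lam⁻¹ ψ φ h3 h4 (by rwa [inv_inv]) (by rwa [inv_inv])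
            right_inv := key lam φ ψ h1 h2 h3 h4
            map_mul' := φ.map_mul
            map_add' := φ.map_add
            commutes' := fun c => ?_ }, h1, h2⟩
  rw [IsScalarTower.algebraMap_apply k (A k) (R P), h1, AlgEquiv.commutes]

/-- The grading automorphism of `R` (scale `q`). -/
noncomputable def θR (P : Par k) (lam : kˣ) (q : ℕ) : R P ≃ₐ[k] R P :=
  (exists_θR P lam q).choose

theorem θR_algebraMap (P : Par k) (lam : kˣ) (q : ℕ) (a : A k) :
    θR P lam q (algebraMap _ _ a) = algebraMap _ _ (θA lam (4 * q) a) :=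
  (exists_θR P lam q).choose_spec.1 a

theorem θR_y (P : Par k) (lam : kˣ) (q : ℕ) (g : Gen) :
    θR P lam q (yR P g) = ((lam ^ (q * g.deg) : kˣ) : k) • yR P g :=
  (exists_θR P lam q).choose_spec.2 g

theorem exists_sym_inv (P : Par k) (σ : Sym) (g : Gen) :
    cf P σ g * cf P σ (pr σ g) = 1 ∧ pr σ (pr σ g) = g := by
  have hio := P.io_sq
  rcases σ with a | t0 <;> rcases g with a' | t | t
  · simp only [cf, pr]; split_ifs <;> simp
  · have hab : t.a ≠ t.b := ne_of_lt t.2.1
    have hbc : t.b ≠ t.c := ne_of_lt t.2.2.1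
    by_cases h1 : a = t.a
    · simp [cf, pr, h1]; linear_combination -hio
    · by_cases h2 : a = t.b
      · subst h2; simp [cf, pr, h1, hbc]
      · simp [cf, pr, h1, h2]
  · have hab : t.a ≠ t.b := ne_of_lt t.2.1
    have hbc : t.b ≠ t.c := ne_of_lt t.2.2.1
    by_cases h1 : a = t.a
    · simp [cf, pr, h1]; linear_combination -hio
    · by_cases h2 : a = t.b
      · subst h2; simp [cf, pr, h1, hbc]
      · simp only [cf, pr, h1, h2, or_self, if_false]; split_ifs <;> simp
  · simp [cf, pr]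
  · simp only [cf, pr]; split_ifs <;> simp
  · simp only [cf, pr]; split_ifs <;> simp

theorem exists_sym_rel (P : Par k) (σ : Sym) :
    RelD P 1 (fun g => (C (cf P σ g) : A k) • yR P (pr σ g)) := by
  have rel := R_rel P
  have hs := rel.s
  have hu := rel.u
  have hv := rel.v
  have huv := rel.uv
  simp only [one_pow, one_mul, Algebra.smul_def] at hs hu hv huv
  have hio : algebraMap (A k) (R P) (C P.io) ^ 2 = -1 := by
    rw [← map_pow, ← map_pow, P.io_sq, map_neg, map_neg, map_one, map_one]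
  have hd : ∀ t : Tr, t.a ≠ t.b ∧ t.b ≠ t.c ∧ t.a ≠ t.c := fun t =>
    ⟨ne_of_lt t.2.1, ne_of_lt t.2.2.1, ne_of_lt (t.2.1.trans t.2.2.1)⟩
  refine ⟨fun g g' => mul_comm _ _, fun a' => ?_, fun t => ?_, fun t => ?_, fun t => ?_⟩
  · rcases σ with a | t0
    · by_cases h : a = a' <;> simp [cf, pr, h, Algebra.smul_def, hs]
    · simp [cf, pr, hs]
  · obtain ⟨hab, hbc, hac⟩ := hd t
    rcases σ with a | t0
    · by_cases h1 : a = t.a
      · subst h1
        simp only [cf, pr, hab, true_or, if_true, if_false, one_mul, Algebra.smul_def, map_neg,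
          map_one]
        linear_combination (yR P (.v t) * yR P (.v t)) * hio - hv t
      · by_cases h2 : a = t.b
        · subst h2
          simp only [cf, pr, h1, or_true, if_true, if_false, one_mul, Algebra.smul_def, map_neg,
            map_one]
          linear_combination hv t
        · simp only [cf, pr, h1, h2, or_self, if_false, one_mul, Algebra.smul_def, map_one]
          exact hu t
    · by_cases h : t0 = t <;> simp [cf, pr, h, Algebra.smul_def, hu]
  · obtain ⟨hab, hbc, hac⟩ := hd t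
    rcases σ with a | t0
    · by_cases h1 : a = t.a
      · subst h1
        simp only [cf, pr, hab, true_or, if_true, if_false, one_mul, Algebra.smul_def, map_neg,
          map_one]
        linear_combination (yR P (.u t) * yR P (.u t)) * hio - hu t
      · by_cases h2 : a = t.b
        · subst h2
          simp only [cf, pr, h1, hbc, or_true, if_true, if_false, one_mul, Algebra.smul_def,
            map_neg, map_one]
          linear_combination hu t
        · by_cases h3 : a = t.c <;>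
            simp only [cf, pr, h1, h2, h3, hac.symm, hbc.symm, or_self, if_false, if_true, one_mul,
              Algebra.smul_def, map_one, map_neg] <;>
            linear_combination hv t
    · by_cases h : t0 = t <;> simp [cf, pr, h, Algebra.smul_def, hv]
  · obtain ⟨hab, hbc, hac⟩ := hd t
    rcases σ with a | t0
    · by_cases h1 : a = t.a
      · subst h1
        simp only [cf, pr, hac, true_or, if_true, if_false, one_mul, Algebra.smul_def, map_neg,
          map_one]
        linear_combination -(yR P (.u t) * yR P (.v t)) * hio + huv t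
      · by_cases h2 : a = t.b
        · subst h2
          simp only [cf, pr, h1, hbc, or_true, if_true, if_false, one_mul, Algebra.smul_def,
            map_one]
          linear_combination huv t
        · by_cases h3 : a = t.c
          · subst h3
            simp only [cf, pr, h1, h2, or_self, if_false, if_true, one_mul,
              Algebra.smul_def, map_one, map_neg]
            linear_combination -huv t
          · simp only [cf, pr, h1, h2, h3, or_self, if_false, one_mul, Algebra.smul_def, map_one]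
            exact huv t
    · by_cases h : t0 = t <;> simp [cf, pr, h, Algebra.smul_def, huv]

theorem exists_sym (P : Par k) (σ : Sym) :
    ∃ e : R P ≃ₐ[A k] R P, ∀ g, e (yR P g) = (C (cf P σ g) : A k) • yR P (pr σ g) := by
  obtain ⟨φ, hφ⟩ := exists_lift_comm P (R_tf P) _ (exists_sym_rel P σ)
  have h : φ.comp φ = AlgHom.id _ _ := by
    refine R_hom_ext P _ _ fun g => ?_
    rw [AlgHom.comp_apply, hφ, map_smul, hφ, smul_smul, ← C_mul, (exists_sym_inv P σ g).1,
      (exists_sym_inv P σ g).2, C_1, one_smul, AlgHom.id_apply]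
  exact ⟨AlgEquiv.ofAlgHom φ φ h h, hφ⟩

/-- The symmetries of `R` over `A`. -/
noncomputable def sym (P : Par k) (σ : Sym) : R P ≃ₐ[A k] R P := (exists_sym P σ).choose

theorem sym_y (P : Par k) (σ : Sym) (g : Gen) :
    sym P σ (yR P g) = (C (cf P σ g) : A k) • yR P (pr σ g) := (exists_sym P σ).choose_spec g

theorem pr_deg (σ : Sym) (g : Gen) : (pr σ g).deg = g.deg := by
  rcases σ with a | t0 <;> rcases g with a' | t | t <;> simp only [pr] <;>
    (try split_ifs) <;> rfl

theorem θR_sym (P : Par k) (lam : kˣ) (q : ℕ) (σ : Sym) (r : R P) :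
    θR P lam q (sym P σ r) = sym P σ (θR P lam q r) := by
  have : (θR P lam q : R P →+* R P).comp (sym P σ : R P →+* R P) =
      (sym P σ : R P →+* R P).comp (θR P lam q : R P →+* R P) := by
    refine R_ringHom_ext P _ _ (fun a => ?_) (fun g => ?_)
    · simp only [RingHom.comp_apply, RingHom.coe_coe, AlgEquiv.commutes, θR_algebraMap]
    · simp only [RingHom.comp_apply, RingHom.coe_coe]
      rw [sym_y, θR_y, exists_θR_smul, map_mul, AlgEquiv.commutes, sym_y, Algebra.smul_def,
        map_mul, θR_algebraMap, exists_θR_C, θR_y, pr_deg, exists_θR_smul, mul_left_comm]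
  exact RingHom.congr_fun this r

theorem R_gd (P : Par k) {lam : kˣ} (hl : InfOrd lam) {q : ℕ} (hq : 0 < q) :
    Gd lam (4 * q) (θR P lam q).toLinearMap := by
  refine ⟨hl, by omega, fun i v => ?_⟩
  rw [AlgEquiv.toLinearMap_apply, AlgEquiv.toLinearMap_apply, Algebra.smul_def, map_mul,
    θR_algebraMap, exists_θR_X, map_mul, exists_θR_smul, Algebra.smul_def, mul_assoc]

/-- `R` is spanned by homogeneous elements of degrees `q * n`, `n : ℕ`; degree `0` is `k`. -/
theorem R_diag (P : Par k) (lam : kˣ) (q : ℕ) (r : R P) :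
    ∃ c : k, r - algebraMap k (R P) c ∈
      ⨆ n : ℕ, eig lam (θR P lam q).toLinearMap ((q * (n + 1) : ℕ) : ℤ) := by
  set N := ⨆ n : ℕ, eig lam (θR P lam q).toLinearMap ((q * (n + 1) : ℕ) : ℤ) with hN
  have hstep : ∀ (x : R P) (d : ℕ), θR P lam q x = ((lam ^ (q * (d + 1)) : kˣ) : k) • x →
      ∀ r : R P, (∃ c : k, r - algebraMap k (R P) c ∈ N) →
        ∃ c : k, x * r - algebraMap k (R P) c ∈ N := by
    rintro x d hx r ⟨c, hc⟩
    have h1 : x ∈ N := Submodule.mem_iSup_of_mem d (by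
      rw [mem_eig, AlgEquiv.toLinearMap_apply, zpow_natCast]; exact hx)
    have h2 : ∀ y ∈ N, x * y ∈ N := by
      intro y hy
      induction hy using Submodule.iSup_induction' with
      | mem n y hy =>
        refine Submodule.mem_iSup_of_mem (d + n + 1) ?_
        rw [mem_eig, AlgEquiv.toLinearMap_apply, zpow_natCast] at hy ⊢
        rw [map_mul, hx, hy, smul_mul_smul_comm, ← Units.val_mul, ← pow_add]
        congr 3
        ring
      | zero => rw [mul_zero]; exact N.zero_mem
      | add a b _ _ ha hb => rw [mul_add]; exact N.add_mem ha hb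
    refine ⟨0, ?_⟩
    have : x * r - algebraMap k (R P) 0 = x * (r - algebraMap k (R P) c) + c • x := by
      rw [Algebra.smul_def, map_zero]; ring
    rw [this]
    exact N.add_mem (h2 _ hc) (N.smul_mem _ h1)
  have hadd : ∀ r r' : R P, (∃ c : k, r - algebraMap k (R P) c ∈ N) →
      (∃ c : k, r' - algebraMap k (R P) c ∈ N) → ∃ c : k, r + r' - algebraMap k (R P) c ∈ N := by
    rintro r r' ⟨c, hc⟩ ⟨c', hc'⟩
    refine ⟨c + c', ?_⟩
    rw [map_add, add_sub_add_comm]
    exact N.add_mem hc hc'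
  refine R_induction P (fun r => ∃ c : k, r - algebraMap k (R P) c ∈ N) (fun a => ?_) hadd
    (fun g r hr => ?_) r
  · induction a using MvPolynomial.induction_on with
    | C a =>
      refine ⟨a, ?_⟩
      rw [IsScalarTower.algebraMap_apply k (A k) (R P), algebraMap_eq, sub_self]
      exact N.zero_mem
    | add p p' hp hp' => rw [map_add]; exact hadd _ _ hp hp'
    | mul_X p i hp =>
      rw [map_mul, mul_comm]
      refine hstep _ 3 ?_ _ hp
      rw [θR_algebraMap, exists_θR_X, map_mul, exists_θR_smul, mul_comm q]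
  · have hg : ∃ d, g.deg = d + 1 := by
      cases g
      exacts [⟨1, rfl⟩, ⟨0, rfl⟩, ⟨0, rfl⟩]
    obtain ⟨d, hd⟩ := hg
    refine hstep _ d ?_ _ hr
    rw [θR_y, hd]

theorem R_gs (P : Par k) (lam : kˣ) (q : ℕ) :
    GS lam (θR P lam q).toLinearMap (⊤ : Submodule (A k) (R P)) := by
  refine ⟨Module.Finite.fg_top, fun v _ => ?_⟩
  obtain ⟨c, hc⟩ := R_diag P lam q v
  have h1 : ∀ n, eig lam (θR P lam q).toLinearMap n ≤
      ⨆ n : ℤ, piece lam (θR P lam q).toLinearMap (⊤ : Submodule (A k) (R P)) n := fun n =>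
    le_iSup_of_le n (le_inf (fun x _ => Submodule.mem_top) le_rfl)
  rw [← sub_add_cancel v (algebraMap k (R P) c)]
  refine Submodule.add_mem _ (iSup_le (fun n => h1 _) hc) (h1 0 ?_)
  rw [mem_eig, AlgEquiv.toLinearMap_apply, AlgEquiv.commutes, zpow_zero, Units.val_one, one_smul]

/-! ### Subtask Ring-c -/

open Pointwise in
theorem finite_symGroup (P : Par k) : Finite (Subgroup.closure (Set.range (sym P))) := by
  classical
  let S : Set (R P) := Set.range fun x : Fin 4 × Gen => (C (P.io ^ (x.1 : ℕ)) : A k) • yR P x.2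
  have hS : S.Finite := Set.finite_range _
  have h4 : P.io ^ 4 = 1 := by
    rw [show 4 = 2 * 2 from rfl, pow_mul, P.io_sq]; norm_num
  have hmem : ∀ (n : ℕ) (g : Gen), (C (P.io ^ n) : A k) • yR P g ∈ S := by
    intro n g
    refine ⟨(⟨n % 4, Nat.mod_lt _ (by norm_num)⟩, g), ?_⟩
    simp only
    rw [← pow_eq_pow_mod n h4]
  have hcf : ∀ σ g, ∃ n : ℕ, cf P σ g = P.io ^ n := by
    have e0 : ∃ n : ℕ, (1 : k) = P.io ^ n := ⟨0, (pow_zero _).symm⟩
    have e1 : ∃ n : ℕ, P.io = P.io ^ n := ⟨1, (pow_one _).symm⟩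
    have e2 : ∃ n : ℕ, (-1 : k) = P.io ^ n := ⟨2, P.io_sq.symm⟩
    have e3 : ∃ n : ℕ, -P.io = P.io ^ n := ⟨3, by rw [pow_succ, P.io_sq]; ring⟩
    intro σ g
    rcases σ with a | t0 <;> rcases g with a' | t | t <;> simp only [cf] <;>
      (try split_ifs) <;> assumption
  have hle : Subgroup.closure (Set.range (sym P)) ≤
      MulAction.stabilizer (R P ≃ₐ[A k] R P) S := by
    rw [Subgroup.closure_le]
    rintro _ ⟨σ, rfl⟩
    rw [SetLike.mem_coe, MulAction.mem_stabilizer_set_iff_smul_set_subset hS]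
    rintro _ ⟨_, ⟨⟨n, g⟩, rfl⟩, rfl⟩
    obtain ⟨m, hm⟩ := hcf σ g
    simp only [AlgEquiv.smul_def, map_smul, sym_y, smul_smul, hm, ← C_mul, ← pow_add]
    exact hmem _ _
  have hy : ∀ (e : Subgroup.closure (Set.range (sym P))) (g : Gen), e.1 (yR P g) ∈ S := by
    intro e g
    have h1 : yR P g ∈ S := by simpa using hmem 0 g
    have h2 : e.1 • S = S := hle e.2
    rw [← h2]
    exact Set.smul_mem_smul_set h1
  have : Finite S := hS
  refine Finite.of_injective (fun (e : Subgroup.closure (Set.range (sym P))) (g : Gen) =>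
    (⟨e.1 (yR P g), hy e g⟩ : S)) fun e e' h => ?_
  apply Subtype.ext
  apply AlgEquiv.coe_toAlgHom_injective
  refine R_hom_ext P _ _ fun g => ?_
  exact congrArg Subtype.val (congrFun h g)

theorem sym_trans_lift (P : Par k) (q : Ideal (A k)) [q.IsPrime] (p : Ideal (R P)) [p.IsPrime]
    (h : p.comap (algebraMap (A k) (R P)) = q) :
    ∃ φ : R P →ₐ[A k] AlgebraicClosure (FractionRing (A k ⧸ q)), RingHom.ker φ = p := by
  have : p.LiesOver q := ⟨h.symm⟩
  let Ω := AlgebraicClosure (FractionRing (A k ⧸ q))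
  have : Algebra.IsIntegral (A k ⧸ q) (R P ⧸ p) := Ideal.Quotient.algebra_isIntegral_of_liesOver p q
  have hinj : Function.Injective (algebraMap (A k ⧸ q) Ω) := by
    rw [IsScalarTower.algebraMap_eq (A k ⧸ q) (FractionRing (A k ⧸ q)) Ω]
    exact (algebraMap (FractionRing (A k ⧸ q)) Ω).injective.comp
      (IsFractionRing.injective (A k ⧸ q) _)
  have : FaithfulSMul (A k ⧸ q) Ω := (faithfulSMul_iff_algebraMap_injective _ _).2 hinj
  let ψ : (R P ⧸ p) →ₐ[A k ⧸ q] Ω := IsAlgClosed.lift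
  have hψ : Function.Injective ψ := by
    rw [injective_iff_map_eq_zero']
    have : RingHom.ker ψ = ⊥ := by
      apply Ideal.eq_bot_of_comap_eq_bot (R := A k ⧸ q)
      rw [eq_bot_iff]
      intro a ha
      rw [Ideal.mem_comap, RingHom.mem_ker, ψ.commutes] at ha
      exact hinj (ha.trans (map_zero _).symm)
    intro a
    rw [← RingHom.mem_ker, this, Ideal.mem_bot]
  refine ⟨(ψ.restrictScalars (A k)).comp (Ideal.Quotient.mkₐ (A k) p), ?_⟩
  ext r
  rw [RingHom.mem_ker, AlgHom.comp_apply, AlgHom.restrictScalars_apply,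
    map_eq_zero_iff _ hψ, Ideal.Quotient.mkₐ_eq_mk, Ideal.Quotient.eq_zero_iff_mem]

theorem sym_trans_sign {Ω : Type} [Field Ω] {u v u' v' : Ω} (h1 : u' * u' = u * u)
    (h2 : v' * v' = v * v) (h3 : u' * v' = u * v) :
    (u' = u ∧ v' = v) ∨ (u' = -u ∧ v' = -v) := by
  rcases mul_self_eq_mul_self_iff.1 h1 with a | a <;>
    rcases mul_self_eq_mul_self_iff.1 h2 with b | b
  · exact Or.inl ⟨a, b⟩
  · by_cases hu : u = 0
    · exact Or.inr ⟨by rw [a, hu, neg_zero], b⟩
    · rw [a] at h3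
      exact Or.inl ⟨a, mul_left_cancel₀ hu h3⟩
  · by_cases hu : u = 0
    · exact Or.inl ⟨by rw [a, hu, neg_zero], b⟩
    · rw [a] at h3
      refine Or.inr ⟨a, mul_left_cancel₀ hu ?_⟩
      linear_combination -h3
  · exact Or.inr ⟨a, b⟩

theorem sym_trans_core (P : Par k) (Q : Ideal (R P) → Prop)
    (hQ : ∀ σ p, Q p → Q (p.comap (sym P σ : R P →+* R P))) {Ω : Type} [Field Ω]
    [Algebra (A k) Ω] (φ φ' : R P →ₐ[A k] Ω) (hφ : Q (RingHom.ker φ)) : Q (RingHom.ker φ') := by
  classical
  have rel := R_rel P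
  have hcomp : ∀ (σ : Sym) (ψ : R P →ₐ[A k] Ω), Q (RingHom.ker ψ) →
      ∃ ψ' : R P →ₐ[A k] Ω, Q (RingHom.ker ψ') ∧
        ∀ g, ψ' (yR P g) = (C (cf P σ g) : A k) • ψ (yR P (pr σ g)) := by
    intro σ ψ hψ
    refine ⟨ψ.comp (sym P σ : R P →ₐ[A k] R P), hQ σ _ hψ, fun g => ?_⟩
    rw [← map_smul, ← sym_y]; rfl
  have step1 : ∀ T : Finset Li, ∃ ψ : R P →ₐ[A k] Ω, Q (RingHom.ker ψ) ∧
      ∀ a ∈ T, ψ (yR P (.s a)) = φ' (yR P (.s a)) := by
    intro T
    induction T using Finset.induction_on with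
    | empty => exact ⟨φ, hφ, by simp⟩
    | insert a T ha ih =>
      obtain ⟨ψ, h1, h2⟩ := ih
      have hsq : ψ (yR P (.s a)) * ψ (yR P (.s a)) = φ' (yR P (.s a)) * φ' (yR P (.s a)) := by
        rw [← map_mul, ← map_mul, rel.s, AlgHom.commutes, AlgHom.commutes]
      rcases mul_self_eq_mul_self_iff.1 hsq with e | e
      · refine ⟨ψ, h1, fun a' ha' => ?_⟩
        rcases Finset.mem_insert.1 ha' with rfl | ha'
        exacts [e, h2 a' ha']
      · obtain ⟨ψ', h3, h4⟩ := hcomp (.l a) ψ h1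
        refine ⟨ψ', h3, fun a' ha' => ?_⟩
        rw [h4]
        rcases Finset.mem_insert.1 ha' with rfl | ha'
        · simp [cf, pr, e]
        · have : a ≠ a' := by rintro rfl; exact ha ha'
          simp [cf, pr, this, h2 a' ha']
  have step2 : ∀ T : Finset Tr, ∃ ψ : R P →ₐ[A k] Ω, Q (RingHom.ker ψ) ∧
      (∀ a, ψ (yR P (.s a)) = φ' (yR P (.s a))) ∧
      ∀ t ∈ T, ψ (yR P (.u t)) = φ' (yR P (.u t)) ∧ ψ (yR P (.v t)) = φ' (yR P (.v t)) := by
    intro T
    induction T using Finset.induction_on with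
    | empty =>
      obtain ⟨ψ, h1, h2⟩ := step1 Finset.univ
      exact ⟨ψ, h1, fun a => h2 a (Finset.mem_univ _), by simp⟩
    | insert t T ht ih =>
      obtain ⟨ψ, h1, h2, h2'⟩ := ih
      have e1 : ψ (yR P (.u t)) * ψ (yR P (.u t)) = φ' (yR P (.u t)) * φ' (yR P (.u t)) := by
        rw [← map_mul, ← map_mul, rel.u, map_add, map_add, map_smul, map_smul, map_smul, map_smul,
          h2, h2]
      have e2 : ψ (yR P (.v t)) * ψ (yR P (.v t)) = φ' (yR P (.v t)) * φ' (yR P (.v t)) := by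
        rw [← map_mul, ← map_mul, rel.v, map_sub, map_sub, map_smul, map_smul, map_smul, map_smul,
          h2, h2]
      have e3 : ψ (yR P (.u t)) * ψ (yR P (.v t)) = φ' (yR P (.u t)) * φ' (yR P (.v t)) := by
        rw [← map_mul, ← map_mul, rel.uv, map_smul, map_smul, h2]
      rcases sym_trans_sign e1 e2 e3 with e | e
      · refine ⟨ψ, h1, h2, fun t' ht' => ?_⟩
        rcases Finset.mem_insert.1 ht' with rfl | ht'
        exacts [e, h2' t' ht']
      · obtain ⟨ψ', h3, h4⟩ := hcomp (.z t) ψ h1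
        refine ⟨ψ', h3, fun a => ?_, fun t' ht' => ?_⟩
        · rw [h4]
          simp [cf, pr, h2]
        · rw [h4, h4]
          rcases Finset.mem_insert.1 ht' with rfl | ht'
          · simp [cf, pr, e.1, e.2]
          · have : t ≠ t' := by rintro rfl; exact ht ht'
            simp [cf, pr, this, (h2' t' ht').1, (h2' t' ht').2]
  obtain ⟨ψ, h1, h2, h3⟩ := step2 Finset.univ
  have : ψ = φ' := by
    refine R_hom_ext P _ _ fun g => ?_
    rcases g with a | t | t
    exacts [h2 a, (h3 t (Finset.mem_univ _)).1, (h3 t (Finset.mem_univ _)).2]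
  rwa [this] at h1

/-- The symmetries act transitively on the primes over a given prime of `A`. -/
theorem sym_trans (P : Par k) (Q : Ideal (R P) → Prop)
    (hQ : ∀ σ p, Q p → Q (p.comap (sym P σ : R P →+* R P))) (p p' : Ideal (R P)) [p.IsPrime]
    [p'.IsPrime] (h : p.comap (algebraMap (A k) (R P)) = p'.comap (algebraMap (A k) (R P)))
    (hp : Q p) : Q p' := by
  have : (p.comap (algebraMap (A k) (R P))).IsPrime := Ideal.comap_isPrime _ _
  obtain ⟨φ, hφ⟩ := sym_trans_lift P _ p rfl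
  obtain ⟨φ', hφ'⟩ := sym_trans_lift P _ p' h.symm
  rw [← hφ']
  exact sym_trans_core P Q hQ φ φ' (hφ.symm ▸ hp)

/-- A good pair: `a` divides a nonzero element of `A` and `(a, b)` contains a coprime pair. -/
def GoodPair (k : Type) [Field k] {S : Type} [CommRing S] [Algebra (A k) S] (a b : S) : Prop :=
  (∃ (a' : S) (f : A k), f ≠ 0 ∧ a * a' = algebraMap _ _ f) ∧
    ∃ f₁ f₂ : A k, IsRelPrime f₁ f₂ ∧ algebraMap _ _ f₁ ∈ Ideal.span {a, b} ∧
      algebraMap _ _ f₂ ∈ Ideal.span {a, b}

/-! ### Subtask Ring-d (local structure) -/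

/-- The linear form with coefficients `c`. -/
noncomputable def local_param_L (c : Fin 3 → k) : A k :=
  C (c 0) * X 0 + C (c 1) * X 1 + C (c 2) * X 2

theorem local_param_L_mem (Pt c : Fin 3 → k) :
    local_param_L c ∈ ptIdeal Pt ↔ c 0 * Pt 0 + c 1 * Pt 1 + c 2 * Pt 2 = 0 := by
  have : (aeval (fun i => Polynomial.C (Pt i) * Polynomial.X) : A k →ₐ[k] Polynomial k)
      (local_param_L c) =
      Polynomial.C (c 0 * Pt 0 + c 1 * Pt 1 + c 2 * Pt 2) * Polynomial.X := by
    simp only [local_param_L, map_add, map_mul, aeval_X, aeval_C, Polynomial.algebraMap_eq]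
    ring
  rw [ptIdeal, RingHom.mem_ker]
  erw [this]
  rw [mul_eq_zero, Polynomial.C_eq_zero]
  simp [Polynomial.X_ne_zero]

theorem local_param_L_irred (c : Fin 3 → k) (hc : c ≠ 0) : Irreducible (local_param_L c) := by
  have e : local_param_L c = sumSMulX (Finsupp.equivFunOnFinite.symm c) := by
    rw [sumSMulX, Finsupp.linearCombination_apply, Finsupp.sum_fintype _ _ (by simp),
      Fin.sum_univ_three]
    simp [local_param_L, smul_eq_C_mul]
  obtain ⟨i, hi⟩ := Function.ne_iff.mp hc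
  rw [e]
  refine irreducible_sumSMulX _ ⟨i, by simpa using hi⟩ fun r hr => ?_
  have := hr i
  simp only [Finsupp.equivFunOnFinite_symm_apply_apply] at this
  exact isUnit_of_dvd_unit this (IsUnit.mk0 _ hi)

theorem local_param_relPrime (c d : Fin 3 → k) (h : crossProduct c d ≠ 0) :
    IsRelPrime (local_param_L c) (local_param_L d) := by
  have hc : c ≠ 0 := by rintro rfl; simp at h
  rw [(local_param_L_irred c hc).isRelPrime_iff_not_dvd]
  rintro ⟨g, hg⟩
  apply h
  have key : ∀ x : Fin 3 → k, c 0 * x 0 + c 1 * x 1 + c 2 * x 2 = 0 →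
      d 0 * x 0 + d 1 * x 1 + d 2 * x 2 = 0 := by
    intro x hx
    have := congrArg (eval x) hg
    simp only [local_param_L, map_add, map_mul, eval_C, eval_X] at this
    rw [this, hx, zero_mul]
  have h0 := key ![0, c 2, -c 1] (by simp; ring)
  have h1 := key ![-c 2, 0, c 0] (by simp; ring)
  have h2 := key ![c 1, -c 0, 0] (by simp; ring)
  simp at h0 h1 h2
  rw [cross_apply]
  ext i
  fin_cases i <;> simp
  · linear_combination -h0
  · linear_combination -h1
  · linear_combination -h2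

theorem local_param_det (Pt c d e : Fin 3 → k) (hP : Pt ≠ 0)
    (hc : c 0 * Pt 0 + c 1 * Pt 1 + c 2 * Pt 2 = 0) (hd : d 0 * Pt 0 + d 1 * Pt 1 + d 2 * Pt 2 = 0)
    (he : e 0 * Pt 0 + e 1 * Pt 1 + e 2 * Pt 2 = 0) :
    e 0 * (c 1 * d 2 - c 2 * d 1) + e 1 * (c 2 * d 0 - c 0 * d 2) +
      e 2 * (c 0 * d 1 - c 1 * d 0) = 0 := by
  obtain ⟨i, hi⟩ := Function.ne_iff.mp hP
  apply mul_left_cancel₀ hi
  fin_cases i <;> simp only [Fin.zero_eta, Fin.mk_one, Fin.reduceFinMk, Fin.isValue, mul_zero]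
  · linear_combination (c 1 * d 2 - c 2 * d 1) * he + (d 1 * e 2 - d 2 * e 1) * hc +
      (e 1 * c 2 - e 2 * c 1) * hd
  · linear_combination (c 2 * d 0 - c 0 * d 2) * he + (d 2 * e 0 - d 0 * e 2) * hc +
      (e 2 * c 0 - e 0 * c 2) * hd
  · linear_combination (c 0 * d 1 - c 1 * d 0) * he + (d 0 * e 1 - d 1 * e 0) * hc +
      (e 0 * c 1 - e 1 * c 0) * hd

theorem local_param_L_span (c d e : Fin 3 → k) (h : crossProduct c d ≠ 0)
    (hdet : e 0 * (c 1 * d 2 - c 2 * d 1) + e 1 * (c 2 * d 0 - c 0 * d 2) +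
      e 2 * (c 0 * d 1 - c 1 * d 0) = 0) :
    local_param_L e ∈ Ideal.span {local_param_L c, local_param_L d} := by
  suffices H : ∃ n α β : k, n ≠ 0 ∧ ∀ i, n * e i = α * c i + β * d i by
    obtain ⟨n, α, β, hn, H⟩ := H
    have H' : ∀ i, e i = n⁻¹ * α * c i + n⁻¹ * β * d i := fun i => by
      rw [mul_assoc, mul_assoc, ← mul_add, ← H, ← mul_assoc, inv_mul_cancel₀ hn, one_mul]
    rw [Ideal.mem_span_pair]
    refine ⟨C (n⁻¹ * α), C (n⁻¹ * β), ?_⟩
    simp only [local_param_L, H', map_add, map_mul]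
    ring
  obtain ⟨i, hi⟩ := Function.ne_iff.mp h
  rw [cross_apply] at hi
  fin_cases i <;> simp at hi
  · refine ⟨_, (e 1 * d 2 - e 2 * d 1), (c 1 * e 2 - c 2 * e 1), hi, fun j => ?_⟩
    fin_cases j <;> simp only [Fin.zero_eta, Fin.mk_one, Fin.reduceFinMk, Fin.isValue]
    · linear_combination hdet
    · ring
    · ring
  · refine ⟨_, (e 2 * d 0 - e 0 * d 2), (c 2 * e 0 - c 0 * e 2), hi, fun j => ?_⟩
    fin_cases j <;> simp only [Fin.zero_eta, Fin.mk_one, Fin.reduceFinMk, Fin.isValue]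
    · ring
    · linear_combination hdet
    · ring
  · refine ⟨_, (e 0 * d 1 - e 1 * d 0), (c 0 * e 1 - c 1 * e 0), hi, fun j => ?_⟩
    fin_cases j <;> simp only [Fin.zero_eta, Fin.mk_one, Fin.reduceFinMk, Fin.isValue]
    · ring
    · ring
    · linear_combination hdet

theorem local_param_span (Pt c d : Fin 3 → k) (hP : Pt ≠ 0) (h : crossProduct c d ≠ 0)
    (hc : c 0 * Pt 0 + c 1 * Pt 1 + c 2 * Pt 2 = 0)
    (hd : d 0 * Pt 0 + d 1 * Pt 1 + d 2 * Pt 2 = 0) :
    ptIdeal Pt = Ideal.span {local_param_L c, local_param_L d} := by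
  apply le_antisymm
  · obtain ⟨i, hi⟩ := Function.ne_iff.mp hP
    simp only [Pi.zero_apply] at hi
    set J : Ideal (A k) := Ideal.span {local_param_L c, local_param_L d} with hJ
    let ev : A k →ₐ[k] Polynomial k := aeval (fun i => Polynomial.C (Pt i) * Polynomial.X)
    let bk : Polynomial k →ₐ[k] A k := Polynomial.aeval (C (Pt i)⁻¹ * X i)
    have hX : ∀ j, X j - bk (ev (X j)) ∈ J := by
      intro j
      have e1 : X j - bk (ev (X j)) =
          local_param_L (Pi.single j 1 - (Pt j * (Pt i)⁻¹) • Pi.single i 1) := by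
        simp only [ev, bk, aeval_X, map_mul, Polynomial.aeval_C, Polynomial.aeval_X,
          algebraMap_eq, local_param_L, Pi.sub_apply, Pi.smul_apply, smul_eq_mul, map_sub]
        fin_cases i <;> fin_cases j <;> simp <;> ring
      rw [e1]
      refine local_param_L_span c d _ h (local_param_det Pt c d _ hP hc hd ?_)
      fin_cases i <;> fin_cases j <;> simp at hi ⊢ <;> field_simp <;> simp
    have hall : ∀ f : A k, f - bk (ev f) ∈ J := by
      intro f
      induction f using MvPolynomial.induction_on with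
      | C a => simp [ev, bk]
      | add p q hp hq =>
        have : p + q - bk (ev (p + q)) = (p - bk (ev p)) + (q - bk (ev q)) := by
          simp only [map_add]; ring
        rw [this]; exact J.add_mem hp hq
      | mul_X p j hp =>
        have : p * X j - bk (ev (p * X j)) =
            (p - bk (ev p)) * X j + bk (ev p) * (X j - bk (ev (X j))) := by
          simp only [map_mul]; ring
        rw [this]; exact J.add_mem (J.mul_mem_right _ hp) (J.mul_mem_left _ (hX j))
    intro f hf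
    have h0 : ev f = 0 := hf
    simpa [h0] using hall f
  · rw [Ideal.span_le]
    rintro _ (rfl | rfl)
    · exact (local_param_L_mem Pt c).2 hc
    · exact (local_param_L_mem Pt _).2 hd

/-- The ideal of a point is generated by two coprime linear forms; any linear form vanishing at
the point can be taken as the first one, any two independent ones as the pair. -/
theorem ptIdeal_eq_span (Pt : Fin 3 → k) (hP : Pt ≠ 0) :
    ∃ f₁ f₂ : A k, f₁ ≠ 0 ∧ IsRelPrime f₁ f₂ ∧ ptIdeal Pt = Ideal.span {f₁, f₂} := by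
  suffices H : ∃ c d : Fin 3 → k, crossProduct c d ≠ 0 ∧
      c 0 * Pt 0 + c 1 * Pt 1 + c 2 * Pt 2 = 0 ∧ d 0 * Pt 0 + d 1 * Pt 1 + d 2 * Pt 2 = 0 by
    obtain ⟨c, d, h, hc, hd⟩ := H
    have hc0 : c ≠ 0 := by rintro rfl; simp at h
    exact ⟨_, _, (local_param_L_irred c hc0).ne_zero, local_param_relPrime c d h,
      local_param_span Pt c d hP h hc hd⟩
  obtain ⟨i, hi⟩ := Function.ne_iff.mp hP
  fin_cases i <;> simp at hi
  · refine ⟨![-Pt 1, Pt 0, 0], ![-Pt 2, 0, Pt 0], fun h => ?_, by simp; ring, by simp; ring⟩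
    have := congrFun h 0
    simp [cross_apply, hi] at this
  · refine ⟨![0, -Pt 2, Pt 1], ![Pt 1, -Pt 0, 0], fun h => ?_, by simp; ring, by simp; ring⟩
    have := congrFun h 1
    simp [cross_apply, hi] at this
  · refine ⟨![Pt 2, 0, -Pt 0], ![0, Pt 2, -Pt 1], fun h => ?_, by simp; ring, by simp; ring⟩
    have := congrFun h 2
    simp [cross_apply, hi] at this

theorem ptIdeal_isPrime (Pt : Fin 3 → k) : (ptIdeal Pt).IsPrime :=
  RingHom.ker_isPrime _

theorem local_param_gen {A₀ R₀ : Type} [CommRing A₀] [CommRing R₀] [Algebra A₀ R₀]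
    [Algebra.FiniteType A₀ R₀] (p : Ideal R₀) [hp : p.IsPrime] (I : Ideal R₀) (hI : I ≤ p)
    (hpI : ∀ a : A₀, algebraMap A₀ R₀ a ∈ p → algebraMap A₀ R₀ a ∈ I)
    (hD : ∀ (S : Type) [CommRing S] [Algebra A₀ S] (φ : R₀ →ₐ[A₀] S) (M : Type) [AddCommGroup M]
      [Module S M] [Module A₀ M] (D : Derivation A₀ S M), (∀ r ∈ I, φ r = 0) →
      (∀ h ∉ p, IsUnit (φ h)) → ∀ r, D (φ r) = 0) :
    ∀ r ∈ p, ∃ h ∉ p, h * r ∈ I := by
  let q : Ideal (R₀ ⧸ I) := p.map (Ideal.Quotient.mk I)
  have hq : q.IsPrime := Ideal.map_isPrime_of_surjective Ideal.Quotient.mk_surjective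
    (by simpa using hI)
  have hmem : ∀ r : R₀, Ideal.Quotient.mk I r ∈ q ↔ r ∈ p := by
    intro r
    rw [← Ideal.mem_comap, Ideal.comap_map_of_surjective _ Ideal.Quotient.mk_surjective,
      ← RingHom.ker_eq_comap_bot, Ideal.mk_ker, sup_eq_left.2 hI]
  let S := Localization.AtPrime q
  let φ : R₀ →ₐ[A₀] S := (IsScalarTower.toAlgHom A₀ (R₀ ⧸ I) S).comp (Ideal.Quotient.mkₐ A₀ I)
  have hφ : ∀ r, φ r = algebraMap (R₀ ⧸ I) S (Ideal.Quotient.mk I r) := fun r => rfl
  have hunit : ∀ h ∉ p, IsUnit (φ h) := fun h hh =>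
    IsLocalization.map_units S (⟨Ideal.Quotient.mk I h, fun hc => hh ((hmem h).1 hc)⟩ :
      q.primeCompl)
  have h0 := hD S φ _ (KaehlerDifferential.D A₀ S)
    (fun r hr => by rw [hφ, Ideal.Quotient.eq_zero_iff_mem.2 hr, map_zero]) hunit
  have hall : ∀ x : S, KaehlerDifferential.D A₀ S x = 0 := by
    intro x
    obtain ⟨⟨y, s⟩, hx⟩ := IsLocalization.surj q.primeCompl x
    obtain ⟨y, rfl⟩ := Ideal.Quotient.mk_surjective y
    obtain ⟨s, hs⟩ := s
    obtain ⟨s, rfl⟩ := Ideal.Quotient.mk_surjective s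
    have hx' : x * φ s = φ y := hx
    have := congrArg (KaehlerDifferential.D A₀ S) hx'
    rw [Derivation.leibniz, h0, h0, smul_zero, zero_add] at this
    exact (hunit s (fun hc => hs ((hmem s).2 hc))).smul_eq_zero.1 this
  have hU : Algebra.IsUnramifiedAt A₀ q := by
    constructor
    refine subsingleton_of_forall_eq 0 fun x => ?_
    have hx : x ∈ Submodule.span S (Set.range (KaehlerDifferential.D A₀ S)) := by
      rw [KaehlerDifferential.span_range_derivation]; trivial
    have : Submodule.span S (Set.range (KaehlerDifferential.D A₀ S)) = ⊥ := by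
      rw [Submodule.span_eq_bot]
      rintro _ ⟨y, rfl⟩
      exact hall y
    rwa [this] at hx
  let p₀ : Ideal A₀ := q.under A₀
  let := Localization.AtPrime.algebraOfLiesOver p₀ q
  have hm := ((Algebra.isUnramifiedAt_iff_map_eq A₀ p₀ q).1 hU).2
  have hbot : p₀.map (algebraMap A₀ S) = ⊥ := by
    rw [Ideal.map_eq_bot_iff_le_ker]
    intro a ha
    have h1 : algebraMap A₀ R₀ a ∈ p := (hmem _).1 ha
    rw [RingHom.mem_ker, ← φ.commutes, hφ, Ideal.Quotient.eq_zero_iff_mem.2 (hpI a h1), map_zero]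
  intro r hr
  have h1 : φ r ∈ IsLocalRing.maximalIdeal S := by
    rw [hφ, IsLocalization.AtPrime.to_map_mem_maximal_iff S q]
    exact (hmem r).2 hr
  rw [← hm, hbot, Ideal.mem_bot, hφ, IsLocalization.map_eq_zero_iff q.primeCompl] at h1
  obtain ⟨⟨s, hs⟩, h1⟩ := h1
  obtain ⟨s, rfl⟩ := Ideal.Quotient.mk_surjective s
  refine ⟨s, fun hc => hs ((hmem s).2 hc), ?_⟩
  rw [← Ideal.Quotient.eq_zero_iff_mem, map_mul]
  exact h1

/-- The coefficient vector of a line. -/
def local_param_cv (k : Type) [Field k] (a : Li) : Fin 3 → k :=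
  ![1, ((av a : ℤ) : k), ((av a : ℤ) : k) ^ 3]

theorem local_param_lin (a : Li) : lin k a = local_param_L (local_param_cv k a) := by
  simp [lin, local_param_L, local_param_cv]

theorem local_param_int (hk : GoodChar k) (z : ℤ) (h1 : -60 ≤ z) (h2 : z ≤ 60) (h : (z : k) = 0) :
    z = 0 := by
  by_contra hz
  apply hk z.natAbs (Int.natAbs_pos.2 hz) (by omega)
  rcases Int.natAbs_eq z with e | e
  · rw [e] at h; simpa using h
  · rw [e] at h; simpa using h

theorem local_param_sub (hk : GoodChar k) {a b : Li} (hab : a ≠ b) :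
    ((av b : ℤ) : k) - ((av a : ℤ) : k) ≠ 0 := by
  intro h
  have := local_param_int hk (av b - av a) (by unfold av; omega) (by unfold av; omega)
    (by push_cast; exact h)
  apply hab
  unfold av at this
  ext; omega

theorem local_param_cross (hk : GoodChar k) {a b : Li} (hab : a ≠ b) :
    crossProduct (local_param_cv k a) (local_param_cv k b) ≠ 0 := by
  intro h
  have := congrFun h 2
  simp [cross_apply, local_param_cv] at this
  exact local_param_sub hk hab this

theorem goodPair_uv (hk : GoodChar k) (P : Par k) (t : Tr) :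
    GoodPair k (yR P (.u t)) (yR P (.v t)) := by
  have rel := R_rel P
  have hs := rel.s
  have hu := rel.u t
  have hv := rel.v t
  have huv := rel.uv t
  simp only [one_pow, one_mul, Algebra.smul_def] at hs hu hv huv
  obtain ⟨hal, hbe, hga⟩ := par_ne_zero hk P t
  have h2 : (2 : k) ≠ 0 := by exact_mod_cast hk 2 (by norm_num) (by norm_num)
  have hab : t.a ≠ t.b := ne_of_lt t.2.1
  have hC : ∀ x y : k, algebraMap (A k) (R P) (C x) * algebraMap (A k) (R P) (C y) =
      algebraMap (A k) (R P) (C (x * y)) := fun x y => by rw [← map_mul, ← C_mul]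
  have hinv : ∀ x : k, x ≠ 0 → algebraMap (A k) (R P) (C (2 * x)⁻¹) *
      (2 * algebraMap (A k) (R P) (C x)) = 1 := by
    intro x hx
    have e : (2 : R P) = algebraMap (A k) (R P) (C 2) := by
      rw [map_ofNat, map_ofNat]
    rw [e, hC, hC, inv_mul_cancel₀ (mul_ne_zero h2 hx), C_1, map_one]
  refine ⟨⟨yR P (.v t) * yR P (.s t.c), C (P.ga t) * lin k t.c,
    mul_ne_zero (C_ne_zero.2 hga) (lin_ne_zero _), ?_⟩, lin k t.a, lin k t.b, ?_, ?_, ?_⟩
  · rw [map_mul, ← hs, ← mul_assoc, huv, mul_assoc]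
  · rw [local_param_lin, local_param_lin]
    exact local_param_relPrime _ _ (local_param_cross hk hab)
  · rw [Ideal.mem_span_pair]
    refine ⟨algebraMap (A k) (R P) (C (2 * P.al t)⁻¹) * yR P (.s t.a) * yR P (.u t),
      algebraMap (A k) (R P) (C (2 * P.al t)⁻¹) * yR P (.s t.a) * yR P (.v t), ?_⟩
    rw [← hs]
    linear_combination (algebraMap (A k) (R P) (C (2 * P.al t)⁻¹) * yR P (.s t.a)) * (hu + hv) +
      (yR P (.s t.a) * yR P (.s t.a)) * hinv _ hal
  · rw [Ideal.mem_span_pair]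
    refine ⟨algebraMap (A k) (R P) (C (2 * P.be t)⁻¹) * yR P (.s t.b) * yR P (.u t),
      -(algebraMap (A k) (R P) (C (2 * P.be t)⁻¹) * yR P (.s t.b) * yR P (.v t)), ?_⟩
    rw [← hs]
    linear_combination (algebraMap (A k) (R P) (C (2 * P.be t)⁻¹) * yR P (.s t.b)) * (hu - hv) +
      (yR P (.s t.b) * yR P (.s t.b)) * hinv _ hbe

theorem local_param_three (hk : GoodChar k) (Pt : Fin 3 → k) (hP : Pt ≠ 0) {a b c : Li}
    (hab : a ≠ b) (hac : a ≠ c) (hbc : b ≠ c) (ha : lin k a ∈ ptIdeal Pt)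
    (hb : lin k b ∈ ptIdeal Pt) (hc : lin k c ∈ ptIdeal Pt) : a.val + b.val + c.val = 27 := by
  rw [local_param_lin, local_param_L_mem] at ha hb hc
  have hdet := local_param_det Pt _ _ _ hP ha hb hc
  simp only [local_param_cv, Matrix.cons_val_zero, Matrix.cons_val_one, Matrix.cons_val] at hdet
  have h1 := local_param_sub hk hab
  have h2 := local_param_sub hk hac
  have h3 := local_param_sub hk hbc
  have h4 : (((av b : ℤ) : k) - ((av a : ℤ) : k)) * (((av c : ℤ) : k) - ((av a : ℤ) : k)) *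
      (((av c : ℤ) : k) - ((av b : ℤ) : k)) *
      (((av a : ℤ) : k) + ((av b : ℤ) : k) + ((av c : ℤ) : k)) = 0 := by
    linear_combination hdet
  have h5 := (mul_eq_zero.1 h4).resolve_left (mul_ne_zero (mul_ne_zero h1 h2) h3)
  have := local_param_int hk (av a + av b + av c) (by unfold av; omega) (by unfold av; omega)
    (by push_cast; exact h5)
  unfold av at this
  omega

theorem local_param_tr (a b c : Li) (hab : a ≠ b) (hac : a ≠ c) (hbc : b ≠ c)
    (h : a.val + b.val + c.val = 27) :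
    ∃ t : Tr, (t.a = a ∨ t.a = b ∨ t.a = c) ∧ (t.b = a ∨ t.b = b ∨ t.b = c) := by
  have h1 : a.val ≠ b.val := fun e => hab (Fin.ext e)
  have h2 : a.val ≠ c.val := fun e => hac (Fin.ext e)
  have h3 : b.val ≠ c.val := fun e => hbc (Fin.ext e)
  rcases lt_or_gt_of_ne h1 with h1 | h1 <;> rcases lt_or_gt_of_ne h2 with h2 | h2 <;>
    rcases lt_or_gt_of_ne h3 with h3 | h3
  · exact ⟨⟨(a, b, c), h1, h3, by simp only; omega⟩, Or.inl rfl, Or.inr (Or.inl rfl)⟩
  · exact ⟨⟨(a, c, b), h2, h3, by simp only; omega⟩, Or.inl rfl, Or.inr (Or.inr rfl)⟩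
  · omega
  · exact ⟨⟨(c, a, b), h2, h1, by simp only; omega⟩, Or.inr (Or.inr rfl), Or.inl rfl⟩
  · exact ⟨⟨(b, a, c), h1, h2, by simp only; omega⟩, Or.inr (Or.inl rfl), Or.inl rfl⟩
  · omega
  · exact ⟨⟨(b, c, a), h3, h2, by simp only; omega⟩, Or.inr (Or.inl rfl), Or.inr (Or.inr rfl)⟩
  · exact ⟨⟨(c, b, a), h3, h1, by simp only; omega⟩, Or.inr (Or.inr rfl), Or.inr (Or.inl rfl)⟩

theorem local_param_core (hk : GoodChar k) (P : Par k) (p : Ideal (R P)) [hp : p.IsPrime]
    (I : Ideal (R P)) (hI : I ≤ p)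
    (hpI : ∀ a : A k, algebraMap (A k) (R P) a ∈ p → algebraMap (A k) (R P) a ∈ I)
    (H1 : ∀ a, algebraMap (A k) (R P) (lin k a) ∈ p → yR P (.s a) ∈ I)
    (H2 : ∀ t, yR P (.u t) ∈ p → yR P (.v t) ∈ p → yR P (.u t) ∈ I ∧ yR P (.v t) ∈ I) :
    ∀ r ∈ p, ∃ h ∉ p, h * r ∈ I := by
  refine local_param_gen (A₀ := A k) p I hI hpI fun S _ _ φ M _ _ _ D h0 hu => ?_
  have rel := R_rel P
  have h2k : (2 : k) ≠ 0 := by exact_mod_cast hk 2 (by norm_num) (by norm_num)
  have h2 : IsUnit (2 : S) := by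
    have := ((IsUnit.mk0 _ h2k).map (C : k →+* A k)).map (algebraMap (A k) S)
    rwa [map_ofNat, map_ofNat] at this
  have sq : ∀ x : S, IsUnit x → D (x * x) = 0 → D x = 0 := by
    intro x hx h
    rw [Derivation.leibniz, ← add_smul, ← two_mul] at h
    exact (h2.mul hx).smul_eq_zero.1 h
  have hsm : ∀ (a : A k) (r : R P), D (φ r) = 0 → D (φ (a • r)) = 0 := by
    intro a r h
    rw [map_smul, Derivation.map_smul, h, smul_zero]
  have hs : ∀ a, D (φ (yR P (.s a))) = 0 := by
    intro a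
    by_cases ha : yR P (.s a) ∈ p
    · have : algebraMap (A k) (R P) (lin k a) ∈ p := by
        have := rel.s a
        rw [one_pow, one_mul] at this
        rw [← this]; exact p.mul_mem_left _ ha
      rw [h0 _ (H1 a this), map_zero]
    · refine sq _ (hu _ ha) ?_
      rw [← map_mul, rel.s, φ.commutes, Derivation.map_algebraMap]
  have huv : ∀ t, D (φ (yR P (.u t))) = 0 ∧ D (φ (yR P (.v t))) = 0 := by
    intro t
    have e3 : D (φ (yR P (.u t)) * φ (yR P (.v t))) = 0 := by
      rw [← map_mul, rel.uv]; exact hsm _ _ (hs _)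
    by_cases h1 : yR P (.u t) ∈ p
    · by_cases h2 : yR P (.v t) ∈ p
      · obtain ⟨h3, h4⟩ := H2 t h1 h2
        rw [h0 _ h3, h0 _ h4, map_zero]; exact ⟨rfl, rfl⟩
      · have e : D (φ (yR P (.v t))) = 0 := by
          refine sq _ (hu _ h2) ?_
          rw [← map_mul, rel.v, map_sub, map_sub, hsm _ _ (hs _), hsm _ _ (hs _), sub_zero]
        rw [Derivation.leibniz, e, smul_zero, zero_add] at e3
        exact ⟨(hu _ h2).smul_eq_zero.1 e3, e⟩
    · have e : D (φ (yR P (.u t))) = 0 := by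
        refine sq _ (hu _ h1) ?_
        rw [← map_mul, rel.u, map_add, map_add, hsm _ _ (hs _), hsm _ _ (hs _), add_zero]
      rw [Derivation.leibniz, e, smul_zero, add_zero] at e3
      exact ⟨e, (hu _ h1).smul_eq_zero.1 e3⟩
  refine R_induction P (fun r => D (φ r) = 0) (fun a => ?_) (fun r r' h h' => ?_) (fun g r h => ?_)
  · rw [φ.commutes, Derivation.map_algebraMap]
  · rw [map_add, map_add, h, h', add_zero]
  · have : D (φ (yR P g)) = 0 := by
      cases g with
      | s a => exact hs a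
      | u t => exact (huv t).1
      | v t => exact (huv t).2
    rw [map_mul, Derivation.leibniz, h, this, smul_zero, smul_zero, add_zero]

theorem local_param_uv (hk : GoodChar k) (P : Par k) (t : Tr) (J : Ideal (R P))
    (hu : yR P (.u t) ∈ J) (hv : yR P (.v t) ∈ J) :
    yR P (.s t.a) ∈ J ∧ yR P (.s t.b) ∈ J ∧ yR P (.s t.c) ∈ J := by
  have rel := R_rel P
  have h2k : (2 : k) ≠ 0 := by exact_mod_cast hk 2 (by norm_num) (by norm_num)
  obtain ⟨ha, hb, hc⟩ := par_ne_zero hk P t
  have key : ∀ (c : k) (r : R P), c ≠ 0 → (C c : A k) • r ∈ J → r ∈ J := by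
    intro c r hc h
    have : r = (C c⁻¹ : A k) • (C c : A k) • r := by
      rw [smul_smul, ← C_mul, inv_mul_cancel₀ hc, C_1, one_smul]
    rw [this, Algebra.smul_def]
    exact J.mul_mem_left _ h
  have h1 : yR P (.u t) * yR P (.u t) ∈ J := J.mul_mem_left _ hu
  have h2 : yR P (.v t) * yR P (.v t) ∈ J := J.mul_mem_left _ hv
  have h3 : yR P (.u t) * yR P (.v t) ∈ J := J.mul_mem_left _ hv
  rw [rel.u, one_mul, one_mul] at h1
  rw [rel.v, one_mul, one_mul] at h2
  rw [rel.uv, one_mul] at h3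
  refine ⟨key (2 * P.al t) _ (mul_ne_zero h2k ha) ?_, key (2 * P.be t) _ (mul_ne_zero h2k hb) ?_,
    key _ _ hc h3⟩
  · have := J.add_mem h1 h2
    rwa [add_add_sub_cancel, ← add_smul, ← C_add, ← two_mul] at this
  · have := J.sub_mem h1 h2
    rwa [add_sub_sub_cancel, ← add_smul, ← C_add, ← two_mul] at this

set_option maxHeartbeats 800000 in
/-- `R` is regular at the point primes: the maximal ideal of `R_p` is generated by a good pair. -/
theorem local_param (hk : GoodChar k) (P : Par k) (p : Ideal (R P)) (hp : IsPt k p) :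
    ∃ a b : R P, a ∈ p ∧ b ∈ p ∧ GoodPair k a b ∧
      ∀ r ∈ p, ∃ h ∉ p, h * r ∈ Ideal.span {a, b} := by
  obtain ⟨hprime, Pt, hP, hcom⟩ := hp
  have rel := R_rel P
  have hmem : ∀ f : A k, algebraMap (A k) (R P) f ∈ p ↔ f ∈ ptIdeal Pt := fun f => by
    rw [← hcom, Ideal.mem_comap]
  have hss : ∀ a, yR P (.s a) * yR P (.s a) = algebraMap (A k) (R P) (lin k a) := fun a => by
    have := rel.s a
    rwa [one_pow, one_mul] at this
  have hsp : ∀ a, yR P (.s a) ∈ p ↔ lin k a ∈ ptIdeal Pt := fun a => by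
    rw [← hmem, ← hss]
    exact ⟨fun h => p.mul_mem_left _ h, fun h => (hprime.mem_or_mem h).elim id id⟩
  have hsJ : ∀ (J : Ideal (R P)) a, yR P (.s a) ∈ J → algebraMap (A k) (R P) (lin k a) ∈ J :=
    fun J a h => by rw [← hss]; exact J.mul_mem_left _ h
  have hspan : ∀ (J : Ideal (R P)) (f₁ f₂ : A k), ptIdeal Pt = Ideal.span {f₁, f₂} →
      algebraMap (A k) (R P) f₁ ∈ J → algebraMap (A k) (R P) f₂ ∈ J →
      ∀ a : A k, algebraMap (A k) (R P) a ∈ p → algebraMap (A k) (R P) a ∈ J := by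
    intro J f₁ f₂ e h1 h2 a ha
    rw [hmem, e, Ideal.mem_span_pair] at ha
    obtain ⟨x, y, rfl⟩ := ha
    rw [map_add, map_mul, map_mul]
    exact J.add_mem (J.mul_mem_left _ h1) (J.mul_mem_left _ h2)
  have hlines : ∀ {a b : Li}, a ≠ b → lin k a ∈ ptIdeal Pt → lin k b ∈ ptIdeal Pt →
      ptIdeal Pt = Ideal.span {lin k a, lin k b} := by
    intro a b hab ha hb
    rw [local_param_lin, local_param_L_mem] at ha hb
    rw [local_param_lin, local_param_lin]
    exact local_param_span Pt _ _ hP (local_param_cross hk hab) ha hb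
  have hle : ∀ x y : R P, x ∈ p → y ∈ p → Ideal.span {x, y} ≤ p := by
    intro x y hx hy
    rw [Ideal.span_le]
    rintro _ (rfl | rfl)
    exacts [hx, hy]
  have m1 : ∀ x y : R P, x ∈ Ideal.span {x, y} := fun x y => Ideal.subset_span (by simp)
  have m2 : ∀ x y : R P, y ∈ Ideal.span {x, y} := fun x y => Ideal.subset_span (by simp)
  by_cases hT : ∃ t : Tr, lin k t.a ∈ ptIdeal Pt ∧ lin k t.b ∈ ptIdeal Pt
  · obtain ⟨t, ha, hb⟩ := hT
    obtain ⟨hlt1, hlt2, hsum⟩ := t.2
    have hab : t.a ≠ t.b := ne_of_lt hlt1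
    have hu : yR P (.u t) ∈ p := by
      refine (hprime.mem_or_mem (x := yR P (.u t)) (y := yR P (.u t)) ?_).elim id id
      rw [rel.u, Algebra.smul_def, Algebra.smul_def]
      exact p.add_mem (p.mul_mem_left _ ((hsp _).2 ha)) (p.mul_mem_left _ ((hsp _).2 hb))
    have hv : yR P (.v t) ∈ p := by
      refine (hprime.mem_or_mem (x := yR P (.v t)) (y := yR P (.v t)) ?_).elim id id
      rw [rel.v, Algebra.smul_def, Algebra.smul_def]
      exact p.sub_mem (p.mul_mem_left _ ((hsp _).2 ha)) (p.mul_mem_left _ ((hsp _).2 hb))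
    obtain ⟨j1, j2, j3⟩ := local_param_uv hk P t _ (m1 _ _) (m2 _ _)
    have hS0 : ∀ a, lin k a ∈ ptIdeal Pt → a = t.a ∨ a = t.b ∨ a = t.c := by
      intro a h
      by_cases e1 : t.a = a
      · exact Or.inl e1.symm
      by_cases e2 : t.b = a
      · exact Or.inr (Or.inl e2.symm)
      have := local_param_three hk Pt hP hab e1 e2 ha hb h
      refine Or.inr (Or.inr (Fin.ext ?_))
      simp only [Tr.a, Tr.b, Tr.c] at this ⊢
      omega
    refine ⟨_, _, hu, hv, goodPair_uv hk P t, local_param_core hk P p _ (hle _ _ hu hv)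
      (hspan _ _ _ (hlines hab ha hb) (hsJ _ _ j1) (hsJ _ _ j2)) (fun a h => ?_) (fun t' h1 h2 => ?_)⟩
    · rcases hS0 a ((hmem _).1 h) with rfl | rfl | rfl
      exacts [j1, j2, j3]
    · obtain ⟨i1, i2, i3⟩ := local_param_uv hk P t' p h1 h2
      have k1 := hS0 _ ((hsp _).1 i1)
      have k2 := hS0 _ ((hsp _).1 i2)
      have k3 := hS0 _ ((hsp _).1 i3)
      obtain ⟨g1, g2, g3⟩ := t'.2
      have : t' = t := by
        simp only [Tr.a, Tr.b, Tr.c, Fin.ext_iff, Fin.lt_def] at k1 k2 k3 g1 g2 hlt1 hlt2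
        refine Subtype.ext (Prod.ext (Fin.ext ?_) (Prod.ext (Fin.ext ?_) (Fin.ext ?_))) <;> omega
      subst this
      exact ⟨m1 _ _, m2 _ _⟩
  have H2 : ∀ (J : Ideal (R P)) t, yR P (.u t) ∈ p → yR P (.v t) ∈ p →
      yR P (.u t) ∈ J ∧ yR P (.v t) ∈ J := by
    intro J t h1 h2
    obtain ⟨i1, i2, -⟩ := local_param_uv hk P t p h1 h2
    exact (hT ⟨t, (hsp _).1 i1, (hsp _).1 i2⟩).elim
  by_cases h1 : ∃ a, lin k a ∈ ptIdeal Pt
  · obtain ⟨a, ha⟩ := h1
    have hgp : ∃ (a' : R P) (f : A k), f ≠ 0 ∧ yR P (.s a) * a' = algebraMap _ _ f :=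
      ⟨_, _, lin_ne_zero a, hss a⟩
    by_cases h2 : ∃ b, a ≠ b ∧ lin k b ∈ ptIdeal Pt
    · obtain ⟨b, hab, hb⟩ := h2
      refine ⟨yR P (.s a), yR P (.s b), (hsp _).2 ha, (hsp _).2 hb,
        ⟨hgp, lin k a, lin k b, ?_, hsJ _ _ (m1 _ _), hsJ _ _ (m2 _ _)⟩,
        local_param_core hk P p _ (hle _ _ ((hsp _).2 ha) ((hsp _).2 hb))
        (hspan _ _ _ (hlines hab ha hb) (hsJ _ _ (m1 _ _)) (hsJ _ _ (m2 _ _))) (fun c h => ?_)
        (H2 _)⟩
      · rw [local_param_lin, local_param_lin]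
        exact local_param_relPrime _ _ (local_param_cross hk hab)
      · have hc := (hmem _).1 h
        by_cases e1 : a = c
        · subst e1; exact m1 _ _
        by_cases e2 : b = c
        · subst e2; exact m2 _ _
        obtain ⟨t, k1, k2⟩ := local_param_tr a b c hab e1 e2
          (local_param_three hk Pt hP hab e1 e2 ha hb hc)
        refine (hT ⟨t, ?_, ?_⟩).elim
        · rcases k1 with e | e | e <;> rw [e]
          exacts [ha, hb, hc]
        · rcases k2 with e | e | e <;> rw [e]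
          exacts [ha, hb, hc]
    · have ha' := ha
      rw [local_param_lin, local_param_L_mem] at ha'
      let d : Fin 3 → k := ![0, Pt 2, -Pt 1]
      have hd : d 0 * Pt 0 + d 1 * Pt 1 + d 2 * Pt 2 = 0 := by simp [d]; ring
      have hcd : crossProduct (local_param_cv k a) d ≠ 0 := by
        intro h
        have e1 := congrFun h 1
        have e2 := congrFun h 2
        simp [cross_apply, local_param_cv, d] at e1 e2
        simp [local_param_cv, e1, e2] at ha'
        apply hP
        ext i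
        fin_cases i <;> simp [e1, e2, ha']
      have hsp' := local_param_span Pt _ _ hP hcd ha' hd
      have hrel := local_param_relPrime _ _ hcd
      rw [← local_param_lin] at hsp' hrel
      have hdp : algebraMap (A k) (R P) (local_param_L d) ∈ p :=
        (hmem _).2 ((local_param_L_mem Pt d).2 hd)
      refine ⟨yR P (.s a), _, (hsp _).2 ha, hdp,
        ⟨hgp, lin k a, _, hrel, hsJ _ _ (m1 _ _), m2 _ _⟩,
        local_param_core hk P p _ (hle _ _ ((hsp _).2 ha) hdp)
        (hspan _ _ _ hsp' (hsJ _ _ (m1 _ _)) (m2 _ _)) (fun c h => ?_) (H2 _)⟩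
      by_cases e1 : a = c
      · subst e1; exact m1 _ _
      exact (h2 ⟨c, e1, (hmem _).1 h⟩).elim
  · obtain ⟨f₁, f₂, hf, hrel, e⟩ := ptIdeal_eq_span Pt hP
    have i1 : algebraMap (A k) (R P) f₁ ∈ p :=
      (hmem _).2 (e ▸ Ideal.subset_span (by simp))
    have i2 : algebraMap (A k) (R P) f₂ ∈ p :=
      (hmem _).2 (e ▸ Ideal.subset_span (by simp))
    exact ⟨_, _, i1, i2, ⟨⟨1, f₁, hf, mul_one _⟩, f₁, f₂, hrel, m1 _ _, m2 _ _⟩,
      local_param_core hk P p _ (hle _ _ i1 i2) (hspan _ _ _ e (m1 _ _) (m2 _ _))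
        (fun c h => (h1 ⟨c, (hmem _).1 h⟩).elim) (H2 _)⟩

end Crest.Agent.R169
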