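import Crest.Agent.R169.Kos
import Crest.Agent.R169.Ring

/-!
# Row 169: a Riemann-Roch formula `τ(R) τ(V ⊗ G) = τ(V) τ(G)`
-/

set_option autoImplicit false

namespace Crest.Agent.R169

open MvPolynomial TensorProduct

variable {k : Type} [Field k] {lam : kˣ} {w : ℕ}

section Gen

variable {S : Type} [CommRing S] [Algebra k S] [Algebra (A k) S] [IsScalarTower k (A k) S]

/-- A graded finite `A`-algebra. -/
structure GR (lam : kˣ) (w : ℕ) (θs : S ≃ₐ[k] S) : Prop where
  inf : InfOrd lam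
  pos : 0 < w
  compat : ∀ a : A k, θs (algebraMap _ _ a) = algebraMap _ _ (θA lam w a)
  gs : GS lam θs.toLinearMap (⊤ : Submodule (A k) S)

variable {V : Type} [AddCommGroup V] [Module k V] [Module (A k) V] [Module S V]
  [IsScalarTower k (A k) V] [IsScalarTower (A k) S V] [IsScalarTower k S V]
variable {G : Type} [AddCommGroup G] [Module k G] [Module (A k) G] [Module S G]
  [IsScalarTower k (A k) G] [IsScalarTower (A k) S G] [IsScalarTower k S G]
variable {G' : Type} [AddCommGroup G'] [Module k G'] [Module (A k) G'] [Module S G']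
  [IsScalarTower k (A k) G'] [IsScalarTower (A k) S G'] [IsScalarTower k S G']
variable {G'' : Type} [AddCommGroup G''] [Module k G''] [Module (A k) G''] [Module S G'']
  [IsScalarTower k (A k) G''] [IsScalarTower (A k) S G''] [IsScalarTower k S G'']

/-- A finitely generated graded `S`-module. -/
structure GM (lam : kˣ) (θs : S ≃ₐ[k] S) (θ : G →ₗ[k] G) : Prop where
  sl : ∀ (r : S) (v : G), θ (r • v) = θs r • θ v
  gs : GS lam θ (⊤ : Submodule (A k) G)

/-- `θT` is the tensor product grading. -/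
def IsTen (θV : V →ₗ[k] V) (θG : G →ₗ[k] G) (θT : V ⊗[S] G →ₗ[k] V ⊗[S] G) : Prop :=
  ∀ v g, θT (v ⊗ₜ g) = θV v ⊗ₜ θG g

variable {θs : S ≃ₐ[k] S} {θV : V →ₗ[k] V} {θG : G →ₗ[k] G} {θG' : G' →ₗ[k] G'}
  {θG'' : G'' →ₗ[k] G''}

/-! ### Subtask RR-a -/

omit [IsScalarTower k S G] in
theorem GR.gd_aux (h : GR lam w θs) (hG : ∀ (r : S) (v : G), θG (r • v) = θs r • θG v) :
    Gd lam w θG := by
  refine ⟨h.inf, h.pos, fun i v => ?_⟩
  have h1 : θA lam w (X i : A k) = C ((lam ^ w : kˣ) : k) * X i := by simp [θA]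
  rw [← algebraMap_smul S (X i : A k) v, hG, h.compat, algebraMap_smul, h1, mul_smul,
    ← algebraMap_eq, algebraMap_smul]

theorem GR.gd (h : GR lam w θs) : Gd lam w θs.toLinearMap := by
  exact GR.gd_aux h fun r v => map_mul θs r v

theorem GR.gm (h : GR lam w θs) : GM lam θs θs.toLinearMap := by
  exact ⟨fun r v => map_mul θs r v, h.gs⟩

theorem GR.finite (h : GR lam w θs) : Module.Finite (A k) S := by
  exact ⟨h.gs.fg⟩

theorem gr_A (hl : InfOrd lam) (hw : 0 < w) : GR lam w (θA lam w) := by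
  exact ⟨hl, hw, fun _ => rfl, gs_A lam w⟩

theorem GM.gd (h : GR lam w θs) (hG : GM lam θs θG) : Gd lam w θG := by
  exact GR.gd_aux h hG.sl

theorem exists_isTen (hV : GM lam θs θV) (hG : GM lam θs θG) :
    ∃ θT : V ⊗[S] G →ₗ[k] V ⊗[S] G, IsTen θV θG θT := by
  let b : V →+ G →+ V ⊗[S] G :=
    { toFun := fun v =>
        { toFun := fun g => θV v ⊗ₜ θG g
          map_zero' := by simp
          map_add' := fun g g' => by rw [map_add, tmul_add] }
      map_zero' := by ext g; simp
      map_add' := fun v v' => by ext g; simp [add_tmul] }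
  have hb : ∀ (r : S) (v : V) (g : G), b (r • v) g = b v (r • g) := fun r v g => by
    change θV (r • v) ⊗ₜ[S] θG g = θV v ⊗ₜ[S] θG (r • g)
    rw [hV.sl, hG.sl, smul_tmul]
  let T := TensorProduct.liftAddHom b hb
  have hT : ∀ v g, T (v ⊗ₜ g) = θV v ⊗ₜ θG g := fun v g => liftAddHom_tmul b hb v g
  refine ⟨{ toFun := T, map_add' := map_add T, map_smul' := fun c x => ?_ }, hT⟩
  induction x with
  | zero => simp
  | tmul v g => rw [smul_tmul', hT, hT, map_smul, RingHom.id_apply, smul_tmul']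
  | add x y hx hy => rw [smul_add, map_add, map_add, hx, hy, smul_add]

theorem IsTen.gm (h : GR lam w θs) (hV : GM lam θs θV) (hG : GM lam θs θG)
    {θT : V ⊗[S] G →ₗ[k] V ⊗[S] G} (hT : IsTen θV θG θT) : GM lam θs θT := by
  have := h.finite
  have : Module.Finite (A k) V := ⟨hV.gs.fg⟩
  have : Module.Finite (A k) G := ⟨hG.gs.fg⟩
  have : Module.Finite S V := Module.Finite.of_restrictScalars_finite (A k) S V
  have : Module.Finite S G := Module.Finite.of_restrictScalars_finite (A k) S G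
  have hfin : Module.Finite (A k) (V ⊗[S] G) := Module.Finite.trans S (V ⊗[S] G)
  refine ⟨fun r x => ?_, hfin.fg_top, fun x hx => ?_⟩
  · induction x with
    | zero => simp
    | tmul v g => rw [smul_tmul', hT, hT, hV.sl, smul_tmul']
    | add x y hx hy => rw [smul_add, map_add, map_add, hx, hy, smul_add]
  · clear hx
    induction x with
    | zero => exact zero_mem _
    | add x y hx hy => exact add_mem hx hy
    | tmul v g =>
      obtain ⟨s, c, hc, rfl⟩ := hV.gs.exists_sum (Submodule.mem_top (x := v))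
      obtain ⟨t, d, hd, rfl⟩ := hG.gs.exists_sum (Submodule.mem_top (x := g))
      rw [sum_tmul]
      refine Submodule.sum_mem _ fun n _ => ?_
      rw [tmul_sum]
      refine Submodule.sum_mem _ fun m _ => Submodule.mem_iSup_of_mem (n + m) ⟨trivial, ?_⟩
      refine mem_eig.2 ?_
      rw [hT, mem_eig.1 (hc n).2, mem_eig.1 (hd m).2, tmul_smul, ← smul_tmul', smul_smul,
        zpow_add, Units.val_mul, mul_comm]

theorem pow_smul_mem_of_pt_aeval (P : Fin 3 → k) {φ : A k} {j : ℕ} (hφ : φ.IsHomogeneous j) :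
    (aeval (fun i => Polynomial.C (P i) * Polynomial.X) : A k →ₐ[k] Polynomial k) φ =
      Polynomial.C (aeval P φ) * Polynomial.X ^ j := by
  conv_lhs => rw [φ.as_sum]
  conv_rhs => rw [φ.as_sum]
  simp only [map_sum, Finset.sum_mul]
  refine Finset.sum_congr rfl fun d hd => ?_
  have hd' : d.degree = j := by
    by_contra h0
    exact (mem_support_iff.1 hd) (hφ.coeff_eq_zero h0)
  rw [aeval_monomial, aeval_monomial, Finsupp.prod_fintype _ _ (by simp),
    Finsupp.prod_fintype _ _ (by simp), ← hd', Finsupp.degree_eq_sum]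
  simp only [Fin.prod_univ_three, Fin.sum_univ_three, map_mul, map_pow, Polynomial.algebraMap_eq,
    Algebra.algebraMap_self, RingHom.id_apply]
  ring

/-- Projective Nullstellensatz, elementwise. -/
theorem pow_smul_mem_of_pt [IsAlgClosed k] (h : GR lam w θs) (g : Gd lam w θG)
    {N' : Submodule S G} (hN' : ∀ v ∈ N', θG v ∈ N') {z : G} {n : ℤ} (hzn : z ∈ eig lam θG n)
    (hz : ∀ p : Ideal S, IsPt k p → ∃ r ∉ p, r • z ∈ N') (i : Fin 3) :
    ∃ m : ℕ, (X i : A k) ^ m • z ∈ N' := by
  have := h.finite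
  let Js : Ideal S := N'.comap (LinearMap.toSpanSingleton S G z)
  let J : Ideal (A k) := Js.comap (algebraMap (A k) S)
  have hJ : ∀ a : A k, a ∈ J ↔ a • z ∈ N' := fun a => by
    change algebraMap (A k) S a • z ∈ N' ↔ _
    rw [algebraMap_smul]
  have hX : (X i : A k) ∈ J.radical := by
    rw [← vanishingIdeal_zeroLocus_eq_radical (K := k), mem_vanishingIdeal_iff]
    intro P hP
    rw [aeval_X]
    by_contra hi
    have hP0 : P ≠ 0 := fun h0 => hi (by rw [h0]; rfl)
    have hle : J ≤ ptIdeal P := fun f hf => by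
      rw [ptIdeal, RingHom.mem_ker, ← sum_homogeneousComponent f, map_sum]
      refine Finset.sum_eq_zero fun j _ => ?_
      have h1 : homogeneousComponent j f ∈ J :=
        (hJ _).2 (homogeneousComponent_smul_mem g (N'.restrictScalars (A k)) hN' hzn
          ((hJ f).1 hf) j)
      rw [pow_smul_mem_of_pt_aeval P (homogeneousComponent_isHomogeneous j f), hP _ h1]
      simp
    have : (ptIdeal P).IsPrime := RingHom.ker_isPrime _
    obtain ⟨Q, hQ, hQp, hQc⟩ := Ideal.exists_ideal_over_prime_of_isIntegral (ptIdeal P) Js hle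
    obtain ⟨r, hr, hr'⟩ := hz Q ⟨hQp, P, hP0, hQc⟩
    exact hr (hQ hr')
  obtain ⟨m, hm⟩ := hX
  exact ⟨m, (hJ _).1 hm⟩

/-- A graded quotient that vanishes at all point primes has finite length. -/
theorem tauS_eq_of_pt [IsAlgClosed k] (h : GR lam w θs) (g : Gd lam w θG)
    {N : Submodule (A k) G} {N' : Submodule S G} (hN : GS lam θG N)
    (hN' : GS lam θG (N'.restrictScalars (A k))) (hle : N'.restrictScalars (A k) ≤ N)
    (hz : ∀ z ∈ N, ∀ p : Ideal S, IsPt k p → ∃ r ∉ p, r • z ∈ N') :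
    tauS lam w θG N = tauS lam w θG (N'.restrictScalars (A k)) := by
  refine tauS_eq_of_neg g hN hN' hle fun v hv i => ?_
  obtain ⟨s, c, hc, rfl⟩ := hN.exists_sum hv
  choose m hm using fun n => pow_smul_mem_of_pt h g hN'.stable (hc n).2 (hz _ (hc n).1) i
  refine ⟨s.sup m, ?_⟩
  rw [Finset.smul_sum]
  refine Submodule.sum_mem _ fun n hn => ?_
  obtain ⟨e, he⟩ := Nat.exists_eq_add_of_le' (Finset.le_sup (f := m) hn)
  rw [he, pow_add, mul_smul]
  exact (N'.restrictScalars (A k)).smul_mem _ (hm n)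

omit [IsScalarTower k (A k) S] [Module (A k) V] [IsScalarTower k (A k) V]
  [IsScalarTower (A k) S V] [Module (A k) G] [IsScalarTower k (A k) G] [IsScalarTower (A k) S G]
  [IsScalarTower k S G] [Module (A k) G'] [IsScalarTower k (A k) G'] [IsScalarTower (A k) S G']
  [IsScalarTower k S G'] [Algebra (A k) S] in
theorem tau_tensor_add_hom (f : G' →ₗ[S] G) (df : HomDeg lam θG' θG f 0)
    {θT' : V ⊗[S] G' →ₗ[k] V ⊗[S] G'} {θT : V ⊗[S] G →ₗ[k] V ⊗[S] G} (hT' : IsTen θV θG' θT')
    (hT : IsTen θV θG θT) : HomDeg lam θT' θT (LinearMap.lTensor V f) 0 := by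
  intro x
  rw [zpow_zero, Units.val_one, one_smul]
  induction x with
  | zero => simp
  | tmul v g =>
    rw [LinearMap.lTensor_tmul, hT, hT', LinearMap.lTensor_tmul, df, zpow_zero, Units.val_one,
      one_smul]
  | add x y hx hy => simp only [map_add, hx, hy]

/-- Additivity of `τ(V ⊗ -)`. -/
theorem tau_tensor_add [IsAlgClosed k] (h : GR lam w θs) (hV : GM lam θs θV) (fl : FlatOff k S V)
    (hG' : GM lam θs θG') (hG : GM lam θs θG) (hG'' : GM lam θs θG'') (f : G' →ₗ[S] G)
    (g : G →ₗ[S] G'') (hf : Function.Injective f) (hfg : Function.Exact f g)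
    (hg : Function.Surjective g) (df : HomDeg lam θG' θG f 0) (dg : HomDeg lam θG θG'' g 0)
    {θT' : V ⊗[S] G' →ₗ[k] V ⊗[S] G'} {θT : V ⊗[S] G →ₗ[k] V ⊗[S] G}
    {θT'' : V ⊗[S] G'' →ₗ[k] V ⊗[S] G''} (hT' : IsTen θV θG' θT') (hT : IsTen θV θG θT)
    (hT'' : IsTen θV θG'' θT'') :
    tauS lam w θT ⊤ = tauS lam w θT' ⊤ + tauS lam w θT'' ⊤ := by
  have m' := hT'.gm h hV hG'
  have m := hT.gm h hV hG
  have g' := m'.gd h
  have g0 := m.gd h
  let φ : V ⊗[S] G' →ₗ[A k] V ⊗[S] G := (LinearMap.lTensor V f).restrictScalars (A k)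
  let ψ : V ⊗[S] G →ₗ[A k] V ⊗[S] G'' := (LinearMap.lTensor V g).restrictScalars (A k)
  have dφ : HomDeg lam θT' θT φ 0 := tau_tensor_add_hom f df hT' hT
  have dψ : HomDeg lam θT θT'' ψ 0 := tau_tensor_add_hom g dg hT hT''
  have h1 := tauS_map g0 m.gs ψ dψ
  have h2 := tauS_map g' m'.gs φ dφ
  have e1 : (⊤ : Submodule (A k) (V ⊗[S] G)).map ψ = ⊤ := by
    rw [Submodule.map_top, LinearMap.range_eq_top]
    exact LinearMap.lTensor_surjective V hg
  have e2 : ⊤ ⊓ LinearMap.ker ψ = (⊤ : Submodule (A k) (V ⊗[S] G')).map φ := by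
    rw [top_inf_eq, Submodule.map_top]
    ext x
    exact lTensor_exact V hfg hg x
  have e3 : tauS lam w θT' (⊤ ⊓ LinearMap.ker φ) = 0 := by
    have hs : ∀ v ∈ LinearMap.ker φ, θT' v ∈ LinearMap.ker φ := fun v hv => by
      have h3 := dφ v
      rw [LinearMap.mem_ker.1 hv, map_zero, zpow_zero, Units.val_one, one_smul] at h3
      exact h3.symm
    have h4 := tauS_eq_of_pt (N' := (⊥ : Submodule S (V ⊗[S] G'))) h g' (m'.gs.inf h.inf hs)
      (GS.bot lam θT') bot_le fun z hz p hp => fl p hp G' G f hf z hz.2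
    rw [h4]
    exact tauS_bot lam w θT'
  rw [e1, e2, h2, e3, ex_zero] at h1
  rw [h1]
  ring

/-! ### Subtask RR-b -/

theorem isPrime_of_hom_mul {a b : S} {m n : ℤ} (ha : a ∈ eig lam θs.toLinearMap m)
    (hb : b ∈ eig lam θs.toLinearMap n) : a * b ∈ eig lam θs.toLinearMap (m + n) := by
  rw [mem_eig] at ha hb ⊢
  simp only [AlgEquiv.toLinearMap_apply] at ha hb ⊢
  rw [map_mul, ha, hb, zpow_add, Units.val_mul, smul_mul_smul_comm]

/-- A `θ`-stable ideal is prime as soon as the test holds for homogeneous elements. -/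
theorem isPrime_of_hom (h : GR lam w θs) (p : Ideal S) (hs : ∀ r ∈ p, θs r ∈ p) (h1 : p ≠ ⊤)
    (hp : ∀ (a b : S) (m n : ℤ), a ∈ eig lam θs.toLinearMap m → b ∈ eig lam θs.toLinearMap n →
      a * b ∈ p → a ∈ p ∨ b ∈ p) : p.IsPrime := by
  classical
  have key : ∀ (c d : ℤ → S), (∀ n, c n ∈ eig lam θs.toLinearMap n) →
      (∀ n, d n ∈ eig lam θs.toLinearMap n) → ∀ (N : ℕ) (s t : Finset ℤ), s.card + t.card = N →
      (∑ n ∈ s, c n) * (∑ n ∈ t, d n) ∈ p → (∑ n ∈ s, c n) ∈ p ∨ (∑ n ∈ t, d n) ∈ p := by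
    intro c d hc hd N
    induction N using Nat.strong_induction_on with
    | _ N ih =>
      intro s t hN hm
      rcases s.eq_empty_or_nonempty with rfl | hs0
      · exact Or.inl (by simp)
      rcases t.eq_empty_or_nonempty with rfl | ht0
      · exact Or.inr (by simp)
      have htop : c (s.max' hs0) * d (t.max' ht0) ∈ p := by
        let f : ℤ → S := fun e => ∑ x ∈ (s ×ˢ t).filter (fun x => x.1 + x.2 = e), c x.1 * d x.2
        have hf : ∀ e, f e ∈ eig lam θs.toLinearMap e := fun e =>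
          Submodule.sum_mem _ fun x hx => by
            rw [← (Finset.mem_filter.1 hx).2]
            exact isPrime_of_hom_mul (hc _) (hd _)
        have hsum : ∑ e ∈ (s ×ˢ t).image (fun x => x.1 + x.2), f e =
            (∑ n ∈ s, c n) * (∑ n ∈ t, d n) := by
          rw [Finset.sum_mul_sum, ← Finset.sum_product']
          exact Finset.sum_fiberwise_of_maps_to (fun x hx => Finset.mem_image_of_mem _ hx) _
        have hmem : (s.max' hs0, t.max' ht0) ∈ s ×ˢ t :=
          Finset.mem_product.2 ⟨s.max'_mem hs0, t.max'_mem ht0⟩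
        have := component_mem h.inf (θ := θs.toLinearMap) (p.restrictScalars k) hs _ f
          (fun e _ => hf e) (by rw [hsum]; exact hm) (s.max' hs0 + t.max' ht0)
          (Finset.mem_image_of_mem (fun x : ℤ × ℤ => x.1 + x.2) hmem)
        have e : f (s.max' hs0 + t.max' ht0) = c (s.max' hs0) * d (t.max' ht0) := by
          refine Finset.sum_eq_single_of_mem (s.max' hs0, t.max' ht0)
            (Finset.mem_filter.2 ⟨hmem, rfl⟩) fun x hx hne => ?_
          exfalso
          apply hne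
          obtain ⟨hx1, hx2⟩ := Finset.mem_filter.1 hx
          obtain ⟨hx3, hx4⟩ := Finset.mem_product.1 hx1
          have := s.le_max' _ hx3
          have := t.le_max' _ hx4
          ext <;> simp only <;> omega
        rw [e] at this
        exact this
      rcases hp _ _ _ _ (hc _) (hd _) htop with h2 | h2
      · have e := Finset.add_sum_erase s c (s.max'_mem hs0)
        have hc' := Finset.card_erase_add_one (s.max'_mem hs0)
        rw [← e, add_mul] at hm
        rcases ih _ (by omega) (s.erase (s.max' hs0)) t rfl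
          ((p.add_mem_iff_right (p.mul_mem_right _ h2)).1 hm) with h3 | h3
        · exact Or.inl (by rw [← e]; exact p.add_mem h2 h3)
        · exact Or.inr h3
      · have e := Finset.add_sum_erase t d (t.max'_mem ht0)
        have hc' := Finset.card_erase_add_one (t.max'_mem ht0)
        rw [← e, mul_add] at hm
        rcases ih _ (by omega) s (t.erase (t.max' ht0)) rfl
          ((p.add_mem_iff_right (p.mul_mem_left _ h2)).1 hm) with h3 | h3
        · exact Or.inl h3
        · exact Or.inr (by rw [← e]; exact p.add_mem h2 h3)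
  refine ⟨h1, fun {a b} hab => ?_⟩
  obtain ⟨s, c, hc, rfl⟩ := h.gs.exists_sum (Submodule.mem_top : a ∈ _)
  obtain ⟨t, d, hd, rfl⟩ := h.gs.exists_sum (Submodule.mem_top : b ∈ _)
  exact key c d (fun n => (hc n).2) (fun n => (hd n).2) _ s t rfl hab

theorem devissage_stable (hG : GM lam θs θG) {N : Submodule S G} (hN : ∀ v ∈ N, θG v ∈ N) {y : G}
    {a : ℤ} (hy : y ∈ eig lam θG a) :
    ∀ v ∈ N ⊔ Submodule.span S {y}, θG v ∈ N ⊔ Submodule.span S {y} := by
  intro v hv
  obtain ⟨n, hn, z, hz, rfl⟩ := Submodule.mem_sup.1 hv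
  obtain ⟨r, rfl⟩ := Submodule.mem_span_singleton.1 hz
  rw [map_add, hG.sl, mem_eig.1 hy]
  refine Submodule.add_mem_sup (hN n hn) (Submodule.smul_mem _ _ ?_)
  exact Submodule.smul_of_tower_mem _ _ (Submodule.mem_span_singleton_self y)

/-- Dévissage. -/
theorem devissage (h : GR lam w θs) (hG : GM lam θs θG) (N0 : Submodule S G)
    (hN0 : ∀ v ∈ N0, θG v ∈ N0) (Q : Submodule S G → Prop) (h0 : Q N0)
    (hstep : ∀ (N : Submodule S G) (y : G) (a : ℤ) (p : Ideal S), N0 ≤ N → (∀ v ∈ N, θG v ∈ N) →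
      Q N → y ∈ eig lam θG a → p.IsPrime → (∀ r ∈ p, θs r ∈ p) → (∀ r, r ∈ p ↔ r • y ∈ N) →
      Q (N ⊔ Submodule.span S {y})) : Q ⊤ := by
  have : Module.Finite (A k) G := ⟨hG.gs.fg⟩
  have : Module.Finite (A k) S := ⟨h.gs.fg⟩
  have nG : IsNoetherian S G := isNoetherian_of_tower (A k) inferInstance
  have nS : IsNoetherian S S := isNoetherian_of_tower (A k) inferInstance
  obtain ⟨N, ⟨hN1, hN2, hN3⟩, hmax⟩ := set_has_maximal_iff_noetherian.2 nG
    {N | N0 ≤ N ∧ (∀ v ∈ N, θG v ∈ N) ∧ Q N} ⟨N0, le_rfl, hN0, h0⟩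
  by_cases htop : N = ⊤
  · exact htop ▸ hN3
  exfalso
  have hex : ∃ (y : G) (a : ℤ), y ∈ eig lam θG a ∧ y ∉ N := by
    by_contra hcon
    push Not at hcon
    apply htop
    rw [eq_top_iff]
    intro v _
    obtain ⟨s, c, hc, rfl⟩ := hG.gs.exists_sum (Submodule.mem_top : v ∈ _)
    exact N.sum_mem fun n _ => hcon _ n (hc n).2
  obtain ⟨p, ⟨y, a, hy, hyN, hp⟩, hpmax⟩ := set_has_maximal_iff_noetherian.2 nS
    {p | ∃ (y : G) (a : ℤ), y ∈ eig lam θG a ∧ y ∉ N ∧ ∀ r, r ∈ p ↔ r • y ∈ N} (by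
      obtain ⟨y, a, hy, hyN⟩ := hex
      exact ⟨N.comap (LinearMap.toSpanSingleton S G y), y, a, hy, hyN, fun r => Iff.rfl⟩)
  have hst : ∀ r ∈ p, θs r ∈ p := fun r hr => by
    have h1 := hN2 _ ((hp r).1 hr)
    rw [hG.sl, mem_eig.1 hy, smul_comm] at h1
    have h2 := N.smul_of_tower_mem (((lam ^ a)⁻¹ : kˣ) : k) h1
    rw [smul_smul, Units.inv_mul, one_smul] at h2
    exact (hp _).2 h2
  have hprime : Ideal.IsPrime p := by
    refine isPrime_of_hom h p hst (fun e => hyN ?_) fun r r' m n _ hr' hrr => ?_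
    · have := (hp 1).1 (e ▸ Submodule.mem_top)
      rwa [one_smul] at this
    · by_cases hb : r' • y ∈ N
      · exact Or.inr ((hp _).2 hb)
      · left
        have hhom : r' • y ∈ eig lam θG (n + a) := by
          have h1 := mem_eig.1 hr'
          rw [AlgEquiv.toLinearMap_apply] at h1
          rw [mem_eig, hG.sl, mem_eig.1 hy, h1, zpow_add, Units.val_mul, smul_assoc, smul_comm r',
            smul_smul]
        have hle : p ≤ N.comap (LinearMap.toSpanSingleton S G (r' • y)) := fun x hx => by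
          change x • r' • y ∈ N
          rw [smul_comm]
          exact N.smul_mem _ ((hp x).1 hx)
        have heq := (hle.eq_or_lt).resolve_right
          (hpmax _ ⟨r' • y, n + a, hhom, hb, fun r => Iff.rfl⟩)
        rw [heq]
        change r • r' • y ∈ N
        rw [← mul_smul]
        exact (hp _).1 hrr
  have hQ := hstep N y a p hN1 hN2 hN3 hy hprime hst hp
  refine hmax _ ⟨hN1.trans le_sup_left, devissage_stable hG hN2 hy, hQ⟩
    (lt_of_le_of_ne le_sup_left fun e => hyN ?_)
  rw [e]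
  exact Submodule.mem_sup_right (Submodule.mem_span_singleton_self y)

theorem tau_step (h : GR lam w θs) (hG : GM lam θs θG) (N : Submodule S G) (y : G) (a : ℤ)
    (p : Ideal S) (hN : ∀ v ∈ N, θG v ∈ N) (hy : y ∈ eig lam θG a) (hp : ∀ r, r ∈ p ↔ r • y ∈ N) :
    tauS lam w θG ((N ⊔ Submodule.span S {y}).restrictScalars (A k)) -
        tauS lam w θG (N.restrictScalars (A k)) =
      ex a * (tauS lam w θs.toLinearMap ⊤ -
        tauS lam w θs.toLinearMap (p.restrictScalars (A k))) := by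
  let N' : Submodule (A k) G := N.restrictScalars (A k)
  have hN' : ∀ v ∈ N', θG v ∈ N' := hN
  let φ : S →ₗ[A k] G ⧸ N' :=
    N'.mkQ ∘ₗ (LinearMap.toSpanSingleton S G y).restrictScalars (A k)
  have hφa : ∀ r, φ r = N'.mkQ (r • y) := fun r => rfl
  have hφ : HomDeg lam θs.toLinearMap (θQ θG N' hN') φ a := fun r => by
    rw [hφa, hφa, θQ_mk, hG.sl, mem_eig.1 hy, smul_comm, LinearMap.map_smul_of_tower]
    rfl
  have hψ : HomDeg lam θG (θQ θG N' hN') N'.mkQ 0 := fun v => by
    rw [θQ_mk, zpow_zero, Units.val_one, one_smul]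
  have hM : GS lam θG ((N ⊔ Submodule.span S {y}).restrictScalars (A k)) :=
    hG.gs.of_le h.inf le_top (devissage_stable hG hN hy)
  have e1 := tauS_map h.gd h.gs φ hφ
  have e2 := tauS_map (hG.gd h) hM N'.mkQ hψ
  have k1 : (⊤ : Submodule (A k) S) ⊓ LinearMap.ker φ = p.restrictScalars (A k) := by
    ext r
    rw [top_inf_eq, LinearMap.mem_ker, hφa, Submodule.mkQ_apply, Submodule.Quotient.mk_eq_zero]
    exact (hp r).symm
  have k2 : (N ⊔ Submodule.span S {y}).restrictScalars (A k) ⊓ LinearMap.ker N'.mkQ = N' := by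
    rw [Submodule.ker_mkQ]
    exact inf_eq_right.2 fun v hv => Submodule.mem_sup_left hv
  have k3 : ((N ⊔ Submodule.span S {y}).restrictScalars (A k)).map N'.mkQ =
      (⊤ : Submodule (A k) S).map φ := by
    apply le_antisymm
    · rintro _ ⟨v, hv, rfl⟩
      obtain ⟨n, hn, z, hz, rfl⟩ := Submodule.mem_sup.1 hv
      obtain ⟨r, rfl⟩ := Submodule.mem_span_singleton.1 hz
      refine ⟨r, Submodule.mem_top, ?_⟩
      rw [hφa, map_add, Submodule.mkQ_apply N' n, (Submodule.Quotient.mk_eq_zero N').2 hn, zero_add]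
    · rintro _ ⟨r, -, rfl⟩
      exact ⟨r • y, Submodule.mem_sup_right
        (Submodule.smul_mem _ _ (Submodule.mem_span_singleton_self y)), rfl⟩
  rw [k1] at e1
  rw [k2, k3, e1, ex_zero, one_mul] at e2
  exact e2.symm

theorem tau_step_tensor_stab (hG : GM lam θs θG) {N : Submodule S G} {y : G} {a : ℤ} {p : Ideal S}
    (hN : ∀ v ∈ N, θG v ∈ N) (hy : y ∈ eig lam θG a) (hp : ∀ r, r ∈ p ↔ r • y ∈ N) :
    ∀ r ∈ p, θs r ∈ p := by
  intro r hr
  have h1 := hN _ ((hp r).1 hr)
  rw [hG.sl, mem_eig.1 hy, smul_comm] at h1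
  have h2 := N.smul_mem (algebraMap k S (((lam ^ a)⁻¹ : kˣ) : k)) h1
  rw [algebraMap_smul, smul_smul, Units.inv_mul, one_smul] at h2
  exact (hp _).2 h2

theorem tau_step_tensor_smul_stab (hV : GM lam θs θV) {p : Ideal S} (hp : ∀ r ∈ p, θs r ∈ p) :
    ∀ v ∈ p • (⊤ : Submodule S V), θV v ∈ p • (⊤ : Submodule S V) := by
  intro v hv
  refine Submodule.smul_induction_on hv (fun r hr n _ => ?_) fun x y hx hy => ?_
  · rw [hV.sl]
    exact Submodule.smul_mem_smul (hp r hr) trivial
  · rw [map_add]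
    exact add_mem hx hy

theorem tau_step_tensor_flat (fl : FlatOff k S V) (N : Submodule S G) (y : G) (p : Ideal S)
    (hp : ∀ r, r ∈ p ↔ r • y ∈ N) (v : V) (hv : v ⊗ₜ[S] N.mkQ y = 0) (P : Ideal S)
    (hP : IsPt k P) : ∃ r ∉ P, r • v ∈ p • (⊤ : Submodule S V) := by
  have hle : p ≤ N.comap (LinearMap.toSpanSingleton S G y) := fun r hr => (hp r).1 hr
  have hinj : Function.Injective (Submodule.mapQ p N (LinearMap.toSpanSingleton S G y) hle) := by
    rw [← LinearMap.ker_eq_bot, Submodule.ker_mapQ, eq_bot_iff]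
    rintro _ ⟨r, hr, rfl⟩
    exact (Submodule.Quotient.mk_eq_zero _).2 ((hp r).2 hr)
  obtain ⟨r, hr, h0⟩ := fl P hP _ _ _ hinj (v ⊗ₜ Ideal.Quotient.mk p 1) (by
    rw [LinearMap.lTensor_tmul, ← hv]
    congr 1
    exact congrArg N.mkQ (one_smul S y))
  refine ⟨r, hr, (Submodule.Quotient.mk_eq_zero _).1 ?_⟩
  have h1 := congrArg (tensorQuotEquivQuotSMul V p) h0
  rwa [smul_tmul', tensorQuotEquivQuotSMul_tmul_mk, one_smul, map_zero] at h1

theorem tau_step_tensor_core [IsAlgClosed k] (h : GR lam w θs) (hV : GM lam θs θV)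
    (hG : GM lam θs θG) (M : Submodule S G) (hM : ∀ z ∈ M, θG z ∈ M) (φ : V →ₗ[S] G) {a : ℤ}
    (hφ : HomDeg lam θV θG φ a) (p : Ideal S) (hp : ∀ r ∈ p, θs r ∈ p)
    (h1 : ∀ r ∈ p, ∀ v, φ (r • v) ∈ M)
    (h2 : ∀ v, φ v ∈ M → ∀ P : Ideal S, IsPt k P → ∃ r ∉ P, r • v ∈ p • (⊤ : Submodule S V)) :
    tauS lam w θG ((M ⊔ LinearMap.range φ).restrictScalars (A k)) -
        tauS lam w θG (M.restrictScalars (A k)) =
      ex a * (tauS lam w θV ⊤ -
        tauS lam w θV ((p • (⊤ : Submodule S V)).restrictScalars (A k))) := by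
  have gV := hV.gd h
  have gG := hG.gd h
  have hφ' : HomDeg lam θV θG (φ.restrictScalars (A k)) a := hφ
  have sM : GS lam θG (M.restrictScalars (A k)) := hG.gs.of_le h.inf le_top hM
  have sC : GS lam θV ((M.comap φ).restrictScalars (A k)) := hV.gs.of_le h.inf le_top fun v hv => by
    have h3 := hM _ hv
    rw [hφ] at h3
    have h4 := M.smul_mem (algebraMap k S (((lam ^ a)⁻¹ : kˣ) : k)) h3
    rwa [algebraMap_smul, smul_smul, Units.inv_mul, one_smul] at h4
  have sP : GS lam θV ((p • (⊤ : Submodule S V)).restrictScalars (A k)) :=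
    hV.gs.of_le h.inf le_top (tau_step_tensor_smul_stab hV hp)
  have e0 := tauS_eq_of_pt h gV sC sP
    (fun v hv => (Submodule.smul_le.2 fun r hr n _ => h1 r hr n : _ ≤ M.comap φ) hv) h2
  have e1 := tauS_sup_add_inf gG sM (hV.gs.map _ hφ')
  have e2 := tauS_map gV hV.gs _ hφ'
  have e3 := tauS_map gV sC _ hφ'
  have a1 : (M ⊔ LinearMap.range φ).restrictScalars (A k) =
      M.restrictScalars (A k) ⊔ Submodule.map (φ.restrictScalars (A k)) ⊤ := by
    ext z
    simp [Submodule.mem_sup]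
  have a2 : M.restrictScalars (A k) ⊓ Submodule.map (φ.restrictScalars (A k)) ⊤ =
      Submodule.map (φ.restrictScalars (A k)) ((M.comap φ).restrictScalars (A k)) := by
    ext z
    constructor
    · rintro ⟨hz, v, -, rfl⟩
      exact ⟨v, hz, rfl⟩
    · rintro ⟨v, hv, rfl⟩
      exact ⟨hv, v, trivial, rfl⟩
  have a3 : (M.comap φ).restrictScalars (A k) ⊓ LinearMap.ker (φ.restrictScalars (A k)) =
      ⊤ ⊓ LinearMap.ker (φ.restrictScalars (A k)) := by
    rw [top_inf_eq, inf_eq_right]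
    intro v hv
    have h3 : φ v = 0 := hv
    change φ v ∈ M
    rw [h3]
    exact M.zero_mem
  rw [a3] at e3
  rw [a2, e2, e3] at e1
  rw [a1, ← e0]
  linear_combination e1

theorem tau_step_tensor [IsAlgClosed k] (h : GR lam w θs) (hV : GM lam θs θV) (fl : FlatOff k S V)
    (hG : GM lam θs θG) {θT : V ⊗[S] G →ₗ[k] V ⊗[S] G} (hT : IsTen θV θG θT) (N : Submodule S G)
    (y : G) (a : ℤ) (p : Ideal S) (hN : ∀ v ∈ N, θG v ∈ N) (hy : y ∈ eig lam θG a)
    (hp : ∀ r, r ∈ p ↔ r • y ∈ N) :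
    tauS lam w θT ((LinearMap.range
          (LinearMap.lTensor V (N ⊔ Submodule.span S {y}).subtype)).restrictScalars (A k)) -
        tauS lam w θT ((LinearMap.range (LinearMap.lTensor V N.subtype)).restrictScalars (A k)) =
      ex a * (tauS lam w θV ⊤ -
        tauS lam w θV ((p • (⊤ : Submodule S V)).restrictScalars (A k))) := by
  have gT := hT.gm h hV hG
  have hM : ∀ z ∈ LinearMap.range (LinearMap.lTensor V N.subtype),
      θT z ∈ LinearMap.range (LinearMap.lTensor V N.subtype) := by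
    rintro _ ⟨z, rfl⟩
    induction z with
    | zero => simp
    | tmul v n => exact ⟨θV v ⊗ₜ ⟨θG n, hN _ n.2⟩, (hT v n).symm⟩
    | add x x' hx hx' => rw [map_add, map_add]; exact add_mem hx hx'
  have hφ : HomDeg lam θV θT ((TensorProduct.mk S V G).flip y) a := fun v => by
    change θT (v ⊗ₜ y) = _ • (θV v ⊗ₜ[S] y)
    rw [hT, mem_eig.1 hy, ← algebraMap_smul S, tmul_smul, algebraMap_smul]
  have e : LinearMap.range (LinearMap.lTensor V (N ⊔ Submodule.span S {y}).subtype) =
      LinearMap.range (LinearMap.lTensor V N.subtype) ⊔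
        LinearMap.range ((TensorProduct.mk S V G).flip y) := by
    refine le_antisymm ?_ (sup_le ?_ ?_)
    · rintro _ ⟨z, rfl⟩
      induction z with
      | zero => simp
      | tmul v n =>
        obtain ⟨n1, h1, n2, h2, e⟩ := Submodule.mem_sup.1 n.2
        obtain ⟨r, rfl⟩ := Submodule.mem_span_singleton.1 h2
        change v ⊗ₜ (n : G) ∈ _
        rw [← e, tmul_add, tmul_smul]
        exact Submodule.add_mem_sup ⟨v ⊗ₜ ⟨n1, h1⟩, rfl⟩ (Submodule.smul_mem _ _ ⟨v, rfl⟩)
      | add x x' hx hx' => rw [map_add]; exact add_mem hx hx'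
    · rintro _ ⟨z, rfl⟩
      induction z with
      | zero => simp
      | tmul v n => exact ⟨v ⊗ₜ ⟨n, Submodule.mem_sup_left n.2⟩, rfl⟩
      | add x x' hx hx' => rw [map_add]; exact add_mem hx hx'
    · rintro _ ⟨v, rfl⟩
      exact ⟨v ⊗ₜ ⟨y, Submodule.mem_sup_right (Submodule.mem_span_singleton_self y)⟩, rfl⟩
  rw [e]
  refine tau_step_tensor_core h hV gT _ hM _ hφ p (tau_step_tensor_stab hG hN hy hp) ?_ ?_
  · intro r hr v
    refine ⟨v ⊗ₜ ⟨r • y, (hp r).1 hr⟩, ?_⟩
    change v ⊗ₜ (r • y) = (r • v) ⊗ₜ y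
    rw [smul_tmul]
  · intro v hv P hP
    refine tau_step_tensor_flat fl N y p hp v ?_ P hP
    rw [← lTensor_mkQ] at hv
    exact hv

theorem tau_step_ideal [IsAlgClosed k] (h : GR lam w θs) (hV : GM lam θs θV) (fl : FlatOff k S V)
    (N : Ideal S) (y : S) (a : ℤ) (p : Ideal S) (hN : ∀ v ∈ N, θs v ∈ N)
    (hy : y ∈ eig lam θs.toLinearMap a) (hp : ∀ r, r ∈ p ↔ r • y ∈ N) :
    tauS lam w θV (((N ⊔ Submodule.span S {y}) • (⊤ : Submodule S V)).restrictScalars (A k)) -
        tauS lam w θV ((N • (⊤ : Submodule S V)).restrictScalars (A k)) =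
      ex a * (tauS lam w θV ⊤ -
        tauS lam w θV ((p • (⊤ : Submodule S V)).restrictScalars (A k))) := by
  have hφ : HomDeg lam θV θV (LinearMap.lsmul S V y) a := fun v => by
    have h1 : θs y = ((lam ^ a : kˣ) : k) • y := mem_eig.1 hy
    change θV (y • v) = _ • y • θV v
    rw [hV.sl, h1, smul_assoc]
  have e : (N ⊔ Submodule.span S {y}) • (⊤ : Submodule S V) =
      N • (⊤ : Submodule S V) ⊔ LinearMap.range (LinearMap.lsmul S V y) := by
    rw [Submodule.sup_smul]
    congr 1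
    refine le_antisymm (Submodule.smul_le.2 fun r hr v _ => ?_) ?_
    · obtain ⟨c, rfl⟩ := Submodule.mem_span_singleton.1 hr
      exact ⟨c • v, by simp [smul_smul, mul_comm]⟩
    · rintro _ ⟨v, rfl⟩
      exact Submodule.smul_mem_smul (Submodule.mem_span_singleton_self y) trivial
  rw [e]
  refine tau_step_tensor_core h hV hV _ (tau_step_tensor_smul_stab hV hN) _ hφ p
    (tau_step_tensor_stab h.gm hN hy hp) ?_ ?_
  · intro r hr v
    change y • r • v ∈ _
    rw [smul_smul, mul_comm]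
    exact Submodule.smul_mem_smul ((hp r).1 hr) trivial
  · intro v hv P hP
    refine tau_step_tensor_flat fl N y p hp v ?_ P hP
    refine (tensorQuotEquivQuotSMul V N).injective ?_
    rw [map_zero]
    exact (tensorQuotEquivQuotSMul_tmul_mk N v y).trans ((Submodule.Quotient.mk_eq_zero _).2 hv)

/-- The defect of the Riemann-Roch formula for `S / p`. -/
noncomputable def defect (lam : kˣ) (w : ℕ) (θs : S ≃ₐ[k] S) (θV : V →ₗ[k] V) (p : Ideal S) : T3 :=
  tauS lam w θs.toLinearMap ⊤ *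
      (tauS lam w θV ⊤ - tauS lam w θV ((p • (⊤ : Submodule S V)).restrictScalars (A k))) -
    tauS lam w θV ⊤ *
      (tauS lam w θs.toLinearMap ⊤ - tauS lam w θs.toLinearMap (p.restrictScalars (A k)))

theorem rr_of_defect [IsAlgClosed k] (h : GR lam w θs) (hV : GM lam θs θV) (fl : FlatOff k S V)
    (hd : ∀ p : Ideal S, p.IsPrime → (∀ r ∈ p, θs r ∈ p) → defect lam w θs θV p = 0)
    (hG : GM lam θs θG) {θT : V ⊗[S] G →ₗ[k] V ⊗[S] G} (hT : IsTen θV θG θT) :
    tauS lam w θs.toLinearMap ⊤ * tauS lam w θT ⊤ = tauS lam w θV ⊤ * tauS lam w θG ⊤ := by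
  have key := devissage h hG ⊥ (fun v hv => by rw [(Submodule.mem_bot S).1 hv, map_zero]; rfl)
    (fun N => tauS lam w θs.toLinearMap ⊤ * tauS lam w θT
      ((LinearMap.range (LinearMap.lTensor V N.subtype)).restrictScalars (A k)) =
        tauS lam w θV ⊤ * tauS lam w θG (N.restrictScalars (A k))) ?_ ?_
  · have e : LinearMap.range (LinearMap.lTensor V (⊤ : Submodule S G).subtype) = ⊤ :=
      LinearMap.range_eq_top.2 (LinearMap.lTensor_surjective V fun g => ⟨⟨g, trivial⟩, rfl⟩)
    simpa only [e, Submodule.restrictScalars_top] using key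
  · have e : (⊥ : Submodule S G).subtype = 0 := by
      ext v
      exact (Submodule.mem_bot S).1 v.2
    simp only [e, LinearMap.lTensor_zero, LinearMap.range_zero, Submodule.restrictScalars_bot,
      tauS_bot, mul_zero]
  · intro N y a p _ hN hQ hy hp hs hpy
    have e1 := tau_step h hG N y a p hN hy hpy
    have e2 := tau_step_tensor h hV fl hG hT N y a p hN hy hpy
    have e3 := hd p hp hs
    simp only [defect] at e3 hQ ⊢
    linear_combination hQ + tauS lam w θs.toLinearMap ⊤ * e2 - tauS lam w θV ⊤ * e1 + ex a * e3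

end Gen

/-! ### Subtask RR-c -/

section OverA

variable {V : Type} [AddCommGroup V] [Module k V] [Module (A k) V] [IsScalarTower k (A k) V]
variable {G : Type} [AddCommGroup G] [Module k G] [Module (A k) G] [IsScalarTower k (A k) G]
variable {θV : V →ₗ[k] V} {θG : G →ₗ[k] G}

/-- The formula for a given second factor. -/
def rr_A_claim (lam : kˣ) (w : ℕ) (θV : V →ₗ[k] V) (θG : G →ₗ[k] G) : Prop :=
  ∀ θT : V ⊗[A k] G →ₗ[k] V ⊗[A k] G, IsTen θV θG θT →
    tauS lam w θT ⊤ = tauS lam w θV ⊤ * tauS lam w θG ⊤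

theorem rr_A_gm (gG : Gd lam w θG) (hG : GS lam θG ⊤) : GM lam (θA lam w) θG :=
  ⟨gG.comm.smul, hG⟩

theorem rr_A_free (gV : Gd lam w θV) (hV : GS lam θV ⊤) (gG : Gd lam w θG) (hG : GS lam θG ⊤)
    {m : ℕ} (e : Fin m → G) (d : Fin m → ℤ) (he : ∀ i, e i ∈ eig lam θG (d i))
    (hli : LinearIndependent (A k) e) (hsp : Submodule.span (A k) (Set.range e) = ⊤) :
    rr_A_claim lam w θV θG := by
  classical
  intro θT hT
  have hA := gr_A (k := k) gV.inf gV.pos
  have gT : Gd lam w θT := GM.gd hA (hT.gm hA (rr_A_gm gV hV) (rr_A_gm gG hG))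
  let b : Module.Basis (Fin m) (A k) G := Module.Basis.mk hli hsp.ge
  have hb : ∀ i, b i = e i := fun i => Module.Basis.mk_apply _ _ _
  let φ : Fin m → V →ₗ[A k] V ⊗[A k] G := fun i => (TensorProduct.mk (A k) V G).flip (e i)
  have hφ : ∀ i v, φ i v = v ⊗ₜ e i := fun _ _ => rfl
  let ψ : Fin m → V ⊗[A k] G →ₗ[A k] V := fun j =>
    (TensorProduct.rid (A k) V).toLinearMap ∘ₗ LinearMap.lTensor V (b.coord j)
  have hψ : ∀ j i v, ψ j (φ i v) = if i = j then v else 0 := by
    intro j i v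
    simp only [ψ, hφ, LinearMap.comp_apply, LinearMap.lTensor_tmul, LinearEquiv.coe_coe,
      TensorProduct.rid_tmul, ← hb, Module.Basis.coord_apply, Module.Basis.repr_self,
      Finsupp.single_apply]
    split_ifs <;> simp
  have hd : ∀ i, HomDeg lam θV θT (φ i) (d i) := by
    intro i v
    rw [hφ, hφ, hT, mem_eig.mp (he i), TensorProduct.tmul_smul]
  have hgs : ∀ i, GS lam θT (Submodule.map (φ i) ⊤) := fun i => hV.map _ (hd i)
  have htau : ∀ i, tauS lam w θT (Submodule.map (φ i) ⊤) = ex (d i) * tauS lam w θV ⊤ := by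
    intro i
    have hk : LinearMap.ker (φ i) = ⊥ := by
      rw [LinearMap.ker_eq_bot']
      intro v hv
      have := hψ i i v
      rw [hv, map_zero, if_pos rfl] at this
      exact this.symm
    rw [tauS_map gV hV _ (hd i), hk, inf_bot_eq, tauS_bot, sub_zero]
  have key : ∀ s : Finset (Fin m),
      GS lam θT (s.sup fun i => Submodule.map (φ i) ⊤) ∧
      (∀ j ∉ s, (s.sup fun i => Submodule.map (φ i) ⊤) ≤ LinearMap.ker (ψ j)) ∧
      tauS lam w θT (s.sup fun i => Submodule.map (φ i) ⊤) =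
        tauS lam w θV ⊤ * ∑ i ∈ s, ex (d i) := by
    intro s
    induction s using Finset.induction_on with
    | empty => exact ⟨GS.bot _ _, fun _ _ => bot_le, by simp [tauS_bot]⟩
    | insert i s hi ih =>
      obtain ⟨h1, h2, h3⟩ := ih
      rw [Finset.sup_insert, Finset.sum_insert hi]
      refine ⟨(hgs i).sup h1, fun j hj => sup_le ?_ (h2 j fun h => hj (Finset.mem_insert_of_mem h)),
        ?_⟩
      · rintro _ ⟨v, -, rfl⟩
        rw [LinearMap.mem_ker, hψ, if_neg]
        rintro rfl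
        exact hj (Finset.mem_insert_self _ _)
      · have h4 := tauS_sup_add_inf gT (hgs i) h1
        have h5 : Submodule.map (φ i) ⊤ ⊓ (s.sup fun i => Submodule.map (φ i) ⊤) = ⊥ := by
          rw [eq_bot_iff]
          rintro _ ⟨⟨v, -, rfl⟩, hv⟩
          have := h2 i hi hv
          rw [LinearMap.mem_ker, hψ, if_pos rfl] at this
          rw [this, map_zero]
          exact Submodule.zero_mem _
        rw [h5, tauS_bot, add_zero, htau, h3] at h4
        rw [h4]
        ring
  have htop : (Finset.univ.sup fun i => Submodule.map (φ i) ⊤) = ⊤ := by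
    rw [eq_top_iff]
    rintro z -
    induction z using TensorProduct.induction_on with
    | zero => exact Submodule.zero_mem _
    | add x y hx hy => exact Submodule.add_mem _ hx hy
    | tmul v g =>
      rw [← b.sum_repr g, TensorProduct.tmul_sum]
      refine Submodule.sum_mem _ fun i _ => ?_
      refine (Finset.le_sup (f := fun i => Submodule.map (φ i) ⊤) (Finset.mem_univ i) :) ?_
      exact ⟨b.repr g i • v, trivial, by rw [hφ, hb, TensorProduct.smul_tmul]⟩
  have := (key Finset.univ).2.2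
  rw [htop] at this
  rw [this, ← tauS_free gG e d he hli, hsp]

theorem rr_A_F (gV : Gd lam w θV) (hV : GS lam θV ⊤) {m : ℕ} (d : Fin m → ℤ) :
    rr_A_claim lam w θV (θF lam w d) := by
  classical
  refine rr_A_free gV hV (gd_F gV.inf gV.pos d) (gs_F gV.inf gV.pos d).1
    (Pi.basisFun (A k) (Fin m)) d (fun i => ?_) (Pi.basisFun (A k) (Fin m)).linearIndependent
    (Pi.basisFun (A k) (Fin m)).span_eq
  rw [mem_eig]
  funext j
  change ((lam ^ d j : kˣ) : k) • θA lam w (Pi.basisFun (A k) (Fin m) i j) =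
    ((lam ^ d i : kˣ) : k) • Pi.basisFun (A k) (Fin m) i j
  rw [Pi.basisFun_apply]
  by_cases h : j = i
  · subst h; simp
  · simp [Pi.single_eq_of_ne h]

theorem rr_A_step [IsAlgClosed k] (gV : Gd lam w θV) (hV : GS lam θV ⊤)
    (fl : FlatOff k (A k) V) (gG : Gd lam w θG) (hG : GS lam θG ⊤) :
    ∃ (m : ℕ) (φ : (Fin m → A k) →ₗ[A k] G) (θK : LinearMap.ker φ →ₗ[k] LinearMap.ker φ),
      Function.Surjective φ ∧ Gd lam w θK ∧ GS lam θK ⊤ ∧
        (rr_A_claim lam w θV θK → rr_A_claim lam w θV θG) := by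
  obtain ⟨m, d, φ, hφ, hr⟩ := hG.exists_cover gG
  have hA := gr_A (k := k) gV.inf gV.pos
  have gF := gd_F gV.inf gV.pos d
  have hF := (gs_F gV.inf gV.pos d).1
  have hs : ∀ v ∈ LinearMap.ker φ, θF lam w d v ∈ LinearMap.ker φ := by
    intro v hv
    have := hφ v
    rw [LinearMap.mem_ker] at hv ⊢
    rw [hv, map_zero, zpow_zero, Units.val_one, one_smul] at this
    exact this.symm
  have hK : GS lam (θF lam w d) (LinearMap.ker φ) := hF.of_le gV.inf le_top hs
  have hsurj : Function.Surjective φ := LinearMap.range_eq_top.mp hr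
  have gK := gF.sub _ hs
  refine ⟨m, φ, θS (θF lam w d) _ hs, hsurj, gK, hK.top_sub, fun hc θT hT => ?_⟩
  have mV := rr_A_gm gV hV
  have mK := rr_A_gm gK hK.top_sub
  have mF := rr_A_gm gF hF
  obtain ⟨θTK, hTK⟩ := exists_isTen mV mK
  obtain ⟨θTF, hTF⟩ := exists_isTen mV mF
  have h1 := tau_tensor_add hA mV fl mK mF (rr_A_gm gG hG) (LinearMap.ker φ).subtype φ
    (Submodule.subtype_injective _) (LinearMap.exact_subtype_ker_map φ) hsurj
    (fun v => by rw [zpow_zero, Units.val_one, one_smul]; rfl) hφ hTK hTF hT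
  rw [hc _ hTK, rr_A_F gV hV d _ hTF] at h1
  have h2 := tauS_map gF hF φ hφ
  rw [Submodule.map_top, hr, top_inf_eq, ex_zero, one_mul] at h2
  have h3 : tauS lam w (θS (θF lam w d) _ hs) ⊤ = tauS lam w (θF lam w d) (LinearMap.ker φ) := by
    unfold tauS
    rw [hilb_top_sub]
  rw [h2, ← h3, mul_sub, h1]
  ring

theorem rr_A_one (gV : Gd lam w θV) (hV : GS lam θV ⊤) (gG : Gd lam w θG) (hG : GS lam θG ⊤)
    (h : KZ1 (fun i : Fin 3 => (X i : A k)) G) : rr_A_claim lam w θV θG := by
  have h' : KZ1 (fun i : Fin 3 => (X i : A k)) (⊤ : Submodule (A k) G) := by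
    intro e he
    obtain ⟨c, h1, h2, h3⟩ := h (fun i => (e i : G)) (by
      have := congrArg Subtype.val he
      simpa using this)
    refine ⟨fun i j => ⟨c i j, trivial⟩, fun i j => Subtype.ext (h1 i j),
      fun i => Subtype.ext (h2 i), fun i => Subtype.ext ?_⟩
    simpa using h3 i
  obtain ⟨m, e, d, he, hli, hsp⟩ := hG.free_of_KZ1 gG h'
  exact rr_A_free gV hV gG hG e d he hli hsp

theorem rr_A_two [IsAlgClosed k] (gV : Gd lam w θV) (hV : GS lam θV ⊤)
    (fl : FlatOff k (A k) V) (gG : Gd lam w θG) (hG : GS lam θG ⊤)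
    (h : KZ2 (fun i : Fin 3 => (X i : A k)) G) : rr_A_claim lam w θV θG := by
  obtain ⟨m, φ, θK, hs, gK, hK, hc⟩ := rr_A_step gV hV fl gG hG
  exact hc (rr_A_one gV hV gK hK (KZ1.of_exact (LinearMap.ker φ).subtype φ
    (Submodule.subtype_injective _) (LinearMap.exact_subtype_ker_map φ) hs (KZ_free _).1 h))

theorem rr_A_three [IsAlgClosed k] (gV : Gd lam w θV) (hV : GS lam θV ⊤)
    (fl : FlatOff k (A k) V) (gG : Gd lam w θG) (hG : GS lam θG ⊤)
    (h : KZ3 (fun i : Fin 3 => (X i : A k)) G) : rr_A_claim lam w θV θG := by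
  obtain ⟨m, φ, θK, -, gK, hK, hc⟩ := rr_A_step gV hV fl gG hG
  exact hc (rr_A_two gV hV fl gK hK (KZ2.of_exact (LinearMap.ker φ).subtype φ
    (Submodule.subtype_injective _) (LinearMap.exact_subtype_ker_map φ) (KZ_free _).2.1 h))

/-- Over the polynomial ring (Hilbert's syzygy theorem). -/
theorem rr_A [IsAlgClosed k] (gV : Gd lam w θV) (hV : GS lam θV ⊤) (fl : FlatOff k (A k) V)
    (gG : Gd lam w θG) (hG : GS lam θG ⊤) {θT : V ⊗[A k] G →ₗ[k] V ⊗[A k] G}
    (hT : IsTen θV θG θT) : tauS lam w θT ⊤ = tauS lam w θV ⊤ * tauS lam w θG ⊤ := by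
  obtain ⟨m, φ, θK, -, gK, hK, hc⟩ := rr_A_step gV hV fl gG hG
  exact hc (rr_A_three gV hV fl gK hK (KZ3.of_injective (LinearMap.ker φ).subtype
    (Submodule.subtype_injective _) (KZ_free _).2.2)) θT hT

theorem rr_A_ideal [IsAlgClosed k] (gV : Gd lam w θV) (hV : GS lam θV ⊤) (fl : FlatOff k (A k) V)
    (J : Ideal (A k)) (hJ : ∀ f ∈ J, θA lam w f ∈ J) :
    tauS lam w θV (J • (⊤ : Submodule (A k) V)) =
      tauS lam w θV ⊤ * tauS lam w (θA lam w).toLinearMap J := by
  have hA := gr_A (k := k) gV.inf gV.pos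
  have hJ' : GS lam (θA lam w).toLinearMap J := (gs_A lam w).of_le gV.inf le_top hJ
  have gJ := (gd_A gV.inf gV.pos).sub J hJ'.stable
  have mV := rr_A_gm gV hV
  have mJ := rr_A_gm gJ hJ'.top_sub
  obtain ⟨θT, hT⟩ := exists_isTen mV mJ
  have mT := hT.gm hA mV mJ
  have gT := GM.gd hA mT
  let μ : V ⊗[A k] J →ₗ[A k] V :=
    (TensorProduct.rid (A k) V).toLinearMap ∘ₗ LinearMap.lTensor V (Submodule.subtype J)
  have hμ : ∀ (v : V) (j : J), μ (v ⊗ₜ j) = (j : A k) • v := fun v j => by simp [μ]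
  have hd : HomDeg lam θT θV μ 0 := by
    intro z
    rw [zpow_zero, Units.val_one, one_smul]
    induction z using TensorProduct.induction_on with
    | zero => simp
    | add x y hx hy => simp only [map_add, hx, hy]
    | tmul v j => rw [hT, hμ, hμ, gV.comm.smul]; rfl
  have hr : Submodule.map μ ⊤ = J • (⊤ : Submodule (A k) V) := by
    apply le_antisymm
    · rintro _ ⟨z, -, rfl⟩
      induction z using TensorProduct.induction_on with
      | zero => simp
      | add x y hx hy => rw [map_add]; exact Submodule.add_mem _ hx hy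
      | tmul v j => rw [hμ]; exact Submodule.smul_mem_smul j.2 trivial
    · refine Submodule.smul_le.mpr fun r hr v _ => ⟨v ⊗ₜ ⟨r, hr⟩, trivial, hμ _ _⟩
  have hs : ∀ v ∈ LinearMap.ker μ, θT v ∈ LinearMap.ker μ := by
    intro v hv
    have := hd v
    rw [LinearMap.mem_ker] at hv ⊢
    rw [hv, map_zero, zpow_zero, Units.val_one, one_smul] at this
    exact this.symm
  have hker : tauS lam w θT (LinearMap.ker μ) = 0 := by
    have := tauS_eq_of_pt hA gT (N := LinearMap.ker μ) (N' := ⊥)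
      (mT.gs.of_le gV.inf le_top hs) (GS.bot _ _) bot_le (fun z hz p hp => by
        have hz' : LinearMap.lTensor V (Submodule.subtype J) z = 0 := by
          apply (TensorProduct.rid (A k) V).injective
          rw [map_zero]
          exact hz
        obtain ⟨r, hr, h0⟩ := fl p hp J (A k) (Submodule.subtype J)
          (Submodule.subtype_injective _) z hz'
        exact ⟨r, hr, h0⟩)
    rw [this]
    exact tauS_bot _ _ _
  have h1 := tauS_map gT mT.gs μ hd
  rw [hr, top_inf_eq, hker, sub_zero, ex_zero, one_mul, rr_A gV hV fl gJ hJ'.top_sub hT] at h1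
  rw [h1]
  unfold tauS
  rw [hilb_top_sub]

end OverA

/-! ### Subtask RR-d -/

section OverR

variable {P : Par k} {q : ℕ}
variable {V : Type} [AddCommGroup V] [Module k V] [Module (A k) V] [Module (R P) V]
  [IsScalarTower k (A k) V] [IsScalarTower (A k) (R P) V] [IsScalarTower k (R P) V]
variable {G : Type} [AddCommGroup G] [Module k G] [Module (A k) G] [Module (R P) G]
  [IsScalarTower k (A k) G] [IsScalarTower (A k) (R P) G] [IsScalarTower k (R P) G]
variable {θV : V →ₗ[k] V} {θG : G →ₗ[k] G}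

theorem gr_R (P : Par k) (hl : InfOrd lam) (hq : 0 < q) : GR lam (4 * q) (θR P lam q) := by
  exact ⟨hl, by omega, θR_algebraMap P lam q, R_gs P lam q⟩

/-- The module `V` has semilinear symmetries of degree zero. -/
def HasSym (P : Par k) {V : Type} [AddCommGroup V] [Module k V] [Module (A k) V] [Module (R P) V]
    (θV : V →ₗ[k] V) : Prop :=
  ∀ σ : Sym, ∃ γ : V ≃ₗ[A k] V, (∀ (r : R P) (v : V), γ (r • v) = sym P σ r • γ v) ∧
    ∀ v, θV (γ v) = γ (θV v)

theorem defect_sym_tau {W : Type} [AddCommGroup W] [Module k W] [Module (A k) W]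
    [IsScalarTower k (A k) W] {θ : W →ₗ[k] W} (γ : W ≃ₗ[A k] W) (h : ∀ v, θ (γ v) = γ (θ v))
    (N : Submodule (A k) W) : tauS lam w θ (N.map (γ : W →ₗ[A k] W)) = tauS lam w θ N := by
  unfold tauS
  congr 1
  funext n
  have e : piece lam θ (N.map (γ : W →ₗ[A k] W)) n =
      (piece lam θ N n).map (γ.restrictScalars k : W →ₗ[k] W) := by
    ext z
    constructor
    · rintro ⟨⟨v, hv, rfl⟩, hz⟩
      refine ⟨v, ⟨hv, mem_eig.2 (γ.injective ?_)⟩, rfl⟩
      rw [← h, LinearMapClass.map_smul_of_tower]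
      exact mem_eig.1 hz
    · rintro ⟨v, ⟨hv, hz⟩, rfl⟩
      refine ⟨⟨v, hv, rfl⟩, mem_eig.2 ?_⟩
      change θ (γ v) = _ • γ v
      rw [h, mem_eig.1 hz, LinearMapClass.map_smul_of_tower]
  unfold hilb
  rw [e, LinearEquiv.finrank_map_eq]

theorem defect_sym_gen {S : Type} [CommRing S] [Algebra k S] [Algebra (A k) S]
    [IsScalarTower k (A k) S] {W : Type} [AddCommGroup W] [Module k W] [Module (A k) W] [Module S W]
    [IsScalarTower k (A k) W] [IsScalarTower (A k) S W] {θs : S ≃ₐ[k] S} {θ : W →ₗ[k] W}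
    (σ : S ≃ₐ[A k] S) (hσ : ∀ r, θs (σ r) = σ (θs r)) (γ : W ≃ₗ[A k] W)
    (h1 : ∀ (r : S) (v : W), γ (r • v) = σ r • γ v) (h2 : ∀ v, θ (γ v) = γ (θ v)) (p : Ideal S) :
    defect lam w θs θ (p.comap (σ : S →+* S)) = defect lam w θs θ p := by
  have hm : ∀ r ∈ p, σ.symm r ∈ p.comap (σ : S →+* S) := fun r hr => by
    change σ (σ.symm r) ∈ p
    rwa [AlgEquiv.apply_symm_apply]
  have e1 : ((p.comap (σ : S →+* S) • (⊤ : Submodule S W)).restrictScalars (A k)).map
      (γ : W →ₗ[A k] W) = (p • (⊤ : Submodule S W)).restrictScalars (A k) := by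
    have k1 : ∀ v ∈ p.comap (σ : S →+* S) • (⊤ : Submodule S W), γ v ∈ p • (⊤ : Submodule S W) := by
      intro v hv
      refine Submodule.smul_induction_on hv (fun r hr n _ => ?_) fun x y hx hy => ?_
      · rw [h1]
        exact Submodule.smul_mem_smul (show σ r ∈ p from hr) Submodule.mem_top
      · rw [map_add]
        exact add_mem hx hy
    have k2 : ∀ v ∈ p • (⊤ : Submodule S W),
        γ.symm v ∈ p.comap (σ : S →+* S) • (⊤ : Submodule S W) := by
      intro v hv
      refine Submodule.smul_induction_on hv (fun r hr n _ => ?_) fun x y hx hy => ?_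
      · have h3 : γ.symm (r • n) = σ.symm r • γ.symm n := by
          rw [LinearEquiv.symm_apply_eq, h1, AlgEquiv.apply_symm_apply, LinearEquiv.apply_symm_apply]
        rw [h3]
        exact Submodule.smul_mem_smul (hm r hr) Submodule.mem_top
      · rw [map_add]
        exact add_mem hx hy
    ext v
    rw [Submodule.mem_map_equiv, Submodule.restrictScalars_mem, Submodule.restrictScalars_mem]
    exact ⟨fun h => γ.apply_symm_apply v ▸ k1 _ h, k2 v⟩
  have e2 : ((p.comap (σ : S →+* S)).restrictScalars (A k)).map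
      (σ.toLinearEquiv : S →ₗ[A k] S) = p.restrictScalars (A k) := by
    refine le_antisymm ?_ fun v hv => ⟨σ.symm v, hm v hv, σ.apply_symm_apply v⟩
    rintro _ ⟨v, hv, rfl⟩
    exact hv
  have e3 := defect_sym_tau (lam := lam) (w := w) γ h2
    ((p.comap (σ : S →+* S) • (⊤ : Submodule S W)).restrictScalars (A k))
  have e4 := defect_sym_tau (lam := lam) (w := w) (θ := θs.toLinearMap) σ.toLinearEquiv hσ
    ((p.comap (σ : S →+* S)).restrictScalars (A k))
  rw [e1] at e3
  rw [e2] at e4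
  unfold defect
  rw [e3, e4]

theorem defect_sym (hs : HasSym P θV) (σ : Sym) (p : Ideal (R P)) :
    defect lam (4 * q) (θR P lam q) θV (p.comap (sym P σ : R P →+* R P)) =
      defect lam (4 * q) (θR P lam q) θV p := by
  obtain ⟨γ, h1, h2⟩ := hs σ
  exact defect_sym_gen (sym P σ) (θR_sym P lam q σ) γ h1 h2 p

theorem defect_eq_zero [IsAlgClosed k] (hl : InfOrd lam) (hq : 0 < q)
    (hV : GM lam (θR P lam q) θV) (hs : HasSym P θV) (fl : FlatOff k (R P) V)
    (flA : FlatOff k (A k) V) (flR : FlatOff k (A k) (R P)) (p : Ideal (R P)) (hp : p.IsPrime)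
    (hθ : ∀ r ∈ p, θR P lam q r ∈ p) : defect lam (4 * q) (θR P lam q) θV p = 0 := by
  have hR := gr_R P hl hq
  generalize hq0 : p.comap (algebraMap (A k) (R P)) = q0
  induction q0 using WellFoundedGT.induction generalizing p with
  | ind q0 ih =>
  have hq0p : q0.IsPrime := hq0 ▸ Ideal.IsPrime.comap _
  have hqs : ∀ f ∈ q0, θA lam (4 * q) f ∈ q0 := fun f hf => by
    rw [← hq0, Ideal.mem_comap] at hf ⊢
    rw [← θR_algebraMap]
    exact hθ _ hf
  have hle : q0.map (algebraMap (A k) (R P)) ≤ p := Ideal.map_le_iff_le_comap.2 hq0.ge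
  have hN0 : ∀ v ∈ q0.map (algebraMap (A k) (R P)),
      θR P lam q v ∈ q0.map (algebraMap (A k) (R P)) := fun v hv =>
    (Ideal.map_le_iff_le_comap.2 fun f hf => by
      rw [Ideal.mem_comap, Ideal.mem_comap]
      change θR P lam q (algebraMap _ _ f) ∈ _
      rw [θR_algebraMap]
      exact Ideal.mem_map_of_mem _ (hqs f hf) :
        _ ≤ (q0.map (algebraMap (A k) (R P))).comap (θR P lam q : R P →+* R P)) hv
  have d0 : defect lam (4 * q) (θR P lam q) θV (q0.map (algebraMap (A k) (R P))) = 0 := by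
    have e1 := rr_A_ideal (hV.gd hR) hV.gs flA q0 hqs
    have e2 := rr_A_ideal hR.gd hR.gs flR q0 hqs
    rw [Ideal.smul_top_eq_map] at e2
    simp only [defect]
    rw [Ideal.smul_restrictScalars, Submodule.restrictScalars_top, e1, e2]
    ring
  obtain ⟨c, hc, -, hc0⟩ := devissage hR hR.gm (q0.map (algebraMap (A k) (R P))) hN0
    (fun N => ∃ c : T3, -defect lam (4 * q) (θR P lam q) θV N =
      c * defect lam (4 * q) (θR P lam q) θV p ∧ 0 ≤ c.c0 ∧
      ((∃ y ∈ N, ∀ a ∉ q0, a • y ∉ q0.map (algebraMap (A k) (R P))) → 0 < c.c0))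
    ⟨0, by rw [d0]; ring, le_rfl, fun ⟨y, hy, h⟩ =>
      absurd (by rwa [one_smul]) (h 1 ((Ideal.ne_top_iff_one _).1 hq0p.ne_top))⟩ (by
    rintro N y a p' hN hNs ⟨c, hc, hc0, hc1⟩ hy hp' hs' hpy
    have e1 := tau_step hR hR.gm N y a p' hNs hy hpy
    have e2 := tau_step_ideal hR hV fl N y a p' hNs hy hpy
    have e3 : defect lam (4 * q) (θR P lam q) θV N -
        defect lam (4 * q) (θR P lam q) θV (N ⊔ Submodule.span (R P) {y}) =
          ex a * defect lam (4 * q) (θR P lam q) θV p' := by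
      simp only [defect]
      linear_combination tauS lam (4 * q) (θR P lam q).toLinearMap ⊤ * e2 - tauS lam (4 * q) θV ⊤ * e1
    have h1 : q0 ≤ p'.comap (algebraMap (A k) (R P)) := fun f hf =>
      (hpy _).2 (hN (Ideal.mul_mem_right _ _ (Ideal.mem_map_of_mem _ hf)))
    rcases h1.eq_or_lt with h2 | h2
    · have e4 := sym_trans P (fun p'' => defect lam (4 * q) (θR P lam q) θV p'' =
        defect lam (4 * q) (θR P lam q) θV p) (fun σ p'' h => (defect_sym hs σ p'').trans h) p p'
        (hq0.trans h2) rfl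
      have e5 : (c + ex a).c0 = c.c0 + 1 := rfl
      exact ⟨c + ex a, by linear_combination hc + e3 + ex a * e4, by linarith, fun _ => by linarith⟩
    · have e4 := ih _ h2 p' hp' hs' rfl
      refine ⟨c, by linear_combination hc + e3 + ex a * e4, hc0, fun ⟨z, hz, h⟩ => hc1 ?_⟩
      obtain ⟨b, hb, hb'⟩ := SetLike.exists_of_lt h2
      refine ⟨b • z, ?_, fun a ha => ?_⟩
      · obtain ⟨n, hn, m, hm, rfl⟩ := Submodule.mem_sup.1 hz
        obtain ⟨r, rfl⟩ := Submodule.mem_span_singleton.1 hm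
        rw [smul_add, smul_comm b r y, ← algebraMap_smul (R P) b n, ← algebraMap_smul (R P) b y]
        exact N.add_mem (N.smul_mem _ hn) (N.smul_mem _ ((hpy _).1 hb))
      · rw [smul_smul]
        exact h _ fun h3 => (hq0p.mem_or_mem h3).elim ha hb')
  have h1 := hc0 ⟨1, trivial, fun a ha h => ha (by
    rw [← hq0, Ideal.mem_comap, Algebra.algebraMap_eq_smul_one]
    exact hle h)⟩
  have h2 : defect lam (4 * q) (θR P lam q) θV ⊤ = 0 := by
    simp only [defect, Submodule.top_smul, Submodule.restrictScalars_top, sub_self, mul_zero]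
  refine T3.mul_left_cancel_of_c0 h1.ne' ?_
  rw [← hc, h2, neg_zero, mul_zero]

theorem rr_R [IsAlgClosed k] (hl : InfOrd lam) (hq : 0 < q)
    (hV : GM lam (θR P lam q) θV) (hs : HasSym P θV) (fl : FlatOff k (R P) V)
    (flA : FlatOff k (A k) V) (flR : FlatOff k (A k) (R P)) (hG : GM lam (θR P lam q) θG)
    {θT : V ⊗[R P] G →ₗ[k] V ⊗[R P] G} (hT : IsTen θV θG θT) :
    tauS lam (4 * q) (θR P lam q).toLinearMap ⊤ * tauS lam (4 * q) θT ⊤ =
      tauS lam (4 * q) θV ⊤ * tauS lam (4 * q) θG ⊤ :=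
  rr_of_defect (gr_R P hl hq) hV fl (defect_eq_zero hl hq hV hs fl flA flR) hG hT

end OverR

/-! ### Subtask TauR (the class of `R`) -/

/-- `(u t, v t)` is Koszul regular on `R` away from the vertex. -/
def KosOff {k : Type} [Field k] (P : Par k) (a b : R P) : Prop :=
  ∀ p : Ideal (R P), IsPt k p → ∀ r₁ r₂ : R P, a * r₁ + b * r₂ = 0 →
    ∃ h ∉ p, ∃ r₃ : R P, h * r₁ = b * r₃ ∧ h * r₂ = -(a * r₃)

/-- Invariants of the involutions `z t`, `t ∉ B`. -/
noncomputable def Rinv (P : Par k) (B : Finset Tr) : Submodule (A k) (R P) :=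
  ⨅ t ∈ Bᶜ, LinearMap.ker ((sym P (.z t)).toLinearMap - LinearMap.id)

/-- The monomials in the `s a`. -/
noncomputable def tau_Rinv_empty_sS (P : Par k) (S : Finset Li) : R P := ∏ a ∈ S, yR P (.s a)

theorem tau_Rinv_empty_z_s (P : Par k) (t : Tr) (S : Finset Li) :
    sym P (.z t) (tau_Rinv_empty_sS P S) = tau_Rinv_empty_sS P S := by
  unfold tau_Rinv_empty_sS
  rw [map_prod]
  refine Finset.prod_congr rfl fun a _ => ?_
  rw [sym_y]
  simp [cf, pr]

theorem tau_Rinv_empty_z_std (P : Par k) (t0 : Tr) (S : Finset Li) (e : Tr → Fin 3) :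
    sym P (.z t0) (stdMon P S e) = (if e t0 = 0 then 1 else -1) * stdMon P S e := by
  have h1 : ∀ t : Tr, sym P (.z t0) (![1, yR P (.u t), yR P (.v t)] (e t)) =
      (if t = t0 then (if e t0 = 0 then 1 else -1) else 1) *
        ![1, yR P (.u t), yR P (.v t)] (e t) := by
    intro t
    by_cases h : t = t0
    · subst h
      rw [if_pos rfl]
      generalize e t = j
      fin_cases j
      · simp
      · simp [sym_y, cf, pr]
      · simp [sym_y, cf, pr]
    · rw [if_neg h, one_mul]
      have h' : ¬ t0 = t := fun h' => h h'.symm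
      generalize e t = j
      fin_cases j
      · simp
      · simp [sym_y, cf, pr, h']
      · simp [sym_y, cf, pr, h']
  have h2 := tau_Rinv_empty_z_s P t0 S
  unfold tau_Rinv_empty_sS at h2
  unfold stdMon
  rw [map_mul, h2, map_prod, Finset.prod_congr rfl fun t _ => h1 t, Finset.prod_mul_distrib,
    Finset.prod_ite_eq' Finset.univ t0, if_pos (Finset.mem_univ _)]
  ring

theorem tau_Rinv_empty_two (hk : GoodChar k) : (2 : k) ≠ 0 := by
  exact_mod_cast hk 2 (by norm_num) (by norm_num)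

theorem tau_Rinv_empty_mem (hk : GoodChar k) (P : Par k) (B : Finset Tr) (r : R P)
    (hr : ∀ t ∈ B, sym P (.z t) r = r) :
    r ∈ Submodule.span (A k)
      {x : R P | ∃ (S : Finset Li) (e : Tr → Fin 3), (∀ t ∈ B, e t = 0) ∧ x = stdMon P S e} := by
  induction B using Finset.induction_on with
  | empty =>
    have h : r ∈ (⊤ : Submodule (A k) (R P)) := trivial
    rw [← span_stdMon P] at h
    refine Submodule.span_mono ?_ h
    rintro _ ⟨x, rfl⟩
    exact ⟨x.1, x.2, by simp, rfl⟩
  | insert t0 B _ ih =>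
    have h1 := ih fun t ht => hr t (Finset.mem_insert_of_mem ht)
    have h2 : ∀ x ∈ Submodule.span (A k)
        {x : R P | ∃ (S : Finset Li) (e : Tr → Fin 3), (∀ t ∈ B, e t = 0) ∧ x = stdMon P S e},
        x + sym P (.z t0) x ∈ Submodule.span (A k)
          {x : R P | ∃ (S : Finset Li) (e : Tr → Fin 3), (∀ t ∈ insert t0 B, e t = 0) ∧
            x = stdMon P S e} := by
      intro x hx
      induction hx using Submodule.span_induction with
      | mem x hx =>
        obtain ⟨S, e, he, rfl⟩ := hx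
        rw [tau_Rinv_empty_z_std]
        by_cases h0 : e t0 = 0
        · rw [if_pos h0, one_mul]
          have : stdMon P S e ∈ Submodule.span (A k)
              {x : R P | ∃ (S : Finset Li) (e : Tr → Fin 3), (∀ t ∈ insert t0 B, e t = 0) ∧
                x = stdMon P S e} := by
            refine Submodule.subset_span ⟨S, e, fun t ht => ?_, rfl⟩
            rcases Finset.mem_insert.1 ht with rfl | ht
            · exact h0
            · exact he t ht
          exact Submodule.add_mem _ this this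
        · rw [if_neg h0, neg_one_mul, add_neg_cancel]
          exact Submodule.zero_mem _
      | zero => simp
      | add x y _ _ hx hy =>
        rw [map_add, add_add_add_comm]
        exact Submodule.add_mem _ hx hy
      | smul a x _ hx =>
        rw [map_smul, ← smul_add]
        exact Submodule.smul_mem _ _ hx
    have h3 := h2 r h1
    rw [hr t0 (Finset.mem_insert_self _ _)] at h3
    have h4 : r = (C ((2 : k)⁻¹) : A k) • (r + r) := by
      rw [← two_smul (A k) r, smul_smul]
      have : (C ((2 : k)⁻¹) : A k) * 2 = 1 := by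
        rw [show (2 : A k) = C 2 from (map_ofNat C 2).symm, ← C_mul,
          inv_mul_cancel₀ (tau_Rinv_empty_two hk), C_1]
      rw [this, one_smul]
    rw [h4]
    exact Submodule.smul_mem _ _ h3

theorem tau_Rinv_empty_eq (hk : GoodChar k) (P : Par k) :
    Rinv P ∅ = Submodule.span (A k) (Set.range (tau_Rinv_empty_sS P)) := by
  apply le_antisymm
  · intro r hr
    have hr' : ∀ t ∈ (Finset.univ : Finset Tr), sym P (.z t) r = r := by
      intro t _
      simp only [Rinv, Submodule.mem_iInf] at hr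
      have := hr t (by simp)
      simpa [sub_eq_zero] using this
    refine Submodule.span_mono ?_ (tau_Rinv_empty_mem hk P Finset.univ r hr')
    rintro _ ⟨S, e, he, rfl⟩
    refine ⟨S, ?_⟩
    unfold stdMon tau_Rinv_empty_sS
    rw [Finset.prod_eq_one (s := Finset.univ) fun t ht => by rw [he t ht]; rfl, mul_one]
  · rw [Submodule.span_le]
    rintro _ ⟨S, rfl⟩
    simp only [Rinv, SetLike.mem_coe, Submodule.mem_iInf]
    intro t _
    simp [tau_Rinv_empty_z_s]

theorem tau_Rinv_empty_l_s (P : Par k) (a : Li) (S : Finset Li) :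
    sym P (.l a) (tau_Rinv_empty_sS P S) =
      (if a ∈ S then -1 else 1) * tau_Rinv_empty_sS P S := by
  unfold tau_Rinv_empty_sS
  have h1 : ∀ b : Li, sym P (.l a) (yR P (.s b)) = (if b = a then -1 else 1) * yR P (.s b) := by
    intro b
    rw [sym_y]
    by_cases h : b = a
    · subst h; simp [cf, pr]
    · have h' : ¬ a = b := fun h' => h h'.symm
      simp [cf, pr, h, h']
  rw [map_prod, Finset.prod_congr rfl fun b _ => h1 b, Finset.prod_mul_distrib,
    Finset.prod_ite_eq' S a]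

theorem tau_Rinv_empty_sq (P : Par k) (S : Finset Li) :
    tau_Rinv_empty_sS P S * tau_Rinv_empty_sS P S = algebraMap (A k) (R P) (∏ a ∈ S, lin k a) := by
  unfold tau_Rinv_empty_sS
  rw [← Finset.prod_mul_distrib, map_prod]
  refine Finset.prod_congr rfl fun a _ => ?_
  rw [(R_rel P).s a, one_pow, one_mul]

theorem tau_Rinv_empty_li (hk : GoodChar k) (P : Par k) :
    LinearIndependent (A k) (tau_Rinv_empty_sS P) := by
  classical
  rw [Fintype.linearIndependent_iff]
  intro c hc S0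
  have h2 : (2 : A k) ≠ 0 := by
    rw [show (2 : A k) = C 2 from (map_ofNat C 2).symm]
    exact fun h => tau_Rinv_empty_two hk (C_eq_zero.1 h)
  have key : ∀ D : Finset Li, ∑ S : Finset Li,
      (if ∀ a ∈ D, (a ∈ S ↔ a ∈ S0) then c S else 0) • tau_Rinv_empty_sS P S = 0 := by
    intro D
    induction D using Finset.induction_on with
    | empty => simpa using hc
    | insert a D _ ih =>
      refine R_tf P 2 h2 _ ?_
      have h3 := congrArg (fun x => x + (if a ∈ S0 then -1 else 1) * sym P (.l a) x) ih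
      simp only [map_zero, mul_zero, add_zero] at h3
      rw [← h3, map_sum, Finset.mul_sum, ← Finset.sum_add_distrib, Finset.smul_sum]
      refine Finset.sum_congr rfl fun S _ => ?_
      rw [map_smul, tau_Rinv_empty_l_s]
      by_cases hD : ∀ b ∈ D, (b ∈ S ↔ b ∈ S0)
      · by_cases hS : a ∈ S <;> by_cases hS0 : a ∈ S0
        · have : ∀ b ∈ insert a D, (b ∈ S ↔ b ∈ S0) := by
            intro b hb
            rcases Finset.mem_insert.1 hb with rfl | hb
            · simp [hS, hS0]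
            · exact hD b hb
          rw [if_pos this, if_pos hD, if_pos hS, if_pos hS0, two_smul]
          simp
        · have : ¬ ∀ b ∈ insert a D, (b ∈ S ↔ b ∈ S0) := fun h =>
            hS0 ((h a (Finset.mem_insert_self _ _)).1 hS)
          rw [if_neg this, if_pos hD, if_pos hS, if_neg hS0]
          simp
        · have : ¬ ∀ b ∈ insert a D, (b ∈ S ↔ b ∈ S0) := fun h =>
            hS ((h a (Finset.mem_insert_self _ _)).2 hS0)
          rw [if_neg this, if_pos hD, if_neg hS, if_pos hS0]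
          simp
        · have : ∀ b ∈ insert a D, (b ∈ S ↔ b ∈ S0) := by
            intro b hb
            rcases Finset.mem_insert.1 hb with rfl | hb
            · simp [hS, hS0]
            · exact hD b hb
          rw [if_pos this, if_pos hD, if_neg hS, if_neg hS0, two_smul]
          simp
      · have : ¬ ∀ b ∈ insert a D, (b ∈ S ↔ b ∈ S0) := fun h =>
          hD fun b hb => h b (Finset.mem_insert_of_mem hb)
        rw [if_neg this, if_neg hD]
        simp
  have h4 := key Finset.univ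
  rw [Finset.sum_eq_single S0 (fun S _ hS => by
    rw [if_neg fun h => hS (Finset.ext fun a => h a (Finset.mem_univ a)), zero_smul]) (by simp),
    if_pos fun a _ => Iff.rfl] at h4
  have h5 : algebraMap (A k) (R P) (c S0 * ∏ a ∈ S0, lin k a) = 0 := by
    rw [map_mul, ← tau_Rinv_empty_sq, ← mul_assoc, ← Algebra.smul_def, h4, zero_mul]
  have h6 : c S0 * ∏ a ∈ S0, lin k a = 0 := algebraMap_R_injective P (by rw [h5, map_zero])
  exact (mul_eq_zero.1 h6).resolve_right (Finset.prod_ne_zero_iff.2 fun a _ => lin_ne_zero a)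

theorem tau_Rinv_empty_deg (P : Par k) (lam : kˣ) (q : ℕ) (S : Finset Li) :
    tau_Rinv_empty_sS P S ∈ eig lam (θR P lam q).toLinearMap (2 * q * S.card) := by
  rw [mem_eig]
  induction S using Finset.induction_on with
  | empty => simp [tau_Rinv_empty_sS]
  | insert a S ha ih =>
    unfold tau_Rinv_empty_sS at ih ⊢
    rw [AlgEquiv.toLinearMap_apply] at ih ⊢
    rw [Finset.prod_insert ha, map_mul, ih, θR_y, Finset.card_insert_of_notMem ha, smul_mul_smul_comm,
      ← Units.val_mul, ← zpow_natCast, ← zpow_add]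
    congr 3
    simp only [Gen.deg]
    push_cast
    ring

theorem tau_Rinv_empty_ex (n : ℤ) (m : ℕ) : ex (n * m) = ex n ^ m := by
  induction m with
  | zero => simp [ex_zero]
  | succ m ih => rw [Nat.cast_succ, mul_add, mul_one, ex_add, ih, pow_succ]

theorem tau_Rinv_empty (hk : GoodChar k) (P : Par k) (hl : InfOrd lam) {q : ℕ} (hq : 0 < q) :
    tauS lam (4 * q) (θR P lam q).toLinearMap (Rinv P ∅) = (1 + ex (2 * q)) ^ 19 := by
  rw [tau_Rinv_empty_eq hk, tauS_free (R_gd P hl hq) _ _ (tau_Rinv_empty_deg P lam q)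
    (tau_Rinv_empty_li hk P)]
  have h : (1 + ex (2 * q)) ^ 19 = ∏ _a : Li, (1 + ex (2 * q)) := by simp
  rw [h, Finset.prod_one_add, Finset.powerset_univ]
  refine Finset.sum_congr rfl fun S _ => ?_
  rw [tau_Rinv_empty_ex, Finset.prod_const]

theorem tau_Rinv_insert_mem (P : Par k) (B : Finset Tr) (r : R P) :
    r ∈ Rinv P B ↔ ∀ t ∉ B, sym P (.z t) r = r := by
  simp only [Rinv, Submodule.mem_iInf, LinearMap.mem_ker, Finset.mem_compl, LinearMap.sub_apply,
    LinearMap.id_apply, sub_eq_zero, AlgEquiv.toLinearMap_apply]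

theorem tau_Rinv_insert_y (P : Par k) (t : Tr) (g : Gen) :
    sym P (.z t) (yR P g) = (C (cf P (.z t) g) : A k) • yR P g := by
  rw [sym_y]
  cases g <;> rfl

theorem tau_Rinv_insert_comm (P : Par k) (t t' : Tr) (r : R P) :
    sym P (.z t) (sym P (.z t') r) = sym P (.z t') (sym P (.z t) r) := by
  have h := R_hom_ext P ((sym P (.z t) : R P →ₐ[A k] R P).comp (sym P (.z t')))
    ((sym P (.z t') : R P →ₐ[A k] R P).comp (sym P (.z t))) fun g => by
      change sym P (.z t) (sym P (.z t') (yR P g)) = sym P (.z t') (sym P (.z t) (yR P g))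
      simp only [tau_Rinv_insert_y, map_smul]
      rw [smul_comm]
  exact DFunLike.congr_fun h r

theorem tau_Rinv_insert_invol (P : Par k) (t : Tr) (r : R P) :
    sym P (.z t) (sym P (.z t) r) = r := by
  have h := R_hom_ext P ((sym P (.z t) : R P →ₐ[A k] R P).comp (sym P (.z t)))
    (AlgHom.id _ _) fun g => by
      change sym P (.z t) (sym P (.z t) (yR P g)) = yR P g
      simp only [tau_Rinv_insert_y, map_smul]
      rw [smul_smul, ← C_mul]
      have : cf P (.z t) g * cf P (.z t) g = 1 := by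
        cases g <;> simp only [cf] <;> (try split_ifs) <;> simp
      rw [this, C_1, one_smul]
  exact DFunLike.congr_fun h r

theorem tau_Rinv_insert_zu (P : Par k) (t t' : Tr) :
    sym P (.z t') (yR P (.u t)) = (if t' = t then -1 else 1 : ℤ) • yR P (.u t) ∧
    sym P (.z t') (yR P (.v t)) = (if t' = t then -1 else 1 : ℤ) • yR P (.v t) := by
  rw [tau_Rinv_insert_y, tau_Rinv_insert_y]
  simp only [cf]
  split_ifs <;> simp

theorem tau_Rinv_insert_sub (P : Par k) (t : Tr) (r : R P) :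
    r - sym P (.z t) r ∈ Ideal.span {yR P (.u t), yR P (.v t)} := by
  refine R_induction P (fun r => r - sym P (.z t) r ∈ Ideal.span {yR P (.u t), yR P (.v t)})
    (fun a => ?_) (fun r r' h h' => ?_) (fun g r h => ?_) r
  · rw [AlgEquiv.commutes, sub_self]
    exact Ideal.zero_mem _
  · rw [map_add, add_sub_add_comm]
    exact Ideal.add_mem _ h h'
  · have h1 : yR P g - sym P (.z t) (yR P g) ∈ Ideal.span {yR P (.u t), yR P (.v t)} := by
      have hu : yR P (.u t) ∈ Ideal.span {yR P (.u t), yR P (.v t)} :=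
        Ideal.subset_span (by simp)
      have hv : yR P (.v t) ∈ Ideal.span {yR P (.u t), yR P (.v t)} :=
        Ideal.subset_span (by simp)
      rw [tau_Rinv_insert_y]
      cases g with
      | s a => simp [cf]
      | u t' =>
        by_cases e : t = t'
        · subst e
          exact Ideal.sub_mem _ hu (Submodule.smul_of_tower_mem _ _ hu)
        · simp [cf, e]
      | v t' =>
        by_cases e : t = t'
        · subst e
          exact Ideal.sub_mem _ hv (Submodule.smul_of_tower_mem _ _ hv)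
        · simp [cf, e]
    have h2 : yR P g * r - sym P (.z t) (yR P g * r) =
        yR P g * (r - sym P (.z t) r) + (yR P g - sym P (.z t) (yR P g)) * sym P (.z t) r := by
      rw [map_mul]
      ring
    rw [h2]
    exact Ideal.add_mem _ (Ideal.mul_mem_left _ _ h) (Ideal.mul_mem_right _ _ h1)

theorem tau_Rinv_insert_nzd (hk : GoodChar k) (P : Par k) (t : Tr) (r : R P)
    (h : yR P (.u t) * yR P (.v t) * r = 0) : r = 0 := by
  have h1 := (R_rel P).uv t
  have h2 := (R_rel P).s t.c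
  have hg : (C (P.ga t) : A k) ≠ 0 := by
    rw [Ne, C_eq_zero]
    exact (par_ne_zero hk P t).2.2
  rw [one_mul] at h1
  rw [one_pow, one_mul] at h2
  rw [h1, smul_mul_assoc] at h
  have h3 := R_tf P _ hg _ h
  refine R_tf P _ (lin_ne_zero t.c) r ?_
  rw [Algebra.smul_def, ← h2, mul_assoc, h3, mul_zero]

theorem tau_Rinv_insert_half (hk : GoodChar k) (P : Par k) (x : R P) :
    (C (2⁻¹ : k) : A k) • (x + x) = x := by
  have h2 : (2 : k) ≠ 0 := by exact_mod_cast hk 2 (by norm_num) (by norm_num)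
  rw [← two_smul (A k) x, smul_smul, show (2 : A k) = C 2 from rfl, ← C_mul, inv_mul_cancel₀ h2,
    C_1, one_smul]

theorem tau_Rinv_insert_avg (hk : GoodChar k) (P : Par k) (B : Finset Tr) (t : Tr) (r : R P)
    (h1 : ∀ t' ∉ insert t B, sym P (.z t') r = r) (h2 : sym P (.z t) r = -r) :
    ∃ a ∈ Rinv P B, ∃ b ∈ Rinv P B, r = yR P (.u t) * a + yR P (.v t) * b := by
  have key : ∀ T : Finset Tr, (∀ t' ∈ T, t' ∉ B) → ∃ a b : R P,
      r = yR P (.u t) * a + yR P (.v t) * b ∧
        ∀ t' ∈ T, sym P (.z t') a = a ∧ sym P (.z t') b = b := by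
    intro T
    induction T using Finset.induction_on with
    | empty =>
      intro _
      have h := tau_Rinv_insert_sub P t r
      rw [h2, sub_neg_eq_add] at h
      obtain ⟨a, b, hab⟩ := Ideal.mem_span_pair.1 h
      refine ⟨(C (2⁻¹ : k) : A k) • a, (C (2⁻¹ : k) : A k) • b, ?_, by simp⟩
      rw [mul_smul_comm, mul_smul_comm, ← smul_add, mul_comm _ a, mul_comm _ b, hab,
        tau_Rinv_insert_half hk]
    | insert s T hs ih =>
      intro hT
      obtain ⟨a, b, hab, hinv⟩ := ih fun t' ht' => hT t' (Finset.mem_insert_of_mem ht')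
      have e : r = yR P (.u t) * sym P (.z s) a + yR P (.v t) * sym P (.z s) b := by
        have h3 := congrArg (sym P (.z s)) hab
        rw [map_add, map_mul, map_mul, (tau_Rinv_insert_zu P t s).1,
          (tau_Rinv_insert_zu P t s).2] at h3
        by_cases hst : s = t
        · subst hst
          rw [h2, if_pos rfl] at h3
          simp only [neg_smul, one_smul, neg_mul] at h3
          rw [← neg_add, neg_inj] at h3
          exact h3
        · rw [h1 s (by
            rw [Finset.mem_insert, not_or]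
            exact ⟨hst, hT s (Finset.mem_insert_self _ _)⟩), if_neg hst, one_smul, one_smul] at h3
          exact h3
      refine ⟨(C (2⁻¹ : k) : A k) • (a + sym P (.z s) a),
        (C (2⁻¹ : k) : A k) • (b + sym P (.z s) b), ?_, fun t' ht' => ?_⟩
      · rw [mul_smul_comm, mul_smul_comm, ← smul_add, mul_add, mul_add, add_add_add_comm, ← hab,
          ← e, tau_Rinv_insert_half hk]
      · rcases Finset.mem_insert.1 ht' with rfl | ht'
        · simp only [map_smul, map_add, tau_Rinv_insert_invol]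
          exact ⟨by rw [add_comm], by rw [add_comm]⟩
        · simp only [map_smul, map_add]
          rw [tau_Rinv_insert_comm P t' s a, tau_Rinv_insert_comm P t' s b, (hinv t' ht').1,
            (hinv t' ht').2]
          exact ⟨rfl, rfl⟩
  obtain ⟨a, b, hab, hinv⟩ := key Bᶜ fun t' ht' => Finset.mem_compl.1 ht'
  exact ⟨a, (tau_Rinv_insert_mem P B a).2 fun t' ht' => (hinv t' (Finset.mem_compl.2 ht')).1,
    b, (tau_Rinv_insert_mem P B b).2 fun t' ht' => (hinv t' (Finset.mem_compl.2 ht')).2, hab⟩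

theorem tau_Rinv_insert_tau {P : Par k} {q : ℕ} (hl : InfOrd lam) (hq : 0 < q)
    {N : Submodule (A k) (R P)} (hN : GS lam (θR P lam q).toLinearMap N) {a : R P} {e : ℤ}
    (ha : θR P lam q a = ((lam ^ e : kˣ) : k) • a) (h0 : ∀ r, a * r = 0 → r = 0) :
    GS lam (θR P lam q).toLinearMap (N.map (LinearMap.mulLeft (A k) a)) ∧
      tauS lam (4 * q) (θR P lam q).toLinearMap (N.map (LinearMap.mulLeft (A k) a)) =
        ex e * tauS lam (4 * q) (θR P lam q).toLinearMap N := by
  have hd : HomDeg lam (θR P lam q).toLinearMap (θR P lam q).toLinearMap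
      (LinearMap.mulLeft (A k) a) e := by
    intro r
    simp only [AlgEquiv.toLinearMap_apply, LinearMap.mulLeft_apply, map_mul, ha, smul_mul_assoc]
  refine ⟨hN.map _ hd, ?_⟩
  have hk : LinearMap.ker (LinearMap.mulLeft (A k) a) = ⊥ :=
    LinearMap.ker_eq_bot'.2 fun r hr => h0 r hr
  rw [tauS_map (R_gd P hl hq) hN _ hd, hk, inf_bot_eq, tauS_bot, sub_zero]

theorem tau_Rinv_insert [IsAlgClosed k] (hk : GoodChar k) (P : Par k) (hl : InfOrd lam) {q : ℕ}
    (hq : 0 < q) (B : Finset Tr) (t : Tr) (ht : t ∉ B)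
    (hK : KosOff P (yR P (.u t)) (yR P (.v t))) :
    tauS lam (4 * q) (θR P lam q).toLinearMap (Rinv P (insert t B)) =
      (⟨2, 0, -(q : ℚ) ^ 2 / 2⟩ : T3) * tauS lam (4 * q) (θR P lam q).toLinearMap (Rinv P B) := by
  obtain ⟨O, hO⟩ : ∃ O : Submodule (A k) (R P), ∀ r, r ∈ O ↔
      (∀ t' ∉ insert t B, sym P (.z t') r = r) ∧ sym P (.z t) r = -r := by
    refine ⟨Rinv P (insert t B) ⊓ LinearMap.ker ((sym P (.z t)).toLinearMap + LinearMap.id),
      fun r => ?_⟩
    rw [Submodule.mem_inf, tau_Rinv_insert_mem, LinearMap.mem_ker, LinearMap.add_apply,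
      LinearMap.id_apply, AlgEquiv.toLinearMap_apply, add_eq_zero_iff_eq_neg]
  have g := R_gd P hl hq
  have gsE : GS lam (θR P lam q).toLinearMap (Rinv P B) :=
    (R_gs P lam q).of_le hl le_top fun r hr => (tau_Rinv_insert_mem P B _).2 fun t' ht' => by
      rw [AlgEquiv.toLinearMap_apply, ← θR_sym, (tau_Rinv_insert_mem P B _).1 hr t' ht']
  have gsO : GS lam (θR P lam q).toLinearMap O :=
    (R_gs P lam q).of_le hl le_top fun r hr => (hO _).2 ⟨fun t' ht' => by
      rw [AlgEquiv.toLinearMap_apply, ← θR_sym, ((hO _).1 hr).1 t' ht'], by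
      rw [AlgEquiv.toLinearMap_apply, ← θR_sym, ((hO _).1 hr).2, map_neg]⟩
  have hne : ∀ {t'}, t' ∉ insert t B → t' ≠ t ∧ t' ∉ B := fun h => by
    rwa [Finset.mem_insert, not_or] at h
  have hsup : Rinv P (insert t B) = Rinv P B ⊔ O := by
    refine le_antisymm (fun r hr => ?_) (sup_le (fun r hr => ?_) fun r hr => ?_)
    · rw [tau_Rinv_insert_mem] at hr
      have e : r = (C (2⁻¹ : k) : A k) • (r + sym P (.z t) r) +
          (C (2⁻¹ : k) : A k) • (r - sym P (.z t) r) := by
        rw [← smul_add, add_add_sub_cancel, tau_Rinv_insert_half hk]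
      rw [e]
      refine Submodule.add_mem_sup (Submodule.smul_mem _ _ ?_) (Submodule.smul_mem _ _ ?_)
      · refine (tau_Rinv_insert_mem P B _).2 fun t' ht' => ?_
        by_cases htt : t' = t
        · rw [htt, map_add, tau_Rinv_insert_invol, add_comm]
        · have h1 := hr t' (by rw [Finset.mem_insert, not_or]; exact ⟨htt, ht'⟩)
          rw [map_add, tau_Rinv_insert_comm P t' t, h1]
      · refine (hO _).2 ⟨fun t' ht' => ?_, ?_⟩
        · rw [map_sub, tau_Rinv_insert_comm P t' t, hr t' ht']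
        · rw [map_sub, tau_Rinv_insert_invol, neg_sub]
    · exact (tau_Rinv_insert_mem P _ _).2 fun t' ht' =>
        (tau_Rinv_insert_mem P B _).1 hr t' (hne ht').2
    · exact (tau_Rinv_insert_mem P _ _).2 ((hO _).1 hr).1
  have hinf : Rinv P B ⊓ O = ⊥ := by
    refine eq_bot_iff.2 fun r hr => ?_
    have h1 := (tau_Rinv_insert_mem P B _).1 hr.1 t ht
    have h2 := ((hO _).1 hr.2).2
    rw [Submodule.mem_bot, ← tau_Rinv_insert_half hk P r]
    rw [h1] at h2
    rw [add_eq_zero_iff_eq_neg.2 h2, smul_zero]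
  have e1 := tauS_sup_add_inf g gsE gsO
  rw [← hsup, hinf, tauS_bot, add_zero] at e1
  have hθu : θR P lam q (yR P (.u t)) = ((lam ^ (q : ℤ) : kˣ) : k) • yR P (.u t) := by
    rw [θR_y, zpow_natCast, Gen.deg, mul_one]
  have hθv : θR P lam q (yR P (.v t)) = ((lam ^ (q : ℤ) : kˣ) : k) • yR P (.v t) := by
    rw [θR_y, zpow_natCast, Gen.deg, mul_one]
  have hθuv : θR P lam q (yR P (.u t) * yR P (.v t)) =
      ((lam ^ ((q : ℤ) + q) : kˣ) : k) • (yR P (.u t) * yR P (.v t)) := by
    rw [map_mul, hθu, hθv, smul_mul_smul_comm, zpow_add, Units.val_mul]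
  have nz := tau_Rinv_insert_nzd hk P t
  obtain ⟨gsu, tu⟩ := tau_Rinv_insert_tau hl hq gsE hθu fun r hr => nz r (by
    rw [mul_right_comm, hr, zero_mul])
  obtain ⟨gsv, tv⟩ := tau_Rinv_insert_tau hl hq gsE hθv fun r hr => nz r (by
    rw [mul_assoc, hr, mul_zero])
  obtain ⟨gsuv, tuv⟩ := tau_Rinv_insert_tau hl hq gsO hθuv nz
  have zu := fun t' => (tau_Rinv_insert_zu P t t').1
  have zv := fun t' => (tau_Rinv_insert_zu P t t').2
  have hEO : ∀ y, (∀ t', sym P (.z t') y = (if t' = t then -1 else 1 : ℤ) • y) →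
      (∀ r ∈ Rinv P B, y * r ∈ O) ∧ ∀ r ∈ O, y * r ∈ Rinv P B := by
    intro y hy
    refine ⟨fun r hr => (hO _).2 ⟨fun t' ht' => ?_, ?_⟩,
      fun r hr => (tau_Rinv_insert_mem P B _).2 fun t' ht' => ?_⟩
    · rw [map_mul, hy, if_neg (hne ht').1, one_smul,
        (tau_Rinv_insert_mem P B _).1 hr t' (hne ht').2]
    · rw [map_mul, hy, if_pos rfl, (tau_Rinv_insert_mem P B _).1 hr t ht, neg_one_smul, neg_mul]
    · by_cases htt : t' = t
      · rw [htt, map_mul, hy, if_pos rfl, ((hO _).1 hr).2, neg_one_smul, neg_mul_neg]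
      · rw [map_mul, hy, if_neg htt, one_smul,
          ((hO _).1 hr).1 t' (by rw [Finset.mem_insert, not_or]; exact ⟨htt, ht'⟩)]
  have hO2 : (Rinv P B).map (LinearMap.mulLeft (A k) (yR P (.u t))) ⊔
      (Rinv P B).map (LinearMap.mulLeft (A k) (yR P (.v t))) = O := by
    refine le_antisymm (sup_le ?_ ?_) fun r hr => ?_
    · rintro _ ⟨r, hr, rfl⟩
      exact (hEO _ zu).1 r hr
    · rintro _ ⟨r, hr, rfl⟩
      exact (hEO _ zv).1 r hr
    · obtain ⟨a, ha, b, hb, rfl⟩ := tau_Rinv_insert_avg hk P B t r ((hO _).1 hr).1 ((hO _).1 hr).2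
      exact Submodule.add_mem_sup ⟨a, ha, rfl⟩ ⟨b, hb, rfl⟩
  have gsI := gsu.inf hl gsv.stable
  have zuv : ∀ t', sym P (.z t') (yR P (.u t) * yR P (.v t)) = yR P (.u t) * yR P (.v t) := by
    intro t'
    rw [map_mul, zu, zv]
    split_ifs <;> simp
  have e2 := tauS_eq_of_neg g gsI gsuv (by
    rintro _ ⟨r, hr, rfl⟩
    refine ⟨⟨_, (hEO _ zv).2 r hr, ?_⟩, ⟨_, (hEO _ zu).2 r hr, ?_⟩⟩
    · simp only [LinearMap.mulLeft_apply, mul_assoc]
    · simp only [LinearMap.mulLeft_apply]
      ring) (by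
    intro x hx i
    refine Submodule.iSup_induction _ (motive := fun x => ∃ m : ℕ, (X i : A k) ^ m • x ∈
      O.map (LinearMap.mulLeft (A k) (yR P (.u t) * yR P (.v t)))) (gsI.diag x hx) ?_
      ⟨0, by simp⟩ ?_
    · rintro n z ⟨hz, hzn⟩
      obtain ⟨⟨a, ha, haz⟩, ⟨b, hb, hbz⟩⟩ := hz
      rw [LinearMap.mulLeft_apply] at haz hbz
      have hzO : z ∈ O := haz ▸ (hEO _ zu).1 a ha
      obtain ⟨m, hm⟩ := pow_smul_mem_of_pt (gr_R P hl hq) g
        (N' := Ideal.span {yR P (.u t) * yR P (.v t)}) (fun y hy => by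
          obtain ⟨c, rfl⟩ := Ideal.mem_span_singleton'.1 hy
          rw [AlgEquiv.toLinearMap_apply, map_mul, hθuv]
          exact Ideal.mul_mem_left _ _
            (Submodule.smul_of_tower_mem _ _ (Ideal.mem_span_singleton_self _))) hzn
        (fun p hp => by
          obtain ⟨h, hh, r₃, h1, -⟩ := hK p hp a (-b) (by rw [haz, mul_neg, hbz, add_neg_cancel])
          refine ⟨h, hh, Ideal.mem_span_singleton'.2 ⟨r₃, ?_⟩⟩
          rw [smul_eq_mul, ← haz, mul_left_comm h, h1]
          ring) i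
      obtain ⟨c, hc⟩ := Ideal.mem_span_singleton'.1 hm
      have hzO' := (hO _).1 (O.smul_mem ((X i : A k) ^ m) hzO)
      rw [← hc] at hzO'
      refine ⟨m, c, (hO _).2 ⟨fun t' ht' => ?_, ?_⟩, ?_⟩
      · have h1 := hzO'.1 t' ht'
        rw [map_mul, zuv] at h1
        refine sub_eq_zero.1 (nz _ ?_)
        rw [mul_sub, mul_comm _ c, ← h1, mul_comm, sub_self]
      · have h1 := hzO'.2
        rw [map_mul, zuv] at h1
        refine add_eq_zero_iff_eq_neg.1 (nz _ ?_)
        rw [mul_add, mul_comm _ c, mul_comm, h1, neg_add_cancel]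
      · rw [LinearMap.mulLeft_apply, mul_comm, hc]
    · rintro y z ⟨m, hm⟩ ⟨m', hm'⟩
      refine ⟨m + m', ?_⟩
      rw [smul_add]
      refine Submodule.add_mem _ ?_ ?_
      · rw [add_comm, pow_add, mul_smul]
        exact Submodule.smul_mem _ _ hm
      · rw [pow_add, mul_smul]
        exact Submodule.smul_mem _ _ hm')
  have e3 := tauS_sup_add_inf g gsu gsv
  rw [hO2, e2, tuv, tu, tv] at e3
  rw [e1]
  refine T3.mul_left_cancel_of_c0 (a := 1 + ex ((q : ℤ) + q)) (by simp [ex]) ?_
  have e4 : (1 + ex ((q : ℤ) + q)) * (⟨2, 0, -(q : ℚ) ^ 2 / 2⟩ : T3) =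
      1 + ex ((q : ℤ) + q) + (ex q + ex q) := by
    ext <;> simp [ex] <;> ring
  rw [← mul_assoc, e4]
  linear_combination e3

theorem tau_R_pow (q : ℕ) (m : ℕ) : 0 < ((1 + ex (2 * q)) ^ m).c0 ∧
    ((1 + ex (2 * q)) ^ m).sig = m * (q : ℚ) ^ 2 * ((1 + ex (2 * q)) ^ m).c0 ^ 2 := by
  induction m with
  | zero => simp [T3.sig]
  | succ m ih =>
    have h0 : (1 + ex (2 * q)).c0 = 2 := by simp [ex]; norm_num
    have h1 : (1 + ex (2 * q)).sig = 4 * (q : ℚ) ^ 2 := by
      simp only [T3.sig, ex, T3.add_c0, T3.add_c1, T3.add_c2, T3.one_c0, T3.one_c1, T3.one_c2]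
      push_cast
      ring
    rw [pow_succ, T3.sig_mul, T3.mul_c0, h0, h1, ih.2]
    refine ⟨by linarith [ih.1], ?_⟩
    push_cast
    ring

theorem tau_R [IsAlgClosed k] (hk : GoodChar k) (P : Par k) (hl : InfOrd lam) {q : ℕ}
    (hq : 0 < q) (hK : ∀ t, KosOff P (yR P (.u t)) (yR P (.v t))) :
    0 < (tauS lam (4 * q) (θR P lam q).toLinearMap ⊤).c0 ∧
      (tauS lam (4 * q) (θR P lam q).toLinearMap ⊤).sig =
        -(3 / 2) * (q : ℚ) ^ 2 * (tauS lam (4 * q) (θR P lam q).toLinearMap ⊤).c0 ^ 2 := by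
  have key : ∀ B : Finset Tr, 0 < (tauS lam (4 * q) (θR P lam q).toLinearMap (Rinv P B)).c0 ∧
      (tauS lam (4 * q) (θR P lam q).toLinearMap (Rinv P B)).sig =
        (19 - (B.card : ℚ) / 2) * (q : ℚ) ^ 2 *
          (tauS lam (4 * q) (θR P lam q).toLinearMap (Rinv P B)).c0 ^ 2 := by
    intro B
    induction B using Finset.induction_on with
    | empty =>
      rw [tau_Rinv_empty hk P hl hq]
      refine ⟨(tau_R_pow q 19).1, ?_⟩
      rw [(tau_R_pow q 19).2]
      simp
    | insert t B ht ih =>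
      rw [tau_Rinv_insert hk P hl hq B t ht (hK t), T3.sig_mul, T3.mul_c0, ih.2,
        Finset.card_insert_of_notMem ht]
      refine ⟨by linarith [ih.1], ?_⟩
      simp only [T3.sig]
      push_cast
      ring
  have h := key Finset.univ
  have ht : Rinv P Finset.univ = ⊤ := by simp [Rinv]
  rw [ht, Finset.card_univ, card_Tr] at h
  refine ⟨h.1, ?_⟩
  rw [h.2]
  norm_num

end Crest.Agent.R169
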